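import Vale.Agent.P228.Fill

/-! Acyclic carriers.

Plans.
* `qcl`: construct the columns by induction on `deg`: prove by induction on `k` that there is `h`
  with all properties on the columns `c ∈ D` with `deg c < k` and zero on the others; the carrier
  of the column `c` is `InB (sp c) ((deg c + 2) * ε)`. For `deg c = k` fill
  `z = w c - σ • (h * δ) c`: it is a cycle since `δ * δ = 0`, has augmentation `0`, and lies in the
  carrier (`InB.mono`, `inB_of_dist`). Changing the columns of degree `k` does not change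
  `(h * δ) c` for `deg c ≤ k`. Do a case split on the homogeneity hypotheses at the start (`fill`
  or `fill_deg`), or carry a proposition `H` along.
* `acl`: `D j = {c | dist (cx c) p ≤ r + (n - deg c) * msh (m j)}` is closed under `δ`
  (`Adj.dist_le`) and eventually inside `closedBall p r'`; `sp c = γ j (cx c)`. Let `ε j` be the
  maximum of `msh (m j)` and of the finitely many distances that must be bounded (a `Finset.sup'`
  or `⨆` over nonzero entries in columns of `D j`); it tends to `0` along `l`. Where the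
  hypotheses of `qcl` hold choose its output, elsewhere `h j = 0`. -/

namespace Vale.Agent.P228

open Matrix Complex Metric Filter

variable {n L : ℕ}

theorem acl_fill {m : ℕ} {y : Fin n → ℝ} {r : ℝ} (H : Prop) (hy : ‖y‖ + r < L + 1)
    (hr : msh m ≤ r) (z : LC n L m → ℂ) (hz : ∀ c, z c ≠ 0 → InB y r c) (hd : ld n L m *ᵥ z = 0)
    (he : eps n ⬝ᵥ z = 0) (η : ℂ) (k : ℕ) (hk : H → ∀ c, z c ≠ 0 → cdeg c + 1 = k)
    (hη : H → η ≠ 0 → k = 0) :
    ∃ w : LC n L m → ℂ, (∀ c, w c ≠ 0 → InB y r c ∧ (H → cdeg c = k)) ∧ ld n L m *ᵥ w = z ∧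
      eps n ⬝ᵥ w = η := by
  by_cases h : H
  · obtain ⟨w, h1, h2⟩ := fill_deg hy hr z hz hd he η k (hk h) (hη h)
    exact ⟨w, fun c hc => ⟨(h1 c hc).1, fun _ => (h1 c hc).2⟩, h2⟩
  · obtain ⟨w, h1, h2⟩ := fill hy hr z hz hd he η
    exact ⟨w, fun c hc => ⟨h1 c hc, fun h' => absurd h' h⟩, h2⟩

theorem acl_mul {α κ : Type} [Fintype κ] {a b : Matrix α κ ℂ} {δ : Matrix κ κ ℂ} {x : α} {c : κ}
    (h : ∀ c', δ c' c ≠ 0 → a x c' = b x c') : (a * δ) x c = (b * δ) x c := by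
  simp only [Matrix.mul_apply]
  refine Finset.sum_congr rfl fun c' _ => ?_
  by_cases h0 : δ c' c = 0
  · rw [h0, mul_zero, mul_zero]
  · rw [h c' h0]

theorem acl_ne {α κ : Type} [Fintype κ] {a : Matrix α κ ℂ} {δ : Matrix κ κ ℂ} {x : α} {c : κ}
    (h : (a * δ) x c ≠ 0) : ∃ c', a x c' ≠ 0 ∧ δ c' c ≠ 0 := by
  rw [Matrix.mul_apply] at h
  obtain ⟨c', -, h'⟩ := Finset.exists_ne_zero_of_sum_ne_zero h
  exact ⟨c', mul_ne_zero_iff.1 h'⟩

theorem qcl {m : ℕ} {κ : Type} [Fintype κ] [DecidableEq κ] (δ : Matrix κ κ ℂ) (deg : κ → ℕ)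
    (hdeg : ∀ c, deg c ≤ n) (hδ : ∀ c' c, δ c' c ≠ 0 → deg c' < deg c) (hδδ : δ * δ = 0)
    (D : Set κ) (hD : ∀ c' c, δ c' c ≠ 0 → c ∈ D → c' ∈ D) (sp : κ → Fin n → ℝ) (ε : ℝ)
    (hε : msh m ≤ ε) (hε1 : (n + 2) * ε < 1) (hsp : ∀ c ∈ D, ‖sp c‖ ≤ L)
    (hf : ∀ c ∈ D, ∀ c', δ c' c ≠ 0 → dist (sp c') (sp c) ≤ ε) (w : Matrix (LC n L m) κ ℂ)
    (hw : ∀ c ∈ D, ∀ x, w x c ≠ 0 → dist (cx x) (sp c) ≤ ε) (σ : ℂ) (η : κ → ℂ)
    (hc : ∀ c ∈ D, ∀ x, (ld n L m * w) x c = σ * (w * δ) x c)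
    (ha : ∀ c ∈ D, (eps n ᵥ* w) c = σ * (η ᵥ* δ) c) :
    ∃ h : Matrix (LC n L m) κ ℂ,
      (∀ x c, h x c ≠ 0 → c ∈ D ∧ dist (cx x) (sp c) ≤ (n + 2) * ε) ∧
      (∀ c ∈ D, (∀ x, (ld n L m * h + σ • (h * δ)) x c = w x c) ∧ (eps n ᵥ* h) c = η c) ∧
      (w = 0 → (∀ c' c, δ c' c ≠ 0 → deg c' + 1 = deg c) → (∀ c, η c ≠ 0 → deg c = 0) →
        ∀ x c, h x c ≠ 0 → cdeg x = deg c) := by
  classical
  set H : Prop := w = 0 ∧ (∀ c' c, δ c' c ≠ 0 → deg c' + 1 = deg c) ∧ ∀ c, η c ≠ 0 → deg c = 0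
    with hH
  have hε0 : 0 ≤ ε := (msh_pos m).le.trans hε
  have hdn : ∀ c, ((deg c : ℝ) + 2) * ε ≤ (n + 2) * ε := fun c =>
    mul_le_mul_of_nonneg_right (by have : (deg c : ℝ) ≤ n := Nat.cast_le.2 (hdeg c); linarith) hε0
  have h2ε : ∀ c, 2 * ε ≤ ((deg c : ℝ) + 2) * ε := fun c =>
    mul_le_mul_of_nonneg_right (by have : (0 : ℝ) ≤ deg c := Nat.cast_nonneg _; linarith) hε0
  have key : ∀ k : ℕ, ∃ h : Matrix (LC n L m) κ ℂ,
      (∀ x c, h x c ≠ 0 → c ∈ D ∧ InB (sp c) ((deg c + 2) * ε) x ∧ (H → cdeg x = deg c)) ∧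
      ∀ c ∈ D, deg c < k →
        (∀ x, (ld n L m * h + σ • (h * δ)) x c = w x c) ∧ (eps n ᵥ* h) c = η c := by
    intro k
    induction k with
    | zero => exact ⟨0, fun x c hx => absurd rfl hx, fun c _ hk => absurd hk (Nat.not_lt_zero _)⟩
    | succ k ih =>
      obtain ⟨h, h1, h2⟩ := ih
      have step : ∀ c, ∃ u : LC n L m → ℂ, (¬ (c ∈ D ∧ deg c = k) → u = fun x => h x c) ∧
          (c ∈ D ∧ deg c = k →
            (∀ x, u x ≠ 0 → InB (sp c) ((deg c + 2) * ε) x ∧ (H → cdeg x = deg c)) ∧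
            (ld n L m *ᵥ u = fun x => w x c - σ * (h * δ) x c) ∧ eps n ⬝ᵥ u = η c) := by
        intro c
        by_cases hck : c ∈ D ∧ deg c = k
        swap
        · exact ⟨fun x => h x c, fun _ => rfl, fun h' => absurd h' hck⟩
        obtain ⟨hcD, hk⟩ := hck
        have hl : ∀ c', δ c' c ≠ 0 → (∀ x, (ld n L m * h + σ • (h * δ)) x c' = w x c') ∧
            (eps n ᵥ* h) c' = η c' := fun c' h' => h2 c' (hD c' c h' hcD) (hk ▸ hδ c' c h')
        obtain ⟨u, hu⟩ := acl_fill (y := sp c) (r := (deg c + 2) * ε) H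
          (by linarith [hsp c hcD, hdn c]) (by linarith [h2ε c])
          (fun x => w x c - σ * (h * δ) x c) (fun x hx => by
            by_cases hwx : w x c = 0
            · obtain ⟨c', a1, a2⟩ := acl_ne (a := h) (δ := δ) (x := x) (c := c)
                fun h0 => hx (by rw [hwx, h0, mul_zero, sub_zero])
              refine (h1 x c' a1).2.1.mono ?_
              have a3 : (deg c' : ℝ) + 1 ≤ deg c := by exact_mod_cast hδ c' c a2
              nlinarith [hf c hcD c' a2]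
            · refine (inB_of_dist (hw c hcD x hwx)).mono ?_
              rw [dist_self]
              linarith [h2ε c])
          (by
            funext x
            have e1 : (ld n L m *ᵥ fun x => w x c - σ * (h * δ) x c) x =
                (ld n L m * w) x c - σ * (ld n L m * h * δ) x c := by
              rw [Matrix.mul_assoc]
              simp only [Matrix.mulVec, dotProduct, Matrix.mul_apply (M := ld n L m),
                Finset.mul_sum, ← Finset.sum_sub_distrib]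
              exact Finset.sum_congr rfl fun y _ => by ring
            have e2 : (ld n L m * h * δ) x c = ((w - σ • (h * δ)) * δ) x c :=
              acl_mul fun c' h' => by
                rw [Matrix.sub_apply, ← (hl c' h').1 x, Matrix.add_apply, add_sub_cancel_right]
            rw [e1, e2, hc c hcD, Matrix.sub_mul, Matrix.smul_mul, Matrix.mul_assoc, hδδ]
            simp)
          (by
            have e1 : (eps n ⬝ᵥ fun x => w x c - σ * (h * δ) x c) =
                (eps n ᵥ* w) c - σ * ((eps n ᵥ* h) ᵥ* δ) c := by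
              rw [Matrix.vecMul_vecMul]
              simp only [Matrix.vecMul, dotProduct, Finset.mul_sum, ← Finset.sum_sub_distrib]
              exact Finset.sum_congr rfl fun y _ => by ring
            have e2 : ((eps n ᵥ* h) ᵥ* δ) c = (η ᵥ* δ) c := by
              refine Finset.sum_congr rfl fun c' _ => ?_
              by_cases h0 : δ c' c = 0
              · simp only [h0, mul_zero]
              · rw [(hl c' h0).2]
            rw [e1, e2, ha c hcD, sub_self])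
          (η c) (deg c) (fun hH' x hx => by
            obtain ⟨c', a1, a2⟩ := acl_ne (a := h) (δ := δ) (x := x) (c := c)
              fun h0 => hx (by rw [hH'.1, h0]; simp)
            rw [(h1 x c' a1).2.2 hH', hH'.2.1 c' c a2]) fun hH' => hH'.2.2 c
        exact ⟨u, fun h' => absurd ⟨hcD, hk⟩ h', fun _ => hu⟩
      choose u hu1 hu2 using step
      refine ⟨Matrix.of fun x c => u c x, fun x c hx => ?_, fun c hcD hk => ?_⟩
      · by_cases hck : c ∈ D ∧ deg c = k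
        · exact ⟨hck.1, (hu2 c hck).1 x hx⟩
        · rw [Matrix.of_apply, hu1 c hck] at hx
          exact h1 x c hx
      · have e1 : ∀ x, (Matrix.of (fun x c => u c x) * δ) x c = (h * δ) x c := fun x =>
          acl_mul fun c' h' => by
            rw [Matrix.of_apply, hu1 c' fun h0 => by have := hδ c' c h'; omega]
        have e2 : ∀ x, (ld n L m * Matrix.of fun x c => u c x) x c = (ld n L m *ᵥ u c) x :=
          fun x => rfl
        have e3 : (eps n ᵥ* Matrix.of fun x c => u c x) c = eps n ⬝ᵥ u c := rfl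
        simp only [Matrix.add_apply, Matrix.smul_apply, e1, e2, e3, smul_eq_mul]
        by_cases hk' : deg c = k
        · obtain ⟨-, a1, a2⟩ := hu2 c ⟨hcD, hk'⟩
          exact ⟨fun x => by rw [a1]; ring, a2⟩
        · rw [hu1 c fun h0 => hk' h0.2]
          exact h2 c hcD (by omega)
  obtain ⟨h, h1, h2⟩ := key (n + 1)
  exact ⟨h, fun x c hx => ⟨(h1 x c hx).1, ((h1 x c hx).2.1.dist_le (by linarith [h2ε c])).trans
    (hdn c)⟩, fun c hcD => h2 c hcD (Nat.lt_succ_of_le (hdeg c)),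
    fun a b c x d hx => (h1 x d hx).2.2 ⟨a, b, c⟩⟩

/-- The family `h` is asymptotically carried by the maps `γ` restricted to `O`. -/
def Car {J : Type} (l : Filter J) {m : J → ℕ} (γ : J → (Fin n → ℝ) → Fin n → ℝ)
    (O : Set (Fin n → ℝ)) (h : ∀ j, LM n L (m j)) : Prop :=
  ∀ ε > 0, ∀ᶠ j in l, ∀ x c, h j x c ≠ 0 → cx c ∈ O ∧ dist (cx x) (γ j (cx c)) < ε

theorem acl {J : Type} (l : Filter J) (m : J → ℕ) (hm : Tendsto m l atTop)
    (δ : ∀ j, LM n L (m j)) (deg : ∀ j, LC n L (m j) → ℕ) (hdeg : ∀ j c, deg j c ≤ n)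
    (hδ : ∀ j c' c, δ j c' c ≠ 0 → deg j c' < deg j c ∧ Adj (cpt c') (cpt c))
    (hδδ : ∀ j, δ j * δ j = 0) (p : Fin n → ℝ) {r r' : ℝ} (hr : r < r')
    (hL : closedBall p r' ⊆ closedBall 0 L) (γ : J → (Fin n → ℝ) → Fin n → ℝ)
    (hγL : ∀ᶠ j in l, ∀ x ∈ closedBall p r', ‖γ j x‖ ≤ L)
    (hγ : ∀ ε > 0, ∃ η > 0, ∀ᶠ j in l, ∀ x ∈ closedBall p r', ∀ x' ∈ closedBall p r',
      dist x x' < η → dist (γ j x) (γ j x') < ε)
    (w : ∀ j, LM n L (m j))
    (hw : ∀ ε > 0, ∀ᶠ j in l, ∀ x c, cx c ∈ closedBall p r' → w j x c ≠ 0 →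
      dist (cx x) (γ j (cx c)) < ε)
    (σ : ℂ) (η : ∀ j, LC n L (m j) → ℂ)
    (hc : ∀ᶠ j in l, ∀ c, cx c ∈ closedBall p r' → ∀ x,
      (ld n L (m j) * w j) x c = σ * (w j * δ j) x c)
    (ha : ∀ᶠ j in l, ∀ c, cx c ∈ closedBall p r' → (eps n ᵥ* w j) c = σ * (η j ᵥ* δ j) c) :
    ∃ h : ∀ j, LM n L (m j), Car l γ (closedBall p r') h ∧
      (∀ᶠ j in l, ∀ c, cx c ∈ closedBall p r →
        (∀ x, (ld n L (m j) * h j + σ • (h j * δ j)) x c = w j x c) ∧
          (eps n ᵥ* h j) c = η j c) ∧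
      ∀ j, w j = 0 → (∀ c' c, δ j c' c ≠ 0 → deg j c' + 1 = deg j c) →
        (∀ c, η j c ≠ 0 → deg j c = 0) → ∀ x c, h j x c ≠ 0 → cdeg x = deg j c := by
  have hm0 : Tendsto (fun j => msh (m j)) l (nhds 0) := tendsto_msh.comp hm
  set D : ∀ j, Set (LC n L (m j)) := fun j =>
    {c | dist (cx c) p ≤ r + ((n : ℝ) - deg j c) * msh (m j)} with hDdef
  set S : J → Set ℝ := fun j => {e | msh (m j) ≤ e ∧
    (∀ c ∈ D j, ∀ c', δ j c' c ≠ 0 → dist (γ j (cx c')) (γ j (cx c)) ≤ e) ∧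
    ∀ c ∈ D j, ∀ x, w j x c ≠ 0 → dist (cx x) (γ j (cx c)) ≤ e} with hSdef
  have hin : ∀ j, n * msh (m j) ≤ r' - r → ∀ c ∈ D j, cx c ∈ closedBall p r' := by
    intro j hj c hc
    have h1 : dist (cx c) p ≤ r + ((n : ℝ) - deg j c) * msh (m j) := hc
    have h2 : 0 ≤ (deg j c : ℝ) * msh (m j) := mul_nonneg (Nat.cast_nonneg _) (msh_pos _).le
    rw [mem_closedBall]
    linarith
  have hadj : ∀ j, n * msh (m j) ≤ r' - r → ∀ c ∈ D j, ∀ c', δ j c' c ≠ 0 →
      dist (cx c') (cx c) ≤ msh (m j) := by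
    intro j hj c hc c' h'
    have h1 := mem_closedBall_zero_iff.1 (hL (hin j hj c hc))
    rw [dist_comm]
    exact (hδ j c' c h').2.symm.dist_le (by linarith)
  have hcl : ∀ j, n * msh (m j) ≤ r' - r → ∀ c' c, δ j c' c ≠ 0 → c ∈ D j → c' ∈ D j := by
    intro j hj c' c h' hc
    have h1 : dist (cx c) p ≤ r + ((n : ℝ) - deg j c) * msh (m j) := hc
    have h2 : (deg j c' : ℝ) + 1 ≤ deg j c := by exact_mod_cast (hδ j c' c h').1
    change dist (cx c') p ≤ r + ((n : ℝ) - deg j c') * msh (m j)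
    nlinarith [dist_triangle (cx c') (cx c) p, hadj j hj c hc c' h', msh_pos (m j)]
  have hn : ∀ᶠ j in l, n * msh (m j) ≤ r' - r := by
    have := hm0.const_mul (n : ℝ)
    rw [mul_zero] at this
    exact this.eventually_le_const (sub_pos.2 hr)
  have hS : ∀ e > 0, ∀ᶠ j in l, e ∈ S j := by
    intro e he
    obtain ⟨η', hη', h1⟩ := hγ e he
    filter_upwards [h1, hn, hw e he, hm0.eventually_le_const he, hm0.eventually_lt_const hη']
      with j a1 a2 a3 a4 a5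
    exact ⟨a4, fun c hc c' h' => (a1 _ (hin j a2 c' (hcl j a2 c' c h' hc)) _ (hin j a2 c hc)
      ((hadj j a2 c hc c' h').trans_lt a5)).le, fun c hc x hx => (a3 x c (hin j a2 c hc) hx).le⟩
  have hle : ∀ j, ∀ e ∈ S j, sInf (S j) ≤ e := fun j e he => csInf_le ⟨_, fun _ h => h.1⟩ he
  have hmem : ∀ j, (S j).Nonempty → sInf (S j) ∈ S j := fun j hj =>
    ⟨le_csInf hj fun _ h => h.1, fun c hc c' h' => le_csInf hj fun _ h => h.2.1 c hc c' h',
      fun c hc x hx => le_csInf hj fun _ h => h.2.2 c hc x hx⟩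
  set G : J → Prop := fun j => n * msh (m j) ≤ r' - r ∧ 1 / ((n : ℝ) + 3) ∈ S j ∧
    (∀ x ∈ closedBall p r', ‖γ j x‖ ≤ L) ∧
    (∀ c, cx c ∈ closedBall p r' → ∀ x, (ld n L (m j) * w j) x c = σ * (w j * δ j) x c) ∧
    ∀ c, cx c ∈ closedBall p r' → (eps n ᵥ* w j) c = σ * (η j ᵥ* δ j) c with hGdef
  have hlt : ∀ e t : ℝ, 0 < e → t ≤ e / ((n : ℝ) + 3) → (n + 2) * t < e := by
    intro e t he ht
    have h3 : (0 : ℝ) < n + 2 := by positivity
    refine (mul_le_mul_of_nonneg_left ht h3.le).trans_lt ?_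
    rw [← mul_div_assoc, div_lt_iff₀ (by positivity)]
    nlinarith
  have hG : ∀ᶠ j in l, G j := by
    filter_upwards [hn, hS _ (by positivity : (0 : ℝ) < 1 / ((n : ℝ) + 3)), hγL, hc, ha]
      with j a1 a2 a3 a4 a5 using ⟨a1, a2, a3, a4, a5⟩
  have key : ∀ j, ∃ h : LM n L (m j), (G j →
      (∀ x c, h x c ≠ 0 → c ∈ D j ∧ dist (cx x) (γ j (cx c)) ≤ (n + 2) * sInf (S j)) ∧
      ∀ c ∈ D j, (∀ x, (ld n L (m j) * h + σ • (h * δ j)) x c = w j x c) ∧
        (eps n ᵥ* h) c = η j c) ∧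
      (w j = 0 → (∀ c' c, δ j c' c ≠ 0 → deg j c' + 1 = deg j c) →
        (∀ c, η j c ≠ 0 → deg j c = 0) → ∀ x c, h x c ≠ 0 → cdeg x = deg j c) := by
    intro j
    by_cases hj : G j
    swap
    · exact ⟨0, fun h => absurd h hj, fun _ _ _ x c hx => absurd rfl hx⟩
    obtain ⟨a1, a2, a3, a4, a5⟩ := hj
    obtain ⟨b1, b2, b3⟩ := hmem j ⟨_, a2⟩
    obtain ⟨h, c1, c2, c3⟩ := qcl (δ j) (deg j) (hdeg j) (fun c' c h' => (hδ j c' c h').1) (hδδ j)
      (D j) (hcl j a1) (fun c => γ j (cx c)) (sInf (S j)) b1 (hlt 1 _ one_pos (hle j _ a2))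
      (fun c hc => a3 _ (hin j a1 c hc)) b2 (w j) b3 σ (η j) (fun c hc => a4 c (hin j a1 c hc))
      fun c hc => a5 c (hin j a1 c hc)
    exact ⟨h, fun _ => ⟨c1, c2⟩, c3⟩
  choose h h1 h2 using key
  refine ⟨h, fun e he => ?_, ?_, h2⟩
  · filter_upwards [hG, hS _ (by positivity : (0 : ℝ) < e / ((n : ℝ) + 3))] with j a1 a2 x c hx
    obtain ⟨b1, b2⟩ := (h1 j a1).1 x c hx
    exact ⟨hin j a1.1 c b1, b2.trans_lt (hlt e _ he (hle j _ a2))⟩
  · filter_upwards [hG] with j a1 c hc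
    refine (h1 j a1).2 c ?_
    have h3 : (deg j c : ℝ) ≤ n := Nat.cast_le.2 (hdeg j c)
    change dist (cx c) p ≤ r + ((n : ℝ) - deg j c) * msh (m j)
    nlinarith [mem_closedBall.1 hc, msh_pos (m j)]

end Vale.Agent.P228
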