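import Mathlib

/-! The signature of a finite Hermitian complex: the real quadratic form `Re ⟨ξ, S ξ⟩` on the
kernel of `d†`.

Plans (Mathlib: `LinearAlgebra/QuadraticForm/Signature.lean`).
* `rpos_le`: `f†` maps `ker d'†` to `ker d†` and preserves the forms; a positive definite subspace
  is mapped injectively (`exists_finrank_eq_sigPos_and_posDef`, `le_sigPos_of_posDef`).
  For `rneg` apply it to `-S`, `-S'`, `-k`.
* `rpos_add`: the form is equivalent to `QuadraticMap.prod`; additivity of `sigPos`: `≥` by the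
  product of definite subspaces; equality from `sigPos_add_sigNeg_add_radical` and additivity of
  the finrank of the space and of the radical (or use weighted sums of squares).
* `rsig_bd`: `V = ker D† = {(a, b) | d† a = 0, s a + d b = 0}`, form `2 Re ⟨a, p b⟩`.
  `L = {(0, b) | d b = 0}`, `M = L ⊔ radical`. The form vanishes on `M`, so
  `sigPos + dim M ≤ dim V` and the same for `sigNeg` (`sigPos_add_finrank_le_of_nonpos`).
  The orthogonal of `L` in `V` is `M`: if `p a ⊥ ker d` then `p a = d† c` and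
  `(a, b) = (d† c, s c) + ((1 - p) a, 0) + (0, b - s c)`, the first two in the radical. So
  `2 dim M = dim V + dim radical` (`LinearMap.BilinForm.finrank_add_finrank_orthogonal`), and
  `sigPos_add_sigNeg_add_radical` gives `sigPos = sigNeg`.
* `rsig_point`: the form is `normSq (ξ a)`; a positive definite subspace injects into `ℂ`. -/

namespace Vale.Agent.P228

open Matrix Complex

variable {ι κ : Type} [Fintype ι] [Fintype κ] [DecidableEq ι] [DecidableEq κ]

/-- The real bilinear form `Re ⟨x, S y⟩`. -/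
noncomputable def reB (S : Matrix ι ι ℂ) : LinearMap.BilinMap ℝ (ι → ℂ) ℝ :=
  LinearMap.mk₂ ℝ (fun x y => (star x ⬝ᵥ S *ᵥ y).re)
    (fun x x' y => by simp [add_dotProduct])
    (fun c x y => by simp [smul_dotProduct])
    (fun x y y' => by simp [mulVec_add])
    (fun c x y => by simp [mulVec_smul, dotProduct_smul])

/-- The cocycles. -/
noncomputable def coc (d : Matrix ι ι ℂ) : Submodule ℝ (ι → ℂ) :=
  (LinearMap.ker (dᴴ).mulVecLin).restrictScalars ℝ

/-- The quadratic form on cocycles. -/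
noncomputable def rq (d S : Matrix ι ι ℂ) : QuadraticForm ℝ (coc d) :=
  (LinearMap.BilinMap.toQuadraticMap (reB S)).restrict (coc d)

/-- The signature. -/
noncomputable def rsig (d S : Matrix ι ι ℂ) : ℤ := (sigPos (rq d S) : ℤ) - sigNeg (rq d S)

section Abstract

open Module

variable {M M' W : Type} [AddCommGroup M] [Module ℝ M] [AddCommGroup M'] [Module ℝ M']
  [AddCommGroup W] [Module ℝ W] [FiniteDimensional ℝ M] [FiniteDimensional ℝ M']
  {Q : QuadraticForm ℝ M} {Q' : QuadraticForm ℝ M'}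

theorem sig_le_of_map (φ : W →ₗ[ℝ] M) (h : ∀ x, x ≠ 0 → 0 < Q (φ x)) : finrank ℝ W ≤ sigPos Q := by
  have hi : Function.Injective φ := (injective_iff_map_eq_zero φ).2 fun x hx => by
    by_contra h0
    simpa [hx] using h x h0
  rw [← LinearMap.finrank_range_of_inj hi]
  refine le_sigPos_of_posDef Q ?_
  rintro ⟨_, x, rfl⟩ hx
  exact h x fun e => hx (by simp [e])

theorem sig_add_le_of_map (φ : W →ₗ[ℝ] M) (hi : Function.Injective φ) (h : ∀ x, Q (φ x) ≤ 0) :
    sigPos Q + finrank ℝ W ≤ finrank ℝ M := by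
  rw [← LinearMap.finrank_range_of_inj hi]
  refine QuadraticForm.sigPos_add_finrank_le_of_nonpos ?_
  rintro _ ⟨x, rfl⟩
  exact h x

theorem sig_mono (φ : M' →ₗ[ℝ] M) (h : ∀ x, Q (φ x) = Q' x) : sigPos Q' ≤ sigPos Q := by
  obtain ⟨V, hV, hp⟩ := exists_finrank_eq_sigPos_and_posDef Q'
  rw [← hV]
  exact sig_le_of_map (φ ∘ₗ V.subtype) fun x hx => (hp x hx).trans_eq (h x).symm

theorem sig_exists_nonpos (Q : QuadraticForm ℝ M) :
    ∃ N : Submodule ℝ M, (∀ x ∈ N, Q x ≤ 0) ∧ sigPos Q + finrank ℝ N = finrank ℝ M := by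
  obtain ⟨V, hV, hp⟩ := exists_finrank_eq_sigNeg_and_negDef Q
  have h1 : ∀ x ∈ V, Q x ≤ 0 := fun x hx => by
    have := hp.nonneg ⟨x, hx⟩
    simpa using this
  have h2 : V ⊓ Q.radical = ⊥ := by
    refine (Submodule.eq_bot_iff _).2 fun x hx => ?_
    by_contra h0
    have := hp ⟨x, hx.1⟩ (by simpa using h0)
    simp [(QuadraticMap.mem_radical_iff'.1 hx.2).1] at this
  refine ⟨V ⊔ Q.radical, fun x hx => ?_, ?_⟩
  · obtain ⟨y, hy, z, hz, rfl⟩ := Submodule.mem_sup.1 hx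
    rw [add_comm, (QuadraticMap.mem_radical_iff'.1 hz).2]
    exact h1 y hy
  · have h3 := Submodule.finrank_sup_add_finrank_inf_eq V Q.radical
    have h4 := Q.sigPos_add_sigNeg_add_radical
    rw [h2, finrank_bot] at h3
    omega

theorem sig_prod [FiniteDimensional ℝ W] {R : QuadraticForm ℝ W} (e : (M × M') ≃ₗ[ℝ] W)
    (h : ∀ x y, R (e (x, y)) = Q x + Q' y) : sigPos R = sigPos Q + sigPos Q' := by
  refine le_antisymm ?_ ?_
  · obtain ⟨N, h1, h2⟩ := sig_exists_nonpos Q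
    obtain ⟨N', h1', h2'⟩ := sig_exists_nonpos Q'
    have h3 := sig_add_le_of_map (Q := R) (e.toLinearMap ∘ₗ N.subtype.prodMap N'.subtype)
      (e.injective.comp (N.injective_subtype.prodMap N'.injective_subtype))
      fun x => (h _ _).trans_le (add_nonpos (h1 _ x.1.2) (h1' _ x.2.2))
    rw [finrank_prod, ← e.finrank_eq, finrank_prod] at h3
    omega
  · obtain ⟨V, hV, hp⟩ := exists_finrank_eq_sigPos_and_posDef Q
    obtain ⟨V', hV', hp'⟩ := exists_finrank_eq_sigPos_and_posDef Q'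
    rw [← hV, ← hV', ← finrank_prod]
    refine sig_le_of_map (e.toLinearMap ∘ₗ V.subtype.prodMap V'.subtype) fun x hx =>
      lt_of_lt_of_eq ?_ (h _ _).symm
    by_cases h0 : x.1 = 0
    · exact add_pos_of_nonneg_of_pos (hp.nonneg x.1) (hp' x.2 fun e => hx (Prod.ext h0 e))
    · exact add_pos_of_pos_of_nonneg (hp x.1 h0) (hp'.nonneg x.2)

theorem sig_lagr (L : Submodule ℝ M) (h1 : ∀ x ∈ L, Q x = 0)
    (h2 : ∀ x, (∀ y ∈ L, QuadraticMap.polar Q y x = 0) → Q x = 0) : sigPos Q = sigNeg Q := by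
  have h3 := LinearMap.BilinForm.finrank_add_finrank_orthogonal' (B := Q.polarBilin) L
  have h4 := Submodule.finrank_sup_add_finrank_inf_eq L Q.radical
  have h5 := Q.sigPos_add_sigNeg_add_radical
  have key : ∀ N : Submodule ℝ M, (∀ x ∈ N, Q x = 0) →
      sigPos Q + finrank ℝ N ≤ finrank ℝ M ∧ sigNeg Q + finrank ℝ N ≤ finrank ℝ M := fun N hN =>
    ⟨QuadraticForm.sigPos_add_finrank_le_of_nonpos fun x hx => (hN x hx).le, by
      rw [← sigPos_neg]
      exact QuadraticForm.sigPos_add_finrank_le_of_nonpos fun x hx => by simp [hN x hx]⟩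
  have h6 := key (LinearMap.BilinForm.orthogonal Q.polarBilin L) fun x hx => h2 x hx
  have h7 := key (L ⊔ Q.radical) fun x hx => by
    obtain ⟨y, hy, z, hz, rfl⟩ := Submodule.mem_sup.1 hx
    rw [add_comm, (QuadraticMap.mem_radical_iff'.1 hz).2, h1 y hy]
  rw [← QuadraticMap.radical_eq_ker_polarBilin] at h3
  omega

end Abstract

theorem sig_adj (A : Matrix ι κ ℂ) (x : ι → ℂ) (y : κ → ℂ) :
    star x ⬝ᵥ A *ᵥ y = star (Aᴴ *ᵥ x) ⬝ᵥ y := by
  rw [star_mulVec, conjTranspose_conjTranspose, dotProduct_mulVec]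

theorem mem_coc {d : Matrix ι ι ℂ} {x : ι → ℂ} : x ∈ coc d ↔ dᴴ *ᵥ x = 0 := Iff.rfl

theorem rq_apply (d S : Matrix ι ι ℂ) (x : coc d) : rq d S x = (star x.1 ⬝ᵥ S *ᵥ x.1).re := rfl

theorem rpos_le {d S : Matrix ι ι ℂ} {d' S' k : Matrix κ κ ℂ} {f : Matrix κ ι ℂ}
    (hf : d' * f = f * d) (hS : f * S * fᴴ - S' = d' * k - k * d'ᴴ) :
    sigPos (rq d' S') ≤ sigPos (rq d S) ∧ sigNeg (rq d' S') ≤ sigNeg (rq d S) := by
  let φ : coc d' →ₗ[ℝ] coc d := ((fᴴ).mulVecLin.restrictScalars ℝ).restrict fun x hx => by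
    change dᴴ *ᵥ fᴴ *ᵥ x = 0
    rw [mulVec_mulVec, ← conjTranspose_mul, ← hf, conjTranspose_mul, ← mulVec_mulVec,
      mem_coc.1 hx, mulVec_zero]
  have h : ∀ x, rq d S (φ x) = rq d' S' x := fun x => by
    change (star (fᴴ *ᵥ x.1) ⬝ᵥ S *ᵥ fᴴ *ᵥ x.1).re = (star x.1 ⬝ᵥ S' *ᵥ x.1).re
    rw [← sig_adj, mulVec_mulVec, mulVec_mulVec, sub_eq_iff_eq_add.1 hS, add_mulVec, sub_mulVec,
      ← mulVec_mulVec, ← mulVec_mulVec, mem_coc.1 x.2, mulVec_zero, sub_zero, dotProduct_add,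
      sig_adj d', mem_coc.1 x.2, star_zero, zero_dotProduct, zero_add]
  refine ⟨sig_mono φ h, ?_⟩
  rw [← sigPos_neg, ← sigPos_neg]
  exact sig_mono φ fun x => by rw [_root_.neg_apply, _root_.neg_apply, h]

theorem sig_star_elim (x : ι → ℂ) (y : κ → ℂ) :
    star (Sum.elim x y) = Sum.elim (star x) (star y) := by
  ext (i | i) <;> rfl

theorem rsig_add (d S : Matrix ι ι ℂ) (d' S' : Matrix κ κ ℂ) (hS : Sᴴ = S) (hS' : S'ᴴ = S') :
    rsig (fromBlocks d 0 0 d') (fromBlocks S 0 0 S') = rsig d S + rsig d' S' := by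
  have hm : ∀ x : ι ⊕ κ → ℂ, x ∈ coc (fromBlocks d 0 0 d') ↔
      x ∘ Sum.inl ∈ coc d ∧ x ∘ Sum.inr ∈ coc d' := fun x => by
    simp only [mem_coc, fromBlocks_conjTranspose, fromBlocks_mulVec, conjTranspose_zero,
      zero_mulVec, add_zero, zero_add, funext_iff, Sum.forall, Sum.elim_inl, Sum.elim_inr,
      Pi.zero_apply]
  let e : (coc d × coc d') ≃ₗ[ℝ] coc (fromBlocks d 0 0 d') :=
    { toFun := fun x => ⟨Sum.elim x.1.1 x.2.1, (hm _).2 ⟨x.1.2, x.2.2⟩⟩
      invFun := fun x => (⟨x.1 ∘ Sum.inl, ((hm _).1 x.2).1⟩, ⟨x.1 ∘ Sum.inr, ((hm _).1 x.2).2⟩)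
      map_add' := fun x y => by ext (i | i) <;> rfl
      map_smul' := fun c x => by ext (i | i) <;> rfl
      left_inv := fun x => rfl
      right_inv := fun x => by ext (i | i) <;> rfl }
  have h : ∀ x y, rq (fromBlocks d 0 0 d') (fromBlocks S 0 0 S') (e (x, y)) =
      rq d S x + rq d' S' y := fun x y => by
    change (star (Sum.elim x.1 y.1) ⬝ᵥ fromBlocks S 0 0 S' *ᵥ Sum.elim x.1 y.1).re = _
    rw [fromBlocks_mulVec, sig_star_elim, sumElim_dotProduct_sumElim, add_re, rq_apply, rq_apply]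
    simp
  have h1 := sig_prod e h
  have h2 := sig_prod (R := -rq (fromBlocks d 0 0 d') (fromBlocks S 0 0 S')) (Q := -rq d S)
    (Q' := -rq d' S') e fun x y => by simp only [_root_.neg_apply, h, neg_add]
  simp only [sigPos_neg] at h2
  simp only [rsig, h1, h2]
  push_cast
  ring

open scoped ComplexOrder in
theorem sig_hodge (d : Matrix ι ι ℂ) (x : ι → ℂ)
    (h : ∀ b, d *ᵥ b = 0 → (star x ⬝ᵥ b).re = 0) : ∃ c, x = dᴴ *ᵥ c := by
  have h1 : LinearMap.range (d * dᴴ).mulVecLin = LinearMap.range d.mulVecLin :=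
    Submodule.eq_of_le_of_finrank_eq (by rw [mulVecLin_mul]; exact LinearMap.range_comp_le_range _ _)
      (rank_self_mul_conjTranspose d)
  obtain ⟨c, hc⟩ : d *ᵥ x ∈ LinearMap.range (d * dᴴ).mulVecLin := h1 ▸ ⟨x, rfl⟩
  have h2 : d *ᵥ (x - dᴴ *ᵥ c) = 0 := by
    rw [mulVec_sub, mulVec_mulVec, sub_eq_zero]
    exact hc.symm
  refine ⟨c, sub_eq_zero.1 (dotProduct_star_self_eq_zero.1 (Complex.ext ?_
    (Complex.le_def.1 (dotProduct_star_self_nonneg _)).2.symm))⟩
  nth_rewrite 1 [star_sub]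
  rw [sub_dotProduct, ← sig_adj, h2, dotProduct_zero, sub_zero, h _ h2, zero_re]

theorem sig_re_comm (x y : ι → ℂ) : (star x ⬝ᵥ y).re = (star y ⬝ᵥ x).re := by
  rw [star_dotProduct]
  rfl

theorem rsig_bd {d s p : Matrix ι ι ℂ} (hp : pᴴ = p) (hpp : p * p = p) (h1 : p * d = d)
    (h2 : d * p = d) (h3 : p * s = s) (hs : sᴴ = s) (dd : d * d = 0) (rel : d * s + s * dᴴ = 0) :
    rsig (I • fromBlocks d s 0 dᴴ) (fromBlocks 0 p p 0) = 0 := by
  have hm : ∀ x : ι ⊕ ι → ℂ, x ∈ coc (I • fromBlocks d s 0 dᴴ) →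
      s *ᵥ (x ∘ Sum.inl) + d *ᵥ (x ∘ Sum.inr) = 0 := fun x hx => by
    rw [mem_coc, conjTranspose_smul, smul_mulVec, smul_eq_zero, fromBlocks_conjTranspose,
      fromBlocks_mulVec, hs, conjTranspose_conjTranspose] at hx
    exact funext fun i => congrFun (hx.resolve_left (by simp)) (Sum.inr i)
  have hL : ∀ b, d *ᵥ b = 0 → Sum.elim (0 : ι → ℂ) b ∈ coc (I • fromBlocks d s 0 dᴴ) :=
    fun b hb => by
    rw [mem_coc, conjTranspose_smul, smul_mulVec, fromBlocks_conjTranspose, fromBlocks_mulVec]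
    simp [hb]
  have hq : ∀ x : coc (I • fromBlocks d s 0 dᴴ), rq _ (fromBlocks 0 p p 0) x =
      2 * (star (p *ᵥ (x.1 ∘ Sum.inl)) ⬝ᵥ (x.1 ∘ Sum.inr)).re := fun x => by
    rw [rq_apply, fromBlocks_mulVec]
    nth_rewrite 1 [← Sum.elim_comp_inl_inr x.1]
    rw [sig_star_elim, sumElim_dotProduct_sumElim, zero_mulVec, zero_mulVec, zero_add, add_zero,
      add_re, sig_re_comm (x.1 ∘ Sum.inr), sig_adj, hp, two_mul]
  rw [rsig, sig_lagr (LinearMap.ker (LinearMap.funLeft ℝ ℂ Sum.inl ∘ₗ (coc _).subtype)), sub_self]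
  · intro x hx
    have : x.1 ∘ Sum.inl = 0 := hx
    rw [hq, this]
    simp
  · intro x hx
    obtain ⟨c, hc⟩ := sig_hodge d (p *ᵥ (x.1 ∘ Sum.inl)) fun b hb => by
      have := hx ⟨_, hL b hb⟩ rfl
      rw [QuadraticMap.polar, hq, hq, hq] at this
      simp only [Submodule.coe_add, Pi.add_comp, Sum.elim_comp_inl, Sum.elim_comp_inr, zero_add,
        dotProduct_add, add_re, mulVec_zero, star_zero, zero_dotProduct, zero_re] at this
      linarith
    have h4 : s * p = s := by simpa [hp, hs] using congrArg conjTranspose h3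
    have h5 : d *ᵥ (x.1 ∘ Sum.inr) = -((s * dᴴ) *ᵥ c) := by
      rw [← mulVec_mulVec, ← hc, mulVec_mulVec, h4]
      exact eq_neg_of_add_eq_zero_right (hm _ x.2)
    have h6 : (star c ⬝ᵥ (s * dᴴ) *ᵥ c).re = -(star c ⬝ᵥ (s * dᴴ) *ᵥ c).re := by
      nth_rewrite 1 [sig_adj]
      rw [sig_re_comm, conjTranspose_mul, conjTranspose_conjTranspose, hs,
        eq_neg_of_add_eq_zero_left rel, neg_mulVec, dotProduct_neg, neg_re]
    rw [hq, hc, ← sig_adj, h5, dotProduct_neg, neg_re]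
    linarith

theorem rsig_point (a : ι) : rsig (0 : Matrix ι ι ℂ) (diagonal (Pi.single a 1)) = 2 := by
  have hq : ∀ x, rq (0 : Matrix ι ι ℂ) (diagonal (Pi.single a 1)) x = normSq (x.1 a) := fun x => by
    rw [rq_apply, dotProduct, Finset.sum_eq_single a (fun b _ hb => by simp [mulVec_diagonal, hb])
      (by simp)]
    simp [mulVec_diagonal, normSq_apply]
  have h1 : sigPos (rq (0 : Matrix ι ι ℂ) (diagonal (Pi.single a 1))) = 2 := by
    refine le_antisymm ?_ ?_
    · obtain ⟨V, hV, hp⟩ := exists_finrank_eq_sigPos_and_posDef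
        (rq (0 : Matrix ι ι ℂ) (diagonal (Pi.single a 1)))
      rw [← hV, ← finrank_real_complex]
      refine LinearMap.finrank_le_finrank_of_injective
        (f := LinearMap.proj a ∘ₗ (coc _).subtype ∘ₗ V.subtype)
        ((injective_iff_map_eq_zero _).2 fun x hx => ?_)
      by_contra h0
      have h2 : x.1.1 a = 0 := hx
      have h3 := (hp x h0).trans_eq (hq x.1)
      simp [h2] at h3
    · rw [← finrank_real_complex]
      refine sig_le_of_map ((LinearMap.single ℝ (fun _ => ℂ) a).codRestrict (coc 0)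
        fun z => by rw [mem_coc, conjTranspose_zero, zero_mulVec]) fun z hz => ?_
      rw [hq]
      simpa using hz
  have h2 := QuadraticForm.sigPos_add_finrank_le_of_nonpos
    (Q := -rq (0 : Matrix ι ι ℂ) (diagonal (Pi.single a 1))) (V := ⊤) fun x _ => by
      rw [_root_.neg_apply, hq]
      exact neg_nonpos.2 (normSq_nonneg _)
  rw [finrank_top, sigPos_neg, add_le_iff_nonpos_left, Nat.le_zero] at h2
  rw [rsig, h1, h2]
  rfl

end Vale.Agent.P228
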