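import Vale.Agent.P228.CtlFun
import Vale.Agent.P228.Sig

/-! The signature of a controlled complex living on a compact set.

Plan. Fix `K ⊆ interior N`, `N` compact, `N ⊆ U`. Write `p = prj N`, `cmpr f = p f p`.
* `cmpr_zero`: if `mk' f = 0` then `cmpr f = 0` eventually (cover `N` by finitely many balls).
* `prj_comm`: if the source and target live on `K` and `f` is controlled, then eventually
  `p f = f p`: the compact set `N \ thickening δ K` (or `N \ interior N'`) eventually contains no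
  position, and nonzero entries with one end in `N` have propagation `< δ`. It is enough to use
  `supp_one_subset` on the compact set `N \ V`, `V` an open set with `K ⊆ V`,
  `cthickening δ V ⊆ interior N`; `K` need not be compact: use the compact `closure K ⊆ N`,
  which lies in `interior N` by the hypothesis `IsClosed K`.
* So every equation between products of maps of objects living on `K` holds eventually for the
  compressed representatives. `rel`: `rpos_le` for the map of `Rel X' X` and for the one of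
  `Rel.symm`. `add`: `rep (blk a 0 0 b)` and `fromBlocks (rep a) 0 0 (rep b)` have the same class;
  `prj` of a sum is `fromBlocks`; `rsig_add` (the compressed form is eventually Hermitian).
  `bd`: `rsig_bd`.
* `th0_pull`: the compressions for `N` and `N'` agree eventually along `l'` (both are compact
  subsets of `U'` with `K'` in the interior); `Pull.map_mk`, `cmpr_zero`. -/

namespace Vale.Agent.P228

open Filter Matrix Dag CDag Ctl

variable {I : Type} {Y : Type} [MetricSpace Y] {l : Filter I} {U : Set Y}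

instance instTFGerm (l : Filter I) : IsAddTorsionFree (Germ l ℤ) where
  nsmul_right_injective n hn := by
    intro a b h
    induction a using Germ.inductionOn with | _ f => ?_
    induction b using Germ.inductionOn with | _ g => ?_
    have h1 : ((n • f : I → ℤ) : Germ l ℤ) = ((n • g : I → ℤ) : Germ l ℤ) := h
    rw [Germ.coe_eq] at h1 ⊢
    filter_upwards [h1] with i hi
    simpa [hn] using hi

open Classical in
/-- The projection onto the indices with position in `N`. -/
noncomputable def prj (N : Set Y) (X : Ctl l U) : Raw X X :=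
  fun i => diagonal fun a => if X.pos i a ∈ N then 1 else 0

/-- Compression to `N`. -/
noncomputable def cmpr (N : Set Y) {X X' : Ctl l U} (f : Raw X X') : Raw X X' :=
  fun i => prj N X i * f i * prj N X' i

/-- The signature germ. -/
noncomputable def th0 (N : Set Y) (X : Sym (Ctl l U)) : Germ l ℤ :=
  Germ.ofFun fun i => rsig (cmpr N (rep X.d) i) (cmpr N (rep X.S) i)

variable {N K : Set Y}

theorem base_cpt {M : Set Y} (hM : IsCompact M) {P : I → Y → Prop}
    (h : ∀ y ∈ M, ∃ ρ > 0, ∀ᶠ i in l, ∀ x, dist x y < ρ → P i x) :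
    ∀ᶠ i in l, ∀ x ∈ M, P i x := by
  refine hM.induction_on (p := fun s => ∀ᶠ i in l, ∀ x ∈ s, P i x) ?_ ?_ ?_ ?_
  · simp
  · intro s t hst ht
    filter_upwards [ht] with i hi x hx using hi x (hst hx)
  · intro s t hs ht
    filter_upwards [hs, ht] with i h1 h2 x hx using hx.elim (h1 x) (h2 x)
  · intro y hy
    obtain ⟨ρ, hρ, h1⟩ := h y hy
    exact ⟨Metric.ball y ρ, mem_nhdsWithin_of_mem_nhds (Metric.ball_mem_nhds y hρ), h1⟩

theorem cmpr_zero (hN : IsCompact N) (hU : N ⊆ U) {X X' : Ctl l U} {f : Raw X X'}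
    (h : rsupp f = ∅) : ∀ᶠ i in l, cmpr N f i = 0 := by
  have h1 := base_cpt (l := l) hN (P := fun i x => ∀ a b, X.pos i a = x → f i a b = 0) (by
    intro y hy
    obtain ⟨ρ, hρ, h2⟩ := (notMem_rsupp (f := f) (hU hy)).1 (by rw [h]; exact Set.notMem_empty y)
    refine ⟨ρ, hρ, ?_⟩
    filter_upwards [h2] with i hi x hx a b hab
    exact hi a b (Or.inl (hab ▸ hx)))
  filter_upwards [h1] with i hi
  ext a b
  simp only [cmpr, prj, mul_diagonal, diagonal_mul, Matrix.zero_apply]
  by_cases ha : X.pos i a ∈ N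
  · rw [hi _ ha a b rfl]; simp
  · simp [ha]

theorem base_half (hN : IsCompact N) (hU : N ⊆ U) (hKN : K ⊆ interior N) {X : Ctl l U}
    (hX : supp (1 : Hom X X) ⊆ K) {β : I → Type} {q : ∀ i, β i → Y}
    {R : ∀ i, X.ι i → β i → Prop} (hR : RelCtl l U X.pos q R) :
    ∀ᶠ i in l, ∀ a b, R i a b → X.pos i a ∈ N → q i b ∈ N := by
  have h1 := base_cpt (l := l) hN
    (P := fun i x => ∀ a b, R i a b → X.pos i a = x → q i b ∈ N) (by
    intro y hy
    by_cases hyK : y ∈ K
    · obtain ⟨δ, hδ, hb⟩ := Metric.mem_nhds_iff.1 (mem_interior_iff_mem_nhds.1 (hKN hyK))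
      obtain ⟨ρ, hρ, h2⟩ := hR y (hU hy)
      refine ⟨min ρ (δ / 2), lt_min hρ (half_pos hδ), ?_⟩
      filter_upwards [h2 (δ / 2) (half_pos hδ)] with i hi x hx a b hab hax
      subst hax
      have h3 := hi a b hab (Or.inl (hx.trans_le (min_le_left _ _)))
      have h4 := hx.trans_le (min_le_right _ _)
      apply hb
      rw [Metric.mem_ball]
      have := dist_triangle_left (q i b) y (X.pos i a)
      linarith
    · obtain ⟨ρ, hρ, h2⟩ := supp_one_subset.1 hX y (hU hy) hyK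
      refine ⟨ρ, hρ, ?_⟩
      filter_upwards [h2] with i hi x hx a b _ hax
      subst hax
      exact absurd (hi a) (not_le.2 hx))
  filter_upwards [h1] with i hi a b hab ha using hi _ ha a b hab rfl

theorem prj_comm (hN : IsCompact N) (hU : N ⊆ U) (hK : IsClosed K) (hKN : K ⊆ interior N)
    {X X' : Ctl l U} (hX : supp (1 : Hom X X) ⊆ K) (hX' : supp (1 : Hom X' X') ⊆ K)
    {f : Raw X X'} (hf : IsC f) : ∀ᶠ i in l, prj N X i * f i = f i * prj N X' i := by
  have _ := hK
  filter_upwards [base_half hN hU hKN hX hf, base_half hN hU hKN hX' (RelCtl.swap hf)]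
    with i h1 h2
  ext a b
  simp only [prj, mul_diagonal, diagonal_mul]
  by_cases h : f i a b = 0
  · simp [h]
  · by_cases ha : X.pos i a ∈ N
    · simp [ha, h1 a b h ha]
    · have hb : X'.pos i b ∉ N := fun hb => ha (h2 b a h hb)
      simp [ha, hb]

theorem prj_prj (N : Set Y) (X : Ctl l U) (i : I) : prj N X i * prj N X i = prj N X i := by
  simp only [prj, diagonal_mul_diagonal]
  congr 1
  funext a
  split_ifs <;> simp

theorem prj_ad (N : Set Y) (X : Ctl l U) (i : I) : (prj N X i)ᴴ = prj N X i := by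
  simp only [prj, diagonal_conjTranspose]
  congr 1
  funext a
  simp only [Pi.star_apply]
  split_ifs <;> simp

theorem prj_sum (N : Set Y) (X X' : Ctl l U) (i : I) :
    prj N (Ctl.sum X X') i = fromBlocks (prj N X i) 0 0 (prj N X' i) := by
  simp only [prj, fromBlocks_diagonal]
  congr 1
  funext a
  rcases a with a | a <;> rfl

/-- The compression of the chosen representative. -/
noncomputable def cm (N : Set Y) {X X' : Ctl l U} (φ : Hom X X') : Raw X X' := cmpr N (rep φ)

section cm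

variable {X X' X'' W W' : Ctl l U}

theorem prj_cm (φ : Hom X X') (i : I) : prj N X i * cm N φ i = cm N φ i := by
  simp only [cm, cmpr, ← Matrix.mul_assoc, prj_prj]

theorem cm_prj (φ : Hom X X') (i : I) : cm N φ i * prj N X' i = cm N φ i := by
  simp only [cm, cmpr, Matrix.mul_assoc, prj_prj]

variable (hN : IsCompact N) (hU : N ⊆ U)
include hN hU

theorem cm_mk {f : Raw X X'} (hf : IsC f) : ∀ᶠ i in l, cm N (mk' X X' f) i = cmpr N f i := by
  have h := (mk_eq_iff (isC_rep (mk' X X' f)) hf).1 (mk_rep _)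
  filter_upwards [cmpr_zero hN hU h] with i hi
  simp only [cmpr, Pi.sub_apply, Matrix.mul_sub, Matrix.sub_mul, sub_eq_zero] at hi
  exact hi

theorem cm_of {φ : Hom X X'} {f : Raw X X'} (hf : IsC f) (h : mk' X X' f = φ) :
    ∀ᶠ i in l, cm N φ i = cmpr N f i := h ▸ cm_mk hN hU hf

theorem cm_zero : ∀ᶠ i in l, cm N (0 : Hom X X') i = 0 := by
  filter_upwards [cm_of hN hU (isC_zero (X := X) (X' := X')) mk_zero] with i hi
  simp [hi, cmpr]

theorem cm_one : ∀ᶠ i in l, cm N (1 : Hom X X) i = prj N X i := by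
  filter_upwards [cm_of hN hU (isC_one (X := X)) mk_one] with i hi
  simp [hi, cmpr, prj_prj]

theorem cm_add (φ ψ : Hom X X') : ∀ᶠ i in l, cm N (φ + ψ) i = cm N φ i + cm N ψ i := by
  filter_upwards [cm_of hN hU (φ := φ + ψ) ((isC_rep φ).add (isC_rep ψ))
    (by rw [mk_add (isC_rep φ) (isC_rep ψ), mk_rep, mk_rep])] with i hi
  rw [hi]
  simp [cm, cmpr, Matrix.mul_add, Matrix.add_mul]

theorem cm_sub (φ ψ : Hom X X') : ∀ᶠ i in l, cm N (φ - ψ) i = cm N φ i - cm N ψ i := by
  filter_upwards [cm_of hN hU (φ := φ - ψ) ((isC_rep φ).sub (isC_rep ψ))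
    (by rw [mk_sub (isC_rep φ) (isC_rep ψ), mk_rep, mk_rep])] with i hi
  rw [hi]
  simp [cm, cmpr, Matrix.mul_sub, Matrix.sub_mul]

theorem cm_smul (c : ℂ) (φ : Hom X X') : ∀ᶠ i in l, cm N (c • φ) i = c • cm N φ i := by
  filter_upwards [cm_of hN hU (φ := c • φ) ((isC_rep φ).smul c)
    (by rw [mk_smul c (isC_rep φ), mk_rep])] with i hi
  rw [hi]
  simp [cm, cmpr]

theorem cm_ad (φ : Hom X X') : ∀ᶠ i in l, cm N φ.ad i = (cm N φ i)ᴴ := by
  filter_upwards [cm_of hN hU (φ := φ.ad) (isC_rep φ).ad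
    (by rw [mk_ad (isC_rep φ), mk_rep])] with i hi
  rw [hi]
  simp [cm, cmpr, prj_ad, Matrix.mul_assoc]

theorem cm_blk (a : Hom X W) (b : Hom X W') (c : Hom X' W) (d : Hom X' W') :
    ∀ᶠ i in l, cm N (X := Ctl.sum X X') (X' := Ctl.sum W W') (blk a b c d) i =
      fromBlocks (cm N a i) (cm N b i) (cm N c i) (cm N d i) := by
  filter_upwards [cm_of hN hU (X := Ctl.sum X X') (X' := Ctl.sum W W') (φ := blk a b c d)
    ((isC_rep a).fromBlocks (isC_rep b) (isC_rep c) (isC_rep d))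
    (by rw [mk_blk (isC_rep a) (isC_rep b) (isC_rep c) (isC_rep d), mk_rep, mk_rep, mk_rep,
      mk_rep])] with i hi
  rw [hi]
  simp only [cmpr, prj_sum]
  have := fromBlocks_multiply (prj N X i) 0 0 (prj N X' i) (rep a i) (rep b i) (rep c i) (rep d i)
  have h2 := fromBlocks_multiply (prj N X i * rep a i) (prj N X i * rep b i)
    (prj N X' i * rep c i) (prj N X' i * rep d i) (prj N W i) 0 0 (prj N W' i)
  simp only [Matrix.zero_mul, Matrix.mul_zero, add_zero, zero_add] at this h2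
  exact (congrArg (· * fromBlocks (prj N W i) 0 0 (prj N W' i)) this).trans h2

variable (hK : IsClosed K) (hKN : K ⊆ interior N)
include hK hKN

theorem cm_mul (hX : supp (1 : Hom X X) ⊆ K) (hX' : supp (1 : Hom X' X') ⊆ K) (φ : Hom X X')
    (ψ : Hom X' X'') : ∀ᶠ i in l, cm N (φ * ψ) i = cm N φ i * cm N ψ i := by
  filter_upwards [cm_of hN hU (φ := φ * ψ) ((isC_rep φ).mul (isC_rep ψ))
    (by rw [mk_mul (isC_rep φ) (isC_rep ψ), mk_rep, mk_rep]),
    prj_comm hN hU hK hKN hX hX' (isC_rep φ)] with i hi hc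
  have h1 : prj N X i * rep φ i * prj N X' i = prj N X i * rep φ i := by
    rw [Matrix.mul_assoc, ← hc, ← Matrix.mul_assoc, prj_prj]
  rw [hi]
  simp only [cm, cmpr]
  rw [h1, ← Matrix.mul_assoc, ← Matrix.mul_assoc, ← Matrix.mul_assoc, h1]

theorem cm_rel {V V' : Sym (Ctl l U)} (hV' : V'.Phys K) (hV : V.Phys K) (h : Sym.Rel V' V) :
    ∀ᶠ i in l, sigPos (rq (cm N V'.d i) (cm N V'.S i)) ≤ sigPos (rq (cm N V.d i) (cm N V.S i)) ∧
      sigNeg (rq (cm N V'.d i) (cm N V'.S i)) ≤ sigNeg (rq (cm N V.d i) (cm N V.S i)) := by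
  obtain ⟨f, hf, k, hk⟩ := h
  have hk' : f * V.S * f.ad - V'.S = V'.d * k - k * V'.d.ad := by
    rw [hk, m_neg, sub_eq_add_neg]
  filter_upwards [cm_mul hN hU hK hKN hV' hV' V'.d f, cm_mul hN hU hK hKN hV' hV f V.d,
    cm_sub hN hU (f * V.S * f.ad) V'.S, cm_mul hN hU hK hKN hV' hV (f * V.S) f.ad,
    cm_mul hN hU hK hKN hV' hV f V.S, cm_ad hN hU f, cm_sub hN hU (V'.d * k) (k * V'.d.ad),
    cm_mul hN hU hK hKN hV' hV' V'.d k, cm_mul hN hU hK hKN hV' hV' k V'.d.ad,
    cm_ad hN hU V'.d] with i h1 h2 h3 h4 h5 h6 h7 h8 h9 h10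
  refine rpos_le (f := cm N f i) (k := cm N k i) ?_ ?_
  · rw [← h1, ← h2, hf.1]
  · rw [← h10, ← h9, ← h8, ← h7, ← hk', h3, h4, h5, h6]

end cm

theorem cm_herm (hN : IsCompact N) (hU : N ⊆ U) (V : Sym (Ctl l U)) :
    ∀ᶠ i in l, (cm N V.S i)ᴴ = cm N V.S i := by
  filter_upwards [cm_ad hN hU V.S] with i hi
  rw [← hi, V.herm]

theorem th0_pinv (hN : IsCompact N) (hU : N ⊆ U) (hK : IsClosed K) (hKN : K ⊆ interior N) :
    PInv K (th0 (l := l) (U := U) N) where
  rel X' X hX' hX _ h := by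
    refine Germ.coe_eq.2 ?_
    filter_upwards [cm_rel hN hU hK hKN hX' hX h, cm_rel hN hU hK hKN hX hX' h.symm] with i h1 h2
    show rsig (cm N X'.d i) (cm N X'.S i) = rsig (cm N X.d i) (cm N X.S i)
    rw [rsig, rsig, le_antisymm h1.1 h2.1, le_antisymm h1.2 h2.2]
  add X X' _ _ _ _ := by
    refine Germ.coe_eq.2 ?_
    filter_upwards [cm_blk hN hU X.d 0 0 X'.d, cm_blk hN hU X.S 0 0 X'.S,
      cm_zero hN hU (X := X.E) (X' := X'.E), cm_zero hN hU (X := X'.E) (X' := X.E),
      cm_herm hN hU X, cm_herm hN hU X'] with i h1 h2 h3 h4 h5 h6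
    rw [h3, h4] at h1 h2
    show rsig (cm N (X := Ctl.sum X.E X'.E) (X' := Ctl.sum X.E X'.E) (blk X.d 0 0 X'.d) i)
      (cm N (X := Ctl.sum X.E X'.E) (X' := Ctl.sum X.E X'.E) (blk X.S 0 0 X'.S) i) =
      rsig (cm N X.d i) (cm N X.S i) + rsig (cm N X'.d i) (cm N X'.S i)
    rw [h1, h2]
    exact rsig_add _ _ _ _ h5 h6
  bd V hV := by
    refine Germ.coe_eq.2 ?_
    filter_upwards [cm_smul hN hU (X := Ctl.sum V.E V.E) (X' := Ctl.sum V.E V.E) Complex.I
        (blk V.d V.S 0 V.d.ad), cm_blk hN hU V.d V.S 0 V.d.ad,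
      cm_blk hN hU (0 : Hom V.E V.E) (1 : Hom V.E V.E) (1 : Hom V.E V.E) (0 : Hom V.E V.E),
      cm_zero hN hU (X := V.E) (X' := V.E), cm_one hN hU (X := V.E), cm_ad hN hU V.d,
      cm_herm hN hU V, cm_mul hN hU hK hKN hV hV V.d V.d, cm_add hN hU (V.d * V.S) (V.S * V.d.ad),
      cm_mul hN hU hK hKN hV hV V.d V.S, cm_mul hN hU hK hKN hV hV V.S V.d.ad]
      with i h1 h2 h3 h4 h5 h6 h7 h8 h9 h10 h11
    rw [h4, h6] at h2
    rw [h4, h5] at h3
    rw [h2] at h1
    rw [V.dd, h4] at h8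
    rw [V.rel, h4, h10, h11, h6] at h9
    show rsig (cm N (X := Ctl.sum V.E V.E) (X' := Ctl.sum V.E V.E)
        (Complex.I • blk V.d V.S 0 V.d.ad) i)
      (cm N (X := Ctl.sum V.E V.E) (X' := Ctl.sum V.E V.E)
        (blk (0 : Hom V.E V.E) (1 : Hom V.E V.E) (1 : Hom V.E V.E) (0 : Hom V.E V.E)) i) = 0
    rw [h1, h3]
    exact rsig_bd (prj_ad N V.E i) (prj_prj N V.E i) (prj_cm _ i) (cm_prj _ i) (prj_cm _ i) h7
      h8.symm h9.symm

theorem th0_point (hN : IsCompact N) (hU : N ⊆ U) (X : Sym (Ctl l U)) (hd : X.d = 0)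
    (hS : X.S = 1) (h : ∀ᶠ i in l, ∃! a, X.E.pos i a ∈ N) : th0 N X = 2 := by
  rw [← Germ.coe_ofNat]
  refine Germ.coe_eq.2 ?_
  filter_upwards [h, cm_zero hN hU (X := X.E) (X' := X.E), cm_one hN hU (X := X.E)]
    with i ⟨a, ha, hu⟩ h1 h2
  show rsig (cm N X.d i) (cm N X.S i) = 2
  rw [hd, hS, h1, h2, ← rsig_point a]
  simp only [prj]
  congr 2
  funext b
  by_cases hb : b = a
  · subst hb; simp [ha]
  · have : X.E.pos i b ∉ N := fun h => hb (hu b h)
    simp [hb, this]

theorem th0_pull {I' : Type} {l' : Filter I'} {U' : Set Y} (P : Pull l U l' U') (hP : P.π = id)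
    (hUU : U ⊆ U') {N' K' : Set Y} (hN : IsCompact N) (hU : N ⊆ U) (hN' : IsCompact N')
    (hU' : N' ⊆ U') (hK' : IsClosed K') (h1 : K' ⊆ interior N) (h2 : K' ⊆ interior N')
    {X : Sym (Ctl l' U')} (hX : X.Phys K') :
    th0 N (P.fn.sym X) = (th0 N' X).compTendsto P.j P.hj := by
  have _ := hK'
  have key : ∀ {M M' : Set Y}, IsCompact M → M ⊆ U' → K' ⊆ interior M' →
      ∀ᶠ i in l', ∀ a, X.E.pos i a ∈ M → X.E.pos i a ∈ M' := by
    intro M M' hM hMU hKM
    have h3 := base_cpt (l := l') hM (P := fun i x => ∀ a, X.E.pos i a = x → x ∈ M') (by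
      intro y hy
      by_cases hyK : y ∈ K'
      · obtain ⟨δ, hδ, hb⟩ := Metric.mem_nhds_iff.1 (mem_interior_iff_mem_nhds.1 (hKM hyK))
        exact ⟨δ, hδ, Eventually.of_forall fun i x hx _ _ => hb hx⟩
      · obtain ⟨ρ, hρ, h4⟩ := supp_one_subset.1 hX y (hMU hy) hyK
        refine ⟨ρ, hρ, ?_⟩
        filter_upwards [h4] with i hi x hx a hax
        subst hax
        exact absurd (hi a) (not_le.2 hx))
    filter_upwards [h3] with i hi a ha using hi _ ha a rfl
  have hp : ∀ᶠ i in l, prj N (P.obj X.E) i = prj N' X.E (P.j i) := by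
    filter_upwards [P.hj.eventually (key hN (hU.trans hUU) h2),
      P.hj.eventually (key hN' hU' h1)] with i h3 h4
    simp only [prj, Pull.obj, hP, id]
    congr 1
    funext a
    have h5 : P.π (X.E.pos (P.j i) a) ∈ N ↔ X.E.pos (P.j i) a ∈ N' := by
      rw [hP]
      exact ⟨h3 a, h4 a⟩
    by_cases ha : X.E.pos (P.j i) a ∈ N'
    · exact (if_pos (h5.2 ha)).trans (if_pos ha).symm
    · exact (if_neg (fun h => ha (h5.1 h))).trans (if_neg ha).symm
  refine Germ.coe_eq.2 ?_
  filter_upwards [hp, cm_mk hN hU (P.isC (isC_rep X.d)), cm_mk hN hU (P.isC (isC_rep X.S))]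
    with i h3 h4 h5
  show rsig (cm N (mk' (P.obj X.E) (P.obj X.E) fun i => rep X.d (P.j i)) i)
    (cm N (mk' (P.obj X.E) (P.obj X.E) fun i => rep X.S (P.j i)) i) =
    rsig (cmpr N' (rep X.d) (P.j i)) (cmpr N' (rep X.S) (P.j i))
  rw [h4, h5]
  simp only [cmpr, h3]
  rfl

end Vale.Agent.P228
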