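import Vale.Agent.P228.SymB

/-! Physical representatives and the extension `Ext`.

Plans.
* `exists_dom`: pick `h` with `r = 1 - d h - h d` supported in `Z` (`qt_surj`, `qt_eq_iff`).
  `CDag.cut` for `d` and `r` gives `i = iB`, `b = i† d i` with `d i = i b`, `i i† r = r`.
  Put `g = i† r`; then `b g = g d`, `i g = r`. `P = sum B B`, `dP = blk b (1 - g i) 0 (-b)`.
  `blk g 0 0 g` is `Hq` from `blk d (1 - r) 0 (-d)` to `dP` with inverse `blk i 0 0 i`; both
  homotopies are `± blk 0 0 1 0`. Finally `blk 1 (± h) 0 1` is an isomorphism from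
  `blk d 0 0 (-d)` to `blk d (d h + h d) 0 (-d)`.
* `exists_phys`: use `exists_dom` for `V.d`, `φ₂ = blk φ 0 0 φ` composed with the block
  permutation from `((V, V), (V', V'))` to `((V, V'), (V, V'))`; `F = (sum P P, blk dP 0 0 dP,
  φ₂ S φ₂†)`.
* `exists_rep`: `N = X.flip.add X.flip.neg` (`neutral_self`).
* `ext_spec`: for two representatives, `F.add F'.neg` is `Rel` to a sum of neutral complexes
  (`add_four`, `neutral_self`, `neutral_add`, `neutral_neg`), so `PInv.neutral`, `PInv.neg`.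
* `ext_inv`, `bd`: with `F` from `exists_phys V`, `F.bd` represents `V.bd` (`bd_rel`, `bd_add`,
  `bd_neg`) with `N = V.flip.bd.add V.flip.bd.neg`, and `θ F.bd = 0`.
* `ext_phys`: `(X.add X).add (X.add X.neg)` is a representative. -/

namespace Vale.Agent.P228

open Dag CDag Complex Sym

variable {C : Type 1} {Pt : Type} [Dag C] [CDag C Pt] {G : Type} [AddCommGroup G] {Z : Set Pt}

/-- The opposite differential. -/
def Sym.flip (X : Sym C) : Sym C where
  E := X.E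
  d := -X.d
  S := X.S
  dd := by simp [X.dd]
  herm := X.herm
  rel := by simp [X.dS]
  tame := tame_neg X.tame

theorem exists_dom {E : C} {d : Hom E E} (dd : d * d = 0) (ht : Tame d) (hc : Ctr (qt Z d)) :
    ∃ (P : C) (dP : Hom P P) (φ : Hom P (sum E E)), dP * dP = 0 ∧ Tame dP ∧
      supp (1 : Hom P P) ⊆ Z ∧ Hq dP (blk d 0 0 (-d)) φ := by
  obtain ⟨h', hh⟩ := hc
  obtain ⟨h, rfl⟩ := qt_surj (X := E) (Y := E) h'
  obtain ⟨r, hr⟩ : ∃ r : Hom E E, r = 1 - (d * h + h * d) := ⟨_, rfl⟩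
  have hrZ : supp r ⊆ Z := by
    rw [hr, ← qt_eq_iff]
    exact hh.symm
  have hdr : d * r = r * d := by
    rw [hr]; simp [dd, reas dd]
  obtain ⟨B, Q, i, q, hs, hqr, hqd, hB, htb, -⟩ := CDag.cut ht r
  obtain ⟨b, hb⟩ : ∃ b : Hom B B, b = i.ad * d * i := ⟨_, rfl⟩
  rw [← hb] at htb
  have hdi : d * i = i * b := by
    have h1 := congrArg (fun x => x * (d * i)) hs.tot
    simp only [add_m, one_m, massoc] at h1 hqd
    rw [hqd, m_zero, add_zero] at h1
    rw [hb]; simpa using h1.symm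
  have hir : i * (i.ad * r) = r := by
    have h1 := congrArg (fun x => x * r) hs.tot
    simp only [add_m, one_m, massoc] at h1
    rwa [hqr, m_zero, add_zero] at h1
  obtain ⟨g, hg⟩ : ∃ g : Hom B E, g = i.ad * r := ⟨_, rfl⟩
  rw [← hg] at hir
  have hbg : b * g = g * d := by
    rw [hb, massoc, massoc, hir, hdr, hg, massoc]
  have hbb : b * b = 0 := by
    have : b * b = i.ad * (d * (i * b)) := by
      nth_rewrite 1 [hb]; simp only [massoc]
    rw [this, ← hdi, reas dd]; simp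
  have h1r : d * h + h * d = 1 - r := by rw [hr]; abel
  have hq1 : Hq (blk b (1 - g * i) 0 (-b)) (blk d (1 - r) 0 (-d)) (blk g 0 0 g) := by
    refine ⟨by simp [hbg, hir], blk i 0 0 i, by simp [hdi, reas hir], ⟨blk 0 0 (-1) 0, ?_⟩,
      ⟨blk 0 0 (-1) 0, ?_⟩⟩
    · rw [one_eq_blk]; simp; abel
    · rw [one_eq_blk]; simp [hir]; abel
  have hq2 : Hq (blk d (1 - r) 0 (-d)) (blk d 0 0 (-d)) (blk 1 (-h) 0 1) := by
    refine Hq.of_iso (v := blk 1 h 0 1) (by simp) (by simp) ?_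
    rw [← h1r]; simp
  refine ⟨sum B B, blk b (1 - g * i) 0 (-b), _, ?_, tame_blk _ htb (tame_neg htb), ?_, hq1.mul hq2⟩
  · simp [hbb, reas hbg, hdi]
  · exact (supp_one_sum B B).trans (Set.union_subset (hB.trans hrZ) (hB.trans hrZ))

/-- Transport of a form along a chain map. -/
def Sym.physPush (X : Sym C) {P : C} (dP : Hom P P) (φ : Hom P X.E) (h0 : dP * dP = 0)
    (ht : Tame dP) (hc : dP * φ = φ * X.d) : Sym C where
  E := P
  d := dP
  S := φ * X.S * φ.ad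
  dd := h0
  herm := by simp [X.herm]
  rel := by
    have h1 : φ.ad * dP.ad = X.d.ad * φ.ad := by simpa using ad_eq hc
    simp [reas hc, reas X.dS, h1]
  tame := ht

theorem Sym.physPush_rel (X : Sym C) {P : C} (dP : Hom P P) (φ : Hom P X.E) (h0 : dP * dP = 0)
    (ht : Tame dP) (hq : Hq dP X.d φ) : Rel (X.physPush dP φ h0 ht hq.1) X :=
  ⟨φ, hq, Htp.refl _⟩

theorem Sym.Poinc.physFlip {X : Sym C} (h : X.Poinc) : X.flip.Poinc := by
  have := Hq.neg_d h
  show Hq (-X.d) (-(-X.d).ad) X.S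
  rwa [ad_neg]

theorem Sym.CtrZ.physOfAdd {X Y : Sym C} (h : (X.add Y).CtrZ Z) : Y.CtrZ Z := by
  obtain ⟨k, hk⟩ := h
  obtain ⟨a, b, c, e, rfl⟩ := exists_blk (X := (qF C Z).obj X.E) (Y := (qF C Z).obj Y.E)
    (X' := (qF C Z).obj X.E) (Y' := (qF C Z).obj Y.E) k
  have h1 : blk (qt Z X.d) (qt Z 0) (qt Z 0) (qt Z Y.d) * blk a b c e +
      blk a b c e * blk (qt Z X.d) (qt Z 0) (qt Z 0) (qt Z Y.d) = 1 := hk
  simp only [map_zero, blk_blk, zero_m, m_zero, add_zero, zero_add, blk_add, blk_eq_one] at h1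
  exact ⟨e, h1.2.2.2⟩

theorem exists_phys {V : Sym C} (h : V.CtrZ Z) :
    ∃ F : Sym C, F.Phys Z ∧ Rel F ((V.add V).add (V.flip.add V.flip.neg)) := by
  obtain ⟨P, dP, φ, h0, ht, hP, hq⟩ := exists_dom V.dd V.tame h
  have r1 := (V.add V.flip).physPush_rel dP φ h0 ht hq
  have r2 := (V.add V.flip.neg).physPush_rel dP φ h0 ht hq
  refine ⟨_, ?_, (r1.add r2).trans (add_four _ _ _ _)⟩
  exact (supp_one_sum P P).trans (Set.union_subset hP hP)

theorem exists_rep {X : Sym C} (h : X.PZ Z) : ∃ F, Rep Z X F := by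
  obtain ⟨F, hF, hr⟩ := exists_phys h.2
  exact ⟨F, hF, hr.poinc ((h.1.add h.1).add (h.1.physFlip.add h.1.physFlip.neg)), _,
    neutral_self _, hr⟩

variable [IsAddTorsionFree G] {θ : Sym C → G}

theorem ext_spec (hθ : PInv Z θ) {X F : Sym C} (hX : X.Poinc) (h : Rep Z X F) :
    Ext Z θ X = θ F := by
  have _ := hX
  have hex : ∃ F, Rep Z X F := ⟨F, h⟩
  rw [Ext, dif_pos hex]
  obtain ⟨h1, h2, N', hN', hr'⟩ := hex.choose_spec
  obtain ⟨h3, h4, N, hN, hr⟩ := h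
  have hrel : Rel (hex.choose.add F.neg) (((X.add X).add (X.add X).neg).add (N'.add N.neg)) :=
    (hr'.add (hr.neg.trans (neg_add' _ _))).trans (add_four _ _ _ _)
  have hn := neutral_of_rel hrel (neutral_add (neutral_self _) (neutral_add hN' (neutral_neg hN)))
  have h0 := hθ.neutral (h1.add h3.neg) (h2.add h4.neg) hn
  rw [hθ.add _ _ h1 h3.neg h2 h4.neg, hθ.neg h3 h4] at h0
  exact add_neg_eq_zero.mp h0

theorem ext_inv (hθ : PInv Z θ) : Inv Z (Ext Z θ) where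
  rel X' X hX' hX hr := by
    obtain ⟨F, h1, h2, N, hN, hF⟩ := exists_rep hX
    rw [ext_spec hθ hX.1 ⟨h1, h2, N, hN, hF⟩,
      ext_spec hθ hX'.1 ⟨h1, h2, N, hN, hF.trans ((hr.symm.add hr.symm).add (Rel.refl N))⟩]
  add X Y hX hY := by
    obtain ⟨F, h1, h2, N, hN, hF⟩ := exists_rep hX
    obtain ⟨F', h1', h2', N', hN', hF'⟩ := exists_rep hY
    have hrep : Rep Z (X.add Y) (F.add F') :=
      ⟨h1.add h1', h2.add h2', N.add N', neutral_add hN hN',
        ((hF.add hF').trans (add_four _ _ _ _)).trans ((add_four _ _ _ _).add (Rel.refl _))⟩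
    rw [ext_spec hθ hX.1 ⟨h1, h2, N, hN, hF⟩, ext_spec hθ hY.1 ⟨h1', h2', N', hN', hF'⟩,
      ext_spec hθ (hX.1.add hY.1) hrep, hθ.add _ _ h1 h1' h2 h2']
  bd V hV := by
    obtain ⟨F, hF, hr⟩ := exists_phys hV
    have hrep : Rep Z V.bd F.bd :=
      ⟨hF.bd, bd_poinc F, V.flip.bd.add V.flip.bd.neg, neutral_self _,
        ((bd_rel hr).trans (bd_add _ _)).trans
          ((bd_add _ _).add ((bd_add _ _).trans ((Rel.refl _).add (bd_neg _))))⟩
    rw [ext_spec hθ (bd_poinc V) hrep, hθ.bd F hF]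

theorem ext_phys (hθ : PInv Z θ) {X : Sym C} (hX : X.Phys Z) (h : X.Poinc) :
    Ext Z θ X = 2 • θ X := by
  have hrep : Rep Z X ((X.add X).add (X.add X.neg)) :=
    ⟨(hX.add hX).add (hX.add hX.neg), (h.add h).add (h.add h.neg), _, neutral_self X, Rel.refl _⟩
  rw [ext_spec hθ h hrep, hθ.add _ _ (hX.add hX) (hX.add hX.neg) (h.add h) (h.add h.neg),
    hθ.add _ _ hX hX h h, hθ.add _ _ hX hX.neg h h.neg, hθ.neg hX h, two_nsmul, add_neg_cancel,
    add_zero]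

/-- An invariant takes the doubled value on a representative. -/
theorem Inv.rep {σ : Sym C → G} (hσ : Inv Z σ) {X F : Sym C} (hX : X.PZ Z) (h : Rep Z X F) :
    σ F = 2 • σ X := by
  obtain ⟨h1, h2, N, hN, hr⟩ := h
  have hW : ((X.add X).add N).PZ Z := hr.symm.pz ⟨h2, h1.ctrZ⟩
  have hNp : N.PZ Z := ⟨((add_comm' N (X.add X)).poinc hW.1).of_add, hW.2.physOfAdd⟩
  rw [hσ.rel' hW hr, hσ.add _ _ (hX.add hX) hNp, hσ.add _ _ hX hX, hσ.neutral hNp hN, two_nsmul,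
    add_zero]

variable {C' : Type 1} {Pt' : Type} [Dag C'] [CDag C' Pt'] {G' : Type} [AddCommGroup G']
  [IsAddTorsionFree G']

theorem ext_nat (Φ : CFun C C') {Z' : Set Pt'} (hΦ : Φ.Le Z Z') (hθ : PInv Z θ)
    {θ' : Sym C' → G'} (hθ' : PInv Z' θ') (φ : G → G')
    (h : ∀ F : Sym C, F.Phys Z → F.Poinc → θ' (Φ.sym F) = φ (θ F)) {X : Sym C} (hX : X.PZ Z) :
    Ext Z' θ' (Φ.sym X) = φ (Ext Z θ X) := by
  obtain ⟨F, h1, h2, N, hN, hF⟩ := exists_rep hX
  have hrep : Rep Z' (Φ.sym X) (Φ.sym F) :=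
    ⟨Φ.sym_phys hΦ h1, Φ.sym_poinc h2, Φ.sym N, (Φ.sym_rel hN).trans (Φ.sym_neg N),
      ((Φ.sym_rel hF).trans (Φ.sym_add _ _)).trans ((Φ.sym_add _ _).add (Rel.refl _))⟩
  rw [ext_spec hθ hX.1 ⟨h1, h2, N, hN, hF⟩, ext_spec hθ' (Φ.sym_poinc hX.1) hrep, h F h1 h2]

end Vale.Agent.P228
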