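import Vale.Agent.P228.Lag
import Vale.Agent.P228.Phys

/-! Cutting along a hyperplane.

Plans. Write `q = c.iQ†`; `c.chain` says `q` is a chain map `X → c.quot`; modulo `A` it is unitary.
* `exists_cut`: `CDag.cut X.tame (row p g)` with `p` from `Cover`; `1_Q = q (1 - p) q†`.
* `cut_pz`: modulo `A` the form `q S q†` is `Hq` (`ctrZ_bd_iff`), so `c.quot.bd.CtrZ A`; the object
  lives on `Z ∩ A'` (`1_Q = q 1 q†`), use `ctr_qt_inter`, `ctr_qt_mono`.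
* `cut_cmp`: `F = q' f q†` is a chain map of quotients since `q' f = q' f q† q`; it is `Hq` modulo
  `A`, so modulo `Z'` (`hq_qt_inter`); `F (q S q†) F† = q' f S f† q'† ≃ q' S' q'†`. `Inv.bd_eq`.
* `thC_spec`: compare the chosen cut `c₀` and `c` with a third cut from `exists_cut` with
  `g = row c₀.iB c.iB` (`cut_cmp` with `f = 1`).
* `cut_pinv`: `rel`: `exists_cut` with `g = f * c.iB`; `add`: sum of cuts (`iB = blk iB 0 0 iB'`),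
  `Rel.of_iso 1 1`, `bd_rel`, `bd_add`. `bd`: first cut `V.d†` (`CDag.cut (tame_ad _) p`) to get
  `B₂, Q₂`, then `V.d` with `row p (S * iB₂)` to get `B₁, Q₁`; the block diagonal maps form a cut
  `c` of `V.bd` (no Poincare hypothesis is needed for `V`; `V.bd` is Poincare). In `c.quot.bd`,
  coordinates `((x, ξ), (a, b))`, the summand `T = sum Q₁ Q₂`, `u₁ (x, b) = ((x, 0), (0, b))`,
  `u₂ (a, ξ) = ((0, ξ), (a, 0))` is a strict Lagrangian with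
  `t = blk (-(q₁ d q₁†)) (I • q₁ q₂†) 0 (q₂ d q₂†)`, contractible modulo `A`, so modulo `Z'`.
  `Inv.lag`.
* `theta_nat`: `ext_nat`; a cut `c` of `F` maps to a cut of `Φ.sym F` with quotient
  `Rel` to `Φ.sym c.quot` (identity map); `CFun.sym_bd`. -/

namespace Vale.Agent.P228

open Dag CDag Complex Sym

variable {C : Type 1} {Pt : Type} [Dag C] [CDag C Pt] {G : Type} [AddCommGroup G]
  {A A' Z Z' : Set Pt}

theorem cut_suppQ {E B Q : C} {iB : Hom E B} {iQ : Hom E Q} (hs : Split iB iQ) {p : Hom E E}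
    (h : iQ.ad * p = 0) (hp : supp (1 - p) ⊆ A') : supp (1 : Hom Q Q) ⊆ A' := by
  have h1 : (1 : Hom Q Q) = iQ.ad * ((1 - p) * iQ) := by simp [reas h, hs.qq]
  rw [h1]
  exact (supp_mul _ _).trans (Set.inter_subset_right.trans
    ((supp_mul _ _).trans (Set.inter_subset_left.trans hp)))

theorem cut_unit {E B Q : C} {iB : Hom E B} {iQ : Hom E Q} (hs : Split iB iQ)
    (hB : supp (1 : Hom B B) ⊆ A) :
    qt A iQ * (qt A iQ).ad = 1 ∧ (qt A iQ).ad * qt A iQ = 1 := by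
  have h1 : qt A iB = 0 := qt_eq_zero.2 ((supp_le_right iB).trans hB)
  have h2 := congrArg (qt A) hs.tot
  have h3 := congrArg (qt A) hs.qq
  simp only [qt, map_add, DagFun.map_mul, DagFun.map_ad, DagFun.map_one] at h1 h2 h3
  rw [h1, zero_m, zero_add] at h2
  exact ⟨h2, h3⟩

theorem cut_hq' {D : Type 1} [Dag D] {E Q : D} {a : Hom E Q} (d : Hom E E)
    (h : a * a.ad = 1 ∧ a.ad * a = 1) :
    Hq (a.ad * d * a) d a.ad ∧ Hq d (a.ad * d * a) a ∧ Hq (-d.ad) (-(a.ad * d * a).ad) a :=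
  ⟨Hq.of_iso h.2 h.1 (by simp [h.1]), Hq.of_iso h.1 h.2 (by simp [reas h.1]),
    Hq.of_iso h.1 h.2 (by simp [reas h.1])⟩

theorem cut_hq {X : Sym C} (c : CutD A A' X) :
    Hq (qt A c.quot.d) (qt A X.d) (qt A c.iQ).ad ∧ Hq (qt A X.d) (qt A c.quot.d) (qt A c.iQ) ∧
      Hq (-(qt A X.d).ad) (-(qt A c.quot.d).ad) (qt A c.iQ) :=
  cut_hq' (qt A X.d) (cut_unit c.split c.suppB)

theorem cut_phys {X : Sym C} (hX : X.Phys Z) (c : CutD A A' X) : c.quot.Phys (Z ∩ A') := by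
  refine Set.subset_inter ?_ c.suppQ
  change supp (1 : Hom c.Q c.Q) ⊆ Z
  rw [← c.split.qq]
  exact (supp_mul _ _).trans (Set.inter_subset_right.trans ((supp_le_left _).trans hX))

theorem cut_sub (hZ : Z ∩ A ∩ A' ⊆ Z') : A ∩ (Z ∩ A') ⊆ Z' := fun _ h => hZ ⟨⟨h.2.1, h.1⟩, h.2.2⟩

theorem exists_cut (hc : Cover C A A') (X : Sym C) {F : C} (g : Hom X.E F) (hg : supp g ⊆ A) :
    ∃ c : CutD A A' X, c.iQ.ad * g = 0 := by
  obtain ⟨p, hp, hp'⟩ := hc X.E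
  obtain ⟨B, Q, iB, iQ, hs, h0, h1, h2, -, h3⟩ := CDag.cut X.tame (row p g)
  rw [m_row, row_eq_zero] at h0
  exact ⟨⟨B, Q, iB, iQ, hs, h1, h2.trans ((supp_row _ _).trans (Set.union_subset hp hg)),
    cut_suppQ hs h0.1 hp', h3⟩, h0.2⟩

theorem cut_pz (hZ : Z ∩ A ∩ A' ⊆ Z') {X : Sym C} (hX : X.Phys Z) (h : X.Poinc)
    (c : CutD A A' X) : c.quot.bd.PZ Z' := by
  refine ⟨bd_poinc _, ctr_qt_mono (cut_sub hZ) (ctr_qt_inter (cut_phys hX c).bd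
    (ctrZ_bd_iff.2 ?_))⟩
  have h1 := Hq.map (qF C A) h
  rw [map_neg, DagFun.map_ad] at h1
  exact ((cut_hq c).1.mul h1).mul (cut_hq c).2.2

variable {σ : Sym C → G}

theorem cut_alg {E B Q E' Q' : C} {iB : Hom E B} {iQ : Hom E Q} {jQ : Hom E' Q'} {d S : Hom E E}
    {d' S' : Hom E' E'} {f : Hom E' E} (hs : Split iB iQ)
    (h3 : jQ.ad * d' * jQ * jQ.ad = jQ.ad * d') (hf : d' * f = f * d)
    (hS : Htp d' (-d'.ad) (f * S * f.ad) S') (hB : jQ.ad * (f * iB) = 0) :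
    jQ.ad * d' * jQ * (jQ.ad * f * iQ) = jQ.ad * f * iQ * (iQ.ad * d * iQ) ∧
      Htp (jQ.ad * d' * jQ) (-(jQ.ad * d' * jQ).ad)
        (jQ.ad * f * iQ * (iQ.ad * S * iQ) * (jQ.ad * f * iQ).ad) (jQ.ad * S' * jQ) := by
  have h0 : jQ.ad * (f * (iB * iB.ad)) = 0 := by rw [← massoc f, ← massoc, hB, zero_m]
  have h1 : jQ.ad * (f * (iQ * iQ.ad)) = jQ.ad * f := by
    simpa [h0] using congrArg (fun x => jQ.ad * (f * x)) hs.tot
  have h2 : iQ * (iQ.ad * (f.ad * jQ)) = f.ad * jQ := by simpa using ad_eq h1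
  have h4 : ∀ {W : C} (x : Hom E W), jQ.ad * (f * (iQ * (iQ.ad * x))) = jQ.ad * (f * x) :=
    fun x => by simpa using congrArg (· * x) h1
  refine ⟨?_, (Htp.of_eq ?_).trans ((hS.mul_left h3).mul_right (a := jQ)
    (by simpa using (ad_eq h3).symm))⟩
  · rw [← massoc, ← massoc, h3]
    simp [h4, reas hf]
  · simp [h4, h2]

theorem cut_cmp (hZ : Z ∩ A ∩ A' ⊆ Z') (hσ : Inv Z' σ) {X X' : Sym C} (hX : X.Phys Z)
    (hX' : X'.Phys Z) (h : X.Poinc) (c : CutD A A' X) (c' : CutD A A' X') (f : Hom X'.E X.E)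
    (hf : Hq X'.d X.d f) (hS : Htp X'.d (-X'.d.ad) (f * X.S * f.ad) X'.S)
    (hB : c'.iQ.ad * (f * c.iB) = 0) : σ c'.quot.bd = σ c.quot.bd := by
  have h1 := cut_alg c.split c'.chain hf.1 hS hB
  exact hσ.bd_eq (V' := c'.quot) (V := c.quot) (c'.iQ.ad * f * c.iQ)
    (hq_qt_mono (cut_sub hZ) (hq_qt_inter (cut_phys hX c) (cut_phys hX' c')
      (((cut_hq c').1.mul (hf.map (qF C A))).mul (cut_hq c).2.1))) h1.1 h1.2
    (cut_pz hZ hX h c).2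

theorem thC_spec (hc : Cover C A A') (hZ : Z ∩ A ∩ A' ⊆ Z') (hσ : Inv Z' σ) {X : Sym C}
    (hX : X.Phys Z) (h : X.Poinc) (c : CutD A A' X) : thC A A' σ X = σ c.quot.bd := by
  rw [thC, dif_pos ⟨c⟩]
  generalize Nonempty.some _ = c₀
  obtain ⟨c₂, h2⟩ := exists_cut hc X (row c₀.iB c.iB) ((supp_row _ _).trans (Set.union_subset
    ((supp_le_right _).trans c₀.suppB) ((supp_le_right _).trans c.suppB)))
  rw [m_row, row_eq_zero] at h2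
  rw [← cut_cmp hZ hσ hX hX h c₀ c₂ 1 Hq.one (Htp.of_eq (by simp)) (by simpa using h2.1),
    cut_cmp hZ hσ hX hX h c c₂ 1 Hq.one (Htp.of_eq (by simp)) (by simpa using h2.2)]

theorem cut_ne (hc : Cover C A A') (X : Sym C) : Nonempty (CutD A A' X) :=
  ⟨(exists_cut hc X (0 : Hom X.E X.E) (by simp [supp_zero])).choose⟩

theorem cut_split {E B Q E' B' Q' : C} {iB : Hom E B} {iQ : Hom E Q} {jB : Hom E' B'}
    {jQ : Hom E' Q'} (h : Split iB iQ) (h' : Split jB jQ) :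
    Split (blk iB 0 0 jB) (blk iQ 0 0 jQ) :=
  ⟨by simp [h.bb, h'.bb], by simp [h.qq, h'.qq], by simp [h.tot, h'.tot]⟩

/-- The sum of two cuts. -/
def CutD.add {X Y : Sym C} (c : CutD A A' X) (c' : CutD A A' Y) : CutD A A' (X.add Y) where
  B := sum c.B c'.B
  Q := sum c.Q c'.Q
  iB := blk c.iB 0 0 c'.iB
  iQ := blk c.iQ 0 0 c'.iQ
  split := cut_split c.split c'.split
  sub := by
    change (blk c.iQ 0 0 c'.iQ).ad * blk X.d 0 0 Y.d * blk c.iB 0 0 c'.iB = 0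
    simpa using And.intro c.sub c'.sub
  suppB := (supp_one_sum _ _).trans (Set.union_subset c.suppB c'.suppB)
  suppQ := (supp_one_sum _ _).trans (Set.union_subset c.suppQ c'.suppQ)
  tame := by
    change Tame ((blk c.iQ 0 0 c'.iQ).ad * blk X.d 0 0 Y.d * blk c.iQ 0 0 c'.iQ)
    simpa using tame_blk 0 c.tame c'.tame

theorem cut_rel {E : C} {d S d' S' : Hom E E} {a b c e a' b' c' e'} (hd : d' = d) (hS : S' = S) :
    Rel (⟨E, d', S', a', b', c', e'⟩ : Sym C) ⟨E, d, S, a, b, c, e⟩ := by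
  subst hd hS
  exact Rel.refl _

theorem CutD.add_rel {X Y : Sym C} (c : CutD A A' X) (c' : CutD A A' Y) :
    Rel (c.add c').quot (c.quot.add c'.quot) := by
  refine cut_rel (E := sum c.Q c'.Q) ?_ ?_
  · change (blk c.iQ 0 0 c'.iQ).ad * blk X.d 0 0 Y.d * blk c.iQ 0 0 c'.iQ =
      blk (c.iQ.ad * X.d * c.iQ) 0 0 (c'.iQ.ad * Y.d * c'.iQ)
    simp
  · change (blk c.iQ 0 0 c'.iQ).ad * blk X.S 0 0 Y.S * blk c.iQ 0 0 c'.iQ =
      blk (c.iQ.ad * X.S * c.iQ) 0 0 (c'.iQ.ad * Y.S * c'.iQ)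
    simp

theorem cut_ctr {D : Type 1} [Dag D] {E Q₁ Q₂ : D} {a₁ : Hom E Q₁} {a₂ : Hom E Q₂} (d : Hom E E)
    (h₁ : a₁ * a₁.ad = 1 ∧ a₁.ad * a₁ = 1) (h₂ : a₂ * a₂.ad = 1 ∧ a₂.ad * a₂ = 1) :
    Ctr (blk (-(a₁.ad * d * a₁)) (I • (a₁.ad * a₂)) 0 (a₂.ad * d.ad * a₂).ad) :=
  ⟨blk 0 0 ((-I) • (a₂.ad * a₁)) 0, by
    simp [reas h₁.1, reas h₂.1, h₁.2, h₂.2, smul_smul]⟩

theorem cut_lag {E Q₁ Q₂ : C} (d S : Hom E E) (a₁ : Hom E Q₁) (a₂ : Hom E Q₂) :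
    let P : Hom (sum Q₁ Q₂) (sum Q₁ Q₂) := blk 1 0 0 0
    let R : Hom (sum Q₁ Q₂) (sum Q₁ Q₂) := blk 0 0 0 1
    let D := (blk a₁ 0 0 a₂).ad * (I • blk d S 0 d.ad) * blk a₁ 0 0 a₂
    row (col P R) (col R P) * blk P R R P = 1 ∧ blk P R R P * row (col P R) (col R P) = 1 ∧
      blk 0 1 1 0 = col P R * (col R P).ad + col R P * (col P R).ad ∧
      (I • blk D ((blk a₁ 0 0 a₂).ad * blk (0 : Hom E E) (1 : Hom E E) (1 : Hom E E) 0 * blk a₁ 0 0 a₂)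
        0 D.ad) * col P R =
        col P R * blk (-(a₁.ad * d * a₁)) (I • (a₁.ad * a₂)) 0 (a₂.ad * d.ad * a₂).ad := by
  refine ⟨by simp, by simp, by simp [← one_eq_blk], by simp [smul_smul]⟩

theorem cut_bd (hc : Cover C A A') (hZ : Z ∩ A ∩ A' ⊆ Z') (hσ : Inv Z' σ) {V : Sym C}
    (hV : V.Phys Z) : thC A A' σ V.bd = 0 := by
  obtain ⟨p, hp, hp'⟩ := hc V.E
  obtain ⟨B₂, Q₂, iB₂, iQ₂, s₂, z₂, u₂, b₂, -, t₂⟩ := CDag.cut (tame_ad V.tame) p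
  obtain ⟨B₁, Q₁, iB₁, iQ₁, s₁, z₁, u₁, b₁, -, t₁⟩ := CDag.cut V.tame (row p (V.S * iB₂))
  rw [m_row, row_eq_zero] at z₁
  replace b₂ := b₂.trans hp
  replace b₁ := b₁.trans ((supp_row _ _).trans
    (Set.union_subset hp ((supp_le_right _).trans b₂)))
  let c : CutD A A' V.bd := ⟨sum B₁ B₂, sum Q₁ Q₂, blk iB₁ 0 0 iB₂, blk iQ₁ 0 0 iQ₂,
    cut_split s₁ s₂, by
      change (blk iQ₁ 0 0 iQ₂).ad * (I • blk V.d V.S 0 V.d.ad) * blk iB₁ 0 0 iB₂ = 0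
      simpa using And.intro u₁ (And.intro z₁.2 u₂),
    (supp_one_sum _ _).trans (Set.union_subset b₁ b₂),
    (supp_one_sum _ _).trans (Set.union_subset (cut_suppQ s₁ z₁.1 hp') (cut_suppQ s₂ z₂ hp')), by
      change Tame ((blk iQ₁ 0 0 iQ₂).ad * (I • blk V.d V.S 0 V.d.ad) * blk iQ₁ 0 0 iQ₂)
      simpa using tame_smul I (tame_blk (iQ₁.ad * V.S * iQ₂) t₁ t₂)⟩
  rw [thC_spec hc hZ hσ hV.bd (bd_poinc V) c]
  have h := cut_lag V.d V.S iQ₁ iQ₂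
  exact hσ.lag c.quot.bd (T := sum Q₁ Q₂) _ _ _ h.1 h.2.1 h.2.2.1 _ h.2.2.2
    (tame_blk _ (tame_neg t₁) (tame_ad t₂))
    (ctr_qt_mono (cut_sub hZ) (ctr_qt_inter (cut_phys hV.bd c)
      (cut_ctr (qt A V.d) (cut_unit s₁ b₁) (cut_unit s₂ b₂))))

theorem cut_pinv (hc : Cover C A A') (hZ : Z ∩ A ∩ A' ⊆ Z') (hσ : Inv Z' σ) :
    PInv Z (thC A A' σ) := by
  refine ⟨fun X' X hX' hX hp hr => ?_, fun X Y hX hY hp hp' => ?_, fun V hV => cut_bd hc hZ hσ hV⟩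
  · have hp' := hr.poinc hp
    obtain ⟨f, hf, hS⟩ := hr
    obtain ⟨c⟩ := cut_ne hc X
    obtain ⟨c', h⟩ := exists_cut hc X' (f * c.iB) ((supp_le_right _).trans c.suppB)
    rw [thC_spec hc hZ hσ hX' hp' c', thC_spec hc hZ hσ hX hp c]
    exact cut_cmp hZ hσ hX hX' hp c c' f hf hS h
  · obtain ⟨c⟩ := cut_ne hc X
    obtain ⟨c'⟩ := cut_ne hc Y
    have h1 := cut_pz hZ hX hp c
    have h2 := cut_pz hZ hY hp' c'
    rw [thC_spec hc hZ hσ (hX.add hY) (hp.add hp') (c.add c'), thC_spec hc hZ hσ hX hp c,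
      thC_spec hc hZ hσ hY hp' c', ← hσ.add _ _ h1 h2]
    exact hσ.rel' (h1.add h2) ((bd_rel (c.add_rel c')).trans (bd_add _ _))

variable [IsAddTorsionFree G]

theorem theta_inv (hc : Cover C A A') (hZ : Z ∩ A ∩ A' ⊆ Z') (hσ : Inv Z' σ) :
    Inv Z (Theta A A' Z σ) := ext_inv (cut_pinv hc hZ hσ)

theorem theta_phys (hc : Cover C A A') (hZ : Z ∩ A ∩ A' ⊆ Z') (hσ : Inv Z' σ) {X : Sym C}
    (hX : X.Phys Z) (h : X.Poinc) (c : CutD A A' X) :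
    Theta A A' Z σ X = 2 • σ c.quot.bd := by
  rw [Theta, ext_phys (cut_pinv hc hZ hσ) hX h, thC_spec hc hZ hσ hX h c]

variable {C₁ : Type 1} {Pt₁ : Type} [Dag C₁] [CDag C₁ Pt₁] {G₁ : Type} [AddCommGroup G₁]
  [IsAddTorsionFree G₁] {A₁ A₁' Z₁ Z₁' : Set Pt₁} {σ₁ : Sym C₁ → G₁}

theorem theta_nat (Φ : CFun C C₁) (hc : Cover C A A') (hZ : Z ∩ A ∩ A' ⊆ Z') (hσ : Inv Z' σ)
    (hc₁ : Cover C₁ A₁ A₁') (hZ₁ : Z₁ ∩ A₁ ∩ A₁' ⊆ Z₁') (hσ₁ : Inv Z₁' σ₁)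
    (hA : Φ.Le A A₁) (hA' : Φ.Le A' A₁') (hL : Φ.Le Z Z₁) (hL' : Φ.Le Z' Z₁') (φ : G → G₁)
    (h : ∀ X : Sym C, X.PZ Z' → σ₁ (Φ.sym X) = φ (σ X)) {X : Sym C} (hX : X.PZ Z) :
    Theta A₁ A₁' Z₁ σ₁ (Φ.sym X) = φ (Theta A A' Z σ X) := by
  refine ext_nat Φ hL (cut_pinv hc hZ hσ) (cut_pinv hc₁ hZ₁ hσ₁) φ (fun F hF hP => ?_) hX
  obtain ⟨c⟩ := cut_ne hc F
  have h1 := cut_pz hZ hF hP c
  have h2 : Split (Φ.map c.iB) (Φ.map c.iQ) :=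
    ⟨by rw [← Φ.map_ad, ← Φ.map_mul, c.split.bb, Φ.map_one],
      by rw [← Φ.map_ad, ← Φ.map_mul, c.split.qq, Φ.map_one],
      by rw [← Φ.map_ad, ← Φ.map_ad, ← Φ.map_mul, ← Φ.map_mul, ← map_add, c.split.tot,
        Φ.map_one]⟩
  let c₁ : CutD A₁ A₁' (Φ.sym F) := ⟨Φ.obj c.B, Φ.obj c.Q, Φ.map c.iB, Φ.map c.iQ,
    h2, by
      change (Φ.map c.iQ).ad * Φ.map F.d * Φ.map c.iB = 0
      rw [← Φ.map_ad, ← Φ.map_mul, ← Φ.map_mul, c.sub, map_zero],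
    Φ.map_one c.B ▸ hA _ _ _ c.suppB, Φ.map_one c.Q ▸ hA' _ _ _ c.suppQ, by
      change Tame ((Φ.map c.iQ).ad * Φ.map F.d * Φ.map c.iQ)
      rw [← Φ.map_ad, ← Φ.map_mul, ← Φ.map_mul]
      exact Φ.tame c.tame⟩
  rw [thC_spec hc₁ hZ₁ hσ₁ (Φ.sym_phys hL hF) (Φ.sym_poinc hP) c₁, thC_spec hc hZ hσ hF hP c,
    ← h _ h1]
  refine hσ₁.rel' (Φ.sym_pz hL' h1) ((bd_rel (V := Φ.sym c.quot)
    (cut_rel (E := Φ.obj c.Q) ?_ ?_)).trans (Φ.sym_bd _).symm)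
  · change (Φ.map c.iQ).ad * Φ.map F.d * Φ.map c.iQ = Φ.map (c.iQ.ad * F.d * c.iQ)
    simp
  · change (Φ.map c.iQ).ad * Φ.map F.S * Φ.map c.iQ = Φ.map (c.iQ.ad * F.S * c.iQ)
    simp

end Vale.Agent.P228
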