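import Vale.Agent.P228.Base
import Vale.Agent.P228.Cut

/-! The invariant of controlled Poincare complexes over an open subset of `ℝ^n`.

Plans. `sg_inv`: induction on `j` with `ext_inv (th0_pinv ..)` (`Zs a b 0 = Icc a b`),
`theta_inv`, `Ctl.cover`. `sg_nat`: induction with `ext_nat`, `th0_pull`, `theta_nat`, `Pull.le`.
`sg_pull`: first `sg N' a' b' n X = sg N' a b n X` by `sg_nat` for the identity `Pull` on
`Ctl l' U'` (`fib_id`; `rel_of_mk` with `Equiv.refl`, `mk_rep`, `Pull.map_mk` show that it sends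
`X` to a complex `Rel` to `X`; `compTendsto id` is the identity), then `sg_nat` for `P` with the
same box. `Zs a b n = univ`. -/

namespace Vale.Agent.P228

open Filter Matrix Dag CDag Ctl Set

variable {I : Type} {n : ℕ} {l : Filter I} {U : Set (Fin n → ℝ)}

/-- The box conditions in the directions `≥ j`. -/
def Zs (a b : Fin n → ℝ) (j : ℕ) : Set (Fin n → ℝ) :=
  {y | ∀ t : Fin n, j ≤ t → a t ≤ y t ∧ y t ≤ b t}

/-- Upper half space. -/
def Hp (a : Fin n → ℝ) (j : ℕ) : Set (Fin n → ℝ) := {y | ∀ t : Fin n, (t : ℕ) = j → a t ≤ y t}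

/-- Lower half space. -/
def Hm (b : Fin n → ℝ) (j : ℕ) : Set (Fin n → ℝ) := {y | ∀ t : Fin n, (t : ℕ) = j → y t ≤ b t}

/-- The invariants. -/
noncomputable def sg (N : Set (Fin n → ℝ)) (a b : Fin n → ℝ) : ℕ → Sym (Ctl l U) → Germ l ℤ
  | 0 => Ext (Zs a b 0) (th0 N)
  | j + 1 => Theta (Hp a j) (Hm b j) (Zs a b (j + 1)) (sg N a b j)

variable {N : Set (Fin n → ℝ)} {a b : Fin n → ℝ}

theorem zs_top : Zs a b n = univ :=
  eq_univ_of_forall fun _ t ht => absurd t.isLt (not_lt.2 ht)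

theorem zs_zero : Zs a b 0 = Icc a b := by
  ext y
  exact ⟨fun h => ⟨fun t => (h t (Nat.zero_le _)).1, fun t => (h t (Nat.zero_le _)).2⟩,
    fun h t _ => ⟨h.1 t, h.2 t⟩⟩

theorem zs_inter (j : ℕ) : Zs a b (j + 1) ∩ Hp a j ∩ Hm b j ⊆ Zs a b j := by
  rintro y ⟨⟨h1, h2⟩, h3⟩ t ht
  rcases ht.eq_or_lt with h | h
  · exact ⟨h2 t h.symm, h3 t h.symm⟩
  · exact h1 t h

theorem cover_H (hab : a ≤ b) (j : ℕ) : Cover (Ctl l U) (Hp a j) (Hm b j) := by
  refine Ctl.cover ?_ ?_ (eq_univ_of_forall fun y => ?_)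
  · simp only [Hp, setOf_forall]
    exact isClosed_iInter fun t => isClosed_iInter fun _ =>
      isClosed_le continuous_const (continuous_apply t)
  · simp only [Hm, setOf_forall]
    exact isClosed_iInter fun t => isClosed_iInter fun _ =>
      isClosed_le (continuous_apply t) continuous_const
  · by_cases h : y ∈ Hp a j
    · exact Or.inl h
    · refine Or.inr fun t ht => ?_
      by_contra h'
      refine h fun t' ht' => ?_
      obtain rfl : t' = t := Fin.ext (ht'.trans ht.symm)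
      exact (hab t').trans (not_le.1 h').le

theorem sg_pinv (hN : IsCompact N) (hU : N ⊆ U) (hK : Icc a b ⊆ interior N) :
    PInv (Zs a b 0) (th0 (l := l) (U := U) N) := by
  rw [zs_zero]
  exact th0_pinv hN hU isClosed_Icc hK

theorem sg_inv (hN : IsCompact N) (hU : N ⊆ U) (hab : a ≤ b) (hK : Icc a b ⊆ interior N)
    (j : ℕ) : Inv (Zs a b j) (sg (l := l) (U := U) N a b j) := by
  induction j with
  | zero => exact ext_inv (sg_pinv hN hU hK)
  | succ j ih => exact theta_inv (cover_H hab j) (zs_inter j) ih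

theorem sg_inv_top (hN : IsCompact N) (hU : N ⊆ U) (hab : a ≤ b) (hK : Icc a b ⊆ interior N) :
    Inv univ (sg (l := l) (U := U) N a b n) := zs_top (a := a) (b := b) ▸ sg_inv hN hU hab hK n

variable {I' : Type} {l' : Filter I'} {U' N' : Set (Fin n → ℝ)} {a' b' : Fin n → ℝ}

theorem sg_nat (P : Pull l U l' U') (hP : P.π = id) (hUU : U ⊆ U') (hN : IsCompact N)
    (hU : N ⊆ U) (hK : Icc a b ⊆ interior N) (hN' : IsCompact N') (hU' : N' ⊆ U')
    (hab' : a' ≤ b') (hK' : Icc a' b' ⊆ interior N') (ha : a ≤ a') (hb : b' ≤ b) (j : ℕ)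
    {X : Sym (Ctl l' U')} (hX : X.PZ (Zs a' b' j)) :
    sg N a b j (P.fn.sym X) = (sg N' a' b' j X).compTendsto P.j P.hj := by
  have hab : a ≤ b := ha.trans (hab'.trans hb)
  have hle : ∀ {Z' Z : Set (Fin n → ℝ)}, Z' ⊆ Z → P.fn.Le Z' Z := fun h =>
    P.le (by rw [hP, image_id]; exact h)
  have hz : ∀ j, Zs a' b' j ⊆ Zs a b j := fun j y hy t ht =>
    ⟨(ha t).trans (hy t ht).1, (hy t ht).2.trans (hb t)⟩
  induction j generalizing X with
  | zero =>
    refine ext_nat P.fn (hle (hz 0)) (sg_pinv hN' hU' hK') (sg_pinv hN hU hK)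
      (fun g => g.compTendsto P.j P.hj) (fun F hF _ => ?_) hX
    rw [zs_zero] at hF
    exact th0_pull P hP hUU hN hU hN' hU' isClosed_Icc ((Icc_subset_Icc ha hb).trans hK) hK' hF
  | succ j ih =>
    exact theta_nat P.fn (cover_H hab' j) (zs_inter j) (sg_inv hN' hU' hab' hK' j)
      (cover_H hab j) (zs_inter j) (sg_inv hN hU hab hK j)
      (hle fun y hy t ht => (ha t).trans (hy t ht)) (hle fun y hy t ht => (hy t ht).trans (hb t))
      (hle (hz (j + 1))) (hle (hz j)) (fun g => g.compTendsto P.j P.hj) (fun _ hY => ih hY) hX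

theorem sg_pull (hU'o : IsOpen U') (P : Pull l U l' U') (hP : P.π = id) (hUU : U ⊆ U')
    (hN : IsCompact N) (hU : N ⊆ U) (hab : a ≤ b) (hK : Icc a b ⊆ interior N)
    (hN' : IsCompact N') (hU' : N' ⊆ U') (hK' : Icc a' b' ⊆ interior N') (ha : a' ≤ a)
    (hb : b ≤ b') {X : Sym (Ctl l' U')} (hX : X.Poinc) :
    sg N a b n (P.fn.sym X) = (sg N' a' b' n X).compTendsto P.j P.hj := by
  have hab' : a' ≤ b' := ha.trans (hab.trans hb)
  have hK'' : Icc a b ⊆ interior N' := (Icc_subset_Icc ha hb).trans hK'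
  have hu : X.PZ univ := ⟨hX, Sym.Phys.ctrZ (subset_univ _)⟩
  have hz : X.PZ (Zs a b n) := by rw [zs_top]; exact hu
  let P₀ : Pull l' U' l' U' := ⟨id, id, tendsto_id, uniformContinuous_id, fib_id hU'o subset_rfl⟩
  have hr : Sym.Rel (P₀.fn.sym X) X :=
    rel_of_mk (V := X) (V' := P₀.fn.sym X) (fun _ => Equiv.refl _)
      (relCtl_eq.mono (Eventually.of_forall fun i a b h => congrArg (X.E.pos i) h))
      (rep X.d) (rep X.S) (isC_rep _) (isC_rep _) (mk_rep _).symm (mk_rep _).symm rfl rfl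
  have h1 := sg_nat P₀ rfl subset_rfl hN' hU' hK' hN' hU' hab hK'' ha hb n hz
  rw [(sg_inv_top hN' hU' hab' hK').rel' hu hr] at h1
  have h2 : ∀ g : Germ l' ℤ, g.compTendsto P₀.j P₀.hj = g := fun g =>
    Germ.inductionOn g fun _ => rfl
  rw [h1, h2]
  exact sg_nat P hP hUU hN hU hK hN' hU' hab hK'' le_rfl le_rfl n hz

end Vale.Agent.P228
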