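import Vale.Agent.P228.SymB

/-! Suspension by a shift, and change of the form by a homotopy idempotent.

Plans. From `Shift`: `s, s†` commute with `d, d†, S`.
* `susp_poinc`: by `poinc_iff`/`Hq` calculus. `(X.susp s).S = blk 0 a a† 0` with
  `a = (I/2) S (1 + s)`; it is a chain map from `I • blk d† 0 (s† - 1) (-d†)` to
  `I • blk d (s - 1) 0 (-d)`. Compose with the swap so that the source is
  `I • blk (-d†) (s† - 1) 0 d†` and the map is `blk a 0 0 a†`. On the cone of `s - 1` the map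
  `blk s 0 0 s` is homotopic to `1` (homotopy `blk 0 0 1 0` up to a scalar), so
  `blk a 0 0 a† = blk ((I/2)(1+s)) 0 0 ((I/2)(1+s)) * blk S 0 0 (-S s†)` where the first factor is
  homotopic to `I • 1` and the second is `Hq` by `Hq.blk_tri` (here `s† s = 1` is used).
* `susp_bd`: `s j = 0`, `j† S j = X.S`, `j† d = d j†`. `Y = G.susp s`; `Y.bd` has coordinates
  `((x, y), (ξ, η))` and differential `D (x, y, ξ, η) =
  (-d x + (1 - s) y - S (1 + s) η / 2, d y + S (1 + s†) ξ / 2, d† ξ, (s† - 1) ξ - d† η)`.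
  The map is `f = row (row 0 j†) (row 0 ((1/2) • j† S))`; `f swap f† = X.S` exactly.
  `f` is `Hq`: `f = fW * diag (1, 1, S, S)` where `W` has the differential
  `DW (x, y, ξ, η) = (-d x + (1 - s) y - (1 + s) η / 2, d y + (1 + s†) ξ / 2, -d ξ,
  (s† - 1) ξ + d η)` and `fW = row (row 0 j†) (row 0 ((1/2) • j†))`. `diag (1, 1, S, S)` is `Hq`
  by `Hq.blk_tri` (the lower right block `blk S 0 0 S` is a map of lower triangular complexes:
  conjugate by the swap). `fW` has the inverse `gW = col (col 0 ((1/2) • j)) (col 0 j)`: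
  `fW gW = 1` and `1 - gW fW = DW H + H DW` with
  `H (x, y, ξ, η) = (0, -s† x / 2, y - η / 2, -s† x)`. (Checked by hand.)
* `tw_poinc`: `S - e S - S e† ≃ (1 - 2 e) S` and `(1 - 2e)² ≃ 1`.
* `tw_zero`, `tw_one`: the map is `1`; `Htp.mul_right`, `Htp.mul_left`, `Htp.ad`, `Htp.neg_d`. -/

namespace Vale.Agent.P228

open Dag CDag Complex Sym

variable {C : Type 1} {Pt : Type} [Dag C] [CDag C Pt]

theorem Susp_swap {E F : C} (a : Hom E E) (b : Hom F F) (t : Hom E F) :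
    Hq (blk a t 0 b) (blk b 0 t a) (blk 0 1 1 0) :=
  Hq.of_iso (v := blk 0 1 1 0) (by simp) (by simp) (by simp)

theorem Susp_swap' {E F : C} (a : Hom E E) (b : Hom F F) (t : Hom E F) :
    Hq (blk b 0 t a) (blk a t 0 b) (blk 0 1 1 0) :=
  Hq.of_iso (v := blk 0 1 1 0) (by simp) (by simp) (by simp)

theorem Susp_outer {E F E' F' W : C} (a : Hom E W) (b : Hom F W) (c : Hom W E') (d : Hom W F') :
    col a b * row c d = blk (a * c) (a * d) (b * c) (b * d) := by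
  rw [col_m, m_row, m_row, col_row]

theorem Sym.Shift.ad_d {X : Sym C} {s : Hom X.E X.E} (h : X.Shift s) :
    s.ad * X.d.ad = X.d.ad * s.ad := by simpa using ad_eq h.d

theorem Sym.Shift.ad_S {X : Sym C} {s : Hom X.E X.E} (h : X.Shift s) :
    s.ad * X.S = X.S * s.ad := by simpa [X.herm] using ad_eq h.S

theorem Sym.Shift.conj_S {X : Sym C} {s : Hom X.E X.E} (h : X.Shift s) :
    s * (X.S * s.ad) = X.S := by rw [← massoc, ← h.S, massoc, h.co, m_one]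

theorem Sym.Poinc.neg_d' {X : Sym C} (hX : X.Poinc) : Hq (-X.d) X.d.ad X.S := by
  simpa using Hq.neg_d hX

theorem Sym.susp_poinc {X : Sym C} {s : Hom X.E X.E} (h : X.Shift s) (hs : s.ad * s = 1)
    (hX : X.Poinc) : (X.susp s h).Poinc := by
  have h1 : Hq (blk X.d (s - 1) 0 (-X.d)) (blk X.d (s - 1) 0 (-X.d))
      (blk ((I / 2) • (1 + s)) 0 0 ((I / 2) • (1 + s))) := by
    refine (Hq.one.smul I_ne_zero).of_htp ?_ ⟨blk 0 0 ((-I / 2) • 1) 0, ?_⟩
    · simp [h.d]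
      refine ⟨?_, ?_⟩ <;> module
    · rw [one_eq_blk]
      simp
      refine ⟨?_, ?_⟩ <;> module
  have h2 : Hq (blk X.d (s - 1) 0 (-X.d)) (blk (-X.d.ad) (s.ad - 1) 0 X.d.ad)
      (blk X.S 0 0 (-(X.S * s.ad))) := by
    refine Hq.blk_tri ?_ ?_ ?_ hX
      (hX.neg_d'.mul (Hq.of_iso hs h.co h.ad_d.symm)).neg
    · simp [X.dd', h.ad_d]
    · simp [X.dd, h.d]
    · simp [X.dS, reas X.dS, h.ad_d, h.conj_S]
  have h3 := ((h1.mul h2).mul (Susp_swap _ _ _)).smul_d I_ne_zero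
  change Hq (I • blk X.d (s - 1) 0 (-X.d)) (-(I • blk X.d (s - 1) 0 (-X.d)).ad)
    (blk 0 ((I / 2) • (X.S * (1 + s))) ((-I / 2) • (X.S * (1 + s.ad))) 0)
  convert h3 using 1
  · simp
  · simp [h.conj_S, ← h.S, neg_div]

theorem Sym.susp_bd {G X : Sym C} {s : Hom G.E G.E} (h : G.Shift s) (j : Hom G.E X.E)
    (hj : j.ad * j = 1) (hs : s.ad * s + j * j.ad = 1) (hd : G.d * j = j * X.d)
    (hd' : G.d.ad * j = j * X.d.ad) (hS : G.S * j = j * X.S) (hG : G.Poinc) :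
    Rel X (G.susp s h).bd := by
  have sj : s * j = 0 := by
    have h1 := congrArg (fun x => s * (x * j)) hs
    simpa [hj, reas h.co] using h1
  have js : j.ad * s.ad = 0 := by simpa using ad_eq sj
  have jd : X.d * j.ad = j.ad * G.d := by simpa using (ad_eq hd').symm
  have ss : s.ad * s = 1 - j * j.ad := eq_sub_of_add_eq hs
  obtain ⟨D, hD⟩ : ∃ D : Hom (sum (sum G.E G.E) (sum G.E G.E)) (sum (sum G.E G.E) (sum G.E G.E)),
    D = (G.susp s h).bd.d := ⟨_, rfl⟩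
  have e : D = blk (blk (-G.d) (1 - s) 0 G.d)
      (blk 0 ((-1 / 2 : ℂ) • (G.S * (1 + s))) ((1 / 2 : ℂ) • (G.S * (1 + s.ad))) 0) 0
      (blk G.d.ad 0 (s.ad - 1) (-G.d.ad)) := by
    simp [hD, bd, susp, smul_smul, neg_div, ← mul_div_assoc]
  have h1 : Hq (blk (-G.d) 0 (s.ad - 1) G.d) (blk G.d.ad 0 (s.ad - 1) (-G.d.ad))
      (blk G.S 0 0 G.S) := by
    have h2 : Hq (blk G.d (s.ad - 1) 0 (-G.d)) (blk (-G.d.ad) (s.ad - 1) 0 G.d.ad)
        (blk G.S 0 0 G.S) := by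
      refine Hq.blk_tri ?_ ?_ ?_ hG hG.neg_d'
      · simp [G.dd', h.ad_d]
      · simp [G.dd, h.d']
      · simp [G.dS, h.ad_S]
    simpa using ((Susp_swap' _ _ _).mul h2).mul (Susp_swap _ _ _)
  have h2 : Hq (blk (blk (-G.d) (1 - s) 0 G.d)
      (blk 0 ((-1 / 2 : ℂ) • (1 + s)) ((1 / 2 : ℂ) • (1 + s.ad)) 0) 0
      (blk (-G.d) 0 (s.ad - 1) G.d)) D (blk 1 0 0 (blk G.S 0 0 G.S)) := by
    have h3 : D * D = 0 := hD ▸ (G.susp s h).bd.dd
    rw [e] at h3 ⊢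
    refine Hq.blk_tri h3 ?_ ?_ Hq.one h1
    · simp [G.dd, h.d, h.d', h.co]
      refine ⟨?_, ?_⟩ <;> module
    · simp [G.dS, h.ad_S, h.S]
  have h3 : Hq X.d (blk (blk (-G.d) (1 - s) 0 G.d)
      (blk 0 ((-1 / 2 : ℂ) • (1 + s)) ((1 / 2 : ℂ) • (1 + s.ad)) 0) 0
      (blk (-G.d) 0 (s.ad - 1) G.d)) (row (row 0 j.ad) (row 0 ((1 / 2 : ℂ) • j.ad))) := by
    refine ⟨?_, col (col 0 ((1 / 2 : ℂ) • j)) (col 0 j), ?_, Htp.of_eq ?_,
      blk (blk 0 0 ((1 / 2 : ℂ) • s.ad) 0) 0 (blk 0 (-1) s.ad 0) (blk 0 ((1 / 2 : ℂ) • 1) 0 0), ?_⟩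
    · simp [jd, js]
    · simp [hd, sj]
      module
    · simp [hj]
      module
    · rw [one_eq_blk, one_eq_blk]
      simp only [Susp_outer]
      simp [h.co, h.d', ss]
      refine ⟨⟨?_, ?_⟩, ?_, ?_, ?_⟩ <;> module
  have h4 : Hq X.d D (row (row 0 j.ad) (row 0 ((1 / 2 : ℂ) • (j.ad * G.S)))) := by
    simpa using h3.mul h2
  have e2 : row (row (0 : Hom X.E G.E) j.ad) (row (0 : Hom X.E G.E) ((1 / 2 : ℂ) • (j.ad * G.S))) *
      blk 0 (1 : Hom (sum G.E G.E) (sum G.E G.E)) (1 : Hom (sum G.E G.E) (sum G.E G.E)) 0 *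
      (row (row (0 : Hom X.E G.E) j.ad)
        (row (0 : Hom X.E G.E) ((1 / 2 : ℂ) • (j.ad * G.S)))).ad = X.S := by
    simp [G.herm, hS, reas hj, map_ofNat]
    module
  exact ⟨_, hD ▸ h4, Htp.of_eq e2⟩

variable {X : Sym C} {e : Hom X.E X.E} (he : X.d * e = e * X.d)

theorem Sym.tw_poinc (hX : X.Poinc) (h1 : Htp X.d X.d (e * e) e)
    (h2 : Htp X.d (-X.d.ad) (e * X.S) (X.S * e.ad)) : (X.tw e he).Poinc := by
  have c1 : X.d * (1 - e - e) = (1 - e - e) * X.d := by simp [he]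
  have c2 : Htp X.d X.d ((1 - e - e) * (1 - e - e)) 1 := by
    have h3 := (Htp.refl (d' := X.d) (d := X.d) (1 - (4 : ℂ) • e)).add (h1.smul 4)
    refine ((Htp.of_eq ?_).trans h3).trans (Htp.of_eq ?_)
    · simp
      module
    · simp
  have h3 : Hq X.d X.d (1 - e - e) := ⟨c1, _, c1, c2, c2⟩
  refine (h3.mul hX).of_htp ((X.tw e he).dS.trans (m_neg _ _).symm) ?_
  simpa [tw] using (Htp.refl (X.S - e * X.S)).sub h2

theorem Sym.tw_zero (h : Htp X.d X.d e 0) : Rel (X.tw e he) X := by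
  have c1 : X.d * X.S = X.S * (-X.d.ad) := by simp [X.dS]
  refine ⟨(1 : Hom X.E X.E), Hq.one, ?_⟩
  change Htp X.d (-X.d.ad) ((1 : Hom X.E X.E) * X.S * (1 : Hom X.E X.E).ad)
    (X.S - e * X.S - X.S * e.ad)
  simpa using (((Htp.refl X.S).sub (h.mul_right c1)).sub (h.ad.neg_d.mul_left c1)).symm

theorem Sym.tw_one (h : Htp X.d X.d e 1) : Rel (X.tw e he) X.neg := by
  have c1 : X.d * X.S = X.S * (-X.d.ad) := by simp [X.dS]
  refine ⟨(1 : Hom X.E X.E), Hq.one, ?_⟩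
  change Htp X.d (-X.d.ad) ((1 : Hom X.E X.E) * -X.S * (1 : Hom X.E X.E).ad)
    (X.S - e * X.S - X.S * e.ad)
  simpa using (((Htp.refl X.S).sub (h.mul_right c1)).sub (h.ad.neg_d.mul_left c1)).symm

end Vale.Agent.P228
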