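import Vale.Agent.P228.Cut
import Vale.Agent.P228.Susp

/-! Cutting a suspension.

Plan. `q = iQ†`, `π = iQ q`. `G = (Q, q d iQ, q S iQ)` is a Poincare symmetric complex (a direct
summand, since `π` commutes with `d`, `d†`, `S`), `sQ = q s iQ` is a `Shift` of `G`
(`q s iB = 0` gives `q s = sQ q`, so `sQ sQ† = q s s† iQ = 1`). The maps `blk iB 0 0 iB`,
`blk iQ 0 0 iQ` form a cut `c` of `X.susp s`; `c.quot` is `Rel` to `G.susp sQ` by the identity.
`susp_bd` with `j = q j₀`, `bd_rel`, `cut_pz`, `theta_phys`, `susp_poinc`, `Phys.add`-like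
support bound (`supp_one_sum`). -/

namespace Vale.Agent.P228

open Dag CDag Complex Sym

variable {C : Type 1} {Pt : Type} [Dag C] [CDag C Pt] {G : Type} [AddCommGroup G]
  [IsAddTorsionFree G] {A A' Z Z' : Set Pt} {σ : Sym C → G}

theorem suspCut_comm {D : Type 1} [Dag D] {E Q : D} {i : Hom E Q} {a : Hom E E}
    (qq : i.ad * i = 1) (h : a * (i * i.ad) = i * i.ad * a) :
    (∀ {W : D} (x : Hom E W), i.ad * (a * (i * (i.ad * x))) = i.ad * (a * x)) ∧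
      ∀ {W : D} (x : Hom Q W), i * (i.ad * (a * (i * x))) = a * (i * x) := by
  refine ⟨fun x => ?_, fun x => ?_⟩
  · simpa [reas qq] using congrArg (fun y => i.ad * (y * x)) h
  · simpa [reas qq] using (congrArg (fun y => y * (i * x)) h).symm

theorem theta_susp (hc : Cover C A A') (hZ : Z ∩ A ∩ A' ⊆ Z') (hσ : Inv Z' σ) {X X₀ : Sym C}
    {s : Hom X.E X.E} (h : X.Shift s) (hs : s.ad * s = 1) (hP : X.Poinc) (hX : X.Phys Z)
    {B Q : C} (iB : Hom X.E B) (iQ : Hom X.E Q) (hsp : Split iB iQ)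
    (hB : supp (1 : Hom B B) ⊆ A) (hQ : supp (1 : Hom Q Q) ⊆ A')
    (hd : X.d * (iQ * iQ.ad) = iQ * iQ.ad * X.d) (hS : X.S * (iQ * iQ.ad) = iQ * iQ.ad * X.S)
    (hsB : iQ.ad * s * iB = 0) (ht : Tame (iQ.ad * X.d * iQ)) (j : Hom X.E X₀.E)
    (hj : j.ad * j = 1) (hjQ : iQ * iQ.ad * j = j)
    (hjs : s.ad * (iQ * iQ.ad) * s + j * j.ad = iQ * iQ.ad) (h1 : X.d * j = j * X₀.d)
    (h2 : X.d.ad * j = j * X₀.d.ad) (h3 : X.S * j = j * X₀.S) :
    Theta A A' Z σ (X.susp s h) = 2 • σ X₀ := by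
  have qq := hsp.qq
  have qb := hsp.qb
  have hd' : X.d.ad * (iQ * iQ.ad) = iQ * iQ.ad * X.d.ad := by simpa using (ad_eq hd).symm
  obtain ⟨l1, r1⟩ := suspCut_comm qq hd
  obtain ⟨l2, r2⟩ := suspCut_comm qq hd'
  obtain ⟨l3, r3⟩ := suspCut_comm qq hS
  have l4 : ∀ {W : C} (x : Hom X.E W), iQ.ad * (s * (iQ * (iQ.ad * x))) = iQ.ad * (s * x) := by
    intro W x
    have k := congrArg (fun y => iQ.ad * (s * (y * x))) hsp.tot
    have k2 : iQ.ad * (s * (iB * (iB.ad * x))) = 0 := by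
      rw [← massoc s, ← massoc, ← massoc iQ.ad, hsB, zero_m]
    simpa [k2] using k
  have db : iQ.ad * (X.d * iB) = 0 := by rw [← l1, qb]; simp
  have sb : iQ.ad * (s * iB) = 0 := by simpa using hsB
  have pj : iQ * (iQ.ad * j) = j := by simpa using hjQ
  let c₀ : CutD A A' X := ⟨B, Q, iB, iQ, hsp, by simpa using db, hB, hQ, ht⟩
  have hG : c₀.quot.Poinc := by
    obtain ⟨-, g, g1, g2, g3⟩ := hP
    change Hq (iQ.ad * X.d * iQ) (-(iQ.ad * X.d * iQ).ad) (iQ.ad * X.S * iQ)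
    have a1 : iQ.ad * X.d * iQ * iQ.ad = iQ.ad * X.d := by simpa using l1 (1 : Hom X.E X.E)
    have a2 : X.d * iQ = iQ * (iQ.ad * X.d * iQ) := by simpa using (r1 (1 : Hom Q Q)).symm
    have a3 : -(iQ.ad * X.d * iQ).ad * iQ.ad = iQ.ad * -X.d.ad := by simpa using l2 (1 : Hom X.E X.E)
    have a4 : -X.d.ad * iQ = iQ * -(iQ.ad * X.d * iQ).ad := by simpa using (r2 (1 : Hom Q Q)).symm
    refine ⟨?_, iQ.ad * g * iQ, ?_, ?_, ?_⟩
    · simp [l1, l3, reas X.dS]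
    · have k := congrArg (fun y => iQ.ad * (y * iQ)) g1
      have k2 : iQ * (iQ.ad * (X.d * iQ)) = X.d * iQ := by simpa using r1 (1 : Hom Q Q)
      simpa [l2, k2] using k
    · refine (Htp.of_eq ?_).trans (((g2.mul_left a1).mul_right a2).trans (Htp.of_eq ?_))
      · simp [l3]
      · simp [qq]
    · refine (Htp.of_eq ?_).trans (((g3.mul_left a3).mul_right a4).trans (Htp.of_eq ?_))
      · have k2 : iQ * (iQ.ad * (X.S * iQ)) = X.S * iQ := by simpa using r3 (1 : Hom Q Q)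
        simp [k2]
      · simp [qq]
  have k1 : iQ * (iQ.ad * (X.d * iQ)) = X.d * iQ := by simpa using r1 (1 : Hom Q Q)
  have k3 : iQ * (iQ.ad * (X.S * iQ)) = X.S * iQ := by simpa using r3 (1 : Hom Q Q)
  have hsh : c₀.quot.Shift (iQ.ad * s * iQ) := by
    refine ⟨?_, ?_, ?_, ?_⟩
    · change iQ.ad * X.d * iQ * (iQ.ad * s * iQ) = iQ.ad * s * iQ * (iQ.ad * X.d * iQ)
      simp [l1, k1, reas h.d]
    · change iQ.ad * X.d * iQ * (iQ.ad * s * iQ).ad = (iQ.ad * s * iQ).ad * (iQ.ad * X.d * iQ)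
      simp [l1, k1, reas h.d']
    · change iQ.ad * X.S * iQ * (iQ.ad * s * iQ) = iQ.ad * s * iQ * (iQ.ad * X.S * iQ)
      simp [l3, k3, reas h.S]
    · change iQ.ad * s * iQ * (iQ.ad * s * iQ).ad = (1 : Hom Q Q)
      simp [l4, reas h.co, qq]
  have hb : Rel X₀ (c₀.quot.susp _ hsh).bd := by
    refine susp_bd hsh (iQ.ad * j) ?_ ?_ ?_ ?_ ?_ hG
    · change (iQ.ad * j).ad * (iQ.ad * j) = (1 : Hom X₀.E X₀.E)
      simp [pj, hj]
    · have k := congrArg (fun y => iQ.ad * (y * iQ)) hjs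
      change (iQ.ad * s * iQ).ad * (iQ.ad * s * iQ) + iQ.ad * j * (iQ.ad * j).ad = (1 : Hom Q Q)
      simpa [qq] using k
    · change iQ.ad * X.d * iQ * (iQ.ad * j) = iQ.ad * j * X₀.d
      simp [pj, h1]
    · change (iQ.ad * X.d * iQ).ad * (iQ.ad * j) = iQ.ad * j * X₀.d.ad
      simp [pj, h2]
    · change iQ.ad * X.S * iQ * (iQ.ad * j) = iQ.ad * j * X₀.S
      simp [pj, h3]
  let c : CutD A A' (X.susp s h) := ⟨sum B B, sum Q Q, blk iB 0 0 iB, blk iQ 0 0 iQ,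
    cut_split hsp hsp, by
      change (blk iQ 0 0 iQ).ad * (I • blk X.d (s - 1) 0 (-X.d)) * blk iB 0 0 iB = 0
      simp [db, sb, qb],
    (supp_one_sum _ _).trans (Set.union_subset hB hB),
    (supp_one_sum _ _).trans (Set.union_subset hQ hQ), by
      change Tame ((blk iQ 0 0 iQ).ad * (I • blk X.d (s - 1) 0 (-X.d)) * blk iQ 0 0 iQ)
      simpa using tame_smul I (tame_blk (iQ.ad * (s - (1 : Hom X.E X.E)) * iQ) ht (tame_neg ht))⟩
  have hr : Rel c.quot (c₀.quot.susp _ hsh) := by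
    have e1 : (blk iQ 0 0 iQ).ad * (I • blk X.d (s - (1 : Hom X.E X.E)) 0 (-X.d)) *
        blk iQ 0 0 iQ =
        I • blk (iQ.ad * X.d * iQ) (iQ.ad * s * iQ - (1 : Hom Q Q)) 0 (-(iQ.ad * X.d * iQ)) := by
      simp [qq]
    have e2 : (blk iQ 0 0 iQ).ad * blk 0 ((I / 2) • (X.S * ((1 : Hom X.E X.E) + s)))
          ((-I / 2) • (X.S * ((1 : Hom X.E X.E) + s.ad))) 0 * blk iQ 0 0 iQ =
        blk 0 ((I / 2) • (iQ.ad * X.S * iQ * ((1 : Hom Q Q) + iQ.ad * s * iQ)))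
          ((-I / 2) • (iQ.ad * X.S * iQ * ((1 : Hom Q Q) + (iQ.ad * s * iQ).ad))) 0 := by
      simp [l3]
    exact cut_rel (E := sum Q Q) e1 e2
  have hph : (X.susp s h).Phys Z := (supp_one_sum _ _).trans (Set.union_subset hX hX)
  have hp := susp_poinc h hs hP
  rw [theta_phys hc hZ hσ hph hp c, hσ.rel' (cut_pz hZ hph hp c) (hb.trans (bd_rel hr.symm))]

end Vale.Agent.P228
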