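import Vale.Agent.P228.LatOb
import Vale.Agent.P228.Sigma
import Vale.Agent.P228.SuspCut

/-! Normalisation: the invariant of the lattice complex itself.

Plan. Choose `c i : Tor n L (T.m i)` with `dist (xr (c i)) z ≤ msh (T.m i)` (`exists_near`; for
`n = 0` the norm is `0`). Bases: `Bj j` = subtype `∀ t : Fin n, j ≤ t → x t = c i t`, and for
`j < n` the parts `Up j`, `Dn j` of `Bj (j + 1)` with `(c i j).val < (x j).val`, respectively
`(x j).val ≤ (c i j).val`; all three are `Cl j`, and `Bj j` is `Cl j`.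
Claim: `sg N z z j ((Bj j).sym j _) = 2 ^ (j + 2)` for `j ≤ n`.
`j = 0`: `ext_phys (sg_pinv ..)`, `th0_point` (`rd _ 0 = 0`, `rS _ 0 = 1`, one index, its position
tends to `z`). Step: `sym_succ`, `Inv.rel'` (`sg_inv`, `Phys.ctrZ`), then `theta_susp` with
`X = (Bj (j+1)).sym j`, `X₀ = (Bj j).sym j`, `iB = inc (Up j)`, `iQ = inc (Dn j)`,
`j = inc (Bj j)`; `inc_d`, `inc_S`, `inc_ad`, `inc_inc` give most hypotheses
(`iQ† d iQ = ((Dn j).sym j _).d` is tame). Supports by `supp_one_subset` and `hq`.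
`iQ† s iB = 0` and `s† π s + j j† = π` are equations of `lift`ed matrices (`lift_mul`, `lift_add`,
`lift_ad`) that hold at entries with a base point `x` with `‖xr x‖ < L + 1` (`val_succ`):
`mk_eq_of_near` with `lift_entry`. Finally `rel_of_range` between `T.full` and `Bj n`. -/

namespace Vale.Agent.P228

open Filter Matrix Dag CDag Ctl Sym Metric

variable {I : Type} {n L : ℕ} {l : Filter I}

section Gen

variable {Y : Type} [PseudoMetricSpace Y] {U : Set Y} {T : TorD n L l U}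

open Classical in
/-- The base points with a property. -/
@[reducible] noncomputable def nsub (T : TorD n L l U) (R : ∀ i, Tor n L (T.m i) → Prop) : Bas T where
  P i := {x // R i x}
  e _ := Subtype.val

theorem nsub_range (R : ∀ i, Tor n L (T.m i) → Prop) (i : I) (x : Tor n L (T.m i)) :
    x ∈ Set.range ((nsub T R).e i) ↔ R i x := by
  simp [nsub]

theorem nsub_cl (R : ∀ i, Tor n L (T.m i) → Prop) {j : ℕ}
    (h : ∀ i, ∀ t < j, ∀ x, R i x ↔ R i (x + stp n L (T.m i) t)) : (nsub T R).Cl j := fun i =>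
  ⟨Subtype.val_injective, fun t ht x => by rw [nsub_range, nsub_range]; exact h i t ht x⟩

variable {B B' B'' : Bas T} {j : ℕ}

/-- Lifted matrices as maps. -/
noncomputable def nlf (B B' : Bas T) (j : ℕ) (M : ∀ i, Matrix (B.P i) (B'.P i) ℂ) :
    Hom (B.ob j) (B'.ob j) := mk' (B.ob j) (B'.ob j) (fun i => lift (M i) j)

/-- Controlled lifted matrices. -/
def NC (B B' : Bas T) (j : ℕ) (M : ∀ i, Matrix (B.P i) (B'.P i) ℂ) : Prop :=
  IsC (X := B.ob j) (X' := B'.ob j) (fun i => lift (M i) j)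

theorem NC.mul {M : ∀ i, Matrix (B.P i) (B'.P i) ℂ} {M' : ∀ i, Matrix (B'.P i) (B''.P i) ℂ}
    (h : NC B B' j M) (h' : NC B' B'' j M') : NC B B'' j (fun i => M i * M' i) := by
  have := IsC.mul h h'
  unfold NC
  simp only [lift_mul]
  exact this

theorem NC.add {M M' : ∀ i, Matrix (B.P i) (B'.P i) ℂ}
    (h : NC B B' j M) (h' : NC B B' j M') : NC B B' j (fun i => M i + M' i) := by
  have := IsC.add h h'
  unfold NC
  simp only [lift_add]
  exact this

theorem NC.ad {M : ∀ i, Matrix (B.P i) (B'.P i) ℂ} (h : NC B B' j M) :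
    NC B' B j (fun i => (M i)ᴴ) := by
  have := IsC.ad h
  unfold NC
  simp only [lift_ad]
  exact this

theorem nlf_mul {M : ∀ i, Matrix (B.P i) (B'.P i) ℂ} {M' : ∀ i, Matrix (B'.P i) (B''.P i) ℂ}
    (h : NC B B' j M) (h' : NC B' B'' j M') :
    nlf B B' j M * nlf B' B'' j M' = nlf B B'' j (fun i => M i * M' i) := by
  unfold nlf
  simp only [lift_mul]
  exact (mk_mul h h').symm

theorem nlf_add {M M' : ∀ i, Matrix (B.P i) (B'.P i) ℂ} (h : NC B B' j M) (h' : NC B B' j M') :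
    nlf B B' j M + nlf B B' j M' = nlf B B' j (fun i => M i + M' i) := by
  unfold nlf
  simp only [lift_add]
  exact (mk_add h h').symm

theorem nlf_ad {M : ∀ i, Matrix (B.P i) (B'.P i) ℂ} (h : NC B B' j M) :
    (nlf B B' j M).ad = nlf B' B j (fun i => (M i)ᴴ) := by
  unfold nlf
  simp only [lift_ad]
  exact (mk_ad h).symm

theorem nlf_one : nlf B B j (fun _ => 1) = 1 := by
  unfold nlf
  simp only [lift_one]
  exact mk_one

theorem nlf_zero : nlf B B' j (fun _ => 0) = 0 := by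
  unfold nlf
  simp only [lift_zero]
  exact mk_zero

open Classical in
/-- The indicator of the range of another base. -/
noncomputable def nind (B' : Bas T) (i : I) (x : Tor n L (T.m i)) : ℂ :=
  if x ∈ Set.range (B'.e i) then 1 else 0

theorem nind_pos {R : ∀ i, Tor n L (T.m i) → Prop} {i : I} {x : Tor n L (T.m i)} (h : R i x) :
    nind (nsub T R) i x = 1 := if_pos ((nsub_range R i x).2 h)

theorem nind_neg {R : ∀ i, Tor n L (T.m i) → Prop} {i : I} {x : Tor n L (T.m i)} (h : ¬ R i x) :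
    nind (nsub T R) i x = 0 := if_neg fun k => h ((nsub_range R i x).1 k)

theorem n_mid {α β γ : Type} {_ : Fintype β} {A : Matrix α β ℂ} {D : Matrix β γ ℂ} {a : α} {c : γ}
    (h : (A * D) a c ≠ 0) : ∃ b, A a b ≠ 0 ∧ D b c ≠ 0 := by
  obtain ⟨b, -, hb⟩ := Finset.exists_ne_zero_of_sum_ne_zero (s := Finset.univ) h
  exact ⟨b, left_ne_zero_of_mul hb, right_ne_zero_of_mul hb⟩

/-- Diagonal matrices. -/
def ndg (B : Bas T) (f : ∀ i, Tor n L (T.m i) → ℂ) (i : I) : Matrix (B.P i) (B.P i) ℂ :=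
  diagonal fun x => f i (B.e i x)

theorem ndg_mul (f : ∀ i, Tor n L (T.m i) → ℂ) (i : I) (M : Matrix (B.P i) (B'.P i) ℂ)
    (x : B.P i) (y : B'.P i) : (ndg B f i * M) x y = f i (B.e i x) * M x y := by
  rw [ndg, diagonal_mul]

theorem nc_dg (f : ∀ i, Tor n L (T.m i) → ℂ) : NC B B j (ndg B f) :=
  Bas.isC_of_adj _ fun i a b h => by
    have h1 := (lift_ne_zero h).1
    have h2 : cpt (j := j) a = cpt (j := j) b := by
      by_contra k
      exact h1 (diagonal_apply_ne _ k)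
    rw [h2]
    exact Adj.refl _

theorem incR_mul (h : B.Cl 0) (h' : B'.Cl 0) (i : I) :
    B.incR B' i * B'.incR B i = ndg B (nind B') i := by
  ext x y
  simp only [Bas.incR, ndg, nind, mul_apply, of_apply, diagonal_apply]
  by_cases hx : B.e i x ∈ Set.range (B'.e i)
  · obtain ⟨v, hv⟩ := hx
    rw [Finset.sum_eq_single v]
    · have : B.e i x ∈ Set.range (B'.e i) := ⟨v, hv⟩
      simp only [hv, if_true, one_mul, this, (h i).1.eq_iff]
    · intro w _ hw
      rw [if_neg, zero_mul]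
      intro k
      exact hw ((h' i).1 (k.symm.trans hv.symm))
    · simp
  · rw [Finset.sum_eq_zero]
    · simp only [hx, if_false, ite_self]
    · intro w _
      rw [if_neg, zero_mul]
      exact fun k => hx ⟨w, k.symm⟩

theorem inc_inc_ad (h : B.Cl 0) (h' : B'.Cl 0) :
    B.inc B' j * (B.inc B' j).ad = nlf B B j (ndg B (nind B')) := by
  rw [Bas.inc_ad]
  refine (nlf_mul (B.isC_inc B' j) (B'.isC_inc B j)).trans ?_
  simp only [incR_mul h h']

theorem sh_dg (h : B.Cl (j + 1)) (f : ∀ i, Tor n L (T.m i) → ℂ) (i : I) :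
    (sh (B.e i) j)ᴴ * ndg B f i * sh (B.e i) j =
      ndg B (fun i x => f i (x + stp n L (T.m i) j)) i := by
  have h1 : ndg B f i * sh (B.e i) j =
      sh (B.e i) j * ndg B (fun i x => f i (x + stp n L (T.m i) j)) i := by
    ext x y
    simp only [ndg, diagonal_mul, mul_diagonal, sh, of_apply]
    split_ifs with k
    · rw [k, mul_one, one_mul]
    · rw [mul_zero, zero_mul]
  rw [Matrix.mul_assoc, h1, ← Matrix.mul_assoc, (h i).shf.iso j (Nat.lt_succ_self j),
    Matrix.one_mul]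

end Gen

section Geo

variable {z : Fin n → ℝ} {ρ : ℝ} {T : TorD n L l (ball z ρ)}

theorem nlf_near (hL : closedBall z ρ ⊆ closedBall 0 L)
    (hq : ∀ ε > 0, ∀ᶠ i in l, ∀ x, (T.q i x ∈ ball z ρ ∨ xr x ∈ ball z ρ) →
      dist (T.q i x) (xr x) < ε) {B B' : Bas T} {j : ℕ}
    {M M' : ∀ i, Matrix (B.P i) (B'.P i) ℂ} (hM : NC B B' j M)
    (h : ∀ i x y, (‖xr (B.e i x)‖ < L + 1 ∨ ‖xr (B'.e i y)‖ < L + 1) → M i x y = M' i x y) :
    nlf B B' j M = nlf B B' j M' := by
  refine mk_eq_of_near hM fun y hy => ?_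
  obtain ⟨δ, hδ, hs⟩ := Metric.isOpen_iff.1 isOpen_ball y hy
  refine ⟨δ, hδ, (hq 1 one_pos).mono fun i hi a b hab => lift_entry _ _ _ _ (h i _ _ ?_)⟩
  have key : ∀ x, dist (T.q i x) y < δ → ‖xr x‖ < L + 1 := fun x hx => by
    have h1 := hi x (Or.inl (hs hx))
    have h2 := mem_closedBall_zero_iff.1 (hL (ball_subset_closedBall (hs hx)))
    have h3 := norm_sub_norm_le (xr x) (T.q i x)
    rw [← dist_eq_norm, dist_comm] at h3
    linarith
  exact hab.imp (key _) (key _)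

theorem nphys (hm : Tendsto T.m l atTop)
    (hq : ∀ ε > 0, ∀ᶠ i in l, ∀ x, (T.q i x ∈ ball z ρ ∨ xr x ∈ ball z ρ) →
      dist (T.q i x) (xr x) < ε) (B : Bas T) (j : ℕ) {Z : Set (Fin n → ℝ)}
    (h : ∀ y ∉ Z, ∃ t : Fin n, ∃ η > 0, ∀ i (x : B.P i), msh (T.m i) < η →
      η ≤ |xr (B.e i x) t - y t|) : supp (1 : Hom (B.ob j) (B.ob j)) ⊆ Z := by
  refine supp_one_subset.2 fun y hy hyZ => ?_
  obtain ⟨δ, hδ, hs⟩ := Metric.isOpen_iff.1 isOpen_ball y hy
  obtain ⟨t, η, hη, h1⟩ := h y hyZ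
  refine ⟨min δ (η / 2), lt_min hδ (half_pos hη), ?_⟩
  filter_upwards [hq (η / 2) (half_pos hη),
    (tendsto_msh.comp hm).eventually (gt_mem_nhds hη)] with i hi hi' a
  by_contra k
  rw [not_le, lt_min_iff] at k
  have h2 := hi _ (Or.inl (hs k.1))
  have h3 := h1 i (cpt (j := j) a) hi'
  have h4 := dist_le_pi_dist (xr (B.e i (cpt (j := j) a))) y t
  have h5 := dist_triangle_left (xr (B.e i (cpt (j := j) a))) y (T.q i (B.e i (cpt (j := j) a)))
  have h6 : dist (T.q i (B.e i (cpt (j := j) a))) y < η / 2 := k.2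
  rw [Real.dist_eq] at h4
  linarith

variable (T) (c : ∀ i, Tor n L (T.m i))

/-- The layer through `c`. -/
@[reducible] noncomputable def nB (j : ℕ) : Bas T :=
  nsub T fun i x => ∀ t : Fin n, j ≤ t → x t = c i t

/-- The upper part. -/
@[reducible] noncomputable def nU (t : Fin n) : Bas T :=
  nsub T fun i x => (∀ u : Fin n, (t : ℕ) + 1 ≤ u → x u = c i u) ∧ (c i t).val < (x t).val

/-- The lower part. -/
@[reducible] noncomputable def nD (t : Fin n) : Bas T :=
  nsub T fun i x => (∀ u : Fin n, (t : ℕ) + 1 ≤ u → x u = c i u) ∧ (x t).val ≤ (c i t).val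

theorem nstp {m j t : ℕ} (ht : t < j) (x v : Tor n L m) :
    (∀ u : Fin n, j ≤ u → x u = v u) ↔ ∀ u : Fin n, j ≤ u → (x + stp n L m t) u = v u :=
  forall₂_congr fun u hu => by rw [tor_stp_ne x (by omega)]

theorem nB_cl (j : ℕ) : (nB T c j).Cl j := nsub_cl _ fun _ _ ht x => nstp ht x _

theorem nU_cl (t : Fin n) : (nU T c t).Cl t := nsub_cl _ fun _ u hu x => by
  rw [tor_stp_ne x (by omega : (t : ℕ) ≠ u), nstp (by omega : u < t + 1)]

theorem nD_cl (t : Fin n) : (nD T c t).Cl t := nsub_cl _ fun _ u hu x => by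
  rw [tor_stp_ne x (by omega : (t : ℕ) ≠ u), nstp (by omega : u < t + 1)]

variable {T c}

theorem xr_mono {m : ℕ} {x v : Tor n L m} {t : Fin n} (h : (x t).val ≤ (v t).val) :
    xr x t ≤ xr v t := by
  have : ((x t).val : ℝ) ≤ (v t).val := by exact_mod_cast h
  have h2 := mul_le_mul_of_nonneg_right this (msh_pos m).le
  simp only [xr]
  linarith

theorem nB_phys (hm : Tendsto T.m l atTop)
    (hq : ∀ ε > 0, ∀ᶠ i in l, ∀ x, (T.q i x ∈ ball z ρ ∨ xr x ∈ ball z ρ) →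
      dist (T.q i x) (xr x) < ε) (hc : ∀ i, dist (xr (c i)) z ≤ msh (T.m i)) (j j' : ℕ) :
    supp (1 : Hom ((nB T c j).ob j') ((nB T c j).ob j')) ⊆ Zs z z j := by
  refine nphys hm hq _ _ fun y hy => ?_
  simp only [Zs, Set.mem_ofPred_eq, not_forall] at hy
  obtain ⟨t, ht, hy⟩ := hy
  have h0 : 0 < |z t - y t| := abs_pos.2 (sub_ne_zero.2 fun k => hy ⟨k.le, k.ge⟩)
  refine ⟨t, _, half_pos h0, fun i x hi => ?_⟩
  have h1 : xr x.1 t = xr (c i) t := by simp only [xr, x.2 t ht]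
  have h2 := (dist_le_pi_dist (xr (c i)) z t).trans (hc i)
  have h3 := abs_sub_le (z t) (xr (c i) t) (y t)
  rw [Real.dist_eq, abs_sub_comm] at h2
  change _ ≤ |xr x.1 t - y t|
  rw [h1]
  linarith

theorem nU_phys (hm : Tendsto T.m l atTop)
    (hq : ∀ ε > 0, ∀ᶠ i in l, ∀ x, (T.q i x ∈ ball z ρ ∨ xr x ∈ ball z ρ) →
      dist (T.q i x) (xr x) < ε) (hc : ∀ i, dist (xr (c i)) z ≤ msh (T.m i)) (t : Fin n) :
    supp (1 : Hom ((nU T c t).ob t) ((nU T c t).ob t)) ⊆ Hp z t := by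
  refine nphys hm hq _ _ fun y hy => ?_
  simp only [Hp, Set.mem_ofPred_eq, not_forall, not_le] at hy
  obtain ⟨u, hu, hy⟩ := hy
  obtain rfl : u = t := Fin.ext hu
  refine ⟨u, _, half_pos (sub_pos.2 hy), fun i x hi => ?_⟩
  have h1 := xr_mono x.2.2.le
  have h2 := (dist_le_pi_dist (xr (c i)) z u).trans (hc i)
  rw [Real.dist_eq, abs_le] at h2
  refine le_trans ?_ (le_abs_self _)
  change _ ≤ xr x.1 u - y u
  linarith [h2.1]

theorem nD_phys (hm : Tendsto T.m l atTop)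
    (hq : ∀ ε > 0, ∀ᶠ i in l, ∀ x, (T.q i x ∈ ball z ρ ∨ xr x ∈ ball z ρ) →
      dist (T.q i x) (xr x) < ε) (hc : ∀ i, dist (xr (c i)) z ≤ msh (T.m i)) (t : Fin n) :
    supp (1 : Hom ((nD T c t).ob t) ((nD T c t).ob t)) ⊆ Hm z t := by
  refine nphys hm hq _ _ fun y hy => ?_
  simp only [Hm, Set.mem_ofPred_eq, not_forall, not_le] at hy
  obtain ⟨u, hu, hy⟩ := hy
  obtain rfl : u = t := Fin.ext hu
  refine ⟨u, _, half_pos (sub_pos.2 hy), fun i x hi => ?_⟩
  have h1 := xr_mono x.2.2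
  have h2 := (dist_le_pi_dist (xr (c i)) z u).trans (hc i)
  rw [Real.dist_eq, abs_le] at h2
  refine le_trans ?_ (neg_le_abs _)
  change _ ≤ -(xr x.1 u - y u)
  linarith [h2.2]

theorem n_cl0 {B : Bas T} {j : ℕ} (h : B.Cl j) : B.Cl 0 := fun i => (h i).mono (Nat.zero_le j)

theorem n_split (t : Fin n) :
    Split ((nB T c (t + 1)).inc (nU T c t) t) ((nB T c (t + 1)).inc (nD T c t) t) where
  bb := by
    rw [Bas.inc_ad]
    refine Bas.inc_inc _ _ (n_cl0 (nU_cl T c t)) (n_cl0 (nB_cl T c _)) fun i x hx => ?_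
    rw [nsub_range] at hx ⊢
    exact hx.1
  qq := by
    rw [Bas.inc_ad]
    refine Bas.inc_inc _ _ (n_cl0 (nD_cl T c t)) (n_cl0 (nB_cl T c _)) fun i x hx => ?_
    rw [nsub_range] at hx ⊢
    exact hx.1
  tot := by
    rw [inc_inc_ad (n_cl0 (nB_cl T c _)) (n_cl0 (nU_cl T c t)),
      inc_inc_ad (n_cl0 (nB_cl T c _)) (n_cl0 (nD_cl T c t)), nlf_add (nc_dg _) (nc_dg _),
      ← nlf_one]
    congr 1
    funext i
    rw [ndg, ndg, diagonal_add, ← diagonal_one]
    congr 1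
    funext x
    by_cases h : (c i t).val < (x.1 t).val
    · rw [nind_pos ⟨x.2, h⟩, nind_neg (fun k => absurd k.2 (not_le.2 h)), add_zero]
    · rw [nind_neg (fun k => h k.2), nind_pos ⟨x.2, not_lt.1 h⟩, zero_add]

theorem n_sub (hL : closedBall z ρ ⊆ closedBall 0 L)
    (hq : ∀ ε > 0, ∀ᶠ i in l, ∀ x, (T.q i x ∈ ball z ρ ∨ xr x ∈ ball z ρ) →
      dist (T.q i x) (xr x) < ε) (t : Fin n) :
    ((nB T c (t + 1)).inc (nD T c t) t).ad * (nB T c (t + 1)).shf t *
      (nB T c (t + 1)).inc (nU T c t) t = 0 := by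
  rw [Bas.inc_ad]
  have h1 : NC (nD T c t) (nB T c (t + 1)) t _ := Bas.isC_inc _ _ _
  have h2 : NC (nB T c (t + 1)) (nB T c (t + 1)) t _ := Bas.isC_shf _ _
  have h3 : NC (nB T c (t + 1)) (nU T c t) t _ := Bas.isC_inc _ _ _
  refine (congrArg (· * _) (nlf_mul h1 h2)).trans ((nlf_mul (h1.mul h2) h3).trans ?_)
  rw [← nlf_zero]
  refine nlf_near hL hq ((h1.mul h2).mul h3) fun i x y hxy => ?_
  by_contra k
  obtain ⟨b, hb, hb'⟩ := n_mid k
  obtain ⟨a, ha, ha'⟩ := n_mid hb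
  have e1 : x.1 = a.1 := by
    by_contra k
    exact ha (if_neg k)
  have e2 : a.1 = b.1 + stp n L (T.m i) t := tor_sh_ne ha'
  have e3 : b.1 = y.1 := by
    by_contra k
    exact hb' (if_neg k)
  have e4 : x.1 t = y.1 t + 1 := by rw [e1, e2, e3, tor_stp_eq _ rfl]
  have k1 := x.2.2
  have k2 := y.2.2
  rcases hxy with h | h
  · have := (val_succ (x := x.1) h t).2
    rw [e4, add_sub_cancel_right, ← e4] at this
    omega
  · have := (val_succ (x := y.1) h t).1
    rw [← e4] at this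
    omega

theorem n_jQ (t : Fin n) :
    (nB T c (t + 1)).inc (nD T c t) t * ((nB T c (t + 1)).inc (nD T c t) t).ad *
      (nB T c (t + 1)).inc (nB T c t) t = (nB T c (t + 1)).inc (nB T c t) t := by
  rw [inc_inc_ad (n_cl0 (nB_cl T c _)) (n_cl0 (nD_cl T c t))]
  refine (nlf_mul (nc_dg _) (Bas.isC_inc _ _ _)).trans ?_
  change _ = nlf _ _ _ _
  congr 1
  funext i
  ext x y
  rw [ndg_mul]
  by_cases h : x.1 = y.1
  · rw [nind_pos ⟨x.2, by rw [show (nB T c (t + 1)).e i x = y.1 from h, y.2 t le_rfl]⟩, one_mul]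
  · rw [show (nB T c (t + 1)).incR (nB T c t) i x y = 0 from if_neg h, mul_zero]

theorem n_js (hL : closedBall z ρ ⊆ closedBall 0 L)
    (hq : ∀ ε > 0, ∀ᶠ i in l, ∀ x, (T.q i x ∈ ball z ρ ∨ xr x ∈ ball z ρ) →
      dist (T.q i x) (xr x) < ε) (t : Fin n) :
    ((nB T c (t + 1)).shf t).ad *
      ((nB T c (t + 1)).inc (nD T c t) t * ((nB T c (t + 1)).inc (nD T c t) t).ad) *
        (nB T c (t + 1)).shf t +
      (nB T c (t + 1)).inc (nB T c t) t * ((nB T c (t + 1)).inc (nB T c t) t).ad =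
      (nB T c (t + 1)).inc (nD T c t) t * ((nB T c (t + 1)).inc (nD T c t) t).ad := by
  rw [inc_inc_ad (n_cl0 (nB_cl T c _)) (n_cl0 (nD_cl T c t)),
    inc_inc_ad (n_cl0 (nB_cl T c _)) (n_cl0 (nB_cl T c t))]
  have h2 : NC (nB T c (t + 1)) (nB T c (t + 1)) t _ := Bas.isC_shf _ _
  have h3 : ((nB T c (t + 1)).shf t).ad * nlf _ _ t (ndg (nB T c (t + 1)) (nind (nD T c t))) *
      (nB T c (t + 1)).shf t = nlf _ _ t (ndg (nB T c (t + 1))
        fun i x => nind (nD T c t) i (x + stp n L (T.m i) t)) := by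
    refine (congrArg (· * _ * _) (nlf_ad h2)).trans ?_
    refine (congrArg (· * _) (nlf_mul h2.ad (nc_dg _))).trans ?_
    refine (nlf_mul (h2.ad.mul (nc_dg _)) h2).trans ?_
    simp only [sh_dg (nB_cl T c (t + 1))]
  rw [h3, nlf_add (nc_dg _) (nc_dg _)]
  refine nlf_near hL hq ((nc_dg _).add (nc_dg _)) fun i x y hxy => ?_
  rw [ndg, ndg, ndg, diagonal_add]
  by_cases e : x = y
  · subst e
    rw [or_self] at hxy
    have h1 := (val_succ (x := x.1) hxy t).1
    rw [diagonal_apply_eq, diagonal_apply_eq]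
    have h4 : ∀ u : Fin n, (t : ℕ) + 1 ≤ u → (x.1 + stp n L (T.m i) t) u = c i u :=
      (nstp (Nat.lt_succ_self _) _ _).1 x.2
    have h5 : (∀ u : Fin n, (t : ℕ) ≤ u → x.1 u = c i u) ↔ (x.1 t).val = (c i t).val := by
      refine ⟨fun k => by rw [k t le_rfl], fun k u hu => ?_⟩
      rcases hu.eq_or_lt with k' | k'
      · obtain rfl : t = u := Fin.ext k'
        exact ZMod.val_injective _ k
      · exact x.2 u k'
    have h6 : ((x.1 + stp n L (T.m i) t) t).val = (x.1 t).val + 1 := by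
      rw [tor_stp_eq _ rfl, h1]
    rcases lt_trichotomy (x.1 t).val (c i t).val with k | k | k
    · rw [nind_pos ⟨h4, h6.trans_le k⟩, nind_neg (fun k' => k.ne (h5.1 k')),
        nind_pos ⟨x.2, k.le⟩, add_zero]
    · rw [nind_neg (fun k' => by have := h6.ge.trans k'.2; omega), nind_pos (h5.2 k),
        nind_pos ⟨x.2, k.le⟩, zero_add]
    · rw [nind_neg (fun k' => by have := h6.ge.trans k'.2; omega),
        nind_neg (fun k' => k.ne' (h5.1 k')), nind_neg (fun k' => absurd k'.2 (not_le.2 k)),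
        add_zero]
  · rw [diagonal_apply_ne _ e, diagonal_apply_ne _ e]

theorem n_step (hρ : 0 < ρ) (hL : closedBall z ρ ⊆ closedBall 0 L) (hm : Tendsto T.m l atTop)
    (hq : ∀ ε > 0, ∀ᶠ i in l, ∀ x, (T.q i x ∈ ball z ρ ∨ xr x ∈ ball z ρ) →
      dist (T.q i x) (xr x) < ε) (hc : ∀ i, dist (xr (c i)) z ≤ msh (T.m i)) (t : Fin n) :
    sg (closedBall z (ρ / 2)) z z (t + 1) ((nB T c (t + 1)).sym (t + 1) (nB_cl T c _)) =
      2 • sg (closedBall z (ρ / 2)) z z t ((nB T c t).sym t (nB_cl T c _)) := by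
  have hN : closedBall z (ρ / 2) ⊆ ball z ρ := closedBall_subset_ball (half_lt_self hρ)
  have hK : Set.Icc z z ⊆ interior (closedBall z (ρ / 2)) := by
    rw [Set.Icc_self, Set.singleton_subset_iff]
    exact ball_subset_interior_closedBall (mem_ball_self (half_pos hρ))
  have hI := fun j => sg_inv (l := l) (isCompact_closedBall z (ρ / 2)) hN le_rfl hK j
  have hB := nB_cl T c (t + 1)
  have hr := (nB T c (t + 1)).sym_succ hB
  have hP : ((nB T c (t + 1)).sym (t + 1) hB).PZ (Zs z z (t + 1)) :=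
    ⟨Bas.sym_poinc _ _, Phys.ctrZ (nB_phys hm hq hc _ _)⟩
  rw [← (hI (t + 1)).rel' hP hr.symm]
  have hsp := n_split (c := c) t
  have d1 := (nB T c (t + 1)).inc_d (nD T c t) hB.pred (nD_cl T c t)
  have d2 := (nD T c t).inc_d (nB T c (t + 1)) (nD_cl T c t) hB.pred
  have s1 := (nB T c (t + 1)).inc_S (nD T c t) hB.pred (nD_cl T c t)
  have s2 := (nD T c t).inc_S (nB T c (t + 1)) (nD_cl T c t) hB.pred
  have d3 := (nB T c t).inc_d (nB T c (t + 1)) (nB_cl T c t) hB.pred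
  refine theta_susp (cover_H le_rfl t) (zs_inter t) (hI t) ((nB T c (t + 1)).shift hB)
    ((nB T c (t + 1)).shf_iso hB) (Bas.sym_poinc _ _) (nB_phys hm hq hc _ _) _ _ hsp
    (nU_phys hm hq hc t) (nD_phys hm hq hc t) ?_ ?_ (n_sub hL hq t) ?_
    ((nB T c (t + 1)).inc (nB T c t) t) ?_ (n_jQ t) (n_js hL hq t)
    ((nB T c (t + 1)).inc_d _ _ _) ?_ ((nB T c (t + 1)).inc_S _ _ _)
  · rw [Bas.inc_ad, ← massoc, d1, massoc, d2, massoc]
  · rw [Bas.inc_ad, ← massoc, s1, massoc, s2, massoc]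
  · rw [massoc, d1, ← massoc, hsp.qq, one_m]
    exact ((nD T c t).sym t (nD_cl T c t)).tame
  · rw [Bas.inc_ad]
    refine Bas.inc_inc _ _ (n_cl0 (nB_cl T c t)) (n_cl0 hB) fun i x hx => ?_
    rw [nsub_range] at hx ⊢
    exact fun u hu => hx u (Nat.le_of_succ_le hu)
  · have := ad_eq d3
    rw [ad_mul, ad_mul, Bas.inc_ad] at this
    exact this.symm

theorem n_base (hρ : 0 < ρ) (hm : Tendsto T.m l atTop)
    (hq : ∀ ε > 0, ∀ᶠ i in l, ∀ x, (T.q i x ∈ ball z ρ ∨ xr x ∈ ball z ρ) →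
      dist (T.q i x) (xr x) < ε) (hc : ∀ i, dist (xr (c i)) z ≤ msh (T.m i)) :
    sg (closedBall z (ρ / 2)) z z 0 ((nB T c 0).sym 0 (nB_cl T c _)) = 4 := by
  have hN : closedBall z (ρ / 2) ⊆ ball z ρ := closedBall_subset_ball (half_lt_self hρ)
  have hK : Set.Icc z z ⊆ interior (closedBall z (ρ / 2)) := by
    rw [Set.Icc_self, Set.singleton_subset_iff]
    exact ball_subset_interior_closedBall (mem_ball_self (half_pos hρ))
  have hX : ((nB T c 0).sym 0 (nB_cl T c _)).Phys (Zs z z 0) := nB_phys hm hq hc 0 0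
  rw [sg, ext_phys (sg_pinv (isCompact_closedBall z (ρ / 2)) hN hK) hX
    (Bas.sym_poinc _ _), th0_point (isCompact_closedBall z (ρ / 2)) hN _ mk_zero mk_one]
  · norm_num
  have h4 : 0 < ρ / 4 := by positivity
  filter_upwards [hq _ h4, (tendsto_msh.comp hm).eventually (gt_mem_nhds h4)] with i hi hi'
  have h1 : dist (xr (c i)) z < ρ / 4 := (hc i).trans_lt hi'
  refine ⟨⟨c i, fun _ _ => rfl⟩, ?_, fun a _ => Subtype.ext (funext fun t => a.2 t (Nat.zero_le _))⟩
  have h2 := hi (c i) (Or.inr (mem_ball.2 (by linarith)))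
  have h3 := dist_triangle (T.q i (c i)) (xr (c i)) z
  change dist (T.q i (c i)) z ≤ ρ / 2
  linarith

end Geo

theorem sg_norm {z : Fin n → ℝ} {ρ : ℝ} (hρ : 0 < ρ) (hL : closedBall z ρ ⊆ closedBall 0 L)
    (T : TorD n L l (ball z ρ)) (hm : Tendsto T.m l atTop)
    (hq : ∀ ε > 0, ∀ᶠ i in l, ∀ x, (T.q i x ∈ ball z ρ ∨ xr x ∈ ball z ρ) →
      dist (T.q i x) (xr x) < ε) :
    sg (closedBall z (ρ / 2)) z z n T.sym = 2 ^ (n + 2) := by
  have hz : ‖z‖ ≤ L + 1 :=
    (mem_closedBall_zero_iff.1 (hL (mem_closedBall_self hρ.le))).trans (by linarith)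
  choose c hc using fun i => exists_near (L := L) hz (T.m i)
  have key : ∀ j ≤ n, sg (closedBall z (ρ / 2)) z z j ((nB T c j).sym j (nB_cl T c _)) =
      2 ^ (j + 2) := by
    intro j hj
    induction j with
    | zero => rw [n_base hρ hm hq hc]; norm_num
    | succ j ih =>
      have := n_step hρ hL hm hq hc ⟨j, hj⟩
      rw [ih (Nat.le_of_succ_le hj)] at this
      rw [this, two_nsmul]
      ring
  have hN : closedBall z (ρ / 2) ⊆ ball z ρ := closedBall_subset_ball (half_lt_self hρ)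
  have hK : Set.Icc z z ⊆ interior (closedBall z (ρ / 2)) := by
    rw [Set.Icc_self, Set.singleton_subset_iff]
    exact ball_subset_interior_closedBall (mem_ball_self (half_pos hρ))
  rw [← key n le_rfl]
  refine (sg_inv_top (isCompact_closedBall z (ρ / 2)) hN le_rfl hK).rel'
    (Bas.sym_poinc _ _).pz_univ (Bas.rel_of_range _ _ _ _ fun i => ?_)
  ext x
  rw [nsub_range]
  exact ⟨fun _ t ht => absurd t.isLt (not_lt.2 ht), fun _ => ⟨x, rfl⟩⟩

end Vale.Agent.P228
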