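import Vale.Agent.P228.Slice
import Vale.Agent.P228.Norm

/-! The coarse scale and the contradiction.

Plans. `T2 = (σ.tor1 R.Good).pull R.p2`, `U0 = ball z0 (ρ0 / 4)`.
* `coarse_pos`: if the position `A k (cl x)` is in `U0` then `cl x = x` (`of_A_cl`, `σ.hz0`) and
  `σ.coarse` applies to `x`; if `x ∈ U0` then `cl x = x` (`σ.hz0q`, `clamp_eq`).
* `coarse_htp2`: `h` from `avg_coarse` is controlled for `T2` (`coarse_pos`, as
  `dist (cx x) (cx c)` is small), then `mk_eq_of_col`, `mk_mul`, `mk_add`, `mk_sub`, `mk_one`;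
  the class of `avg` is controlled by `TorD.isC_pull` and `Fit.isC`.
* `Setup.false`: take a primitive `p`-th root of unity `ω ≠ 1` (`Complex.isPrimitiveRoot_exp`).
  `sg_pull` for `p2` with the box `[z0, z0]`, `N = closedBall z0 (ρ0 / 4 / 2)`, and `Rho.sg_eq` give
  `sg (p2 (X1 1)) = sg (p2 (X1 ω))`; `rel_pull`, `tw_one`, `tw_zero`, `Inv.rel'`, `Inv.neg`
  (`sg_inv_top`, `Poinc.pz_univ`) turn this into `-s = s` with `s = sg T2.sym = 2 ^ (n + 2)`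
  (`sg_norm`). The filter `lC` is not `⊥`. -/

namespace Vale.Agent.P228

open Matrix Complex Metric Filter Dag CDag Sym Set

variable {n p : ℕ} [Fact p.Prime]

namespace Setup

variable {σ : Setup n p} (R : σ.Rho)

theorem crs_sub (σ : Setup n p) : closedBall σ.z0 σ.ρ0 ⊆ ball σ.w σ.ρR :=
  σ.hz0.trans (closedBall_subset_ball σ.hKR)

theorem crs_q3 (σ : Setup n p) : closedBall σ.z0 σ.ρ0 ⊆ closedBall σ.q σ.r3 :=
  σ.hz0q.trans (closedBall_subset_closedBall (by linarith [σ.h01, σ.h12, σ.h23]))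

theorem crs_ball (σ : Setup n p) : ball σ.z0 (σ.ρ0 / 4) ⊆ closedBall σ.z0 σ.ρ0 :=
  ball_subset_closedBall.trans (closedBall_subset_closedBall (by linarith [σ.hρ0]))

theorem ball0_sub (σ : Setup n p) : ball σ.z0 (σ.ρ0 / 4) ⊆ ball σ.w σ.ρR :=
  σ.crs_ball.trans σ.crs_sub

theorem Rho.crs_tendsto : Tendsto id lC (lG R.Good) := fun _ hs =>
  eventually_curry_iff.2 (mem_of_superset R.good_mem
    (eventually_principal.1 (eventually_curry_iff.1 hs)))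

/-- Passage to the coarse category. -/
noncomputable def Rho.p2 : Pull lC (ball σ.z0 (σ.ρ0 / 4)) (lG R.Good) (ball σ.w σ.ρR) where
  j := id
  π := id
  hj := R.crs_tendsto
  hπ := uniformContinuous_id
  fib := fib_id isOpen_ball σ.ball0_sub

theorem coarse_pos (σ : Setup n p) : ∀ ε > 0, ∀ᶠ k in atTop, ∀ x,
    (σ.A k (σ.cl x) ∈ closedBall σ.z0 σ.ρ0 ∨ x ∈ closedBall σ.z0 σ.ρ0) →
      dist (σ.A k (σ.cl x)) x < ε := by
  intro ε hε
  filter_upwards [σ.coarse ε hε] with k hk x hx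
  have h1 : σ.cl x = x := hx.elim (fun h => (σ.of_A_cl (σ.crs_sub h)).1)
    fun h => clamp_eq (σ.crs_q3 h)
  have h2 := (hk _ (σ.cl_mem x) (hx.elim Or.inr fun h => Or.inl (by rw [h1]; exact h))).1
  rwa [show dist (σ.A k (σ.cl x)) (σ.cl x) = dist (σ.A k (σ.cl x)) x by congr 1] at h2

theorem crs_pos (σ : Setup n p) {ε : ℝ} (hε : 0 < ε) : ∀ᶠ ki : ℕ × ℕ in lC, ∀ x,
    (σ.A ki.1 (σ.cl x) ∈ closedBall σ.z0 σ.ρ0 ∨ x ∈ closedBall σ.z0 σ.ρ0) →
      dist (σ.A ki.1 (σ.cl x)) x < ε :=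
  eventually_curry_iff.2 ((σ.coarse_pos ε hε).mono fun _ hk => Eventually.of_forall fun _ => hk)

theorem Rho.coarse_htp2 {ω : ℂ} (hω : ω ^ p = 1) :
    Htp ((σ.tor1 R.Good).pull R.p2).sym.d ((σ.tor1 R.Good).pull R.p2).sym.d
      (((σ.tor1 R.Good).pull R.p2).hom fun ki => R.avg ω ki.1 ki.2)
      (if ω = 1 then 1 else 0) := by
  obtain ⟨h, h1, h2⟩ := R.avg_coarse hω
  have hρ := σ.hρ0
  have cH : ((σ.tor1 R.Good).pull R.p2).IsC (fun ki => h ki.1 ki.2) := by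
    intro y hy
    refine ⟨σ.ρ0 / 4, by positivity, fun ε hε => ?_⟩
    have hε' : 0 < min (ε / 3) (σ.ρ0 / 4) := by positivity
    have h3 : ∀ᶠ ki : ℕ × ℕ in lC, ∀ x c, h ki.1 ki.2 x c ≠ 0 →
        cx c ∈ closedBall σ.z0 σ.ρ0 ∧ dist (cx x) (cx c) < min (ε / 3) (σ.ρ0 / 4) :=
      eventually_curry_iff.2 (h1 _ hε')
    filter_upwards [h3, σ.crs_pos hε'] with ki k1 k2 a b hab hd
    change LC n σ.L ki.2 at a b
    obtain ⟨k3, k4⟩ := k1 a b hab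
    have k5 := k2 _ (Or.inr k3)
    have k6 : dist y σ.z0 < σ.ρ0 / 4 := hy
    have m1 := min_le_left (ε / 3) (σ.ρ0 / 4)
    have m2 := min_le_right (ε / 3) (σ.ρ0 / 4)
    change dist (σ.A ki.1 (σ.cl (cx a))) y < σ.ρ0 / 4 ∨
      dist (σ.A ki.1 (σ.cl (cx b))) y < σ.ρ0 / 4 at hd
    have k7 := k2 (cx a) (hd.imp (fun hd => by
      rw [mem_closedBall]
      linarith [dist_triangle (σ.A ki.1 (σ.cl (cx a))) y σ.z0]) fun hd => by
      rw [mem_closedBall]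
      linarith [dist_triangle4 (cx a) (cx b) y σ.z0,
        dist_triangle_left (cx b) y (σ.A ki.1 (σ.cl (cx b)))])
    show dist (σ.A ki.1 (σ.cl (cx a))) (σ.A ki.1 (σ.cl (cx b))) < ε
    linarith [dist_triangle4 (σ.A ki.1 (σ.cl (cx a))) (cx a) (cx b) (σ.A ki.1 (σ.cl (cx b))),
      dist_comm (cx b) (σ.A ki.1 (σ.cl (cx b)))]
  have cA : ((σ.tor1 R.Good).pull R.p2).IsC (fun ki => R.avg ω ki.1 ki.2) :=
    (σ.tor1 R.Good).isC_pull R.p2 ((σ.fit1 R.Good).isC _ (R.pkg1 hω).car)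
  have cD := ((σ.tor1 R.Good).pull R.p2).full.isC_rd n
  have cI : ((σ.tor1 R.Good).pull R.p2).IsC (fun _ => if ω = 1 then 1 else 0) := by
    split_ifs
    · exact Ctl.isC_one
    · exact Ctl.isC_zero
  have eI : (if ω = 1 then 1 else 0 : Hom ((σ.tor1 R.Good).pull R.p2).sym.E
      ((σ.tor1 R.Good).pull R.p2).sym.E) =
      ((σ.tor1 R.Good).pull R.p2).hom (fun _ => if ω = 1 then 1 else 0) := by
    split_ifs
    · exact Ctl.mk_one.symm
    · exact Ctl.mk_zero.symm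
  refine ⟨((σ.tor1 R.Good).pull R.p2).hom fun ki => h ki.1 ki.2, ?_⟩
  rw [eI]
  refine (Ctl.mk_sub cA cI).symm.trans (Eq.trans ?_
    ((Ctl.mk_add (cD.mul cH) (Ctl.IsC.mul cH cD)).trans
      (congrArg₂ (· + ·) (Ctl.mk_mul cD cH) (Ctl.mk_mul cH cD))))
  refine Ctl.mk_eq_of_col (Ctl.IsC.sub cA cI) ((cD.mul cH).add (Ctl.IsC.mul cH cD)) fun y hy => ?_
  refine ⟨σ.ρ0 / 8, by positivity, ?_⟩
  have h3 : ∀ᶠ ki : ℕ × ℕ in lC, ∀ c, cx c ∈ closedBall σ.z0 (σ.ρ0 / 2) → ∀ x,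
      (R.avg ω ki.1 ki.2 - (if ω = 1 then 1 else 0)) x c =
        (ld n σ.L ki.2 * h ki.1 ki.2 + h ki.1 ki.2 * ld n σ.L ki.2) x c :=
    eventually_curry_iff.2 h2
  filter_upwards [h3, σ.crs_pos (ε := σ.ρ0 / 8) (by positivity)] with ki k1 k2 a b hb
  change LC n σ.L ki.2 at a b
  have k6 : dist y σ.z0 < σ.ρ0 / 4 := hy
  change dist (σ.A ki.1 (σ.cl (cx b))) y < σ.ρ0 / 8 at hb
  have k3 := dist_triangle (σ.A ki.1 (σ.cl (cx b))) y σ.z0
  have k4 := k2 (cx b) (Or.inl (by rw [mem_closedBall]; linarith))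
  refine k1 b ?_ a
  rw [mem_closedBall]
  linarith [dist_triangle_left (cx b) σ.z0 (σ.A ki.1 (σ.cl (cx b)))]

theorem false (σ : Setup n p) : False := by
  obtain ⟨R⟩ := σ.exists_rho
  have hp : p.Prime := Fact.out
  have hpr := Complex.isPrimitiveRoot_exp p hp.ne_zero
  obtain ⟨ω, hω, hω1⟩ : ∃ ω : ℂ, ω ^ p = 1 ∧ ω ≠ 1 := ⟨_, hpr.pow_eq_one, hpr.ne_one hp.one_lt⟩
  have hρ : 0 < σ.ρ0 / 4 := by linarith [σ.hρ0]
  have hN : IsCompact (closedBall σ.z0 (σ.ρ0 / 4 / 2)) := isCompact_closedBall _ _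
  have hU : closedBall σ.z0 (σ.ρ0 / 4 / 2) ⊆ ball σ.z0 (σ.ρ0 / 4) :=
    closedBall_subset_ball (half_lt_self hρ)
  have hK : Icc σ.z0 σ.z0 ⊆ interior (closedBall σ.z0 (σ.ρ0 / 4 / 2)) := by
    rw [Icc_self, singleton_subset_iff]
    exact ball_subset_interior_closedBall (mem_ball_self (half_pos hρ))
  have hI := sg_inv_top (l := lC) hN hU le_rfl hK
  have hz := σ.mem_box (σ.hz0 (mem_closedBall_self σ.hρ0.le))
  have key : ∀ {ω : ℂ} (hω : ω ^ p = 1),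
      sg (closedBall σ.z0 (σ.ρ0 / 4 / 2)) σ.z0 σ.z0 n (R.p2.fn.sym (R.X1 hω)) =
        (sg σ.nb σ.lo σ.hi n (R.X1 hω)).compTendsto R.p2.j R.p2.hj := fun hω =>
    sg_pull isOpen_ball R.p2 rfl σ.ball0_sub hN hU le_rfl hK σ.nb_cpt σ.nb_sub σ.box_sub
      hz.1 hz.2 (R.X1_poinc hω)
  have hP := ((σ.tor1 R.Good).pull R.p2).sym_poinc.pz_univ
  have r : ∀ {ω : ℂ} (hω : ω ^ p = 1), _ := fun hω => (σ.tor1 R.Good).rel_pull R.p2
    ((σ.fit1 R.Good).isC _ (R.pkg1 hω).car) ((σ.fit1 R.Good).chain (R.pkg1 hω))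
  have t1 := R.coarse_htp2 (one_pow p)
  have t2 := R.coarse_htp2 hω
  rw [if_pos rfl] at t1
  rw [if_neg hω1] at t2
  have e1 := hI.rel' hP.neg ((r (one_pow p)).trans (tw_one _ t1))
  have e2 := hI.rel' hP ((r hω).trans (tw_zero _ t2))
  have e3 := (key (one_pow p)).trans ((congrArg (fun g => Germ.compTendsto g R.p2.j R.p2.hj)
    (R.sg_eq hω)).trans (key hω).symm)
  have e4 := e2.symm.trans (e3.symm.trans (e1.trans (hI.neg hP)))
  have e5 := sg_norm hρ (((closedBall_subset_closedBall (by linarith [σ.hρ0])).trans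
    σ.crs_q3).trans (σ.hq.trans σ.hL)) ((σ.tor1 R.Good).pull R.p2)
    (fun _ hs => eventually_curry_iff.2 (Eventually.of_forall fun _ => hs))
    (fun ε hε => (σ.crs_pos hε).mono fun ki hk x hx =>
      hk _ (hx.imp (fun h => σ.crs_ball h) fun h => σ.crs_ball h))
  rw [e5] at e4
  have e6 : ((fun _ => 2 ^ (n + 2) : ℕ × ℕ → ℤ) : Germ lC ℤ) =
      ((fun _ => -2 ^ (n + 2) : ℕ × ℕ → ℤ) : Germ lC ℤ) := e4
  obtain ⟨k, hk⟩ := (eventually_curry_iff.1 (Germ.coe_eq.1 e6)).exists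
  obtain ⟨i, hi⟩ := hk.exists
  have h0 : (0 : ℤ) < 2 ^ (n + 2) := by positivity
  have hi' : (2 : ℤ) ^ (n + 2) = -2 ^ (n + 2) := hi
  linarith

end Setup

end Vale.Agent.P228
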