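import Vale.Agent.P228.Sym

/-! The asymptotically controlled category.

An object is a family, indexed by `i : I`, of finite sets with positions in `Y`. A map is a family
of matrices whose propagation tends to zero along `l`, locally over `U`, modulo the families that
vanish eventually near every point of `U`.

Plans.
* `RelCtl.comp`: take `ρ = min ρ₁ ρ₂ / 2` and first make both propagations less than
  `min ε ρ / 2`. A nonzero entry of a product gives a middle index (`Finset.exists_ne_zero_of_sum_ne_zero`).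
* `rsupp_mul`: if `f` vanishes eventually within `ρ` of `y` and `(f g) a c ≠ 0` then some
  `f a b ≠ 0`, `g b c ≠ 0`, so `a, b` are far from `y`, and `c` is far since `g` is controlled.
* The `Dag` laws: `Submodule.Quotient.induction_on` and the matrix laws (`Matrix.mul_assoc`,
  `fromRows`, `fromCols` calculus); prove `mk_*` first for the classes `cls f`. -/

namespace Vale.Agent.P228

open Filter Matrix

variable {I : Type} {Y : Type} [PseudoMetricSpace Y]

/-- Objects of the controlled category. -/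
structure Ctl (l : Filter I) (U : Set Y) where
  ι : I → Type
  [fin : ∀ i, Fintype (ι i)]
  [dec : ∀ i, DecidableEq (ι i)]
  pos : ∀ i, ι i → Y

attribute [instance] Ctl.fin Ctl.dec

/-- A relation that is asymptotically diagonal near the points of `U`. -/
def RelCtl (l : Filter I) (U : Set Y) {α β : I → Type} (p : ∀ i, α i → Y) (q : ∀ i, β i → Y)
    (R : ∀ i, α i → β i → Prop) : Prop :=
  ∀ y ∈ U, ∃ ρ > 0, ∀ ε > 0, ∀ᶠ i in l, ∀ a b, R i a b →
    (dist (p i a) y < ρ ∨ dist (q i b) y < ρ) → dist (p i a) (q i b) < ε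

variable {l : Filter I} {U : Set Y}

section RelCtl

variable {α β γ : I → Type} {p : ∀ i, α i → Y} {q : ∀ i, β i → Y} {r : ∀ i, γ i → Y}
  {R R' : ∀ i, α i → β i → Prop} {T : ∀ i, β i → γ i → Prop}

theorem RelCtl.mono (h : RelCtl l U p q R) (hR : ∀ᶠ i in l, ∀ a b, R' i a b → R i a b) :
    RelCtl l U p q R' := fun y hy => by
  obtain ⟨ρ, hρ, H⟩ := h y hy
  refine ⟨ρ, hρ, fun ε hε => ?_⟩
  filter_upwards [H ε hε, hR] with i h1 h2 a b hab using h1 a b (h2 a b hab)

theorem RelCtl.or (h : RelCtl l U p q R) (h' : RelCtl l U p q R') :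
    RelCtl l U p q (fun i a b => R i a b ∨ R' i a b) := fun y hy => by
  obtain ⟨ρ, hρ, H⟩ := h y hy
  obtain ⟨ρ', hρ', H'⟩ := h' y hy
  refine ⟨min ρ ρ', lt_min hρ hρ', fun ε hε => ?_⟩
  filter_upwards [H ε hε, H' ε hε] with i h1 h2 a b hab hd
  rcases hab with hab | hab
  · exact h1 a b hab (hd.imp (fun x => x.trans_le (min_le_left _ _))
      fun x => x.trans_le (min_le_left _ _))
  · exact h2 a b hab (hd.imp (fun x => x.trans_le (min_le_right _ _))
      fun x => x.trans_le (min_le_right _ _))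

theorem RelCtl.swap (h : RelCtl l U p q R) : RelCtl l U q p (fun i b a => R i a b) := fun y hy => by
  obtain ⟨ρ, hρ, H⟩ := h y hy
  refine ⟨ρ, hρ, fun ε hε => ?_⟩
  filter_upwards [H ε hε] with i h1 b a hab hd
  rw [dist_comm]
  exact h1 a b hab hd.symm

theorem RelCtl.comp (h : RelCtl l U p q R) (h' : RelCtl l U q r T) :
    RelCtl l U p r (fun i a c => ∃ b, R i a b ∧ T i b c) := fun y hy => by
  obtain ⟨ρ, hρ, H⟩ := h y hy
  obtain ⟨ρ', hρ', H'⟩ := h' y hy
  have h0 : 0 < min ρ ρ' := lt_min hρ hρ'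
  have m1 := min_le_left ρ ρ'
  have m2 := min_le_right ρ ρ'
  refine ⟨min ρ ρ' / 2, by positivity, fun ε hε => ?_⟩
  have h1 : 0 < min ε (min ρ ρ') / 2 := by positivity
  have m3 := min_le_left ε (min ρ ρ')
  have m4 := min_le_right ε (min ρ ρ')
  filter_upwards [H _ h1, H' _ h1] with i h1 h2 a c ⟨b, hab, hbc⟩ hd
  have t1 := dist_triangle (p i a) (q i b) (r i c)
  rcases hd with hd | hd
  · have e1 := h1 a b hab (Or.inl (by linarith))
    have t2 := dist_triangle_left (q i b) y (p i a)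
    have e2 := h2 b c hbc (Or.inl (by linarith))
    linarith
  · have e2 := h2 b c hbc (Or.inr (by linarith))
    have t2 := dist_triangle (q i b) (r i c) y
    have e1 := h1 a b hab (Or.inr (by linarith))
    linarith

theorem relCtl_eq : RelCtl l U p q (fun i a b => p i a = q i b) := fun _ _ =>
  ⟨1, one_pos, fun ε hε => Eventually.of_forall fun i a b h _ => by rw [h, dist_self]; exact hε⟩

theorem RelCtl.comap {α' β' : I → Type} (h : RelCtl l U p q R) (u : ∀ i, α' i → α i)
    (v : ∀ i, β' i → β i) :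
    RelCtl l U (fun i a => p i (u i a)) (fun i b => q i (v i b))
      (fun i a b => R i (u i a) (v i b)) := fun y hy => by
  obtain ⟨ρ, hρ, H⟩ := h y hy
  refine ⟨ρ, hρ, fun ε hε => ?_⟩
  filter_upwards [H ε hε] with i h1 a b using h1 _ _

end RelCtl

namespace Ctl

variable {X X' X'' W W' : Ctl l U}

/-- Families of matrices. -/
abbrev Raw (X X' : Ctl l U) : Type := ∀ i, Matrix (X.ι i) (X'.ι i) ℂ

/-- Controlled families. -/
def IsC (f : Raw X X') : Prop := RelCtl l U X.pos X'.pos (fun i a b => f i a b ≠ 0)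

/-- The support of a family. -/
def rsupp (f : Raw X X') : Set Y :=
  {y ∈ U | ∀ ρ > 0, ∃ᶠ i in l, ∃ a b, f i a b ≠ 0 ∧
    (dist (X.pos i a) y < ρ ∨ dist (X'.pos i b) y < ρ)}

/-- The orthogonal sum. -/
def sum (X X' : Ctl l U) : Ctl l U where
  ι i := X.ι i ⊕ X'.ι i
  pos i := Sum.elim (X.pos i) (X'.pos i)

theorem isC_zero : IsC (0 : Raw X X') := 
  relCtl_eq.mono (Eventually.of_forall fun _ _ _ h => (h rfl).elim)

theorem IsC.add {f g : Raw X X'} (hf : IsC f) (hg : IsC g) : IsC (f + g) := 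
  (RelCtl.or hf hg).mono (Eventually.of_forall fun i a b h => by
    by_contra h'
    rw [not_or, not_not, not_not] at h'
    exact h (by rw [Pi.add_apply, Matrix.add_apply, h'.1, h'.2, add_zero]))

theorem IsC.smul (c : ℂ) {f : Raw X X'} (hf : IsC f) : IsC (c • f) := 
  RelCtl.mono hf (Eventually.of_forall fun i a b h h' =>
    h (by rw [Pi.smul_apply, Matrix.smul_apply, h', smul_zero]))

theorem IsC.neg {f : Raw X X'} (hf : IsC f) : IsC (-f) := by
  simpa using hf.smul (-1)

theorem IsC.sub {f g : Raw X X'} (hf : IsC f) (hg : IsC g) : IsC (f - g) := by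
  rw [sub_eq_add_neg]
  exact hf.add hg.neg

theorem exists_mid {f : Raw X X'} {g : Raw X' X''} {i : I} {a : X.ι i} {c : X''.ι i}
    (h : (f i * g i) a c ≠ 0) : ∃ b, f i a b ≠ 0 ∧ g i b c ≠ 0 := by
  rw [Matrix.mul_apply] at h
  obtain ⟨b, -, hb⟩ := Finset.exists_ne_zero_of_sum_ne_zero h
  exact ⟨b, mul_ne_zero_iff.1 hb⟩

theorem IsC.mul {f : Raw X X'} {g : Raw X' X''} (hf : IsC f) (hg : IsC g) :
    IsC (X := X) (X' := X'') (fun i => f i * g i) := 
  (RelCtl.comp hf hg).mono (Eventually.of_forall fun _ _ _ h => exists_mid h)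

theorem IsC.ad {f : Raw X X'} (hf : IsC f) : IsC (X := X') (X' := X) (fun i => (f i)ᴴ) := 
  (RelCtl.swap hf).mono (Eventually.of_forall fun i a b h h' =>
    h ((congrArg star h').trans (star_zero _)))

theorem isC_one : IsC (X := X) (X' := X) (fun _ => 1) := 
  relCtl_eq.mono (Eventually.of_forall fun i a b h => by
    by_contra h'
    exact h (Matrix.one_apply_ne fun e => h' (by rw [e])))

theorem IsC.of_le {f g : Raw X X'} (hf : IsC f) (h : ∀ᶠ i in l, ∀ a b, g i a b ≠ 0 → f i a b ≠ 0) :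
    IsC g := RelCtl.mono hf h

theorem IsC.fromRows {f : Raw X W} {g : Raw X' W} (hf : IsC f) (hg : IsC g) :
    IsC (X := sum X X') (X' := W) (fun i => fromRows (f i) (g i)) := fun y hy => by
  obtain ⟨ρ, hρ, H⟩ := hf y hy
  obtain ⟨ρ', hρ', H'⟩ := hg y hy
  refine ⟨min ρ ρ', lt_min hρ hρ', fun ε hε => ?_⟩
  filter_upwards [H ε hε, H' ε hε] with i h1 h2 a b hab hd
  rcases a with a | a
  · exact h1 a b hab (hd.imp (fun x => x.trans_le (min_le_left _ _))
      fun x => x.trans_le (min_le_left _ _))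
  · exact h2 a b hab (hd.imp (fun x => x.trans_le (min_le_right _ _))
      fun x => x.trans_le (min_le_right _ _))

theorem IsC.fromCols {f : Raw W X} {g : Raw W X'} (hf : IsC f) (hg : IsC g) :
    IsC (X := W) (X' := sum X X') (fun i => fromCols (f i) (g i)) := fun y hy => by
  obtain ⟨ρ, hρ, H⟩ := hf y hy
  obtain ⟨ρ', hρ', H'⟩ := hg y hy
  refine ⟨min ρ ρ', lt_min hρ hρ', fun ε hε => ?_⟩
  filter_upwards [H ε hε, H' ε hε] with i h1 h2 a b hab hd
  rcases b with b | b
  · exact h1 a b hab (hd.imp (fun x => x.trans_le (min_le_left _ _))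
      fun x => x.trans_le (min_le_left _ _))
  · exact h2 a b hab (hd.imp (fun x => x.trans_le (min_le_right _ _))
      fun x => x.trans_le (min_le_right _ _))

theorem IsC.fromBlocks {a : Raw X W} {b : Raw X W'} {c : Raw X' W} {d : Raw X' W'} (ha : IsC a)
    (hb : IsC b) (hc : IsC c) (hd : IsC d) :
    IsC (X := sum X X') (X' := sum W W') (fun i => fromBlocks (a i) (b i) (c i) (d i)) := by
  simp only [← fromRows_fromCols_eq_fromBlocks]
  exact (ha.fromCols hb).fromRows (hc.fromCols hd)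

theorem notMem_rsupp {f : Raw X X'} {y : Y} (hy : y ∈ U) : y ∉ rsupp f ↔ ∃ ρ > 0, ∀ᶠ i in l,
    ∀ a b, (dist (X.pos i a) y < ρ ∨ dist (X'.pos i b) y < ρ) → f i a b = 0 := by
  simp only [rsupp, Set.mem_ofPred_eq, hy, true_and, not_forall, not_frequently, not_exists, not_and,
    exists_prop]
  refine exists_congr fun ρ => and_congr_right fun _ => eventually_congr
    (Eventually.of_forall fun i => forall₂_congr fun a b => ?_)
  exact not_imp_comm.trans ⟨fun h h' => by_contra fun h'' => by tauto, by tauto⟩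

theorem rsupp_eq_empty {f : Raw X X'} : rsupp f = ∅ ↔ ∀ y ∈ U, ∃ ρ > 0, ∀ᶠ i in l,
    ∀ a b, (dist (X.pos i a) y < ρ ∨ dist (X'.pos i b) y < ρ) → f i a b = 0 :=
  Set.eq_empty_iff_forall_notMem.trans ⟨fun h y hy => (notMem_rsupp hy).1 (h y),
    fun h y hy => (notMem_rsupp hy.1).2 (h y hy.1) hy⟩

theorem rsupp_zero : rsupp (0 : Raw X X') = ∅ := 
  rsupp_eq_empty.2 fun _ _ => ⟨1, one_pos, Eventually.of_forall fun _ _ _ _ => rfl⟩

theorem rsupp_add (f g : Raw X X') : rsupp (f + g) ⊆ rsupp f ∪ rsupp g := fun y hy => by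
  by_contra h
  rw [Set.mem_union, not_or, notMem_rsupp hy.1, notMem_rsupp hy.1] at h
  obtain ⟨⟨ρ, hρ, H⟩, ρ', hρ', H'⟩ := h
  refine (notMem_rsupp hy.1).2 ⟨min ρ ρ', lt_min hρ hρ', ?_⟩ hy
  filter_upwards [H, H'] with i h1 h2 a b hd
  rw [Pi.add_apply, Matrix.add_apply, h1 a b (hd.imp (fun x => x.trans_le (min_le_left _ _))
      fun x => x.trans_le (min_le_left _ _)), h2 a b (hd.imp
      (fun x => x.trans_le (min_le_right _ _)) fun x => x.trans_le (min_le_right _ _)), add_zero]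

theorem rsupp_smul (c : ℂ) (f : Raw X X') : rsupp (c • f) ⊆ rsupp f := fun y hy =>
  ⟨hy.1, fun ρ hρ => (hy.2 ρ hρ).mono fun i ⟨a, b, h, hd⟩ => ⟨a, b, fun h' =>
    h (by rw [Pi.smul_apply, Matrix.smul_apply, h', smul_zero]), hd⟩⟩

theorem rsupp_mul {f : Raw X X'} {g : Raw X' X''} (hf : IsC f) (hg : IsC g) :
    rsupp (X := X) (X' := X'') (fun i => f i * g i) ⊆ rsupp f ∩ rsupp g := fun y hy => by
  obtain ⟨ρ₁, h₁, H₁⟩ := hf y hy.1
  obtain ⟨ρ₂, h₂, H₂⟩ := hg y hy.1
  refine ⟨⟨hy.1, fun ρ hρ => ?_⟩, hy.1, fun ρ hρ => ?_⟩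
  · refine ((hy.2 (min ρ₂ (ρ / 2)) (by positivity)).and_eventually
      (H₂ (ρ / 2) (by positivity))).mono fun i ⟨⟨a, c, h, hd⟩, H⟩ => ?_
    obtain ⟨b, hab, hbc⟩ := exists_mid h
    simp only [lt_min_iff] at hd
    refine ⟨a, b, hab, hd.imp (fun x => by linarith [x.2]) fun x => ?_⟩
    linarith [x.2, H b c hbc (Or.inr x.1), dist_triangle (X'.pos i b) (X''.pos i c) y]
  · refine ((hy.2 (min ρ₁ (ρ / 2)) (by positivity)).and_eventually
      (H₁ (ρ / 2) (by positivity))).mono fun i ⟨⟨a, c, h, hd⟩, H⟩ => ?_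
    obtain ⟨b, hab, hbc⟩ := exists_mid h
    simp only [lt_min_iff] at hd
    refine ⟨b, c, hbc, hd.imp (fun x => ?_) fun x => by linarith [x.2]⟩
    linarith [x.2, H a b hab (Or.inl x.1), dist_triangle_left (X'.pos i b) y (X.pos i a)]

theorem rsupp_ad (f : Raw X X') : rsupp (X := X') (X' := X) (fun i => (f i)ᴴ) ⊆ rsupp f := fun y hy =>
  ⟨hy.1, fun ρ hρ => (hy.2 ρ hρ).mono fun i ⟨a, b, h, hd⟩ => ⟨b, a, fun h' =>
    h ((congrArg star h').trans (star_zero _)), hd.symm⟩⟩

theorem isC_of_rsupp {f : Raw X X'} (h : rsupp f = ∅) : IsC f := fun y hy => by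
  obtain ⟨ρ, hρ, H⟩ := rsupp_eq_empty.1 h y hy
  exact ⟨ρ, hρ, fun ε _ => H.mono fun i h1 a b hab hd => (hab (h1 a b hd)).elim⟩

/-- The controlled families. -/
def ctl (X X' : Ctl l U) : Submodule ℂ (Raw X X') where
  carrier := {f | IsC f}
  zero_mem' := isC_zero
  add_mem' := IsC.add
  smul_mem' c _ h := IsC.smul c h

/-- The negligible families. -/
def negl (X X' : Ctl l U) : Submodule ℂ (ctl X X') where
  carrier := {f | rsupp f.1 = ∅}
  zero_mem' := rsupp_zero
  add_mem' {f g} hf hg := Set.eq_empty_of_subset_empty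
    ((rsupp_add f.1 g.1).trans (by rw [hf, hg, Set.union_empty]))
  smul_mem' c f hf := Set.eq_empty_of_subset_empty ((rsupp_smul c f.1).trans hf.le)

/-- Maps of the controlled category. -/
abbrev HomC (X X' : Ctl l U) : Type := ctl X X' ⧸ negl X X'

/-- Product of controlled families. -/
noncomputable def mulS (f : ctl X X') (g : ctl X' X'') : ctl X X'' :=
  ⟨fun i => f.1 i * g.1 i, IsC.mul f.2 g.2⟩

/-- Adjoint of a controlled family. -/
noncomputable def adS (f : ctl X X') : ctl X' X := ⟨fun i => (f.1 i)ᴴ, IsC.ad f.2⟩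

theorem mulS_rel (f f' : ctl X X') (hf : (negl X X').quotientRel f f') (g g' : ctl X' X'')
    (hg : (negl X' X'').quotientRel g g') :
    (negl X X'').quotientRel (mulS f g) (mulS f' g') := by
  rw [Submodule.quotientRel_def] at hf hg ⊢
  have e : mulS f g - mulS f' g' = mulS (f - f') g + mulS f' (g - g') := by
    ext i : 2
    change f.1 i * g.1 i - f'.1 i * g'.1 i = (f.1 i - f'.1 i) * g.1 i + f'.1 i * (g.1 i - g'.1 i)
    rw [Matrix.sub_mul, Matrix.mul_sub]
    abel
  rw [e]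
  exact add_mem (Set.eq_empty_of_subset_empty
    ((rsupp_mul (f - f').2 g.2).trans (Set.inter_subset_left.trans hf.le)))
    (Set.eq_empty_of_subset_empty
      ((rsupp_mul f'.2 (g - g').2).trans (Set.inter_subset_right.trans hg.le)))

theorem adS_rel (f f' : ctl X X') (hf : (negl X X').quotientRel f f') :
    (negl X' X).quotientRel (adS f) (adS f') := by
  rw [Submodule.quotientRel_def] at hf ⊢
  have e : adS f - adS f' = adS (f - f') := by
    ext i : 2
    exact (conjTranspose_sub _ _).symm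
  rw [e]
  exact Set.eq_empty_of_subset_empty ((rsupp_ad (f - f').1).trans hf.le)

/-- Composition. -/
noncomputable def cmpC (f : HomC X X') (g : HomC X' X'') : HomC X X'' :=
  Quotient.map₂' mulS (fun f f' hf g g' hg => mulS_rel f f' hf g g' hg) f g

/-- The adjoint. -/
noncomputable def adjC (f : HomC X X') : HomC X' X :=
  Quotient.map' adS (fun f f' hf => adS_rel f f' hf) f

/-- The class of a controlled family. -/
noncomputable def cls (f : Raw X X') (hf : IsC f) : HomC X X' := Submodule.Quotient.mk ⟨f, hf⟩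

theorem cls_congr {f g : Raw X X'} (hf : IsC f) (hg : IsC g) (h : ∀ i, f i = g i) :
    cls f hf = cls g hg := by
  obtain rfl : f = g := funext h
  rfl

theorem exists_cls (φ : HomC X X') : ∃ f hf, φ = cls f hf := by
  obtain ⟨f, rfl⟩ := Submodule.Quotient.mk_surjective _ φ
  exact ⟨f.1, f.2, rfl⟩

theorem cls_zero : cls (0 : Raw X X') isC_zero = 0 := rfl

theorem cls_add {f g : Raw X X'} (hf : IsC f) (hg : IsC g) :
    cls (f + g) (hf.add hg) = cls f hf + cls g hg := rfl

theorem cls_smul (c : ℂ) {f : Raw X X'} (hf : IsC f) : cls (c • f) (hf.smul c) = c • cls f hf := rfl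

theorem cmpC_cls {f : Raw X X'} {g : Raw X' X''} (hf : IsC f) (hg : IsC g) :
    cmpC (cls f hf) (cls g hg) = cls (fun i => f i * g i) (hf.mul hg) := rfl

theorem adjC_cls {f : Raw X X'} (hf : IsC f) : adjC (cls f hf) = cls (fun i => (f i)ᴴ) hf.ad := rfl

theorem cmpC_assoc (f : HomC X X') (g : HomC X' X'') (h : HomC X'' W) :
    cmpC (cmpC f g) h = cmpC f (cmpC g h) := by
  obtain ⟨f, hf, rfl⟩ := exists_cls f
  obtain ⟨g, hg, rfl⟩ := exists_cls g
  obtain ⟨h, hh, rfl⟩ := exists_cls h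
  simp only [cmpC_cls]
  exact cls_congr _ _ fun i => Matrix.mul_assoc _ _ _

theorem one_cmpC (f : HomC X X') : cmpC (cls (fun _ => 1) isC_one) f = f := by
  obtain ⟨f, hf, rfl⟩ := exists_cls f
  rw [cmpC_cls]
  exact cls_congr _ _ fun i => Matrix.one_mul _

theorem add_cmpC (f f' : HomC X X') (g : HomC X' X'') :
    cmpC (f + f') g = cmpC f g + cmpC f' g := by
  obtain ⟨f, hf, rfl⟩ := exists_cls f
  obtain ⟨g, hg, rfl⟩ := exists_cls g
  obtain ⟨f', hf', rfl⟩ := exists_cls f'
  simp only [← cls_add, cmpC_cls]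
  exact cls_congr _ _ fun i => Matrix.add_mul _ _ _

theorem smul_cmpC (c : ℂ) (f : HomC X X') (g : HomC X' X'') :
    cmpC (c • f) g = c • cmpC f g := by
  obtain ⟨f, hf, rfl⟩ := exists_cls f
  obtain ⟨g, hg, rfl⟩ := exists_cls g
  simp only [← cls_smul, cmpC_cls]
  exact cls_congr _ _ fun i => Matrix.smul_mul c (f i) (g i)

theorem adjC_adjC (f : HomC X X') : adjC (adjC f) = f := by
  obtain ⟨f, hf, rfl⟩ := exists_cls f
  simp only [adjC_cls]
  exact cls_congr _ _ fun i => conjTranspose_conjTranspose _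

theorem adjC_add (f g : HomC X X') : adjC (f + g) = adjC f + adjC g := by
  obtain ⟨f, hf, rfl⟩ := exists_cls f
  obtain ⟨g, hg, rfl⟩ := exists_cls g
  simp only [← cls_add, adjC_cls]
  exact cls_congr _ _ fun i => conjTranspose_add _ _

theorem adjC_smul (c : ℂ) (f : HomC X X') : adjC (c • f) = (starRingEnd ℂ c) • adjC f := by
  obtain ⟨f, hf, rfl⟩ := exists_cls f
  simp only [← cls_smul, adjC_cls]
  exact cls_congr _ _ fun i => conjTranspose_smul c (f i)

theorem adjC_cmpC (f : HomC X X') (g : HomC X' X'') : adjC (cmpC f g) = cmpC (adjC g) (adjC f) := by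
  obtain ⟨f, hf, rfl⟩ := exists_cls f
  obtain ⟨g, hg, rfl⟩ := exists_cls g
  simp only [cmpC_cls, adjC_cls]
  exact cls_congr _ _ fun i => conjTranspose_mul _ _

theorem adj_cmp_cls {f : Raw W X} {g : Raw W X'} {h : Raw X X'} (hf : IsC f) (hg : IsC g)
    (hh : IsC h) (e : ∀ i, (f i)ᴴ * g i = h i) :
    cmpC (adjC (cls f hf)) (cls g hg) = cls h hh := by
  rw [adjC_cls, cmpC_cls]
  exact cls_congr _ _ e

theorem tot_cls {f : Raw W X} {g : Raw W X'} (hf : IsC f) (hg : IsC g)
    (e : ∀ i, f i * (f i)ᴴ + g i * (g i)ᴴ = 1) :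
    cmpC (cls f hf) (adjC (cls f hf)) + cmpC (cls g hg) (adjC (cls g hg)) =
      cls (fun _ => 1) isC_one := by
  rw [adjC_cls, adjC_cls, cmpC_cls, cmpC_cls, ← cls_add]
  exact cls_congr _ _ e

theorem rows_ad_mul {α β γ δ : Type} [Fintype α] [Fintype β] (a : Matrix α γ ℂ) (b : Matrix β γ ℂ)
    (c : Matrix α δ ℂ) (d : Matrix β δ ℂ) {e : Matrix γ δ ℂ} (h : aᴴ * c + bᴴ * d = e) :
    (fromRows a b)ᴴ * fromRows c d = e := by
  rw [conjTranspose_fromRows_eq_fromCols_conjTranspose, fromCols_mul_fromRows, h]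

theorem rows_total (α β : Type) [Fintype α] [Fintype β] [DecidableEq α] [DecidableEq β] :
    fromRows (1 : Matrix α α ℂ) (0 : Matrix β α ℂ) *
        (fromRows (1 : Matrix α α ℂ) (0 : Matrix β α ℂ))ᴴ +
      fromRows (0 : Matrix α β ℂ) (1 : Matrix β β ℂ) *
        (fromRows (0 : Matrix α β ℂ) (1 : Matrix β β ℂ))ᴴ = 1 := by
  rw [conjTranspose_fromRows_eq_fromCols_conjTranspose,
    conjTranspose_fromRows_eq_fromCols_conjTranspose, fromRows_mul_fromCols, fromRows_mul_fromCols,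
    fromBlocks_add]
  simp

noncomputable instance instDag : Dag (Ctl l U) where
  Hom := HomC
  cmp := cmpC
  idm X := cls (fun _ => 1) isC_one
  adj := adjC
  sum := sum
  inl := cls (fun _ => fromRows 1 0) (isC_one.fromRows isC_zero)
  inr := cls (fun _ => fromRows 0 1) (isC_zero.fromRows isC_one)
  cmp_assoc := cmpC_assoc
  idm_cmp := one_cmpC
  add_cmp := add_cmpC
  smul_cmp := smul_cmpC
  adj_adj := adjC_adjC
  adj_add := adjC_add
  adj_smul := adjC_smul
  adj_cmp := adjC_cmpC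
  inl_inl X Y := adj_cmp_cls (W := sum X Y) _ _ _ fun i => rows_ad_mul 1 0 1 0 (by simp)
  inr_inr X Y := adj_cmp_cls (W := sum X Y) _ _ _ fun i => rows_ad_mul 0 1 0 1 (by simp)
  inr_inl X Y := adj_cmp_cls (W := sum X Y) _ _ isC_zero fun i => rows_ad_mul 0 1 1 0 (by simp)
  total X Y := tot_cls (W := sum X Y) _ _ fun i => rows_total _ _

open Dag

open Classical in
/-- The map given by a family (zero if the family is not controlled). -/
noncomputable def mk' (X X' : Ctl l U) (f : Raw X X') : Hom X X' :=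
  if hf : IsC f then cls f hf else 0

/-- A chosen representative. -/
noncomputable def rep (φ : Hom X X') : Raw X X' := (Quotient.out (s := (negl X X').quotientRel) φ).1

theorem isC_rep (φ : Hom X X') : IsC (rep φ) := (Quotient.out (s := (negl X X').quotientRel) φ).2

theorem mk_cls {f : Raw X X'} (hf : IsC f) : mk' X X' f = cls f hf := dif_pos hf

theorem mk_rep (φ : Hom X X') : mk' X X' (rep φ) = φ := 
  (mk_cls (isC_rep φ)).trans (Quotient.out_eq (s := (negl X X').quotientRel) φ)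

theorem mk_eq_iff {f g : Raw X X'} (hf : IsC f) (hg : IsC g) :
    mk' X X' f = mk' X X' g ↔ rsupp (f - g) = ∅ := by
  rw [mk_cls hf, mk_cls hg]
  exact Submodule.Quotient.eq (negl X X')

theorem mk_eq_of_near {f g : Raw X X'} (hf : IsC f)
    (h : ∀ y ∈ U, ∃ ρ > 0, ∀ᶠ i in l, ∀ a b,
      (dist (X.pos i a) y < ρ ∨ dist (X'.pos i b) y < ρ) → f i a b = g i a b) :
    mk' X X' f = mk' X X' g := by
  have h1 : rsupp (f - g) = ∅ := rsupp_eq_empty.2 fun y hy => by
    obtain ⟨ρ, hρ, H⟩ := h y hy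
    exact ⟨ρ, hρ, H.mono fun i h1 a b hd => sub_eq_zero.2 (h1 a b hd)⟩
  exact (mk_eq_iff hf (by simpa using hf.sub (isC_of_rsupp h1))).2 h1

theorem mk_eq_of_col {f g : Raw X X'} (hf : IsC f) (hg : IsC g)
    (h : ∀ y ∈ U, ∃ ρ > 0, ∀ᶠ i in l, ∀ a b, dist (X'.pos i b) y < ρ → f i a b = g i a b) :
    mk' X X' f = mk' X X' g := by
  refine (mk_eq_iff hf hg).2 (rsupp_eq_empty.2 fun y hy => ?_)
  obtain ⟨ρ, hρ, H⟩ := h y hy
  obtain ⟨ρ', hρ', H'⟩ := hf.sub hg y hy
  refine ⟨min ρ' (ρ / 2), by positivity, ?_⟩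
  filter_upwards [H, H' (ρ / 2) (by positivity)] with i h1 h2 a b hd
  by_contra h3
  simp only [lt_min_iff] at hd
  refine h3 (sub_eq_zero.2 (h1 a b ?_))
  rcases hd with hd | hd
  · linarith [hd.2, h2 a b h3 (Or.inl hd.1), dist_triangle_left (X'.pos i b) y (X.pos i a)]
  · linarith [hd.2]

theorem mk_congr {f g : Raw X X'} (h : ∀ᶠ i in l, f i = g i) : mk' X X' f = mk' X X' g := by
  by_cases hf : IsC f
  · exact mk_eq_of_near hf fun _ _ => ⟨1, one_pos, h.mono fun i e a b _ => by rw [e]⟩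
  · have hg : ¬IsC g := fun hg => hf (hg.of_le (h.mono fun i e a b => by rw [e]; exact id))
    rw [mk', mk', dif_neg hf, dif_neg hg]

theorem mk_zero : mk' X X' 0 = 0 := mk_cls isC_zero

theorem mk_one : mk' X X (fun _ => 1) = 1 := mk_cls isC_one

theorem mk_add {f g : Raw X X'} (hf : IsC f) (hg : IsC g) :
    mk' X X' (f + g) = mk' X X' f + mk' X X' g := by
  rw [mk_cls hf, mk_cls hg, mk_cls (hf.add hg)]
  rfl

theorem mk_sub {f g : Raw X X'} (hf : IsC f) (hg : IsC g) :
    mk' X X' (f - g) = mk' X X' f - mk' X X' g := by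
  rw [mk_cls hf, mk_cls hg, mk_cls (hf.sub hg)]
  rfl

theorem mk_smul (c : ℂ) {f : Raw X X'} (hf : IsC f) : mk' X X' (c • f) = c • mk' X X' f := by
  rw [mk_cls hf, mk_cls (hf.smul c)]
  rfl

theorem mk_neg {f : Raw X X'} (hf : IsC f) : mk' X X' (-f) = -mk' X X' f := by
  rw [mk_cls hf, mk_cls hf.neg]
  rfl

theorem mk_mul {f : Raw X X'} {g : Raw X' X''} (hf : IsC f) (hg : IsC g) :
    mk' X X'' (fun i => f i * g i) = mk' X X' f * mk' X' X'' g := by
  rw [mk_cls hf, mk_cls hg, mk_cls (hf.mul hg)]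
  rfl

theorem mk_ad {f : Raw X X'} (hf : IsC f) :
    mk' X' X (fun i => (f i)ᴴ) = (mk' X X' f).ad := by
  rw [mk_cls hf, mk_cls hf.ad]
  rfl

theorem rows_eq {α β γ : Type} [Fintype α] [Fintype β] [DecidableEq α] [DecidableEq β]
    (a : Matrix α γ ℂ) (b : Matrix β γ ℂ) : fromRows a b =
      fromRows (1 : Matrix α α ℂ) (0 : Matrix β α ℂ) * a +
        fromRows (0 : Matrix α β ℂ) (1 : Matrix β β ℂ) * b := by
  ext (x | x) y <;> simp [fromRows_mul]

theorem col_cls {f : Raw X W} {g : Raw X' W} {u : Raw W' X} {v : Raw W' X'} {h : Raw W' W}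
    (hf : IsC f) (hg : IsC g) (hu : IsC u) (hv : IsC v) (hh : IsC h)
    (e : ∀ i, h i = u i * f i + v i * g i) :
    cls h hh = cmpC (cls u hu) (cls f hf) + cmpC (cls v hv) (cls g hg) := by
  rw [cmpC_cls, cmpC_cls, ← cls_add]
  exact cls_congr _ _ e

theorem mk_col {f : Raw X W} {g : Raw X' W} (hf : IsC f) (hg : IsC g) :
    mk' (sum X X') W (fun i => fromRows (f i) (g i)) = col (mk' X W f) (mk' X' W g) := by
  rw [mk_cls hf, mk_cls hg]
  exact (mk_cls (hf.fromRows hg)).trans (col_cls (W' := sum X X') hf hg (isC_one.fromRows isC_zero)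
    (isC_zero.fromRows isC_one) _ fun i => rows_eq _ _)

theorem mk_row {f : Raw W X} {g : Raw W X'} (hf : IsC f) (hg : IsC g) :
    mk' W (sum X X') (fun i => fromCols (f i) (g i)) = row (mk' W X f) (mk' W X' g) := by
  refine ad_inj (((mk_ad (hf.fromCols hg)).symm.trans ?_).trans (ad_row _ _).symm)
  rw [← mk_ad hf, ← mk_ad hg]
  refine Eq.trans ?_ (mk_col hf.ad hg.ad)
  exact congrArg (mk' (sum X X') W) (funext fun i =>
    conjTranspose_fromCols_eq_fromRows_conjTranspose (f i) (g i))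

theorem mk_blk {a : Raw X W} {b : Raw X W'} {c : Raw X' W} {d : Raw X' W'} (ha : IsC a)
    (hb : IsC b) (hc : IsC c) (hd : IsC d) :
    mk' (sum X X') (sum W W') (fun i => fromBlocks (a i) (b i) (c i) (d i)) =
      blk (mk' X W a) (mk' X W' b) (mk' X' W c) (mk' X' W' d) := by
  simp only [← fromRows_fromCols_eq_fromBlocks]
  rw [blk, ← mk_row ha hb, ← mk_row hc hd]
  exact mk_col (ha.fromCols hb) (hc.fromCols hd)

theorem rsupp_rep_mk {f : Raw X X'} (hf : IsC f) : rsupp (rep (mk' X X' f)) = rsupp f := by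
  have key : ∀ {f g : Raw X X'}, IsC f → IsC g → mk' X X' f = mk' X X' g → rsupp f ⊆ rsupp g :=
    fun {f g} hf hg h => by
      have := rsupp_add (f - g) g
      rwa [(mk_eq_iff hf hg).1 h, sub_add_cancel, Set.empty_union] at this
  exact (key (isC_rep _) hf (mk_rep _)).antisymm (key hf (isC_rep _) (mk_rep _).symm)

end Ctl

end Vale.Agent.P228
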