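import Vale.Agent.P228.Sym

/-! Basic calculus of `Rel` (homotopy isometry), `Poinc`, `CtrZ`, `Phys`.

Conventions: `Hom X Y` is a map from `Y` to `X`; `Hq d' d f` says `f : (E, d) → (E', d')` is a
homotopy equivalence. Useful: `simp` knows the block calculus (`blk_blk`, `ad_blk`, ...); use
`reas h` to turn `h : a * b = c` into a rule for right nested products; finish with `module` or
`abel`. `qt Z` is a functor (`(qF C Z).map`), so `Hq.map (qF C Z)`, `Ctr.map`, `qt_blk` apply.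

Plans.
* `Rel.symm`: take `g` from `Hq.inv`; `g S' g† ≃ g f S f† g† ≃ S` with `Htp.mul_left/mul_right`
  (note `f† : (E', -d'†) → (E, -d†)` is a chain map).
* `Rel.of_iso`: `Hq.of_iso`, `Htp.of_eq`.
* `Rel.poinc`: `f S f†` is `Hq` (`Hq.mul`, `Hq.ad`, `Hq.neg_d`), then `Hq.of_htp`.
* `add_comm'`, `add_assoc'`, `add_four`, `neg_add'`, `bd_add`, `bd_neg`: explicit block
  permutation matrices in `Rel.of_iso` (`bd_neg`: `blk 1 0 0 (-1)`).
* `poinc_iff`: `hq_iff_ctr_cone` and `Ctr.smul`.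
* `phys_iff`: `qt_eq_zero` and `map_one`. `ctr_qt_inter`: if `d h + h d - 1` is supported in `A`,
  it equals `1 * (..)` so it is also supported in `supp 1`. -/

namespace Vale.Agent.P228

open Dag CDag Complex

variable {C : Type 1} {Pt : Type} [Dag C] [CDag C Pt]

theorem supp_le_left {X Y : C} (f : Hom X Y) : supp f ⊆ supp (1 : Hom X X) := by
  have := supp_mul (1 : Hom X X) f
  rw [one_m] at this
  exact this.trans Set.inter_subset_left

theorem supp_le_right {X Y : C} (f : Hom X Y) : supp f ⊆ supp (1 : Hom Y Y) := by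
  have := supp_mul f (1 : Hom Y Y)
  rw [m_one] at this
  exact this.trans Set.inter_subset_right

theorem supp_row {X Y W : C} (a : Hom X Y) (b : Hom X W) : supp (row a b) ⊆ supp a ∪ supp b := by
  exact (supp_add _ _).trans (Set.union_subset_union
    ((supp_mul _ _).trans Set.inter_subset_left) ((supp_mul _ _).trans Set.inter_subset_left))

theorem supp_one_sum (X Y : C) :
    supp (1 : Hom (sum X Y) (sum X Y)) ⊆ supp (1 : Hom X X) ∪ supp (1 : Hom Y Y) := by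
  rw [← tot]
  exact (supp_add _ _).trans (Set.union_subset_union
    ((supp_mul _ _).trans (Set.inter_subset_left.trans (supp_le_right _)))
    ((supp_mul _ _).trans (Set.inter_subset_left.trans (supp_le_right _))))

theorem symA_qt_gen {E Y : C} {Z Z' : Set Pt} (H : ∀ x : Hom E Y, supp x ⊆ Z → supp x ⊆ Z')
    {f g : Hom E Y} (h : qt Z f = qt Z g) : qt Z' f = qt Z' g :=
  qt_eq_iff.2 (H _ (qt_eq_iff.1 h))

theorem symA_ctr_gen {E : C} {d : Hom E E} {Z Z' : Set Pt}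
    (H : ∀ x : Hom E E, supp x ⊆ Z → supp x ⊆ Z') (hc : Ctr (qt Z d)) : Ctr (qt Z' d) := by
  obtain ⟨a, ha⟩ := hc
  obtain ⟨a, rfl⟩ := qt_surj a
  exact ⟨qt Z' a, symA_qt_gen H (f := d * a + a * d) (g := 1) ha⟩

theorem symA_htp_gen {E E' : C} {d : Hom E E} {d' : Hom E' E'} {f g : Hom E' E} {Z Z' : Set Pt}
    (H : ∀ x : Hom E' E, supp x ⊆ Z → supp x ⊆ Z')
    (hc : Htp (qt Z d') (qt Z d) (qt Z f) (qt Z g)) :
    Htp (qt Z' d') (qt Z' d) (qt Z' f) (qt Z' g) := by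
  obtain ⟨a, ha⟩ := hc
  obtain ⟨a, rfl⟩ := qt_surj a
  exact ⟨qt Z' a, symA_qt_gen H (f := f - g) (g := d' * a + a * d) ha⟩

theorem symA_hq_gen {E E' : C} {d : Hom E E} {d' : Hom E' E'} {f : Hom E' E} {Z Z' : Set Pt}
    (H : ∀ (Y : C) (x : Hom E Y), supp x ⊆ Z → supp x ⊆ Z')
    (H' : ∀ (Y : C) (x : Hom E' Y), supp x ⊆ Z → supp x ⊆ Z')
    (hq : Hq (qt Z d') (qt Z d) (qt Z f)) : Hq (qt Z' d') (qt Z' d) (qt Z' f) := by
  obtain ⟨hf, g, hg, h1, h2⟩ := hq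
  obtain ⟨g, rfl⟩ := qt_surj g
  exact ⟨symA_qt_gen (H' _) (f := d' * f) (g := f * d) hf, qt Z' g,
    symA_qt_gen (H _) (f := d * g) (g := g * d') hg,
    symA_htp_gen (H' _) (f := f * g) (g := 1) h1, symA_htp_gen (H _) (f := g * f) (g := 1) h2⟩

theorem ctr_qt_mono {E : C} {d : Hom E E} {Z Z' : Set Pt} (h : Z ⊆ Z') (hc : Ctr (qt Z d)) :
    Ctr (qt Z' d) := by
  exact symA_ctr_gen (fun _ hx => hx.trans h) hc

theorem ctr_qt_empty {E : C} {d : Hom E E} (hc : Ctr (qt (∅ : Set Pt) d)) : Ctr d := by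
  obtain ⟨a, ha⟩ := hc
  obtain ⟨a, rfl⟩ := qt_surj a
  have h1 : qt (∅ : Set Pt) (d * a + a * d) = qt ∅ 1 := ha
  exact ⟨a, sub_eq_zero.1 (eq_zero _ (Set.subset_empty_iff.1 (qt_eq_iff.1 h1)))⟩

theorem ctr_qt_inter {E : C} {d : Hom E E} {A W : Set Pt} (hW : supp (1 : Hom E E) ⊆ W)
    (hc : Ctr (qt A d)) : Ctr (qt (A ∩ W) d) := by
  exact symA_ctr_gen (fun x hx => Set.subset_inter hx ((supp_le_left x).trans hW)) hc

theorem hq_qt_mono {E E' : C} {d : Hom E E} {d' : Hom E' E'} {f : Hom E' E} {Z Z' : Set Pt}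
    (h : Z ⊆ Z') (hq : Hq (qt Z d') (qt Z d) (qt Z f)) : Hq (qt Z' d') (qt Z' d) (qt Z' f) := by
  exact symA_hq_gen (fun _ _ hx => hx.trans h) (fun _ _ hx => hx.trans h) hq

theorem hq_qt_inter {E E' : C} {d : Hom E E} {d' : Hom E' E'} {f : Hom E' E} {A W : Set Pt}
    (hW : supp (1 : Hom E E) ⊆ W) (hW' : supp (1 : Hom E' E') ⊆ W)
    (hq : Hq (qt A d') (qt A d) (qt A f)) :
    Hq (qt (A ∩ W) d') (qt (A ∩ W) d) (qt (A ∩ W) f) := by
  exact symA_hq_gen (fun _ x hx => Set.subset_inter hx ((supp_le_left x).trans hW))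
    (fun _ x hx => Set.subset_inter hx ((supp_le_left x).trans hW')) hq

namespace Sym

variable {X X' X'' Y Y' V : Sym C} {Z : Set Pt}

omit [CDag C Pt] in
theorem symA_push {A B : C} {d : Hom A A} {e : Hom B B} {g : Hom B A} (hg : e * g = g * d)
    {a b : Hom A A} (h : Htp d (-d.ad) a b) : Htp e (-e.ad) (g * a * g.ad) (g * b * g.ad) := by
  refine (h.mul_left hg).mul_right ?_
  simpa using (ad_eq hg).symm

theorem symA_conj (X : Sym C) {e : Hom X.E X.E} (he : X.d * e = e * X.d) (h : Htp X.d X.d e 1) :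
    Htp X.d (-X.d.ad) (e * X.S * e.ad) X.S := by
  have h1 : e.ad * X.d.ad = X.d.ad * e.ad := by simpa using ad_eq he
  have h2 : Htp X.d (-X.d.ad) (e * (X.S * e.ad)) (1 * (X.S * e.ad)) :=
    h.mul_right (by simp [reas X.dS, h1])
  have h3 : Htp X.d (-X.d.ad) (X.S * e.ad) (X.S * (1 : Hom X.E X.E).ad) :=
    h.ad.neg_d.mul_left (by simp [X.dS])
  simp only [massoc, one_m, ad_one, m_one] at h2 h3 ⊢
  exact h2.trans h3

theorem Rel.of_iso (u : Hom X'.E X.E) (v : Hom X.E X'.E) (h1 : u * v = 1) (h2 : v * u = 1)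
    (hd : X'.d * u = u * X.d) (hS : u * X.S * u.ad = X'.S) : Rel X' X := by
  exact ⟨u, Hq.of_iso h1 h2 hd, Htp.of_eq hS⟩

theorem Rel.refl (X : Sym C) : Rel X X := by
  exact Rel.of_iso 1 1 (by simp) (by simp) (by simp) (by simp)

theorem Rel.symm (h : Rel X' X) : Rel X X' := by
  obtain ⟨f, hf, hS⟩ := h
  obtain ⟨g, hg, -, h2⟩ := hf.inv
  refine ⟨g, hg, (symA_push hg.1 hS.symm).trans ?_⟩
  simpa using symA_conj X (hg.mul hf).1 h2

theorem Rel.trans (h' : Rel X'' X') (h : Rel X' X) : Rel X'' X := by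
  obtain ⟨f, hf, hS⟩ := h
  obtain ⟨g, hg, hT⟩ := h'
  refine ⟨g * f, hg.mul hf, Htp.trans ?_ hT⟩
  simpa using symA_push hg.1 hS

theorem Rel.add (h : Rel X' X) (h' : Rel Y' Y) : Rel (X'.add Y') (X.add Y) := by
  obtain ⟨f, hf, hS⟩ := h
  obtain ⟨g, hg, hT⟩ := h'
  unfold Rel
  dsimp +instances only [Sym.add]
  refine ⟨blk f 0 0 g, hf.blk_diag hg, ?_⟩
  simpa using hS.blk_diag hT

theorem Rel.neg (h : Rel X' X) : Rel X'.neg X.neg := by
  obtain ⟨f, hf, hS⟩ := h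
  unfold Rel
  dsimp +instances only [Sym.neg]
  refine ⟨f, hf, ?_⟩
  simpa using hS.neg

theorem Rel.poinc (h : Rel X' X) (hp : X.Poinc) : X'.Poinc := by
  obtain ⟨f, hf, hS⟩ := h
  exact ((hf.mul hp).mul hf.ad.neg_d).of_htp (by simp [X'.dS]) hS

theorem Rel.ctrZ (h : Rel X' X) (hp : X.CtrZ Z) : X'.CtrZ Z := by
  obtain ⟨f, hf, -⟩ := h
  exact (hf.map (qF C Z)).ctr_left hp

theorem Rel.pz (h : Rel X' X) (hp : X.PZ Z) : X'.PZ Z := ⟨h.poinc hp.1, h.ctrZ hp.2⟩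

theorem neg_neg' (X : Sym C) : Rel X.neg.neg X := by
  unfold Rel
  dsimp +instances only [Sym.neg]
  exact ⟨1, Hq.one, Htp.of_eq (by simp)⟩

theorem add_comm' (X Y : Sym C) : Rel (X.add Y) (Y.add X) := by
  unfold Rel
  dsimp +instances only [Sym.add]
  exact ⟨blk 0 1 1 0, Hq.of_iso (v := blk 0 1 1 0) (by simp) (by simp) (by simp),
    Htp.of_eq (by simp)⟩

omit [CDag C Pt] in
theorem symA_row_col0 {A B A' B' : C} (a : Hom A A') (c : Hom B A') :
    row (col a c) (0 : Hom (sum A B) B') = blk a 0 c 0 := by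
  rw [← row_col', col_zero]

omit [CDag C Pt] in
theorem symA_row0_col {A B A' B' : C} (b : Hom A B') (d : Hom B B') :
    row (0 : Hom (sum A B) A') (col b d) = blk 0 b 0 d := by
  rw [← row_col', col_zero]

theorem add_assoc' (X Y V : Sym C) : Rel ((X.add Y).add V) (X.add (Y.add V)) := by
  unfold Rel
  dsimp +instances only [Sym.add]
  refine ⟨blk (col 1 0) (blk 0 0 1 0) 0 (row 0 1),
    Hq.of_iso (v := blk (row 1 0) 0 (blk 0 1 0 0) (col 0 1)) ?_ ?_ ?_, Htp.of_eq ?_⟩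
  · simp [symA_row_col0]
  · simp [symA_row0_col]
  · simp
  · simp [symA_row_col0]

theorem add_four (X Y X' Y' : Sym C) :
    Rel ((X.add Y).add (X'.add Y')) ((X.add X').add (Y.add Y')) := by
  unfold Rel
  dsimp +instances only [Sym.add]
  exact ⟨blk (blk 1 0 0 0) (blk 0 0 1 0) (blk 0 1 0 0) (blk 0 0 0 1),
    Hq.of_iso (v := blk (blk 1 0 0 0) (blk 0 0 1 0) (blk 0 1 0 0) (blk 0 0 0 1)) (by simp)
      (by simp) (by simp), Htp.of_eq (by simp)⟩

theorem neg_add' (X Y : Sym C) : Rel (X.add Y).neg (X.neg.add Y.neg) := by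
  unfold Rel
  dsimp +instances only [Sym.neg, Sym.add]
  exact ⟨1, Hq.one, Htp.of_eq (by simp)⟩

theorem bd_add (X Y : Sym C) : Rel (X.add Y).bd (X.bd.add Y.bd) := by
  unfold Rel
  dsimp +instances only [Sym.add, Sym.bd]
  exact ⟨blk (blk 1 0 0 0) (blk 0 0 1 0) (blk 0 1 0 0) (blk 0 0 0 1),
    Hq.of_iso (v := blk (blk 1 0 0 0) (blk 0 0 1 0) (blk 0 1 0 0) (blk 0 0 0 1)) (by simp)
      (by simp) (by simp), Htp.of_eq (by simp [← one_eq_blk])⟩

theorem bd_neg (X : Sym C) : Rel X.neg.bd X.bd.neg := by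
  unfold Rel
  dsimp +instances only [Sym.neg, Sym.bd]
  exact ⟨blk 1 0 0 (-1), Hq.of_iso (v := blk 1 0 0 (-1)) (by simp) (by simp) (by simp),
    Htp.of_eq (by simp)⟩

/-- Sums of neutral complexes are neutral. -/
theorem neutral_add (h : Rel X X.neg) (h' : Rel Y Y.neg) : Rel (X.add Y) (X.add Y).neg := by
  exact (h.add h').trans (neg_add' X Y).symm

theorem neutral_neg (h : Rel X X.neg) : Rel X.neg X.neg.neg := h.neg

theorem neutral_self (X : Sym C) : Rel (X.add X.neg) (X.add X.neg).neg := by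
  exact (add_comm' X X.neg).trans
    (((Rel.refl X.neg).add (neg_neg' X).symm).trans (neg_add' X X.neg).symm)

theorem neutral_of_rel (h : Rel X' X) (h' : Rel X X.neg) : Rel X' X'.neg :=
  (h.trans h').trans h.neg.symm

theorem neutral_of_ctr (h : Ctr X.d) : Rel X X.neg := by
  obtain ⟨a, ha⟩ := h
  unfold Rel
  dsimp +instances only [Sym.neg]
  refine ⟨1, Hq.one, -(a * X.S + a * X.S), ?_⟩
  have h1 := congrArg (fun x : Hom X.E X.E => x * X.S) ha
  simp only [add_m, massoc, one_m, X.dS, m_neg] at h1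
  simp only [m_neg, neg_m, m_add, add_m, massoc, one_m, ad_one, m_one]
  linear_combination (norm := abel) h1 + h1

theorem poinc_iff : V.Poinc ↔ Ctr V.bd.d := by
  rw [Poinc, hq_iff_ctr_cone (by simp [V.dd']) V.dd (by simp [V.dS]), neg_neg]
  dsimp +instances only [Sym.bd]
  refine ⟨fun h => h.smul I_ne_zero, fun h => ?_⟩
  have := h.smul (inv_ne_zero I_ne_zero)
  rwa [smul_smul, inv_mul_cancel₀ I_ne_zero, one_smul] at this

theorem ctrZ_bd_iff : V.bd.CtrZ Z ↔ Hq (qt Z V.d) (-(qt Z V.d).ad) (qt Z V.S) := by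
  have h1 : qt Z V.d * qt Z V.d = 0 := ((qF C Z).map_mul _ _).symm.trans (by rw [V.dd, map_zero])
  have h2 : (qt Z V.d).ad * (qt Z V.d).ad = 0 := by simpa using ad_eq h1
  have h3 : qt Z V.d * qt Z V.S = -(qt Z V.S * (qt Z V.d).ad) :=
    ((qF C Z).map_mul _ _).symm.trans (by rw [V.dS, map_neg]; rfl)
  rw [hq_iff_ctr_cone (by simp [h2]) h1 (by simp [h3]), neg_neg]
  change Ctr (I • blk (qt Z V.d) (qt Z V.S) 0 (qt Z V.d).ad) ↔ _
  refine ⟨fun h => ?_, fun h => h.smul I_ne_zero⟩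
  have := h.smul (inv_ne_zero I_ne_zero)
  rwa [smul_smul, inv_mul_cancel₀ I_ne_zero, one_smul] at this

theorem bd_poinc (V : Sym C) : V.bd.Poinc := by
  have h := V.bd.dS
  unfold Poinc
  dsimp +instances only [Sym.bd] at h ⊢
  exact Hq.of_iso (v := blk 0 1 1 0) (by simp) (by simp) (by rw [h, m_neg])

theorem CtrZ.bd (h : V.CtrZ Z) : V.bd.CtrZ Z := by
  have h4 : qt Z V.bd.d = I • blk (qt Z V.d) (qt Z V.S) 0 (qt Z V.d).ad := rfl
  rw [CtrZ, h4]
  refine Ctr.smul I_ne_zero (ctr_blk ?_ h (Ctr.ad h))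
  have := congrArg (qt Z) V.rel
  simpa using this

theorem CtrZ.bd_pz (h : V.CtrZ Z) : V.bd.PZ Z := ⟨bd_poinc V, h.bd⟩

theorem Poinc.add (h : X.Poinc) (h' : Y.Poinc) : (X.add Y).Poinc := by
  unfold Poinc
  dsimp +instances only [Sym.add]
  simpa using Hq.blk_diag h h'

theorem Poinc.neg (h : X.Poinc) : X.neg.Poinc := by
  exact Hq.neg h

theorem Poinc.of_add (h : (X.add Y).Poinc) : X.Poinc := by
  unfold Poinc at h
  dsimp +instances only [Sym.add] at h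
  obtain ⟨-, g, hg, ⟨k, hk⟩, ⟨l, hl⟩⟩ := h
  obtain ⟨a, b, c, e, rfl⟩ := exists_blk g
  obtain ⟨k, k2, k3, k4, rfl⟩ := exists_blk k
  obtain ⟨l, l2, l3, l4, rfl⟩ := exists_blk l
  rw [one_eq_blk] at hk hl
  simp only [ad_blk, ad_zero, blk_neg, neg_zero, blk_blk, blk_sub, blk_add, blk_inj,
    zero_m, m_zero, add_zero] at hg hk hl
  exact ⟨by simp [X.dS], a, hg.1, ⟨k, hk.1⟩, ⟨l, hl.1⟩⟩

theorem CtrZ.add (h : X.CtrZ Z) (h' : Y.CtrZ Z) : (X.add Y).CtrZ Z := by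
  have h4 : qt Z (X.add Y).d = blk (qt Z X.d) 0 0 (qt Z Y.d) := rfl
  rw [CtrZ, h4]
  exact ctr_blk (by simp) h h'

theorem CtrZ.neg (h : X.CtrZ Z) : X.neg.CtrZ Z := h

theorem CtrZ.mono {Z' : Set Pt} (hZ : Z ⊆ Z') (h : X.CtrZ Z) : X.CtrZ Z' := ctr_qt_mono hZ h

theorem PZ.add (h : X.PZ Z) (h' : Y.PZ Z) : (X.add Y).PZ Z := ⟨h.1.add h'.1, h.2.add h'.2⟩

theorem PZ.neg (h : X.PZ Z) : X.neg.PZ Z := ⟨h.1.neg, h.2⟩

theorem PZ.mono {Z' : Set Pt} (hZ : Z ⊆ Z') (h : X.PZ Z) : X.PZ Z' := ⟨h.1, h.2.mono hZ⟩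

theorem Phys.ctrZ (h : X.Phys Z) : X.CtrZ Z := by
  exact Ctr.of_one_eq_zero (qt_eq_zero.2 h)

theorem Phys.add (h : X.Phys Z) (h' : Y.Phys Z) : (X.add Y).Phys Z := by
  exact (supp_one_sum X.E Y.E).trans (Set.union_subset h h')

theorem Phys.neg (h : X.Phys Z) : X.neg.Phys Z := h

theorem Phys.bd (h : X.Phys Z) : X.bd.Phys Z := by
  exact (supp_one_sum X.E X.E).trans (Set.union_subset h h)

theorem Poinc.pz_univ (h : X.Poinc) : X.PZ Set.univ :=
  ⟨h, Phys.ctrZ (Set.subset_univ _)⟩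

end Sym

end Vale.Agent.P228
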