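import Vale.Agent.P228.Ctl
import Vale.Agent.P228.SymA

/-! Supports, tameness and cuts in the controlled category.

Plans.
* `supp_*`: write each map as `mk' (rep _)`, use `mk_add` etc. and `rsupp_rep_mk`.
* `tame_blk`: a path in `fromBlocks a s 0 b` is a path of `a`, at most one step of `s`, and a path
  of `b`; `RelCtl.comp`, `RelCtl.or`.
* `cut`: `d₀` the tame representative, `f₀ = rep f`. `B i` is the subtype of those `a` with
  `ReflTransGen (d₀ · · ≠ 0) a a₀` for some `a₀, b` with `f₀ a₀ b ≠ 0`; `Q i` is the complement;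
  `iB`, `iQ` are the submatrices of `1`. All equations hold exactly for the representatives.
* `cover`: `p = diagonal (indicator (pos ∈ A))`.
* `rel_of_mk`: `Rel.of_iso` with `u` the class of `(1 : Matrix).submatrix (e i) id`. -/

namespace Vale.Agent.P228

open Filter Matrix Dag

variable {I : Type} {Y : Type} [PseudoMetricSpace Y] {l : Filter I} {U : Set Y}

namespace Ctl

/-- All paths of nonzero entries are controlled. -/
def TameR {X : Ctl l U} (d : Raw X X) : Prop :=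
  RelCtl l U X.pos X.pos (fun i => Relation.ReflTransGen (fun a b => d i a b ≠ 0))

theorem TameR.isC {X : Ctl l U} {d : Raw X X} (h : TameR d) : IsC d :=
  RelCtl.mono h (Eventually.of_forall fun _ _ _ h => Relation.ReflTransGen.single h)

section Aux

open Relation

variable {X X' Z Z' : Ctl l U}

theorem rtg_map {α β : Type} {r : α → α → Prop} {p : β → β → Prop} (f : α → β)
    (h : ∀ a b, r a b → p (f a) (f b)) {a b : α} (hab : ReflTransGen r a b) :
    ReflTransGen p (f a) (f b) := by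
  induction hab with
  | refl => exact ReflTransGen.refl
  | tail _ h1 ih => exact ih.tail (h _ _ h1)

theorem rtg_swap {α : Type} {r p : α → α → Prop} (h : ∀ a b, r a b → p b a) {a b : α}
    (hab : ReflTransGen r a b) : ReflTransGen p b a := by
  induction hab with
  | refl => exact ReflTransGen.refl
  | tail _ h1 ih => exact ih.head (h _ _ h1)

/-- The selection matrices of a family of index maps. -/
def csel (X Z : Ctl l U) (u : ∀ i, Z.ι i → X.ι i) : Raw X Z :=
  fun i => (1 : Matrix (X.ι i) (X.ι i) ℂ).submatrix id (u i)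

theorem isC_csel {u : ∀ i, Z.ι i → X.ι i}
    (h : RelCtl l U Z.pos X.pos (fun i b a => u i b = a)) : IsC (csel X Z u) :=
  RelCtl.mono h.swap (Eventually.of_forall fun i a b h => by
    by_contra h1
    exact h (Matrix.one_apply_ne fun h2 => h1 h2.symm))

theorem csel_ad_mul (u : ∀ i, Z.ι i → X.ι i) (i : I) {β : Type} (M : Matrix (X.ι i) β ℂ) :
    (csel X Z u i)ᴴ * M = M.submatrix (u i) id := by
  ext a b
  simp [csel, Matrix.mul_apply, Matrix.one_apply]

theorem mul_csel (u : ∀ i, Z.ι i → X.ι i) (i : I) {β : Type} (M : Matrix β (X.ι i) ℂ) :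
    M * csel X Z u i = M.submatrix id (u i) := by
  ext a b
  simp [csel, Matrix.mul_apply, Matrix.one_apply]

theorem mk_csel_left {u : ∀ i, Z.ι i → X.ι i} (hu : IsC (csel X Z u)) {f : Raw X X'}
    (hf : IsC f) : (mk' X Z (csel X Z u)).ad * mk' X X' f =
      mk' Z X' (fun i => (f i).submatrix (u i) id) := by
  rw [← mk_ad hu, ← mk_mul hu.ad hf]
  simp only [csel_ad_mul]

theorem mk_csel_both {u : ∀ i, Z.ι i → X.ι i} (hu : IsC (csel X Z u)) {v : ∀ i, Z'.ι i → X'.ι i}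
    (hv : IsC (csel X' Z' v)) {f : Raw X X'} (hf : IsC f) :
    (mk' X Z (csel X Z u)).ad * mk' X X' f * mk' X' Z' (csel X' Z' v) =
      mk' Z Z' (fun i => (f i).submatrix (u i) (v i)) := by
  rw [← mk_ad hu, ← mk_mul hu.ad hf, ← mk_mul (hu.ad.mul hf) hv]
  simp only [csel_ad_mul, mul_csel, Matrix.submatrix_submatrix, Function.comp_id,
    Function.id_comp]

theorem mk_csel_self {u : ∀ i, Z.ι i → X.ι i} (hu : IsC (csel X Z u))
    (h : ∀ i, Function.Injective (u i)) :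
    (mk' X Z (csel X Z u)).ad * mk' X Z (csel X Z u) = 1 := by
  have h1 := mk_csel_both hu hu isC_one
  rw [mk_one, m_one] at h1
  rw [h1, ← mk_one]
  exact congrArg _ (funext fun i => Matrix.submatrix_one _ (h i))

open Classical in
/-- The subobject given by a family of predicates. -/
noncomputable def csub (X : Ctl l U) (P : ∀ i, X.ι i → Prop) : Ctl l U where
  ι i := {a // P i a}
  pos i a := X.pos i a.1

/-- The inclusion of a subobject. -/
noncomputable def cinc (X : Ctl l U) (P : ∀ i, X.ι i → Prop) : Raw X (csub X P) :=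
  csel X (csub X P) fun _ a => a.1

theorem isC_cinc (P : ∀ i, X.ι i → Prop) : IsC (cinc X P) :=
  isC_csel (RelCtl.mono relCtl_eq (Eventually.of_forall fun i _ _ h => congrArg (X.pos i) h))

open Classical in
/-- The projection given by a family of predicates. -/
noncomputable def cprj (X : Ctl l U) (P : ∀ i, X.ι i → Prop) : Raw X X :=
  fun i => diagonal fun a => if P i a then 1 else 0

theorem cprj_ne {P : ∀ i, X.ι i → Prop} {i : I} {a b : X.ι i} (h : cprj X P i a b ≠ 0) :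
    a = b ∧ P i a := by
  by_cases h1 : a = b
  · subst h1
    refine ⟨rfl, by_contra fun h2 => h ?_⟩
    simp [cprj, h2]
  · exact absurd (diagonal_apply_ne _ h1) h

theorem isC_cprj (P : ∀ i, X.ι i → Prop) : IsC (cprj X P) :=
  RelCtl.mono relCtl_eq (Eventually.of_forall fun i _ _ h => congrArg (X.pos i) (cprj_ne h).1)

theorem cprj_add (P : ∀ i, X.ι i → Prop) :
    cprj X P + cprj X (fun i a => ¬ P i a) = fun _ => 1 := by
  funext i
  ext a b
  by_cases h : a = b
  · subst h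
    by_cases h1 : P i a <;> simp [cprj, h1]
  · simp [cprj, h]

theorem cinc_mul_ad (P : ∀ i, X.ι i → Prop) (i : I) :
    cinc X P i * (cinc X P i)ᴴ = cprj X P i := by
  ext a b
  rw [Matrix.mul_apply]
  by_cases h : P i a
  · refine (Finset.sum_eq_single (show (csub X P).ι i from ⟨a, h⟩) ?_ ?_).trans ?_
    · intro c _ hc
      have : a ≠ c.1 := fun h2 => hc (Subtype.ext h2.symm)
      simp [cinc, csel, this]
    · exact fun h1 => absurd (Finset.mem_univ _) h1
    · change (1 : Matrix (X.ι i) (X.ι i) ℂ) a a * star ((1 : Matrix (X.ι i) (X.ι i) ℂ) b a) = _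
      by_cases h1 : a = b
      · subst h1
        simp [cprj, h]
      · simp [cprj, h1, Ne.symm h1]
  · rw [Finset.sum_eq_zero]
    · by_contra h1
      exact h (cprj_ne (Ne.symm h1)).2
    · intro c _
      have : a ≠ c.1 := fun h2 => h (h2 ▸ c.2)
      simp [cinc, csel, this]

theorem split_cinc (P : ∀ i, X.ι i → Prop) : Split (mk' _ _ (cinc X P))
    (mk' _ _ (cinc X fun i a => ¬ P i a)) := by
  refine ⟨mk_csel_self (isC_cinc _) fun _ => Subtype.val_injective,
    mk_csel_self (isC_cinc _) fun _ => Subtype.val_injective, ?_⟩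
  rw [← mk_ad (isC_cinc _), ← mk_ad (isC_cinc _), ← mk_mul (isC_cinc _) (isC_cinc _).ad,
    ← mk_mul (isC_cinc _) (isC_cinc _).ad]
  simp only [cinc_mul_ad]
  rw [← mk_add (isC_cprj _) (isC_cprj _), cprj_add, mk_one]

theorem TameR.csub {d : Raw X X} (h : TameR d) (P : ∀ i, X.ι i → Prop) :
    TameR (X := csub X P) fun i => (d i).submatrix Subtype.val Subtype.val :=
  RelCtl.mono (RelCtl.comap h (fun i (a : {a // P i a}) => a.1) fun i (a : {a // P i a}) => a.1)
    (Eventually.of_forall fun _ _ _ h => rtg_map Subtype.val (fun _ _ h => h) h)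

theorem notMem_rsupp_one {y : Y} (hy : y ∈ U) : y ∉ rsupp (X := X) (X' := X) (fun _ => 1) ↔
    ∃ ρ > 0, ∀ᶠ i in l, ∀ a, ρ ≤ dist (X.pos i a) y := by
  rw [notMem_rsupp hy]
  refine exists_congr fun ρ => and_congr_right fun _ => eventually_congr
    (Eventually.of_forall fun i => ⟨fun h a => ?_, fun h a b h1 => ?_⟩)
  · by_contra h1
    have := h a a (Or.inl (not_le.1 h1))
    simp at this
  · rcases h1 with h1 | h1
    · exact absurd (h a) (not_le.2 h1)
    · exact absurd (h b) (not_le.2 h1)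

theorem rsupp_one_csub {d : Raw X X} (h : TameR d) (f : Raw X X') {P : ∀ i, X.ι i → Prop}
    (hP : ∀ i a, P i a → ∃ a₀ b, ReflTransGen (fun a b => d i a b ≠ 0) a a₀ ∧ f i a₀ b ≠ 0) :
    rsupp (X := csub X P) (X' := csub X P) (fun _ => 1) ⊆ rsupp f := by
  intro y hy
  have hU : y ∈ U := hy.1
  by_contra h1
  obtain ⟨ρ, hρ, h2⟩ := (notMem_rsupp hU).1 h1
  obtain ⟨ρ', hρ', h3⟩ := h y hU
  refine (notMem_rsupp_one hU).2 ⟨min (ρ / 2) ρ', by positivity, ?_⟩ hy
  filter_upwards [h2, h3 (ρ / 2) (by positivity)] with i h4 h5 a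
  by_contra h6
  rw [not_le, lt_min_iff] at h6
  obtain ⟨a₀, b, h7, h8⟩ := hP i a.1 a.2
  have h9 := h5 a.1 a₀ h7 (Or.inl h6.2)
  refine h8 (h4 a₀ b (Or.inl ?_))
  have h10 := dist_triangle_left (X.pos i a₀) y (X.pos i a.1)
  have h11 : dist (X.pos i a.1) y < ρ / 2 := h6.1
  linarith

theorem path_blk {α β : Type} {a : Matrix α α ℂ} {s : Matrix α β ℂ} {b : Matrix β β ℂ}
    {x y : α ⊕ β} (h : ReflTransGen (fun x y => fromBlocks a s 0 b x y ≠ 0) x y) :
    (∃ u v, x = Sum.inl u ∧ y = Sum.inl v ∧ ReflTransGen (fun u v => a u v ≠ 0) u v) ∨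
    (∃ u v, x = Sum.inl u ∧ y = Sum.inr v ∧ ∃ v', (∃ u', ReflTransGen (fun u v => a u v ≠ 0) u u' ∧
      s u' v' ≠ 0) ∧ ReflTransGen (fun u v => b u v ≠ 0) v' v) ∨
    (∃ u v, x = Sum.inr u ∧ y = Sum.inr v ∧ ReflTransGen (fun u v => b u v ≠ 0) u v) := by
  induction h with
  | refl =>
    rcases x with u | u
    · exact Or.inl ⟨u, u, rfl, rfl, ReflTransGen.refl⟩
    · exact Or.inr (Or.inr ⟨u, u, rfl, rfl, ReflTransGen.refl⟩)
  | @tail y z _ h ih =>
    rcases ih with ⟨u, v, rfl, rfl, h1⟩ | ⟨u, v, rfl, rfl, v', h1, h2⟩ | ⟨u, v, rfl, rfl, h1⟩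
    · rcases z with w | w
      · exact Or.inl ⟨u, w, rfl, rfl, h1.tail h⟩
      · exact Or.inr (Or.inl ⟨u, w, rfl, rfl, w, ⟨v, h1, h⟩, ReflTransGen.refl⟩)
    · rcases z with w | w
      · exact absurd rfl h
      · exact Or.inr (Or.inl ⟨u, w, rfl, rfl, v', h1, h2.tail h⟩)
    · rcases z with w | w
      · exact absurd rfl h
      · exact Or.inr (Or.inr ⟨u, w, rfl, rfl, h1.tail h⟩)

theorem TameR.blk {a : Raw X X} {s : Raw X X'} {b : Raw X' X'} (ha : TameR a) (hs : IsC s)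
    (hb : TameR b) : TameR (X := sum X X') fun i => fromBlocks (a i) (s i) 0 (b i) := by
  intro y hy
  obtain ⟨ρ₁, p₁, h₁⟩ := ha y hy
  obtain ⟨ρ₂, p₂, h₂⟩ := ((RelCtl.comp ha hs).comp hb) y hy
  obtain ⟨ρ₃, p₃, h₃⟩ := hb y hy
  refine ⟨min ρ₁ (min ρ₂ ρ₃), by positivity, fun ε hε => ?_⟩
  filter_upwards [h₁ ε hε, h₂ ε hε, h₃ ε hε] with i k₁ k₂ k₃ x z h hd
  simp only [lt_min_iff] at hd
  rcases path_blk h with ⟨u, v, rfl, rfl, h1⟩ | ⟨u, v, rfl, rfl, h1⟩ | ⟨u, v, rfl, rfl, h1⟩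
  · exact k₁ u v h1 (hd.imp (fun h => h.1) fun h => h.1)
  · exact k₂ u v h1 (hd.imp (fun h => h.2.1) fun h => h.2.1)
  · exact k₃ u v h1 (hd.imp (fun h => h.2.2) fun h => h.2.2)

theorem tameR_zero : TameR (0 : Raw X X) :=
  RelCtl.mono relCtl_eq (Eventually.of_forall fun _ _ _ h => by
    rcases h.cases_head with rfl | ⟨c, h1, -⟩
    · rfl
    · exact absurd rfl h1)

theorem TameR.ad {d : Raw X X} (h : TameR d) : TameR (X := X) fun i => (d i)ᴴ :=
  RelCtl.mono (RelCtl.swap h) (Eventually.of_forall fun _ _ _ h =>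
    rtg_swap (fun a b h1 h2 => h1 ((congrArg star h2).trans (star_zero ℂ))) h)

theorem TameR.smul {d : Raw X X} (h : TameR d) (c : ℂ) : TameR (c • d) :=
  RelCtl.mono h (Eventually.of_forall fun _ _ _ h =>
    rtg_map id (fun a b h1 h2 => h1 (by
      rw [Pi.smul_apply, Matrix.smul_apply, show d _ a b = 0 from h2, smul_zero])) h)

theorem cut_raw {d : Raw X X} (h : TameR d) {f : Raw X X'} (hf : IsC f) :
    ∃ (B Q : Ctl l U) (iB : Hom X B) (iQ : Hom X Q), Split iB iQ ∧ iQ.ad * mk' X X' f = 0 ∧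
      iQ.ad * mk' X X d * iB = 0 ∧ rsupp (rep (1 : Hom B B)) ⊆ rsupp f ∧
      (∃ e : Raw B B, TameR e ∧ mk' B B e = iB.ad * mk' X X d * iB) ∧
      ∃ e : Raw Q Q, TameR e ∧ mk' Q Q e = iQ.ad * mk' X X d * iQ := by
  set P : ∀ i, X.ι i → Prop := fun i a =>
    ∃ a₀ b, ReflTransGen (fun a b => d i a b ≠ 0) a a₀ ∧ f i a₀ b ≠ 0 with hP
  refine ⟨_, _, _, _, split_cinc P, ?_, ?_, ?_,
    ⟨_, h.csub P, (mk_csel_both (isC_cinc _) (isC_cinc _) h.isC).symm⟩,
    ⟨_, h.csub _, (mk_csel_both (isC_cinc _) (isC_cinc _) h.isC).symm⟩⟩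
  · refine (mk_csel_left (isC_cinc _) hf).trans (Eq.trans (congrArg _ ?_) mk_zero)
    funext i
    ext a b
    by_contra h1
    exact a.2 ⟨a.1, b, ReflTransGen.refl, h1⟩
  · refine (mk_csel_both (isC_cinc _) (isC_cinc _) h.isC).trans (Eq.trans (congrArg _ ?_) mk_zero)
    funext i
    ext a b
    by_contra h1
    obtain ⟨a₀, c, h2, h3⟩ := b.2
    exact a.2 ⟨a₀, c, h2.head h1, h3⟩
  · rw [← mk_one, rsupp_rep_mk isC_one]
    exact rsupp_one_csub h f fun _ _ h => h

theorem rsupp_cprj {A : Set Y} (hA : IsClosed A) {P : ∀ i, X.ι i → Prop}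
    (h : ∀ i a, P i a → X.pos i a ∈ A) : rsupp (cprj X P) ⊆ A := by
  intro y hy
  by_contra h1
  obtain ⟨ρ, hρ, h2⟩ := Metric.isOpen_iff.1 hA.isOpen_compl y h1
  refine (notMem_rsupp hy.1).2 ⟨ρ, hρ, Eventually.of_forall fun i a b h3 => ?_⟩ hy
  by_contra h4
  obtain ⟨rfl, h5⟩ := cprj_ne h4
  exact h2 (Metric.mem_ball.2 (h3.elim id id)) (h i a h5)

end Aux

noncomputable instance instCDag : CDag (Ctl l U) Y where
  supp φ := rsupp (rep φ)
  supp_zero X X' := by rw [← mk_zero, rsupp_rep_mk isC_zero, rsupp_zero]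
  supp_add f g := by
    have h := rsupp_rep_mk ((isC_rep f).add (isC_rep g))
    rw [mk_add (isC_rep f) (isC_rep g), mk_rep, mk_rep] at h
    exact h ▸ rsupp_add _ _
  supp_smul c f := by
    have h := rsupp_rep_mk ((isC_rep f).smul c)
    rw [mk_smul c (isC_rep f), mk_rep] at h
    exact h ▸ rsupp_smul _ _
  supp_mul f g := by
    have h := rsupp_rep_mk ((isC_rep f).mul (isC_rep g))
    rw [mk_mul (isC_rep f) (isC_rep g), mk_rep, mk_rep] at h
    exact h ▸ rsupp_mul (isC_rep f) (isC_rep g)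
  supp_ad f := by
    have h := rsupp_rep_mk (isC_rep f).ad
    rw [mk_ad (isC_rep f), mk_rep] at h
    exact h ▸ rsupp_ad _
  eq_zero f h := by
    rw [← mk_rep f, ← mk_zero, mk_eq_iff (isC_rep f) isC_zero, sub_zero]
    exact h
  Tame {X} φ := ∃ d : Raw X X, TameR d ∧ mk' X X d = φ
  tame_zero X := ⟨0, tameR_zero, mk_zero⟩
  tame_ad := by
    rintro X _ ⟨d, h, rfl⟩
    exact ⟨_, h.ad, mk_ad h.isC⟩
  tame_smul := by
    rintro X _ c ⟨d, h, rfl⟩
    exact ⟨_, h.smul c, mk_smul c h.isC⟩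
  tame_blk := by
    rintro X X' _ _ s ⟨a, ha, rfl⟩ ⟨b, hb, rfl⟩
    have h := mk_blk ha.isC (isC_rep s) isC_zero hb.isC
    rw [mk_rep, mk_zero] at h
    exact ⟨_, ha.blk (isC_rep s) hb, h⟩
  cut := by
    rintro X X' _ ⟨d, h, rfl⟩ f
    have h1 := cut_raw h (isC_rep f)
    rwa [mk_rep] at h1

open CDag

variable {X X' : Ctl l U}

theorem supp_mk {f : Raw X X'} (hf : IsC f) : supp (mk' X X' f) = rsupp f := rsupp_rep_mk hf

theorem supp_subset (φ : Hom X X') : supp φ ⊆ U := fun _ h => h.1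

theorem tame_iff {φ : Hom X X} : Tame φ ↔ ∃ d : Raw X X, TameR d ∧ mk' X X d = φ := Iff.rfl

theorem tame_mk {d : Raw X X} (h : TameR d) : Tame (mk' X X d) := ⟨d, h, rfl⟩

theorem supp_one_subset {Z : Set Y} : supp (1 : Hom X X) ⊆ Z ↔
    ∀ y ∈ U, y ∉ Z → ∃ ρ > 0, ∀ᶠ i in l, ∀ a, ρ ≤ dist (X.pos i a) y := by
  rw [← mk_one, supp_mk isC_one]
  refine ⟨fun h y hy hZ => (notMem_rsupp_one hy).1 fun h1 => hZ (h h1), fun h y hy => ?_⟩
  by_contra hZ
  exact (notMem_rsupp_one hy.1).2 (h y hy.1 hZ) hy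

theorem cover {A A' : Set Y} (hA : IsClosed A) (hA' : IsClosed A') (h : A ∪ A' = Set.univ) :
    Cover (Ctl l U) A A' := by
  intro X
  refine ⟨mk' X X (cprj X fun i a => X.pos i a ∈ A), ?_, ?_⟩
  · rw [supp_mk (isC_cprj _)]
    exact rsupp_cprj hA fun _ _ h => h
  · rw [← mk_one, ← cprj_add fun i a => X.pos i a ∈ A, mk_add (isC_cprj _) (isC_cprj _),
      add_sub_cancel_left, supp_mk (isC_cprj _)]
    exact rsupp_cprj hA' fun i a h1 => ((h ▸ Set.mem_univ (X.pos i a) :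
      X.pos i a ∈ A ∪ A').resolve_left h1)

theorem rel_of_mk {V V' : Sym (Ctl l U)} (e : ∀ i, V'.E.ι i ≃ V.E.ι i)
    (he : RelCtl l U V'.E.pos V.E.pos (fun i a b => e i a = b)) (d S : Raw V.E V.E) (hd : IsC d)
    (hS : IsC S) (h1 : V.d = mk' _ _ d) (h2 : V.S = mk' _ _ S)
    (h3 : V'.d = mk' _ _ (fun i => (d i).submatrix (e i) (e i)))
    (h4 : V'.S = mk' _ _ (fun i => (S i).submatrix (e i) (e i))) : Sym.Rel V' V := by
  have hc : IsC (csel V.E V'.E fun i => e i) := isC_csel he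
  have h5 := mk_csel_self hc fun i => (e i).injective
  have h6 : mk' _ _ (csel V.E V'.E fun i => e i) * (mk' _ _ (csel V.E V'.E fun i => e i)).ad = 1 := by
    rw [← mk_ad hc, ← mk_mul hc hc.ad, ← mk_one]
    refine congrArg _ (funext fun i => ?_)
    refine mul_eq_one_comm_of_equiv (e i).symm |>.2 ?_
    rw [csel_ad_mul, csel, Matrix.submatrix_submatrix]
    exact Matrix.submatrix_one _ (e i).injective
  refine Sym.Rel.of_iso _ _ h5 h6 ?_ ?_
  · rw [h3, h1, ← mk_csel_both hc hc hd, massoc, h6, m_one]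
  · rw [h4, h2, ← mk_csel_both hc hc hS, ad_ad]

end Ctl

end Vale.Agent.P228
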