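import Vale.Agent.P228.CtlC

/-! Change of index filter and of control space; twists by a cocycle.

Plans.
* `RelCtl.pull`: for `y ∈ U` take `ρ, K` from `Fib`; cover the compact `K` by finitely many balls
  `ball x ρ_x` (`IsCompact.elim_nhds_subcover` or `IsCompact.induction_on`); then uniform
  continuity of `π` and `hj.eventually`.
* `rsupp_pull`: let `y ∈ U`, `y ∉ π '' rsupp f`. Each `x ∈ K` has a ball on which either `f`
  eventually vanishes (`π x = y`) or `π` stays at distance `≥ dist (π x) y / 2` from `y`. Take a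
  finite subcover.
* `pullFun`: `map` is `φ ↦ mk' (fun i => rep φ (j i))`; prove `pull_mk` first (from `rsupp_pull`
  applied to `rep (mk' f) - f`), then the functor laws by `mk_rep`, `mk_add`, `mk_mul`, ...
* `exists_twist`: `τ φ = mk' (c * rep φ)`. On `U`, `c x x = 1` and `c y x = conj (c x y)` for close
  points. Take a finite `t ⊆ U` with `U ⊆ ⋃ x ∈ t, ball x (ε₀ / 4)`, enumerate it; `O j` are these
  balls with `v E = mk' (diagonal fun a => c (pos a) x_j)` (unitary since `‖c‖ = 1`), and one more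
  set `Uᶜ` with `v = 1` (`supp_subset`). All checks by `mk_eq_of_near` / `notMem_rsupp`, using that
  `U` is open and that nonzero entries near `y` join close points. -/

namespace Vale.Agent.P228

open Filter Matrix Dag CDag

variable {I I' : Type} {Y Y' : Type} [MetricSpace Y] [PseudoMetricSpace Y'] {l : Filter I}
  {l' : Filter I'} {U : Set Y} {U' : Set Y'}

/-- Locally over `U` the fibres of `π` lie in compact subsets of `U'`. -/
def Fib (π : Y' → Y) (U : Set Y) (U' : Set Y') : Prop :=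
  ∀ y ∈ U, ∃ ρ > 0, ∃ K, IsCompact K ∧ K ⊆ U' ∧ ∀ x, dist (π x) y < ρ → x ∈ K

theorem fib_id [ProperSpace Y] {V : Set Y} (hV : IsOpen V) (h : U ⊆ V) : Fib id U V := by
  intro y hy
  obtain ⟨ε, hε, hb⟩ := Metric.isOpen_iff.1 hV y (h hy)
  exact ⟨ε / 2, half_pos hε, Metric.closedBall y (ε / 2), isCompact_closedBall _ _,
    (Metric.closedBall_subset_ball (half_lt_self hε)).trans hb, fun x hx => hx.le⟩

theorem fib_compact [CompactSpace Y'] {π : Y' → Y} (hπ : Continuous π) (hU : IsOpen U) :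
    Fib π U (π ⁻¹' U) := by
  intro y hy
  obtain ⟨ε, hε, hb⟩ := Metric.isOpen_iff.1 hU y hy
  exact ⟨ε / 2, half_pos hε, π ⁻¹' Metric.closedBall y (ε / 2),
    (Metric.isClosed_closedBall.preimage hπ).isCompact,
    Set.preimage_mono ((Metric.closedBall_subset_ball (half_lt_self hε)).trans hb),
    fun x hx => hx.le⟩

theorem Ctl.exists_mk {X X' : Ctl l' U'} (φ : Hom X X') :
    ∃ f : Ctl.Raw X X', Ctl.IsC f ∧ Ctl.mk' X X' f = φ :=
  ⟨Ctl.rep φ, Ctl.isC_rep φ, Ctl.mk_rep φ⟩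

/-- Data of a change of index and control space. -/
structure Pull (l : Filter I) (U : Set Y) (l' : Filter I') (U' : Set Y') where
  j : I → I'
  π : Y' → Y
  hj : Tendsto j l l'
  hπ : UniformContinuous π
  fib : Fib π U U'

namespace Pull

open Ctl

variable (P : Pull l U l' U')

theorem relCtl {α β : I' → Type} {p : ∀ i, α i → Y'} {q : ∀ i, β i → Y'}
    {R : ∀ i, α i → β i → Prop} (h : RelCtl l' U' p q R) :
    RelCtl l U (fun i a => P.π (p (P.j i) a)) (fun i b => P.π (q (P.j i) b))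
      (fun i => R (P.j i)) := by
  intro y hy
  obtain ⟨ρ, hρ, K, hK, hKU, hKρ⟩ := P.fib y hy
  refine ⟨ρ, hρ, fun ε hε => ?_⟩
  obtain ⟨δ, hδ, hπ⟩ := Metric.uniformContinuous_iff.1 P.hπ ε hε
  have key : ∀ᶠ i in l', ∀ a b, R i a b → (p i a ∈ K ∨ q i b ∈ K) → dist (p i a) (q i b) < δ := by
    refine hK.induction_on (p := fun S => ∀ᶠ i in l', ∀ a b, R i a b →
      (p i a ∈ S ∨ q i b ∈ S) → dist (p i a) (q i b) < δ) ?_ ?_ ?_ ?_
    · exact Eventually.of_forall fun i a b _ h => by simp at h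
    · exact fun s t hst ht => ht.mono fun i hi a b hR h => hi a b hR (h.imp (hst ·) (hst ·))
    · intro s t hs ht
      filter_upwards [hs, ht] with i h1 h2 a b hR h
      rcases h with (h | h) | (h | h)
      exacts [h1 a b hR (Or.inl h), h2 a b hR (Or.inl h), h1 a b hR (Or.inr h),
        h2 a b hR (Or.inr h)]
    · intro x hx
      obtain ⟨r, hr, h1⟩ := h x (hKU hx)
      exact ⟨Metric.ball x r, mem_nhdsWithin_of_mem_nhds (Metric.ball_mem_nhds x hr), h1 δ hδ⟩
  filter_upwards [P.hj.eventually key] with i hi a b hR h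
  exact hπ (hi a b hR (h.imp (hKρ _) (hKρ _)))

/-- The object part. -/
def obj (X : Ctl l' U') : Ctl l U where
  ι i := X.ι (P.j i)
  pos i a := P.π (X.pos (P.j i) a)

variable {X X' : Ctl l' U'}

theorem isC {f : Raw X X'} (hf : IsC f) :
    IsC (X := P.obj X) (X' := P.obj X') (fun i => f (P.j i)) := P.relCtl hf

theorem rsupp_le (f : Raw X X') :
    rsupp (X := P.obj X) (X' := P.obj X') (fun i => f (P.j i)) ⊆ P.π '' rsupp f := by
  intro y hy
  by_contra hn
  obtain ⟨ρ, hρ, K, hK, hKU, hKρ⟩ := P.fib y hy.1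
  have key : ∃ r > 0, ∀ᶠ i in l', ∀ a b, (X.pos i a ∈ K ∧ dist (P.π (X.pos i a)) y < r ∨
      X'.pos i b ∈ K ∧ dist (P.π (X'.pos i b)) y < r) → f i a b = 0 := by
    refine hK.induction_on (p := fun S => ∃ r > 0, ∀ᶠ i in l', ∀ a b,
      (X.pos i a ∈ S ∧ dist (P.π (X.pos i a)) y < r ∨
        X'.pos i b ∈ S ∧ dist (P.π (X'.pos i b)) y < r) → f i a b = 0) ?_ ?_ ?_ ?_
    · exact ⟨1, one_pos, Eventually.of_forall fun i a b h => by simp at h⟩
    · rintro s t hst ⟨r, hr, ht⟩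
      exact ⟨r, hr, ht.mono fun i hi a b h =>
        hi a b (h.imp (fun h => ⟨hst h.1, h.2⟩) fun h => ⟨hst h.1, h.2⟩)⟩
    · rintro s t ⟨r, hr, hs⟩ ⟨r', hr', ht⟩
      refine ⟨min r r', lt_min hr hr', ?_⟩
      filter_upwards [hs, ht] with i h1 h2 a b h
      rcases h with ⟨h | h, h'⟩ | ⟨h | h, h'⟩
      exacts [h1 a b (Or.inl ⟨h, h'.trans_le (min_le_left _ _)⟩),
        h2 a b (Or.inl ⟨h, h'.trans_le (min_le_right _ _)⟩),
        h1 a b (Or.inr ⟨h, h'.trans_le (min_le_left _ _)⟩),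
        h2 a b (Or.inr ⟨h, h'.trans_le (min_le_right _ _)⟩)]
    · intro x hx
      by_cases hxy : P.π x = y
      · obtain ⟨r, hr, h1⟩ := (notMem_rsupp (f := f) (hKU hx)).1 fun h => hn ⟨x, h, hxy⟩
        exact ⟨Metric.ball x r, mem_nhdsWithin_of_mem_nhds (Metric.ball_mem_nhds x hr), 1, one_pos,
          h1.mono fun i hi a b h => hi a b (h.imp (·.1) (·.1))⟩
      · have h0 : 0 < dist (P.π x) y := dist_pos.2 hxy
        refine ⟨{z | dist (P.π x) y / 2 < dist (P.π z) y}, mem_nhdsWithin_of_mem_nhds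
          ((isOpen_lt continuous_const (P.hπ.continuous.dist continuous_const)).mem_nhds
            (half_lt_self h0)), _, half_pos h0, Eventually.of_forall fun i a b h => ?_⟩
        rcases h with h | h <;> exact absurd (h.1.trans h.2) (lt_irrefl _)
  obtain ⟨r, hr, key⟩ := key
  refine (notMem_rsupp hy.1).2 ⟨min r ρ, lt_min hr hρ, ?_⟩ hy
  filter_upwards [P.hj.eventually key] with i hi a b h
  exact hi a b (h.imp (fun h => ⟨hKρ _ (h.trans_le (min_le_right _ _)), h.trans_le (min_le_left _ _)⟩)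
    fun h => ⟨hKρ _ (h.trans_le (min_le_right _ _)), h.trans_le (min_le_left _ _)⟩)

/-- The map part. -/
noncomputable def hom (φ : Hom X X') : Hom (P.obj X) (P.obj X') :=
  mk' (P.obj X) (P.obj X') (fun i => rep φ (P.j i))

theorem hom_mk {f : Raw X X'} (hf : IsC f) :
    P.hom (mk' X X' f) = mk' (P.obj X) (P.obj X') (fun i => f (P.j i)) := by
  refine (mk_eq_iff (P.isC (isC_rep _)) (P.isC hf)).2 (Set.eq_empty_of_subset_empty ?_)
  have h1 := P.rsupp_le (rep (mk' X X' f) - f)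
  rw [(mk_eq_iff (isC_rep _) hf).1 (mk_rep _), Set.image_empty] at h1
  exact h1

theorem hom_add (φ ψ : Hom X X') : P.hom (φ + ψ) = P.hom φ + P.hom ψ := by
  obtain ⟨f, hf, rfl⟩ := exists_mk φ
  obtain ⟨g, hg, rfl⟩ := exists_mk ψ
  rw [← mk_add hf hg, P.hom_mk hf, P.hom_mk hg, P.hom_mk (hf.add hg)]
  exact mk_add (P.isC hf) (P.isC hg)

theorem hom_smul (c : ℂ) (φ : Hom X X') : P.hom (c • φ) = c • P.hom φ := by
  obtain ⟨f, hf, rfl⟩ := exists_mk φ
  rw [← mk_smul c hf, P.hom_mk hf, P.hom_mk (hf.smul c)]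
  exact mk_smul c (P.isC hf)

theorem hom_mul {X'' : Ctl l' U'} (φ : Hom X X') (ψ : Hom X' X'') :
    P.hom (φ * ψ) = P.hom φ * P.hom ψ := by
  obtain ⟨f, hf, rfl⟩ := exists_mk φ
  obtain ⟨g, hg, rfl⟩ := exists_mk ψ
  rw [← mk_mul hf hg, P.hom_mk hf, P.hom_mk hg, P.hom_mk (hf.mul hg)]
  exact mk_mul (P.isC hf) (P.isC hg)

theorem hom_one (X : Ctl l' U') : P.hom (1 : Hom X X) = 1 := by
  rw [← mk_one, P.hom_mk isC_one]
  exact mk_one

theorem hom_ad (φ : Hom X X') : P.hom φ.ad = (P.hom φ).ad := by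
  obtain ⟨f, hf, rfl⟩ := exists_mk φ
  rw [← mk_ad hf, P.hom_mk hf, P.hom_mk hf.ad]
  exact mk_ad (P.isC hf)

theorem hom_tame {φ : Hom X X} (h : Tame φ) : Tame (P.hom φ) := by
  obtain ⟨d, hd, rfl⟩ := tame_iff.1 h
  rw [P.hom_mk hd.isC]
  exact tame_mk (P.relCtl hd)

/-- The functor. -/
noncomputable def fn : CFun (Ctl l' U') (Ctl l U) where
  obj := P.obj
  map := { toFun := P.hom, map_add' := P.hom_add, map_smul' := P.hom_smul }
  map_mul := P.hom_mul
  map_one := P.hom_one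
  map_ad := P.hom_ad
  tame := P.hom_tame

theorem map_mk {f : Raw X X'} (hf : IsC f) :
    P.fn.map (mk' X X' f) = mk' (P.obj X) (P.obj X') (fun i => f (P.j i)) := P.hom_mk hf

theorem le {Z' : Set Y'} {Z : Set Y} (h : P.π '' Z' ⊆ Z) : P.fn.Le Z' Z := by
  intro X X' φ hφ
  obtain ⟨f, hf, rfl⟩ := exists_mk φ
  rw [supp_mk hf] at hφ
  rw [P.map_mk hf]
  exact (supp_mk (P.isC hf)).le.trans ((P.rsupp_le f).trans ((Set.image_mono hφ).trans h))

end Pull

theorem RelCtl.near {α β : I' → Type} {p : ∀ i, α i → Y'} {q : ∀ i, β i → Y'}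
    {R : ∀ i, α i → β i → Prop} (h : RelCtl l' U' p q R) {y : Y'} (hy : y ∈ U') {s : ℝ}
    (hs : 0 < s) : ∃ ρ > 0, ρ ≤ s ∧ ∀ᶠ i in l', ∀ a b, R i a b →
      (dist (p i a) y < ρ ∨ dist (q i b) y < ρ) → dist (p i a) y < s ∧ dist (q i b) y < s := by
  obtain ⟨r, hr, h1⟩ := h y hy
  refine ⟨min r (s / 2), lt_min hr (half_pos hs), (min_le_right _ _).trans (half_le_self hs.le), ?_⟩
  filter_upwards [h1 _ (half_pos hs)] with i hi a b hR h2
  have h3 := hi a b hR (h2.imp (·.trans_le (min_le_left _ _)) (·.trans_le (min_le_left _ _)))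
  have h4 := dist_triangle (p i a) (q i b) y
  have h5 := dist_triangle_left (q i b) y (p i a)
  rcases h2 with h2 | h2 <;> have h6 := h2.trans_le (min_le_right _ _) <;>
    constructor <;> linarith

namespace Ctl

variable {X X' X'' : Ctl l' U'} (c : Y' → Y' → ℂ)

/-- Entrywise product with `c`. -/
def twR (f : Raw X X') : Raw X X' :=
  fun i => Matrix.of fun a b => c (X.pos i a) (X'.pos i b) * f i a b

omit [PseudoMetricSpace Y'] in
theorem twR_ne {f : Raw X X'} {i : I'} {a : X.ι i} {b : X'.ι i} (h : twR c f i a b ≠ 0) :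
    f i a b ≠ 0 := right_ne_zero_of_mul h

theorem IsC.twR {f : Raw X X'} (hf : IsC f) : IsC (twR c f) :=
  hf.of_le (Eventually.of_forall fun _ _ _ => twR_ne c)

theorem rsupp_twR (f : Raw X X') : rsupp (twR c f) ⊆ rsupp f := fun _ hy =>
  ⟨hy.1, fun ρ hρ => (hy.2 ρ hρ).mono fun _ ⟨a, b, h1, h2⟩ => ⟨a, b, twR_ne c h1, h2⟩⟩

/-- The twist on maps. -/
noncomputable def twH (φ : Hom X X') : Hom X X' := mk' X X' (twR c (rep φ))

theorem twH_mk {f : Raw X X'} (hf : IsC f) : twH c (mk' X X' f) = mk' X X' (twR c f) := by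
  refine (mk_eq_iff ((isC_rep _).twR c) (hf.twR c)).2 (Set.eq_empty_of_subset_empty ?_)
  have h1 := rsupp_twR c (rep (mk' X X' f) - f)
  rw [(mk_eq_iff (isC_rep _) hf).1 (mk_rep _)] at h1
  convert h1 using 2
  ext i a b
  simp [twR, mul_sub]

theorem twH_add (φ ψ : Hom X X') : twH c (φ + ψ) = twH c φ + twH c ψ := by
  obtain ⟨f, hf, rfl⟩ := exists_mk φ
  obtain ⟨g, hg, rfl⟩ := exists_mk ψ
  rw [← mk_add hf hg, twH_mk c hf, twH_mk c hg, twH_mk c (hf.add hg),
    ← mk_add (hf.twR c) (hg.twR c)]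
  congr 1
  ext i a b
  simp [twR, mul_add]

theorem twH_smul (t : ℂ) (φ : Hom X X') : twH c (t • φ) = t • twH c φ := by
  obtain ⟨f, hf, rfl⟩ := exists_mk φ
  rw [← mk_smul t hf, twH_mk c hf, twH_mk c (hf.smul t), ← mk_smul t (hf.twR c)]
  congr 1
  ext i a b
  simp [twR, mul_left_comm]

theorem twH_tame {φ : Hom X X} (h : Tame φ) : Tame (twH c φ) := by
  obtain ⟨d, hd, rfl⟩ := tame_iff.1 h
  rw [twH_mk c hd.isC]
  exact tame_mk (RelCtl.mono hd (Eventually.of_forall fun i a b h =>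
    Relation.ReflTransGen.mono (r := fun a b => twR c d i a b ≠ 0) (p := fun a b => d i a b ≠ 0)
      (fun _ _ => twR_ne c) a b h))

theorem twH_supp (φ : Hom X X') : supp (twH c φ) ⊆ supp φ := by
  obtain ⟨f, hf, rfl⟩ := exists_mk φ
  rw [twH_mk c hf, supp_mk hf, supp_mk (hf.twR c)]
  exact rsupp_twR c f

theorem twH_iter {f : Raw X X'} (hf : IsC f) (n : ℕ) :
    (fun g : Hom X X' => twH c g)^[n] (mk' X X' f) = mk' X X' (twR (fun x y => c x y ^ n) f) := by
  induction n with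
  | zero =>
    simp only [Function.iterate_zero, id]
    congr 1
    ext i a b
    simp [twR]
  | succ n ih =>
    rw [Function.iterate_succ_apply', ih, twH_mk c (hf.twR _)]
    congr 1
    ext i a b
    simp [twR, pow_succ', mul_assoc]

/-- `c` is a unitary cocycle near every point of `U'`. -/
def LocCo (U' : Set Y') (c : Y' → Y' → ℂ) : Prop :=
  (∀ x y, c x y * star (c x y) = 1) ∧ ∀ y ∈ U', ∃ s > 0, ∀ x₁ x₂ x₃, dist x₁ y < s →
    dist x₂ y < s → dist x₃ y < s → c x₁ x₂ * c x₂ x₃ = c x₁ x₃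

variable {c}

omit [PseudoMetricSpace Y'] in
theorem co_self {x : Y'} (h1 : c x x * star (c x x) = 1) (h : c x x * c x x = c x x) :
    c x x = 1 := by
  have h2 : c x x * (c x x * star (c x x)) = c x x * star (c x x) := by rw [← mul_assoc, h]
  rwa [h1, mul_one] at h2

theorem twH_mul (hc : LocCo U' c) (φ : Hom X X') (ψ : Hom X' X'') :
    twH c (φ * ψ) = twH c φ * twH c ψ := by
  obtain ⟨f, hf, rfl⟩ := exists_mk φ
  obtain ⟨g, hg, rfl⟩ := exists_mk ψ
  rw [← mk_mul hf hg, twH_mk c hf, twH_mk c hg, twH_mk c (hf.mul hg),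
    ← mk_mul (hf.twR c) (hg.twR c)]
  refine mk_eq_of_near ((hf.mul hg).twR c) fun y hy => ?_
  obtain ⟨s, hs, hco⟩ := hc.2 y hy
  obtain ⟨r1, hr1, hs1, h1⟩ := RelCtl.near hf hy hs
  obtain ⟨r2, hr2, hs2, h2⟩ := RelCtl.near hg hy hs
  obtain ⟨r3, hr3, -, h3⟩ := RelCtl.near hf hy hr2
  obtain ⟨r4, hr4, -, h4⟩ := RelCtl.near hg hy hr1
  refine ⟨min r3 r4, lt_min hr3 hr4, ?_⟩
  filter_upwards [h1, h2, h3, h4] with i h1 h2 h3 h4 a e h
  simp only [twR, Matrix.of_apply, Matrix.mul_apply, Finset.mul_sum]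
  refine Finset.sum_congr rfl fun b _ => ?_
  by_cases hab : f i a b = 0
  · simp [hab]
  by_cases hbe : g i b e = 0
  · simp [hbe]
  have h5 : dist (X.pos i a) y < s ∧ dist (X'.pos i b) y < s ∧ dist (X''.pos i e) y < s := by
    rcases h with h | h
    · have h6 := h3 a b hab (Or.inl (h.trans_le (min_le_left _ _)))
      exact ⟨h6.1.trans_le hs2, h2 b e hbe (Or.inl h6.2)⟩
    · have h6 := h4 b e hbe (Or.inr (h.trans_le (min_le_right _ _)))
      have h7 := h1 a b hab (Or.inr h6.1)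
      exact ⟨h7.1, h7.2, h6.2.trans_le hs1⟩
  rw [← hco _ _ _ h5.1 h5.2.1 h5.2.2]
  ring

theorem twH_one (hc : LocCo U' c) (X : Ctl l' U') : twH c (1 : Hom X X) = 1 := by
  rw [← mk_one, twH_mk c isC_one]
  refine mk_eq_of_near (isC_one.twR c) fun y hy => ?_
  obtain ⟨s, hs, hco⟩ := hc.2 y hy
  refine ⟨s, hs, Eventually.of_forall fun i a b h => ?_⟩
  by_cases hab : a = b
  · subst hab
    have h1 := h.elim id id
    simp [twR, co_self (hc.1 _ _) (hco _ _ _ h1 h1 h1)]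
  · simp [twR, hab]

theorem twH_ad (hc : LocCo U' c) (φ : Hom X X') : twH c φ.ad = (twH c φ).ad := by
  obtain ⟨f, hf, rfl⟩ := exists_mk φ
  rw [← mk_ad hf, twH_mk c hf, twH_mk c hf.ad, ← mk_ad (hf.twR c)]
  refine mk_eq_of_near (hf.ad.twR c) fun y hy => ?_
  obtain ⟨s, hs, hco⟩ := hc.2 y hy
  obtain ⟨r, hr, -, h1⟩ := RelCtl.near hf hy hs
  refine ⟨r, hr, h1.mono fun i hi b a h => ?_⟩
  by_cases hab : f i a b = 0
  · simp [twR, hab]
  obtain ⟨h2, h3⟩ := hi a b hab h.symm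
  have h4 := hco _ _ _ h3 h2 h3
  rw [co_self (hc.1 _ _) (hco _ _ _ h3 h3 h3)] at h4
  have h5 : c (X'.pos i b) (X.pos i a) = star (c (X.pos i a) (X'.pos i b)) := by
    rw [← mul_one (c (X'.pos i b) (X.pos i a)), ← hc.1 (X.pos i a) (X'.pos i b), ← mul_assoc, h4,
      one_mul]
  simp only [twR, Matrix.of_apply, Matrix.conjTranspose_apply, h5, star_mul']

/-- The diagonal family given by `c · x`. -/
def dgR (c : Y' → Y' → ℂ) (x : Y') (X : Ctl l' U') : Raw X X :=
  fun i => Matrix.diagonal fun a => c (X.pos i a) x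

theorem isC_dgR (x : Y') : IsC (dgR c x X) :=
  isC_one.of_le (Eventually.of_forall fun i a b h => by
    by_cases hab : a = b
    · subst hab
      simp
    · simp [dgR, hab] at h)

theorem dgR_unit (h1 : ∀ x y, c x y * star (c x y) = 1) (x : Y') (X : Ctl l' U') :
    mk' X X (dgR c x X) * (mk' X X (dgR c x X)).ad = 1 ∧
      (mk' X X (dgR c x X)).ad * mk' X X (dgR c x X) = 1 := by
  rw [← mk_ad (isC_dgR x), ← mk_mul (isC_dgR x) (isC_dgR x).ad,
    ← mk_mul (isC_dgR x).ad (isC_dgR x), ← mk_one]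
  constructor <;> congr 1 <;> funext i
  · simp only [dgR, Matrix.diagonal_conjTranspose, Matrix.diagonal_mul_diagonal, Pi.star_apply, h1,
      Matrix.diagonal_one]
  · simp only [dgR, Matrix.diagonal_conjTranspose, Matrix.diagonal_mul_diagonal, Pi.star_apply,
      mul_comm (star _), h1, Matrix.diagonal_one]

theorem twH_triv (h1 : ∀ x y, c x y * star (c x y) = 1) (x : Y') {O : Set Y'}
    (hO : ∀ y ∈ U', y ∈ O → ∃ s > 0, ∀ x₁ x₂, dist x₁ y < s → dist x₂ y < s →
      c x₁ x₂ * c x₂ x = c x₁ x) (φ : Hom X X') :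
    supp (twH c φ - mk' X X (dgR c x X) * φ * (mk' X' X' (dgR c x X')).ad) ⊆ Oᶜ := by
  obtain ⟨f, hf, rfl⟩ := exists_mk φ
  have h2 := ((isC_dgR (c := c) x).mul hf).mul (isC_dgR (c := c) (X := X') x).ad
  rw [twH_mk c hf, ← mk_ad (isC_dgR x), ← mk_mul (isC_dgR x) hf,
    ← mk_mul ((isC_dgR x).mul hf) (isC_dgR x).ad, ← mk_sub (hf.twR c) h2,
    supp_mk ((hf.twR c).sub h2)]
  intro y hy hyO
  obtain ⟨s, hs, hco⟩ := hO y hy.1 hyO
  obtain ⟨r, hr, -, h3⟩ := RelCtl.near hf hy.1 hs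
  refine (notMem_rsupp hy.1).2 ⟨r, hr, h3.mono fun i hi a b h => ?_⟩ hy
  simp only [twR, dgR, Pi.sub_apply, Matrix.sub_apply, Matrix.of_apply,
    Matrix.diagonal_conjTranspose, Matrix.mul_diagonal, Matrix.diagonal_mul, Pi.star_apply]
  by_cases hab : f i a b = 0
  · simp [hab]
  obtain ⟨h4, h5⟩ := hi a b hab h
  rw [← hco _ _ h4 h5]
  linear_combination -(c (X.pos i a) (X'.pos i b) * f i a b) * h1 (X'.pos i b) x

end Ctl

open Ctl in
theorem exists_twist (hU : IsOpen U') (hb : TotallyBounded U') {p : ℕ} (c : Y' → Y' → ℂ)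
    (h1 : ∀ x y, ‖c x y‖ = 1) (hp : ∀ x y, c x y ^ p = 1) {ε₀ : ℝ} (hε : 0 < ε₀)
    (hc : ∀ x ∈ U', ∀ y ∈ U', ∀ z ∈ U', dist x y < ε₀ → dist y z < ε₀ → c x y * c y z = c x z) :
    ∃ T : Twist (Ctl l' U') p, ∀ (X X' : Ctl l' U') (f : Raw X X'), IsC f →
      T.τ (mk' X X' f) =
        mk' X X' (fun i => Matrix.of fun a b => c (X.pos i a) (X'.pos i b) * f i a b) := by
  have hu : ∀ x y, c x y * star (c x y) = 1 := fun x y => by
    rw [Complex.star_def, Complex.mul_conj, Complex.normSq_eq_norm_sq, h1]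
    simp
  have hball : ∀ y ∈ U', ∃ s > 0, s ≤ ε₀ / 2 ∧ ∀ x, dist x y < s → x ∈ U' := fun y hy => by
    obtain ⟨ε, h0, hb⟩ := Metric.isOpen_iff.1 hU y hy
    exact ⟨min ε (ε₀ / 2), lt_min h0 (half_pos hε), min_le_right _ _,
      fun x hx => hb (hx.trans_le (min_le_left _ _))⟩
  have hL : LocCo U' c := ⟨hu, fun y hy => by
    obtain ⟨s, hs, h2, h3⟩ := hball y hy
    refine ⟨s, hs, fun x₁ x₂ x₃ k1 k2 k3 => hc _ (h3 _ k1) _ (h3 _ k2) _ (h3 _ k3) ?_ ?_⟩
    · linarith [dist_triangle_right x₁ x₂ y]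
    · linarith [dist_triangle_right x₂ x₃ y]⟩
  obtain ⟨t, ht, hfin, hcov⟩ := Metric.finite_approx_of_totallyBounded hb _ (half_pos hε)
  obtain ⟨n, e, -, rfl⟩ := hfin.fin_param
  refine ⟨{ τ := { toFun := twH c, map_add' := twH_add c, map_smul' := twH_smul c }
            mul := twH_mul hL
            one := twH_one hL
            ad := twH_ad hL
            tame := twH_tame c
            supp_le := twH_supp c
            iter := fun φ => ?_
            m := n + 1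
            O := fun j => if h : j < n then Metric.ball (e ⟨j, h⟩) (ε₀ / 2) else U'ᶜ
            cov := fun y => ?_
            triv := fun j _ => ?_ }, fun X X' f hf => twH_mk c hf⟩
  · obtain ⟨f, hf, rfl⟩ := exists_mk φ
    refine (twH_iter c hf p).trans ?_
    congr 1
    ext i a b
    simp [twR, hp]
  · by_cases hy : y ∈ U'
    · obtain ⟨_, ⟨k, rfl⟩, hk⟩ := Set.mem_iUnion₂.1 (hcov hy)
      exact ⟨k, by omega, by rw [dif_pos k.2]; exact hk⟩
    · exact ⟨n, by omega, by rw [dif_neg (lt_irrefl n)]; exact hy⟩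
  · by_cases hj : j < n
    · rw [dif_pos hj]
      refine ⟨fun E => mk' E E (dgR c (e ⟨j, hj⟩) E), dgR_unit hu _, fun E F φ =>
        twH_triv hu _ (fun y hy hyO => ?_) φ⟩
      obtain ⟨s, hs, h2, h3⟩ := hball y hy
      refine ⟨s, hs, fun x₁ x₂ k1 k2 => hc _ (h3 _ k1) _ (h3 _ k2) _ (ht ⟨_, rfl⟩) ?_ ?_⟩
      · linarith [dist_triangle_right x₁ x₂ y]
      · linarith [dist_triangle x₂ y (e ⟨j, hj⟩), Metric.mem_ball.1 hyO]
    · rw [dif_neg hj, compl_compl]
      exact ⟨fun _ => 1, fun _ => ⟨one_m _ |>.trans ad_one, m_one _ |>.trans ad_one⟩,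
        fun _ _ _ => supp_subset _⟩

end Vale.Agent.P228
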