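import Mathlib

/-! Additive categories with involution, in matrix convention: `Hom X Y` is a map from `Y` to `X`. -/

namespace Vale.Agent.P228

/-- A complex-linear category with an involution and orthogonal sums. -/
class Dag (C : Type 1) where
  Hom : C → C → Type
  [acg : ∀ X Y, AddCommGroup (Hom X Y)]
  [mod : ∀ X Y, Module ℂ (Hom X Y)]
  cmp : ∀ {X Y Z}, Hom X Y → Hom Y Z → Hom X Z
  idm : ∀ X, Hom X X
  adj : ∀ {X Y}, Hom X Y → Hom Y X
  sum : C → C → C
  inl : ∀ {X Y}, Hom (sum X Y) X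
  inr : ∀ {X Y}, Hom (sum X Y) Y
  cmp_assoc : ∀ {X Y Z W} (f : Hom X Y) (g : Hom Y Z) (h : Hom Z W),
    cmp (cmp f g) h = cmp f (cmp g h)
  idm_cmp : ∀ {X Y} (f : Hom X Y), cmp (idm X) f = f
  add_cmp : ∀ {X Y Z} (f f' : Hom X Y) (g : Hom Y Z), cmp (f + f') g = cmp f g + cmp f' g
  smul_cmp : ∀ {X Y Z} (c : ℂ) (f : Hom X Y) (g : Hom Y Z), cmp (c • f) g = c • cmp f g
  adj_adj : ∀ {X Y} (f : Hom X Y), adj (adj f) = f
  adj_add : ∀ {X Y} (f g : Hom X Y), adj (f + g) = adj f + adj g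
  adj_smul : ∀ {X Y} (c : ℂ) (f : Hom X Y), adj (c • f) = (starRingEnd ℂ c) • adj f
  adj_cmp : ∀ {X Y Z} (f : Hom X Y) (g : Hom Y Z), adj (cmp f g) = cmp (adj g) (adj f)
  inl_inl : ∀ X Y, cmp (adj (inl (X := X) (Y := Y))) inl = idm X
  inr_inr : ∀ X Y, cmp (adj (inr (X := X) (Y := Y))) inr = idm Y
  inr_inl : ∀ X Y, cmp (adj (inr (X := X) (Y := Y))) inl = 0
  total : ∀ X Y, cmp (inl (X := X) (Y := Y)) (adj inl) + cmp inr (adj inr) = idm (sum X Y)

namespace Dag

attribute [instance] acg mod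

variable {C : Type 1} [Dag C] {X Y Z W X' Y' X'' Y'' : C}

instance instHMul : HMul (Hom X Y) (Hom Y Z) (Hom X Z) := ⟨cmp⟩

instance instOne : One (Hom X X) := ⟨idm X⟩

/-- The adjoint. -/
def Hom.ad (f : Hom X Y) : Hom Y X := adj f

@[simp] theorem massoc (f : Hom X Y) (g : Hom Y Z) (h : Hom Z W) : f * g * h = f * (g * h) :=
  cmp_assoc f g h

@[simp] theorem ad_ad (f : Hom X Y) : f.ad.ad = f := adj_adj f

@[simp] theorem ad_add (f g : Hom X Y) : (f + g).ad = f.ad + g.ad := adj_add f g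

@[simp] theorem ad_smul (c : ℂ) (f : Hom X Y) : (c • f).ad = (starRingEnd ℂ c) • f.ad :=
  adj_smul c f

@[simp] theorem ad_mul (f : Hom X Y) (g : Hom Y Z) : (f * g).ad = g.ad * f.ad := adj_cmp f g

@[simp] theorem one_m (f : Hom X Y) : (1 : Hom X X) * f = f := idm_cmp f

@[simp] theorem ad_one : (1 : Hom X X).ad = 1 := by
  have := ad_mul (1 : Hom X X) (1 : Hom X X).ad
  rw [one_m, ad_ad, one_m] at this
  exact this.symm

theorem ad_inj {f g : Hom X Y} (h : f.ad = g.ad) : f = g := by rw [← ad_ad f, h, ad_ad]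

@[simp] theorem m_one (f : Hom X Y) : f * (1 : Hom Y Y) = f := ad_inj (by simp)

@[simp] theorem add_m (f f' : Hom X Y) (g : Hom Y Z) : (f + f') * g = f * g + f' * g :=
  add_cmp f f' g

@[simp] theorem smul_m (c : ℂ) (f : Hom X Y) (g : Hom Y Z) : (c • f) * g = c • (f * g) :=
  smul_cmp c f g

@[simp] theorem m_add (f : Hom X Y) (g g' : Hom Y Z) : f * (g + g') = f * g + f * g' :=
  ad_inj (by simp)

@[simp] theorem m_smul (c : ℂ) (f : Hom X Y) (g : Hom Y Z) : f * (c • g) = c • (f * g) :=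
  ad_inj (by simp)

@[simp] theorem ad_zero : (0 : Hom X Y).ad = 0 := by
  have := ad_smul 0 (0 : Hom X Y)
  simpa using this

@[simp] theorem ad_neg (f : Hom X Y) : (-f).ad = -f.ad := by
  have := ad_smul (-1) f
  simpa using this

@[simp] theorem ad_sub (f g : Hom X Y) : (f - g).ad = f.ad - g.ad := by
  simp [sub_eq_add_neg]

@[simp] theorem zero_m (g : Hom Y Z) : (0 : Hom X Y) * g = 0 := by
  have := smul_m 0 (0 : Hom X Y) g
  simpa using this

@[simp] theorem m_zero (f : Hom X Y) : f * (0 : Hom Y Z) = 0 := ad_inj (by simp)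

@[simp] theorem neg_m (f : Hom X Y) (g : Hom Y Z) : (-f) * g = -(f * g) := by
  have := smul_m (-1) f g
  simpa using this

@[simp] theorem m_neg (f : Hom X Y) (g : Hom Y Z) : f * (-g) = -(f * g) := ad_inj (by simp)

@[simp] theorem sub_m (f f' : Hom X Y) (g : Hom Y Z) : (f - f') * g = f * g - f' * g := by
  simp [sub_eq_add_neg]

@[simp] theorem m_sub (f : Hom X Y) (g g' : Hom Y Z) : f * (g - g') = f * g - f * g' := by
  simp [sub_eq_add_neg]

/-- Turn `a * b = c` into a rule for right-nested products. -/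
theorem reas {a : Hom X Y} {b : Hom Y Z} {c : Hom X Z} (h : a * b = c) {V : C} (x : Hom Z V) :
    a * (b * x) = c * x := by rw [← massoc, h]

theorem ad_eq {f : Hom X Y} {g : Hom X Y} (h : f = g) : f.ad = g.ad := congrArg _ h

/-- A row of two maps. -/
def row (a : Hom X Y) (b : Hom X Z) : Hom X (sum Y Z) :=
  a * (inl : Hom (sum Y Z) Y).ad + b * (inr : Hom (sum Y Z) Z).ad

/-- A column of two maps. -/
def col (a : Hom X Z) (b : Hom Y Z) : Hom (sum X Y) Z :=
  (inl : Hom (sum X Y) X) * a + (inr : Hom (sum X Y) Y) * b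

/-- A block matrix. -/
def blk (a : Hom X X') (b : Hom X Y') (c : Hom Y X') (d : Hom Y Y') :
    Hom (sum X Y) (sum X' Y') := col (row a b) (row c d)

theorem l_l : (inl : Hom (sum X Y) X).ad * (inl : Hom (sum X Y) X) = 1 := inl_inl X Y
theorem r_r : (inr : Hom (sum X Y) Y).ad * (inr : Hom (sum X Y) Y) = 1 := inr_inr X Y
theorem r_l : (inr : Hom (sum X Y) Y).ad * (inl : Hom (sum X Y) X) = 0 := inr_inl X Y
theorem l_r : (inl : Hom (sum X Y) X).ad * (inr : Hom (sum X Y) Y) = 0 := by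
  simpa using ad_eq (r_l (X := X) (Y := Y))
theorem tot : (inl : Hom (sum X Y) X) * (inl : Hom (sum X Y) X).ad +
    (inr : Hom (sum X Y) Y) * (inr : Hom (sum X Y) Y).ad = 1 := total X Y

theorem inl_eq : (inl : Hom (sum X Y) X) = col 1 0 := by simp [col]
theorem inr_eq : (inr : Hom (sum X Y) Y) = col 0 1 := by simp [col]

@[simp] theorem row_col (a : Hom X Y) (b : Hom X Z) (c : Hom Y W) (d : Hom Z W) :
    row a b * col c d = a * c + b * d := by
  simp [row, col, reas l_l, reas r_r, reas l_r, reas r_l]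

@[simp] theorem m_row (x : Hom W X) (a : Hom X Y) (b : Hom X Z) :
    x * row a b = row (x * a) (x * b) := by simp [row]

@[simp] theorem col_m (a : Hom X Z) (b : Hom Y Z) (x : Hom Z W) :
    col a b * x = col (a * x) (b * x) := by simp [col]

@[simp] theorem ad_row (a : Hom X Y) (b : Hom X Z) : (row a b).ad = col a.ad b.ad := by
  simp [row, col]

@[simp] theorem ad_col (a : Hom X Z) (b : Hom Y Z) : (col a b).ad = row a.ad b.ad := by
  simp [row, col]

@[simp] theorem row_add (a a' : Hom X Y) (b b' : Hom X Z) :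
    row a b + row a' b' = row (a + a') (b + b') := by simp [row]; abel

@[simp] theorem col_add (a a' : Hom X Z) (b b' : Hom Y Z) :
    col a b + col a' b' = col (a + a') (b + b') := by simp [col]; abel

@[simp] theorem row_sub (a a' : Hom X Y) (b b' : Hom X Z) :
    row a b - row a' b' = row (a - a') (b - b') := by simp [row]; abel

@[simp] theorem col_sub (a a' : Hom X Z) (b b' : Hom Y Z) :
    col a b - col a' b' = col (a - a') (b - b') := by simp [col]; abel

@[simp] theorem row_neg (a : Hom X Y) (b : Hom X Z) : -row a b = row (-a) (-b) := by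
  simp [row]; abel

@[simp] theorem col_neg (a : Hom X Z) (b : Hom Y Z) : -col a b = col (-a) (-b) := by
  simp [col]; abel

@[simp] theorem row_smul (c : ℂ) (a : Hom X Y) (b : Hom X Z) :
    c • row a b = row (c • a) (c • b) := by simp [row]

@[simp] theorem col_smul (c : ℂ) (a : Hom X Z) (b : Hom Y Z) :
    c • col a b = col (c • a) (c • b) := by simp [col]

@[simp] theorem row_zero : row (0 : Hom X Y) (0 : Hom X Z) = 0 := by simp [row]

@[simp] theorem col_zero : col (0 : Hom X Z) (0 : Hom Y Z) = 0 := by simp [col]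

@[simp] theorem col_inj {a a' : Hom X Z} {b b' : Hom Y Z} :
    col a b = col a' b' ↔ a = a' ∧ b = b' := by
  refine ⟨fun h => ⟨?_, ?_⟩, fun h => by rw [h.1, h.2]⟩
  · simpa using congrArg (fun x => row (1 : Hom X X) (0 : Hom X Y) * x) h
  · simpa using congrArg (fun x => row (0 : Hom Y X) (1 : Hom Y Y) * x) h

@[simp] theorem row_inj {a a' : Hom X Y} {b b' : Hom X Z} :
    row a b = row a' b' ↔ a = a' ∧ b = b' := by
  refine ⟨fun h => ?_, fun h => by rw [h.1, h.2]⟩
  have := ad_eq h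
  rw [ad_row, ad_row, col_inj] at this
  exact ⟨ad_inj this.1, ad_inj this.2⟩

@[simp] theorem col_eq_zero {a : Hom X Z} {b : Hom Y Z} : col a b = 0 ↔ a = 0 ∧ b = 0 := by
  rw [← col_zero, col_inj]

@[simp] theorem row_eq_zero {a : Hom X Y} {b : Hom X Z} : row a b = 0 ↔ a = 0 ∧ b = 0 := by
  rw [← row_zero, row_inj]

@[simp] theorem col_row (a : Hom X X') (b : Hom X Y') (c : Hom Y X') (d : Hom Y Y') :
    col (row a b) (row c d) = blk a b c d := rfl

@[simp] theorem row_col' (a : Hom X X') (b : Hom X Y') (c : Hom Y X') (d : Hom Y Y') :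
    row (col a c) (col b d) = blk a b c d := by
  simp only [blk, row, col, add_m, m_add, massoc]; abel

@[simp] theorem row_blk (x : Hom W X) (y : Hom W Y) (a : Hom X X') (b : Hom X Y') (c : Hom Y X')
    (d : Hom Y Y') : row x y * blk a b c d = row (x * a + y * c) (x * b + y * d) := by
  rw [blk, row_col, m_row, m_row, row_add]

@[simp] theorem blk_col (a : Hom X X') (b : Hom X Y') (c : Hom Y X') (d : Hom Y Y')
    (x : Hom X' W) (y : Hom Y' W) :
    blk a b c d * col x y = col (a * x + b * y) (c * x + d * y) := by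
  rw [blk, col_m, row_col, row_col]

@[simp] theorem blk_blk (a : Hom X X') (b : Hom X Y') (c : Hom Y X') (d : Hom Y Y')
    (a' : Hom X' X'') (b' : Hom X' Y'') (c' : Hom Y' X'') (d' : Hom Y' Y'') :
    blk a b c d * blk a' b' c' d' =
      blk (a * a' + b * c') (a * b' + b * d') (c * a' + d * c') (c * b' + d * d') := by
  rw [blk, col_m, row_blk, row_blk, col_row]

@[simp] theorem ad_blk (a : Hom X X') (b : Hom X Y') (c : Hom Y X') (d : Hom Y Y') :
    (blk a b c d).ad = blk a.ad c.ad b.ad d.ad := by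
  rw [blk, ad_col, ad_row, ad_row, row_col']

@[simp] theorem blk_add (a a' : Hom X X') (b b' : Hom X Y') (c c' : Hom Y X') (d d' : Hom Y Y') :
    blk a b c d + blk a' b' c' d' = blk (a + a') (b + b') (c + c') (d + d') := by
  simp only [blk, col_add, row_add]

@[simp] theorem blk_sub (a a' : Hom X X') (b b' : Hom X Y') (c c' : Hom Y X') (d d' : Hom Y Y') :
    blk a b c d - blk a' b' c' d' = blk (a - a') (b - b') (c - c') (d - d') := by
  simp only [blk, col_sub, row_sub]

@[simp] theorem blk_neg (a : Hom X X') (b : Hom X Y') (c : Hom Y X') (d : Hom Y Y') :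
    -blk a b c d = blk (-a) (-b) (-c) (-d) := by simp only [blk, col_neg, row_neg]

@[simp] theorem blk_smul (t : ℂ) (a : Hom X X') (b : Hom X Y') (c : Hom Y X') (d : Hom Y Y') :
    t • blk a b c d = blk (t • a) (t • b) (t • c) (t • d) := by
  simp only [blk, col_smul, row_smul]

@[simp] theorem blk_zero : blk (0 : Hom X X') (0 : Hom X Y') (0 : Hom Y X') (0 : Hom Y Y') = 0 := by
  simp only [blk, row_zero, col_zero]

@[simp] theorem blk_inj {a a' : Hom X X'} {b b' : Hom X Y'} {c c' : Hom Y X'} {d d' : Hom Y Y'} :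
    blk a b c d = blk a' b' c' d' ↔ a = a' ∧ b = b' ∧ c = c' ∧ d = d' := by
  simp only [blk, col_inj, row_inj, and_assoc]

@[simp] theorem blk_eq_zero {a : Hom X X'} {b : Hom X Y'} {c : Hom Y X'} {d : Hom Y Y'} :
    blk a b c d = 0 ↔ a = 0 ∧ b = 0 ∧ c = 0 ∧ d = 0 := by rw [← blk_zero, blk_inj]

/-- Not a simp lemma: rewrite `1` on a sum as a block matrix. -/
theorem one_eq_blk : (1 : Hom (sum X Y) (sum X Y)) = blk 1 0 0 1 := by
  rw [← tot]; simp [blk, col, row]

@[simp] theorem blk_eq_one {a : Hom X X} {b : Hom X Y} {c : Hom Y X} {d : Hom Y Y} :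
    blk a b c d = 1 ↔ a = 1 ∧ b = 0 ∧ c = 0 ∧ d = 1 := by rw [one_eq_blk, blk_inj]

theorem exists_col (f : Hom (sum X Y) Z) : ∃ a b, f = col a b :=
  ⟨inl.ad * f, inr.ad * f, by
    rw [col, ← massoc, ← massoc, ← add_m, tot, one_m]⟩

theorem exists_row (f : Hom Z (sum X Y)) : ∃ a b, f = row a b := by
  obtain ⟨a, b, h⟩ := exists_col f.ad
  exact ⟨a.ad, b.ad, ad_inj (by simpa using h)⟩

theorem exists_blk (f : Hom (sum X Y) (sum X' Y')) : ∃ a b c d, f = blk a b c d := by
  obtain ⟨u, v, rfl⟩ := exists_col f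
  obtain ⟨a, b, rfl⟩ := exists_row u
  obtain ⟨c, d, rfl⟩ := exists_row v
  exact ⟨a, b, c, d, rfl⟩

/-- An orthogonal splitting of `E` into `B` and `Q`. -/
structure Split {E B Q : C} (iB : Hom E B) (iQ : Hom E Q) : Prop where
  bb : iB.ad * iB = 1
  qq : iQ.ad * iQ = 1
  tot : iB * iB.ad + iQ * iQ.ad = 1

theorem Split.qb {E B Q : C} {iB : Hom E B} {iQ : Hom E Q} (h : Split iB iQ) : iQ.ad * iB = 0 := by
  have h1 := congrArg (fun x => iQ.ad * (x * iB)) h.tot
  simp only [add_m, m_add, massoc, h.bb, m_one, one_m, reas h.qq] at h1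
  simpa using h1

theorem Split.bq {E B Q : C} {iB : Hom E B} {iQ : Hom E Q} (h : Split iB iQ) : iB.ad * iQ = 0 := by
  simpa using ad_eq h.qb

end Dag

open Dag

/-- Functors. -/
structure DagFun (C C' : Type 1) [Dag C] [Dag C'] where
  obj : C → C'
  map : ∀ {X Y : C}, Hom X Y →ₗ[ℂ] Hom (obj X) (obj Y)
  map_mul : ∀ {X Y Z : C} (f : Hom X Y) (g : Hom Y Z), map (f * g) = map f * map g
  map_one : ∀ X : C, map (1 : Hom X X) = 1
  map_ad : ∀ {X Y : C} (f : Hom X Y), map f.ad = (map f).ad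

attribute [simp] DagFun.map_mul DagFun.map_one DagFun.map_ad

namespace DagFun

variable {C C' : Type 1} [Dag C] [Dag C'] (Φ : DagFun C C') {X Y X' Y' : C}

/-- The comparison unitary for sums. -/
def u (X Y : C) : Hom (Φ.obj (sum X Y)) (sum (Φ.obj X) (Φ.obj Y)) := row (Φ.map inl) (Φ.map inr)

theorem u_ad_u : (Φ.u X Y).ad * Φ.u X Y = 1 := by
  simp only [u, ad_row, col_m, m_row, col_row, row_col', blk_eq_one, ← map_ad, ← map_mul, l_l, l_r, r_l, r_r,
    map_one, map_zero, and_self]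

theorem u_u_ad : Φ.u X Y * (Φ.u X Y).ad = 1 := by
  rw [u, ad_row, row_col, ← map_ad, ← map_ad, ← map_mul, ← map_mul, ← map_add, tot, map_one]

theorem map_blk (a : Hom X X') (b : Hom X Y') (c : Hom Y X') (d : Hom Y Y') :
    Φ.map (blk a b c d) =
      Φ.u X Y * blk (Φ.map a) (Φ.map b) (Φ.map c) (Φ.map d) * (Φ.u X' Y').ad := by
  simp only [u, row_blk, ad_row, row_col]
  simp only [blk, col, row, map_add, map_mul, map_ad, add_m, m_add, massoc]
  abel

end DagFun

/-- Controlled structure: supports, tame differentials and cuts. -/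
class CDag (C : Type 1) (Pt : outParam Type) [Dag C] where
  supp : ∀ {X Y : C}, Hom X Y → Set Pt
  supp_zero : ∀ X Y : C, supp (0 : Hom X Y) = ∅
  supp_add : ∀ {X Y : C} (f g : Hom X Y), supp (f + g) ⊆ supp f ∪ supp g
  supp_smul : ∀ {X Y : C} (c : ℂ) (f : Hom X Y), supp (c • f) ⊆ supp f
  supp_mul : ∀ {X Y Z : C} (f : Hom X Y) (g : Hom Y Z), supp (f * g) ⊆ supp f ∩ supp g
  supp_ad : ∀ {X Y : C} (f : Hom X Y), supp f.ad ⊆ supp f
  eq_zero : ∀ {X Y : C} (f : Hom X Y), supp f = ∅ → f = 0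
  Tame : ∀ {X : C}, Hom X X → Prop
  tame_zero : ∀ X : C, Tame (0 : Hom X X)
  tame_ad : ∀ {X : C} {d : Hom X X}, Tame d → Tame d.ad
  tame_smul : ∀ {X : C} {d : Hom X X} (c : ℂ), Tame d → Tame (c • d)
  tame_blk : ∀ {X Y : C} {a : Hom X X} {b : Hom Y Y} (s : Hom X Y), Tame a → Tame b →
    Tame (blk a s 0 b)
  cut : ∀ {E F : C} {d : Hom E E}, Tame d → ∀ f : Hom E F,
    ∃ (B Q : C) (iB : Hom E B) (iQ : Hom E Q), Split iB iQ ∧ iQ.ad * f = 0 ∧
      iQ.ad * d * iB = 0 ∧ supp (1 : Hom B B) ⊆ supp f ∧ Tame (iB.ad * d * iB) ∧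
      Tame (iQ.ad * d * iQ)

open CDag

section Quot

variable {C : Type 1} {Pt : Type} [Dag C] [CDag C Pt] {X Y W X' Y' : C}

theorem CDag.tame_neg {d : Hom X X} (h : Tame d) : Tame (-d) := by
  simpa using tame_smul (-1) h

/-- Maps supported in `Z`. -/
def ideal (Z : Set Pt) (X Y : C) : Submodule ℂ (Hom X Y) where
  carrier := {f | supp f ⊆ Z}
  zero_mem' := by simp [supp_zero]
  add_mem' {f g} hf hg := (supp_add f g).trans (Set.union_subset hf hg)
  smul_mem' c f hf := (supp_smul c f).trans hf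

theorem mem_ideal {Z : Set Pt} {f : Hom X Y} : f ∈ ideal Z X Y ↔ supp f ⊆ Z := Iff.rfl

theorem ideal_mul_left {Z : Set Pt} (f : Hom X Y) {g : Hom Y W} (h : g ∈ ideal Z Y W) :
    f * g ∈ ideal Z X W := (supp_mul f g).trans (Set.inter_subset_right.trans h)

theorem ideal_mul_right {Z : Set Pt} {f : Hom X Y} (g : Hom Y W) (h : f ∈ ideal Z X Y) :
    f * g ∈ ideal Z X W := (supp_mul f g).trans (Set.inter_subset_left.trans h)

theorem ideal_ad {Z : Set Pt} {f : Hom X Y} (h : f ∈ ideal Z X Y) : f.ad ∈ ideal Z Y X :=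
  (supp_ad f).trans h

/-- The quotient category: maps modulo those supported in `Z`. -/
def Qt (C : Type 1) {Pt : Type} (_ : Set Pt) : Type 1 := C

/-- Composition in the quotient. -/
def qcmp (Z : Set Pt) (f : Hom X Y ⧸ ideal Z X Y) (g : Hom Y W ⧸ ideal Z Y W) :
    Hom X W ⧸ ideal Z X W :=
  Quotient.map₂' (· * ·) (fun f f' hf g g' hg => by
    rw [Submodule.quotientRel_def] at hf hg ⊢
    have : f * g - f' * g' = (f - f') * g + f' * (g - g') := by simp
    rw [this]
    exact add_mem (ideal_mul_right _ hf) (ideal_mul_left _ hg)) f g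

/-- The involution of the quotient. -/
def qadj (Z : Set Pt) (f : Hom X Y ⧸ ideal Z X Y) : Hom Y X ⧸ ideal Z Y X :=
  Quotient.map' Hom.ad (fun f f' hf => by
    rw [Submodule.quotientRel_def] at hf ⊢
    rw [← ad_sub]
    exact ideal_ad hf) f

/-- The quotient structure. -/
@[reducible] def qdag (Z : Set Pt) : Dag C where
  Hom X Y := Hom (C := C) X Y ⧸ ideal (C := C) Z X Y
  cmp := qcmp (C := C) Z
  idm X := Submodule.Quotient.mk (1 : Hom (C := C) X X)
  adj := qadj (C := C) Z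
  sum := sum (C := C)
  inl := Submodule.Quotient.mk (inl (C := C))
  inr := Submodule.Quotient.mk (inr (C := C))
  cmp_assoc := by
    rintro X Y W V ⟨f⟩ ⟨g⟩ ⟨h⟩
    exact congrArg Submodule.Quotient.mk (massoc (C := C) f g h)
  idm_cmp := by
    rintro X Y ⟨f⟩
    exact congrArg Submodule.Quotient.mk (one_m (C := C) f)
  add_cmp := by
    rintro X Y W ⟨f⟩ ⟨f'⟩ ⟨g⟩
    exact congrArg Submodule.Quotient.mk (add_m (C := C) f f' g)
  smul_cmp := by
    rintro X Y W c ⟨f⟩ ⟨g⟩
    exact congrArg Submodule.Quotient.mk (smul_m (C := C) c f g)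
  adj_adj := by
    rintro X Y ⟨f⟩
    exact congrArg Submodule.Quotient.mk (ad_ad (C := C) f)
  adj_add := by
    rintro X Y ⟨f⟩ ⟨g⟩
    exact congrArg Submodule.Quotient.mk (ad_add (C := C) f g)
  adj_smul := by
    rintro X Y c ⟨f⟩
    exact congrArg Submodule.Quotient.mk (ad_smul (C := C) c f)
  adj_cmp := by
    rintro X Y W ⟨f⟩ ⟨g⟩
    exact congrArg Submodule.Quotient.mk (ad_mul (C := C) f g)
  inl_inl X Y := congrArg Submodule.Quotient.mk (l_l (C := C))
  inr_inr X Y := congrArg Submodule.Quotient.mk (r_r (C := C))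
  inr_inl X Y := congrArg Submodule.Quotient.mk (r_l (C := C))
  total X Y := congrArg Submodule.Quotient.mk (tot (C := C))

instance instDagQt (Z : Set Pt) : Dag (Qt C Z) := qdag (C := C) Z

/-- The quotient functor. -/
def qF (C : Type 1) {Pt : Type} [Dag C] [CDag C Pt] (Z : Set Pt) : DagFun C (Qt C Z) where
  obj X := X
  map := (ideal Z _ _).mkQ
  map_mul _ _ := rfl
  map_one _ := rfl
  map_ad _ := rfl

/-- The class of a map modulo `Z`. -/
abbrev qt (Z : Set Pt) (f : Hom X Y) : Hom ((qF C Z).obj X) ((qF C Z).obj Y) := (qF C Z).map f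

theorem qt_eq_zero {Z : Set Pt} {f : Hom X Y} : qt Z f = 0 ↔ supp f ⊆ Z :=
  Submodule.Quotient.mk_eq_zero (ideal Z X Y)

theorem qt_eq_iff {Z : Set Pt} {f g : Hom X Y} : qt Z f = qt Z g ↔ supp (f - g) ⊆ Z :=
  Submodule.Quotient.eq (ideal Z X Y)

theorem qt_surj {Z : Set Pt} (f : Hom ((qF C Z).obj X) ((qF C Z).obj Y)) :
    ∃ g : Hom X Y, qt Z g = f := (ideal Z X Y).mkQ_surjective f

theorem qt_row (Z : Set Pt) (a : Hom X Y) (b : Hom X W) :
    qt Z (row a b) = row (qt Z a) (qt Z b) := rfl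

theorem qt_col (Z : Set Pt) (a : Hom X W) (b : Hom Y W) :
    qt Z (col a b) = col (qt Z a) (qt Z b) := rfl

theorem qt_blk (Z : Set Pt) (a : Hom X X') (b : Hom X Y') (c : Hom Y X') (d : Hom Y Y') :
    qt Z (blk a b c d) = blk (qt Z a) (qt Z b) (qt Z c) (qt Z d) := rfl

end Quot

end Vale.Agent.P228
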