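import Vale.Agent.P228.Tor

/-! Boxes are acyclic.

Plan for `fill0`. Translate `InB y r` into integer bounds `lo t ≤ val (x t)`,
`val (x t) + [t ∈ c] ≤ hi t` with `lo t ≤ hi t < N - 1`. Prove by induction on `j ≤ n`: for every
family `lo ≤ hi` with `lo t = hi t` for `j ≤ t`, a chain `z` on `cel j (Tor ..)` in the box with
`rd z = 0`, `eps z = 0` is `rd w` with `w` in the box. `j = 0`: the box is one point, `z = 0`.
Step: `z = (z₀, z₁)`; inner induction on `hi j - lo j`. If it is `0` then `z₁ = 0`, and the outer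
hypothesis applies to `z₀`. Otherwise let `y` be the part of `z₀` in the top layer
`val (x j) = hi j` (`rd` and `lift` of the shifts in directions `< j` preserve layers), and subtract
`rd (0, c • (lift s_j)ᴴ y)` to remove the top layer from `z₀`; then the top layer of the first
component of `rd z = 0` shows that `z₁` has nothing in the layer `hi j - 1`, so the new chain lies
in the box with `hi j` lowered by one (`Shf.rd_rd`, `Shf.eps_rd`). Layer projections can be written
as `lift (diagonal indicator)`, which commute with `rd` by `lift_rd`.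
`fill`: add a multiple of a vertex of the box (`exists_near`). `fill_deg`: take the degree `k` part
(`rd_deg`, `eps_eq`). -/

namespace Vale.Agent.P228

open Matrix Complex Metric

variable {n L m : ℕ}

/-- All vertices of the cell lie in the box of radius `r` around `y`. -/
def InB (y : Fin n → ℝ) (r : ℝ) (c : LC n L m) : Prop :=
  ∀ t : Fin n, |cx c t - y t| ≤ r ∧ (cdir c t → |cx c t + msh m - y t| ≤ r)

theorem InB.mono {y y' : Fin n → ℝ} {r r' : ℝ} {c : LC n L m} (h : InB y r c)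
    (hr : r + dist y y' ≤ r') : InB y' r' c := by
  intro t
  have h1 : |y t - y' t| ≤ dist y y' := by
    rw [← Real.dist_eq]; exact dist_le_pi_dist y y' t
  obtain ⟨h2, h3⟩ := h t
  refine ⟨?_, fun hc => ?_⟩
  · have := abs_sub_le (cx c t) (y t) (y' t)
    linarith
  · have := abs_sub_le (cx c t + msh m) (y t) (y' t)
    linarith [h3 hc]

theorem InB.dist_le {y : Fin n → ℝ} {r : ℝ} {c : LC n L m} (h : InB y r c) (hr : 0 ≤ r) :
    dist (cx c) y ≤ r := by
  rw [dist_pi_le_iff hr]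
  intro t
  rw [Real.dist_eq]
  exact (h t).1

theorem inB_of_dist {y : Fin n → ℝ} {r : ℝ} {c : LC n L m} (h : dist (cx c) y ≤ r) :
    InB y (r + msh m) c := by
  intro t
  have h1 : |cx c t - y t| ≤ r := by
    rw [← Real.dist_eq]; exact (dist_le_pi_dist (cx c) y t).trans h
  have h2 := msh_pos m
  refine ⟨by linarith, fun _ => ?_⟩
  rw [abs_le] at h1 ⊢
  constructor <;> linarith [h1.1, h1.2]

section Gen

variable {P : Type}

/-- Move the base point of a cell. -/
def flMap (f : P → P) : ∀ {j}, cel j P → cel j P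
  | 0, x => f x
  | _ + 1, Sum.inl c => Sum.inl (flMap f c)
  | _ + 1, Sum.inr c => Sum.inr (flMap f c)

theorem fl_cpt (f : P → P) : ∀ {j} (c : cel j P), cpt (flMap f c) = f (cpt c)
  | 0, _ => rfl
  | _ + 1, Sum.inl c => fl_cpt f c
  | _ + 1, Sum.inr c => fl_cpt f c

theorem fl_cdir (f : P → P) (t : ℕ) : ∀ {j} (c : cel j P), cdir (flMap f c) t ↔ cdir c t
  | 0, _ => Iff.rfl
  | _ + 1, Sum.inl c => fl_cdir f t c
  | _ + 1, Sum.inr c => or_congr Iff.rfl (fl_cdir f t c)

theorem fl_fl {f g : P → P} (h : ∀ x, f (g x) = x) :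
    ∀ {j} (c : cel j P), flMap f (flMap g c) = c
  | 0, x => h x
  | _ + 1, Sum.inl c => congrArg Sum.inl (fl_fl h c)
  | _ + 1, Sum.inr c => congrArg Sum.inr (fl_fl h c)

variable [Fintype P] [DecidableEq P]

omit [DecidableEq P] in
theorem fl_blocks {j : ℕ} (A B C D : Matrix (cel j P) (cel j P) ℂ) (z : cel (j + 1) P → ℂ) :
    Matrix.mulVec (m := cel (j + 1) P) (n := cel (j + 1) P) (fromBlocks A B C D) z =
      Sum.elim (A *ᵥ (fun c => z (Sum.inl c)) + B *ᵥ (fun c => z (Sum.inr c)))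
        (C *ᵥ (fun c => z (Sum.inl c)) + D *ᵥ (fun c => z (Sum.inr c))) :=
  fromBlocks_mulVec A B C D z

theorem fl_lift {M : Matrix P P ℂ} {f : P → P} (h : ∀ x y, M x y = if y = f x then 1 else 0) :
    ∀ (j : ℕ) (g : cel j P → ℂ) (a : cel j P), (lift M j *ᵥ g) a = g (flMap f a)
  | 0, g, a => by
    have e : ∀ (g' : P → ℂ) (a' : P), ∑ y : P, M a' y * g' y = g' (f a') := by
      intro g' a'
      simp [h]
    exact e g a
  | j + 1, g, a => by
    have e := fl_blocks (lift M j) 0 0 (lift M j) g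
    have e' : lift M (j + 1) *ᵥ g = _ := e
    rw [e']
    rcases a with a | a
    · simp only [Sum.elim_inl, zero_mulVec, add_zero]
      exact fl_lift h j _ a
    · simp only [Sum.elim_inr, zero_mulVec, zero_add]
      exact fl_lift h j _ a

theorem fl_rd_succ (s : ℕ → Matrix P P ℂ) (j : ℕ) (z : cel (j + 1) P → ℂ) :
    rd s (j + 1) *ᵥ z = I • Matrix.mulVec (m := cel (j + 1) P) (n := cel (j + 1) P)
      (fromBlocks (rd s j) (lift (s j) j - 1) 0 (-rd s j)) z :=
  smul_mulVec (m := cel (j + 1) P) (n := cel (j + 1) P) I _ z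

theorem fl_rd_inl (s : ℕ → Matrix P P ℂ) (j : ℕ) (z : cel (j + 1) P → ℂ) (a : cel j P) :
    (rd s (j + 1) *ᵥ z) (Sum.inl a) = I * ((rd s j *ᵥ fun c => z (Sum.inl c)) a +
      ((lift (s j) j *ᵥ fun c => z (Sum.inr c)) a - z (Sum.inr a))) := by
  rw [fl_rd_succ, fl_blocks, sub_mulVec, one_mulVec]
  rfl

theorem fl_rd_inr (s : ℕ → Matrix P P ℂ) (j : ℕ) (z : cel (j + 1) P → ℂ) (a : cel j P) :
    (rd s (j + 1) *ᵥ z) (Sum.inr a) = -(I * (rd s j *ᵥ fun c => z (Sum.inr c)) a) := by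
  rw [fl_rd_succ, fl_blocks, neg_mulVec, zero_mulVec, zero_add, ← mul_neg]
  rfl

omit [DecidableEq P] in
theorem fl_eps_succ (j : ℕ) (z : cel (j + 1) P → ℂ) :
    eps (j + 1) ⬝ᵥ z = eps j ⬝ᵥ fun c => z (Sum.inl c) := by
  have e := Fintype.sum_sum_type (α₁ := cel j P) (α₂ := cel j P)
    (fun c => eps (j + 1) c * z c)
  have e' : eps (j + 1) ⬝ᵥ z = _ := e
  rw [e']
  simp [eps, dotProduct]

omit [DecidableEq P] in
theorem fl_ne {j : ℕ} {M : Matrix (cel j P) (cel j P) ℂ} {g : cel j P → ℂ} {a : cel j P}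
    (h : (M *ᵥ g) a ≠ 0) : ∃ b, M a b ≠ 0 ∧ g b ≠ 0 := by
  obtain ⟨b, -, hb⟩ := Finset.exists_ne_zero_of_sum_ne_zero h
  exact ⟨b, mul_ne_zero_iff.1 hb⟩

end Gen

/-- The integer form of a box. -/
def FlBx (lo hi : Fin n → ℕ) {j : ℕ} (c : cel j (Tor n L m)) : Prop :=
  ∀ t : Fin n, lo t ≤ (cpt c t).val ∧ (cpt c t).val ≤ hi t ∧ (cdir c t → (cpt c t).val < hi t)

theorem fl_val_add {a : ZMod (2 * (L + 2) * (m + 1))} (h : a.val + 1 < 2 * (L + 2) * (m + 1)) :
    (a + 1).val = a.val + 1 := by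
  have : Fact (1 < 2 * (L + 2) * (m + 1)) := ⟨by omega⟩
  rw [ZMod.val_add_of_lt (by rw [ZMod.val_one]; exact h), ZMod.val_one]

theorem fl_val_sub {a : ZMod (2 * (L + 2) * (m + 1))} (h : 0 < a.val) :
    (a - 1).val + 1 = a.val := by
  have h0 := ZMod.val_lt a
  have : Fact (1 < 2 * (L + 2) * (m + 1)) := ⟨by omega⟩
  rw [ZMod.val_sub (by rw [ZMod.val_one]; exact h), ZMod.val_one]
  omega

theorem fl_sh (t j : ℕ) (g : cel j (Tor n L m) → ℂ) (a : cel j (Tor n L m)) :
    (lift (sh id t) j *ᵥ g) a = g (flMap (fun x => x - stp n L m t) a) := by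
  refine fl_lift (fun x y => ?_) j g a
  simp only [sh, id, of_apply]
  exact if_congr (by rw [eq_sub_iff_add_eq, eq_comm]) rfl rfl

theorem FlBx.face {lo hi : Fin n → ℕ} (hN : ∀ t, hi t < 2 * (L + 2) * (m + 1)) {j : ℕ}
    {a b : cel j (Tor n L m)} (h : Face id a b) (hb : FlBx lo hi b) : FlBx lo hi a := by
  intro t
  obtain ⟨h1, h2⟩ := h t
  obtain ⟨b1, b2, b3⟩ := hb t
  simp only [id] at h2
  rcases h2 with h2 | ⟨h2, h3, h4⟩
  · rw [h2]
    exact ⟨b1, b2, fun hc => b3 (h1 hc)⟩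
  · have b4 := b3 h2
    have := hN t
    rw [h4, fl_val_add (by omega)]
    exact ⟨by omega, by omega, fun hc => absurd hc h3⟩

theorem fl_rd_box {lo hi : Fin n → ℕ} (hN : ∀ t, hi t < 2 * (L + 2) * (m + 1)) {j : ℕ}
    {g : cel j (Tor n L m) → ℂ} (hg : ∀ c, g c ≠ 0 → FlBx lo hi c) :
    ∀ c, (rd (sh id) j *ᵥ g) c ≠ 0 → FlBx lo hi c := by
  intro c hc
  obtain ⟨b, h1, h2⟩ := fl_ne hc
  exact FlBx.face hN (face_of_rd h1) (hg b h2)

theorem fl_rd_layer {j : ℕ} {t : Fin n} (ht : j ≤ t) {g : cel j (Tor n L m) → ℂ}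
    {a : cel j (Tor n L m)} (hg : ∀ b : cel j (Tor n L m), cpt b t = cpt a t → g b = 0) :
    (rd (sh id) j *ᵥ g) a = 0 := by
  by_contra hc
  obtain ⟨b, h1, h2⟩ := fl_ne hc
  rcases (face_of_rd h1 t).2 with h | ⟨h, -⟩
  · exact h2 (hg b h.symm)
  · have := cdir_lt h
    omega

/-- The statement of the induction. -/
def FlOk (n L m j : ℕ) (lo hi : Fin n → ℕ) : Prop :=
  ∀ z : cel j (Tor n L m) → ℂ, (∀ c, z c ≠ 0 → FlBx lo hi c) → rd (sh id) j *ᵥ z = 0 →
    eps j ⬝ᵥ z = 0 → ∃ w : cel j (Tor n L m) → ℂ, (∀ c, w c ≠ 0 → FlBx lo hi c) ∧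
      rd (sh id) j *ᵥ w = z

theorem flOk_zero {lo hi : Fin n → ℕ} (h : ∀ t, hi t ≤ lo t) : FlOk n L m 0 lo hi := by
  intro z hz _ he
  refine ⟨0, fun c hc => absurd rfl hc, ?_⟩
  rw [mulVec_zero]
  funext a
  by_contra ha
  have ha' : z a ≠ 0 := fun h0 => ha h0.symm
  have e : ∑ b : cel 0 (Tor n L m), (1 : ℂ) * z b = 0 := he
  rw [Finset.sum_eq_single a] at e
  · exact ha' (by simpa using e)
  · intro b _ hb
    by_contra hb'
    have hb'' : z b ≠ 0 := fun h0 => hb' (by simp [h0])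
    refine hb (funext fun t => ZMod.val_injective _ ?_)
    have h1 := hz a ha' t
    have h2 := hz b hb'' t
    have h3 := h t
    have e1 : (cpt (j := 0) a t).val = (a t).val := rfl
    have e2 : (cpt (j := 0) b t).val = (b t).val := rfl
    omega
  · intro h0
    exact absurd (Finset.mem_univ _) h0

theorem flOk_flat {j : ℕ} {lo hi : Fin n → ℕ} (t : Fin n) (ht : (t : ℕ) = j) (h : hi t ≤ lo t)
    (ih : FlOk n L m j lo hi) : FlOk n L m (j + 1) lo hi := by
  intro z hz hd he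
  have z1 : ∀ c, z (Sum.inr c) = 0 := by
    intro c
    by_contra hc
    obtain ⟨h1, -, h3⟩ := hz _ hc t
    have := h3 (Or.inl ht)
    omega
  have hd0 : rd (sh id) j *ᵥ (fun c => z (Sum.inl c)) = 0 := by
    funext a
    have e : (rd (sh id) (j + 1) *ᵥ z) (Sum.inl a) = 0 := congrFun hd (Sum.inl a)
    rw [fl_rd_inl, fl_sh] at e
    simpa [z1] using e
  obtain ⟨w, hw, hw'⟩ := ih (fun c => z (Sum.inl c)) (fun c hc => hz _ hc) hd0
    (by rw [← fl_eps_succ]; exact he)
  obtain ⟨w1, hw1, hw2⟩ : ∃ w1 : cel (j + 1) (Tor n L m) → ℂ,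
      (fun a => w1 (Sum.inl a)) = (-I) • w ∧ ∀ a, w1 (Sum.inr a) = 0 :=
    ⟨Sum.elim ((-I) • w) 0, rfl, fun _ => rfl⟩
  refine ⟨w1, ?_, ?_⟩
  · rintro (c | c) hc
    · exact hw c fun h0 => hc ((congrFun hw1 c).trans (by simp [h0]))
    · exact absurd (hw2 c) hc
  · funext a
    rcases a with a | a
    · rw [fl_rd_inl, fl_sh, hw1, mulVec_smul, hw', hw2, hw2]
      simp [← mul_assoc]
    · have e : (fun c => w1 (Sum.inr c)) = 0 := funext hw2
      rw [fl_rd_inr, z1, e, mulVec_zero]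
      simp

theorem fl_stp_self {j : ℕ} (t : Fin n) (ht : (t : ℕ) = j) : stp n L m j t = 1 := if_pos ht

theorem fl_stp_ne {j : ℕ} {t u : Fin n} (ht : (t : ℕ) = j) (hu : u ≠ t) : stp n L m j u = 0 :=
  if_neg fun h => hu (Fin.ext (h.trans ht.symm))

theorem flOk_step {j : ℕ} {lo hi : Fin n → ℕ} (hN : ∀ t, hi t < 2 * (L + 2) * (m + 1))
    (t : Fin n) (ht : (t : ℕ) = j) (h : lo t < hi t)
    (ih : FlOk n L m (j + 1) lo (Function.update hi t (hi t - 1))) :
    FlOk n L m (j + 1) lo hi := by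
  intro z hz hd he
  have hS : Shf (sh (id : Tor n L m → Tor n L m)) (j + 1) := (cls_id (j + 1)).shf
  have hNt := hN t
  obtain ⟨u, hu⟩ : ∃ u : cel j (Tor n L m) → ℂ, ∀ a, u a = if (cpt a t).val + 1 = hi t then
      z (Sum.inl (flMap (fun x => x + stp n L m j) a)) else 0 := ⟨_, fun _ => rfl⟩
  obtain ⟨w1, hw1, hw2⟩ : ∃ w1 : cel (j + 1) (Tor n L m) → ℂ,
      (∀ a, w1 (Sum.inl a) = 0) ∧ ∀ a, w1 (Sum.inr a) = -I * u a :=
    ⟨Sum.elim 0 fun a => -I * u a, fun _ => rfl, fun _ => rfl⟩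
  have b1 : ∀ c, w1 c ≠ 0 → FlBx lo hi c := by
    rintro (a | a) hc
    · exact absurd (hw1 a) hc
    · rw [hw2, hu] at hc
      by_cases ha : (cpt a t).val + 1 = hi t
      · rw [if_pos ha] at hc
        have hb := hz _ (right_ne_zero_of_mul hc)
        intro v
        show lo v ≤ (cpt a v).val ∧ (cpt a v).val ≤ hi v ∧
          ((v : ℕ) = j ∨ cdir a v → (cpt a v).val < hi v)
        by_cases hv : v = t
        · subst hv
          exact ⟨by omega, by omega, fun _ => by omega⟩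
        · have hb' : lo v ≤ (cpt (flMap (fun x => x + stp n L m j) a) v).val ∧
              (cpt (flMap (fun x => x + stp n L m j) a) v).val ≤ hi v ∧
              (cdir (flMap (fun x => x + stp n L m j) a) v →
                (cpt (flMap (fun x => x + stp n L m j) a) v).val < hi v) := hb v
          rw [fl_cpt, fl_cdir, Pi.add_apply, fl_stp_ne ht hv, add_zero] at hb'
          refine ⟨hb'.1, hb'.2.1, fun hc' => hb'.2.2 (hc'.resolve_left fun h0 => ?_)⟩
          exact hv (Fin.ext (h0.trans ht.symm))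
      · rw [if_neg ha] at hc
        exact absurd (mul_zero _) hc
  obtain ⟨z', hz'⟩ : ∃ z' : cel (j + 1) (Tor n L m) → ℂ, z' = z - rd (sh id) (j + 1) *ᵥ w1 :=
    ⟨_, rfl⟩
  have d' : rd (sh id) (j + 1) *ᵥ z' = 0 := by
    rw [hz', mulVec_sub, hd, mulVec_mulVec, hS.rd_rd, zero_mulVec, sub_zero]
  have e' : eps (j + 1) ⬝ᵥ z' = 0 := by
    rw [hz', dotProduct_sub, he, dotProduct_mulVec, hS.eps_rd, zero_dotProduct, sub_zero]
  have b2 : ∀ c, z' c ≠ 0 → FlBx lo hi c := by
    intro c hc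
    by_cases h0 : z c = 0
    · refine fl_rd_box hN b1 c fun h1 => hc ?_
      rw [hz', Pi.sub_apply, h0, h1, sub_zero]
    · exact hz c h0
  have l0 : ∀ a, (cpt a t).val = hi t → z' (Sum.inl a) = 0 := by
    intro a ha
    have e1 : (fun c => w1 (Sum.inl c)) = 0 := funext hw1
    have e2 : (cpt (flMap (fun x => x - stp n L m j) a) t).val + 1 = hi t := by
      rw [fl_cpt, Pi.sub_apply, fl_stp_self t ht, fl_val_sub (by omega), ha]
    have e0 : z' (Sum.inl a) = z (Sum.inl a) - (rd (sh id) (j + 1) *ᵥ w1) (Sum.inl a) :=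
      congrFun hz' _
    rw [e0, fl_rd_inl, fl_sh, e1, mulVec_zero, hw2, hw2, hu, hu a, if_pos e2,
      if_neg (by omega), fl_fl (fun x => sub_add_cancel x _)]
    simp [← mul_assoc]
  have l1 : ∀ a, (cpt a t).val + 1 = hi t → z' (Sum.inr a) = 0 := by
    intro a ha
    have e2 : (cpt (flMap (fun x => x + stp n L m j) a) t).val = hi t := by
      rw [fl_cpt, Pi.add_apply, fl_stp_self t ht, fl_val_add (by omega), ha]
    have e : (rd (sh id) (j + 1) *ᵥ z') (Sum.inl (flMap (fun x => x + stp n L m j) a)) = 0 :=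
      congrFun d' _
    have e3 : z' (Sum.inr (flMap (fun x => x + stp n L m j) a)) = 0 := by
      by_contra h0
      have := (b2 _ h0 t).2.2 (Or.inl ht)
      exact absurd e2 (ne_of_lt this)
    rw [fl_rd_inl, fl_sh, fl_fl (fun x => add_sub_cancel_right x _), e3,
      fl_rd_layer (t := t) ht.ge (fun b hb => l0 b (by rw [hb, e2]))] at e
    simpa using e
  have b3 : ∀ c, z' c ≠ 0 → FlBx lo (Function.update hi t (hi t - 1)) c := by
    intro c hc v
    by_cases hv : v = t
    · subst hv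
      rw [Function.update_self]
      obtain ⟨c1, c2, c3⟩ := b2 c hc v
      rcases c with a | a
      · have : (cpt a v).val ≠ hi v := fun h0 => hc (l0 a h0)
        have c2' : (cpt a v).val ≤ hi v := c2
        refine ⟨c1, ?_, fun h0 => ?_⟩
        · show (cpt a v).val ≤ _
          omega
        · have := cdir_lt (c := a) h0
          omega
      · have : (cpt a v).val + 1 ≠ hi v := fun h0 => hc (l1 a h0)
        have c3' : (cpt a v).val < hi v := c3 (Or.inl ht)
        refine ⟨c1, ?_, fun _ => ?_⟩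
        · show (cpt a v).val ≤ _
          omega
        · show (cpt a v).val < _
          omega
    · rw [Function.update_of_ne hv]
      exact b2 c hc v
  obtain ⟨w, hw, hw'⟩ := ih z' b3 d' e'
  refine ⟨w + w1, fun c hc => ?_, by rw [mulVec_add, hw', hz', sub_add_cancel]⟩
  by_cases h0 : w c = 0
  · exact b1 c fun h1 => hc (by rw [Pi.add_apply, h0, h1, add_zero])
  · intro v
    have := hw c h0 v
    by_cases hv : v = t
    · subst hv
      rw [Function.update_self] at this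
      exact ⟨this.1, by omega, fun h1 => by have := this.2.2 h1; omega⟩
    · rwa [Function.update_of_ne hv] at this

theorem flOk_all (lo : Fin n → ℕ) : ∀ j ≤ n, ∀ hi : Fin n → ℕ,
    (∀ t, hi t < 2 * (L + 2) * (m + 1)) → (∀ t : Fin n, j ≤ t → hi t ≤ lo t) →
      FlOk n L m j lo hi := by
  intro j
  induction j with
  | zero => exact fun _ hi _ h => flOk_zero fun t => h t (Nat.zero_le _)
  | succ j ih =>
    intro hj
    have key : ∀ d : ℕ, ∀ hi : Fin n → ℕ, hi ⟨j, hj⟩ = d →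
        (∀ t, hi t < 2 * (L + 2) * (m + 1)) → (∀ t : Fin n, j + 1 ≤ t → hi t ≤ lo t) →
          FlOk n L m (j + 1) lo hi := by
      intro d
      induction d using Nat.strong_induction_on with
      | _ d ihd =>
        intro hi hd hN h
        by_cases h0 : hi ⟨j, hj⟩ ≤ lo ⟨j, hj⟩
        · refine flOk_flat ⟨j, hj⟩ rfl h0 (ih (by omega) hi hN fun t ht => ?_)
          rcases ht.eq_or_lt with h1 | h1
          · have : t = ⟨j, hj⟩ := Fin.ext h1.symm
            rw [this]
            exact h0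
          · exact h t h1
        · refine flOk_step hN ⟨j, hj⟩ rfl (by omega)
            (ihd (d - 1) (by omega) _ (by rw [Function.update_self, hd]) (fun t => ?_) fun t ht => ?_)
          · by_cases h1 : t = ⟨j, hj⟩
            · rw [h1, Function.update_self]
              have := hN ⟨j, hj⟩
              omega
            · rw [Function.update_of_ne h1]
              exact hN t
          · have h1 : t ≠ ⟨j, hj⟩ := by
              rintro rfl
              exact absurd ht (Nat.not_succ_le_self j)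
            rw [Function.update_of_ne h1]
            exact h t ht
    exact fun hi => key _ hi rfl

theorem fl_abs {k : ℕ} {y r : ℝ} :
    |(k : ℝ) * msh m - (L + 2) - y| ≤ r ↔
      (y - r + (L + 2)) * (m + 1) ≤ k ∧ (k : ℝ) ≤ (y + r + (L + 2)) * (m + 1) := by
  have hm : (0 : ℝ) < m + 1 := by positivity
  rw [abs_le, msh, mul_one_div, ← le_div_iff₀ hm, ← div_le_iff₀ hm]
  constructor <;> rintro ⟨h1, h2⟩ <;> constructor <;> linarith

variable {y : Fin n → ℝ} {r : ℝ}

theorem fl_inB_iff (hy : ‖y‖ + r < L + 1) (c : LC n L m) :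
    InB y r c ↔ FlBx (fun t => ⌈(y t - r + (L + 2)) * (m + 1)⌉₊)
      (fun t => ⌊(y t + r + (L + 2)) * (m + 1)⌋₊) c := by
  refine forall_congr' fun t => ?_
  have e1 : cx c t = ((cpt c t).val : ℝ) * msh m - (L + 2) := rfl
  have e2 : cx c t + msh m = (((cpt c t).val + 1 : ℕ) : ℝ) * msh m - (L + 2) := by
    rw [e1]; push_cast; ring
  rw [e2, e1, fl_abs, fl_abs]
  have h1 : |y t| ≤ ‖y‖ := by rw [← Real.norm_eq_abs]; exact norm_le_pi_norm y t
  have h2 : 0 < (y t - r + (L + 2)) * (m + 1) := by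
    have := neg_abs_le (y t)
    exact mul_pos (by linarith) (by positivity)
  constructor
  · rintro ⟨⟨a1, a2⟩, a3⟩
    exact ⟨Nat.ceil_le.2 a1, Nat.le_floor a2, fun hc => Nat.le_floor (a3 hc).2⟩
  · rintro ⟨a1, a2, a3⟩
    have a4 := Nat.ceil_le.1 a1
    have a5 : (cpt c t).val ≠ 0 := by
      intro h0
      rw [h0] at a4
      simp only [Nat.cast_zero] at a4
      linarith
    refine ⟨⟨a4, (Nat.le_floor_iff' a5).1 a2⟩, fun hc => ⟨?_, ?_⟩⟩
    · push_cast
      linarith
    · exact (Nat.le_floor_iff' (Nat.succ_ne_zero _)).1 (a3 hc)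

theorem fill0 (hy : ‖y‖ + r < L + 1) (z : LC n L m → ℂ) (hz : ∀ c, z c ≠ 0 → InB y r c)
    (hd : ld n L m *ᵥ z = 0) (he : eps n ⬝ᵥ z = 0) :
    ∃ w : LC n L m → ℂ, (∀ c, w c ≠ 0 → InB y r c) ∧ ld n L m *ᵥ w = z := by
  simp only [fl_inB_iff hy] at hz ⊢
  refine flOk_all _ n le_rfl _ (fun t => ?_) (fun t ht => absurd t.2 (not_lt.2 ht)) z hz hd he
  rw [Nat.floor_lt' (by positivity)]
  have h1 : |y t| ≤ ‖y‖ := by rw [← Real.norm_eq_abs]; exact norm_le_pi_norm y t
  have := le_abs_self (y t)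
  push_cast
  exact mul_lt_mul_of_pos_right (by linarith) (by positivity)

theorem fill (hy : ‖y‖ + r < L + 1) (hr : msh m ≤ r) (z : LC n L m → ℂ)
    (hz : ∀ c, z c ≠ 0 → InB y r c) (hd : ld n L m *ᵥ z = 0) (he : eps n ⬝ᵥ z = 0) (η : ℂ) :
    ∃ w : LC n L m → ℂ, (∀ c, w c ≠ 0 → InB y r c) ∧ ld n L m *ᵥ w = z ∧ eps n ⬝ᵥ w = η := by
  obtain ⟨w, hw, hw'⟩ := fill0 hy z hz hd he
  have hm := msh_pos m
  obtain ⟨x, hx⟩ := exists_near (L := L) (y := y) (by linarith) m
  have hv : InB y r (vtx n x) := by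
    intro t
    refine ⟨?_, fun hc => absurd hc (cdir_vtx n x t)⟩
    rw [cx, cpt_vtx, ← Real.dist_eq]
    exact ((dist_le_pi_dist (xr x) y t).trans hx).trans hr
  refine ⟨w + Pi.single (vtx n x) (η - eps n ⬝ᵥ w), fun c hc => ?_, ?_, ?_⟩
  · by_cases h0 : c = vtx n x
    · rw [h0]; exact hv
    · refine hw c fun h1 => hc ?_
      rw [Pi.add_apply, h1, Pi.single_eq_of_ne h0, add_zero]
  · have e : ld n L m *ᵥ Pi.single (vtx n x) (η - eps n ⬝ᵥ w) = 0 := by
      funext a
      by_contra ha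
      obtain ⟨b, h1, h2⟩ := fl_ne ha
      have hb : b = vtx n x := by
        by_contra h0
        exact h2 (Pi.single_eq_of_ne h0 _)
      have := rd_deg h1
      rw [hb, cdeg_vtx] at this
      omega
    rw [mulVec_add, hw', e, add_zero]
  · rw [dotProduct_add, dotProduct_single, eps_eq (vtx n x), if_pos (cdeg_vtx n x)]
    ring

theorem fill_deg (hy : ‖y‖ + r < L + 1) (hr : msh m ≤ r) (z : LC n L m → ℂ)
    (hz : ∀ c, z c ≠ 0 → InB y r c) (hd : ld n L m *ᵥ z = 0) (he : eps n ⬝ᵥ z = 0) (η : ℂ)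
    (k : ℕ) (hk : ∀ c, z c ≠ 0 → cdeg c + 1 = k) (hη : η ≠ 0 → k = 0) :
    ∃ w : LC n L m → ℂ, (∀ c, w c ≠ 0 → InB y r c ∧ cdeg c = k) ∧ ld n L m *ᵥ w = z ∧
      eps n ⬝ᵥ w = η := by
  obtain ⟨w, hw, hw', he'⟩ := fill hy hr z hz hd he η
  refine ⟨fun c => if cdeg c = k then w c else 0, fun c hc => ?_, ?_, ?_⟩
  · by_cases h0 : cdeg c = k
    · exact ⟨hw c fun h1 => hc (by simp [h1]), h0⟩
    · exact absurd (if_neg h0) hc
  · funext a
    by_cases ha : cdeg a + 1 = k
    · rw [← hw']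
      refine Finset.sum_congr rfl fun b _ => ?_
      by_cases hb : ld n L m a b = 0
      · simp [hb]
      · have := rd_deg hb
        simp only [if_pos (this.symm.trans ha)]
    · have h0 : z a = 0 := by
        by_contra h1
        exact ha (hk a h1)
      rw [h0]
      by_contra h1
      obtain ⟨b, h2, h3⟩ := fl_ne h1
      have := rd_deg h2
      exact h3 (if_neg (by omega))
  · by_cases h0 : k = 0
    · rw [← he']
      refine Finset.sum_congr rfl fun b _ => ?_
      rw [eps_eq b, h0]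
      by_cases hb : cdeg b = 0 <;> simp [hb]
    · have h1 : η = 0 := by
        by_contra h2
        exact h0 (hη h2)
      rw [h1]
      refine Finset.sum_eq_zero fun b _ => ?_
      rw [eps_eq b]
      by_cases hb : cdeg b = 0
      · simp [hb, Ne.symm h0]
      · simp [hb]

end Vale.Agent.P228
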