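import Vale.Agent.P228.Setup

/-! The orbit pseudometric and the cocycle of the free `ℤ/p` cover.

Plans.
* The distance is the Hausdorff distance of orbits (`NonemptyCompacts.dist_eq`,
  `hausdorffDist_le_of_mem_dist`, `exists_dist_lt_of_hausdorffDist_lt`). `dist_small`:
  `act h x` is close to `act (h + g) y` (`Setup.unif`). Compactness: the map from the subtype `Ω`
  is continuous and onto.
* `exists_cocycle`: the fixed set `F = {x ∈ Ω | ∀ g, act k g x = x}` is compact and `z k ∉ A k '' F`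
  (`σ.free`); take `r ≤ ρR - ρK` with `closedBall (z k) r` disjoint from `A k '' F`. If a unit `u`
  fixes `x ∈ Ω` then all `g` do (`ℕ u` is dense: `PadicInt.denseRange_natCast`, closedness). So
  on the compact set of `(x, g, h)` with `x ∈ Ω`, `A k x ∈ closedBall (z k) r`, `‖g - h‖ = 1` the
  distance `dist (act g x) (act h x)` has a positive lower bound `2 ε₁`; and `‖g - h‖ < 1` iff
  `PadicInt.toZMod g = toZMod h` (`PadicInt.ker_toZMod`, `mem_nonunits`).
  `c x y = ω ^ (toZMod g).val` for a chosen `g` with `dist x.pt (act g y.pt) < ε₁` if there is one,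
  else `1`. Take `ε₀ ≤ ε₁ / 2` below the modulus of `Setup.unif` for `ε₁ / 2`. -/

namespace Vale.Agent.P228

open Metric Filter Set TopologicalSpace

variable {n p : ℕ} [Fact p.Prime]

namespace Setup

/-- Points of `Ω`, to be given the orbit pseudometric of the slice `k`. -/
structure Orb (σ : Setup n p) (k : ℕ) where
  pt : Fin n → ℝ
  mem : pt ∈ σ.Ω

variable {σ : Setup n p} {k : ℕ}

/-- The orbit. -/
def Orb.orbit (x : σ.Orb k) : NonemptyCompacts (Fin n → ℝ) where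
  carrier := range fun g => σ.act k g x.pt
  isCompact' := isCompact_range ((σ.cont k).comp_continuous
    (f := fun g : ℤ_[p] => (g, x.pt)) (by fun_prop) fun _ => ⟨mem_univ _, x.mem⟩)
  nonempty' := range_nonempty _

noncomputable instance Orb.instPM : PseudoMetricSpace (σ.Orb k) :=
  PseudoMetricSpace.induced Orb.orbit inferInstance

theorem Orb.dist_small (σ : Setup n p) (k : ℕ) : ∀ ε > 0, ∃ η > 0, ∀ (x y : σ.Orb k) (g : ℤ_[p]),
    dist x.pt (σ.act k g y.pt) < η → dist x y < ε := by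
  intro ε hε
  obtain ⟨η, hη, h⟩ := σ.unif k (ε / 2) (half_pos hε)
  refine ⟨η, hη, fun x y g hg => ?_⟩
  have key : ∀ a, dist (σ.act k a x.pt) (σ.act k (a + g) y.pt) ≤ ε / 2 := fun a => by
    rw [σ.act_add k a g _ y.mem]
    exact (h a a _ x.mem _ (σ.maps k g _ y.mem) (by simpa using hη) hg).le
  have h1 : dist x y ≤ ε / 2 := by
    change dist x.orbit y.orbit ≤ _
    rw [NonemptyCompacts.dist_eq]
    refine hausdorffDist_le_of_mem_dist (half_pos hε).le ?_ ?_
    · rintro _ ⟨a, rfl⟩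
      exact ⟨_, ⟨a + g, rfl⟩, key a⟩
    · rintro _ ⟨a, rfl⟩
      refine ⟨_, ⟨a - g, rfl⟩, ?_⟩
      have := key (a - g)
      rwa [sub_add_cancel, dist_comm] at this
  linarith

theorem Orb.exists_g {x y : σ.Orb k} {η : ℝ} (h : dist x y < η) :
    ∃ g, dist x.pt (σ.act k g y.pt) < η := by
  change dist x.orbit y.orbit < _ at h
  rw [NonemptyCompacts.dist_eq] at h
  have hx : x.pt ∈ (x.orbit : Set (Fin n → ℝ)) := ⟨0, σ.act_zero k _ x.mem⟩
  obtain ⟨_, ⟨g, rfl⟩, hg⟩ := exists_dist_lt_of_hausdorffDist_lt hx h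
    (hausdorffEDist_ne_top_of_nonempty_of_bounded x.orbit.nonempty y.orbit.nonempty
      x.orbit.isCompact.isBounded y.orbit.isCompact.isBounded)
  exact ⟨g, hg⟩

instance Orb.instCompact : CompactSpace (σ.Orb k) := by
  have : CompactSpace σ.Ω := isCompact_iff_compactSpace.1 σ.cpt
  have hc : Continuous fun x : σ.Ω => (⟨x.1, x.2⟩ : σ.Orb k) := by
    refine Metric.continuous_iff.2 fun x ε hε => ?_
    obtain ⟨η, hη, h⟩ := Orb.dist_small σ k ε hε
    refine ⟨η, hη, fun y hy => h _ _ 0 ?_⟩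
    rw [σ.act_zero k _ x.2]
    exact hy
  exact Function.Surjective.compactSpace hc fun x => ⟨⟨x.pt, x.mem⟩, rfl⟩

/-- The invariant map. -/
def Orb.pA (x : σ.Orb k) : Fin n → ℝ := σ.A k x.pt

theorem Orb.pA_unif : UniformContinuous (Orb.pA : σ.Orb k → Fin n → ℝ) := by
  refine Metric.uniformContinuous_iff.2 fun ε hε => ?_
  obtain ⟨η, hη, h⟩ := σ.unifA k ε hε
  refine ⟨η, hη, fun {x y} hxy => ?_⟩
  obtain ⟨g, hg⟩ := Orb.exists_g hxy
  have := h _ x.mem _ (σ.maps k g _ y.mem) hg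
  rwa [σ.Ainv k g _ y.mem] at this

theorem fine_cont (σ : Setup n p) (k : ℕ) {x : Fin n → ℝ} (hx : x ∈ σ.Ω) :
    Continuous fun g => σ.act k g x :=
  (σ.cont k).comp_continuous (f := fun g : ℤ_[p] => (g, x)) (by fun_prop)
    fun _ => ⟨mem_univ _, hx⟩

theorem fine_fix (σ : Setup n p) (k : ℕ) {x : Fin n → ℝ} (hx : x ∈ σ.Ω) {u : ℤ_[p]}
    (hu : ‖u‖ = 1) (h : σ.act k u x = x) (g : ℤ_[p]) : σ.act k g x = x := by
  have h1 : ∀ m : ℕ, σ.act k (m * u) x = x := fun m => by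
    induction m with
    | zero => simpa using σ.act_zero k x hx
    | succ m ih => rw [Nat.cast_succ, add_mul, one_mul, σ.act_add k _ _ _ hx, h, ih]
  obtain ⟨v, rfl⟩ := PadicInt.isUnit_iff.2 hu
  have h2 : ∀ a : ℤ_[p], σ.act k (a * v) x = x := fun a =>
    PadicInt.denseRange_natCast.induction_on a
      (isClosed_eq ((fine_cont σ k hx).comp (by fun_prop)) continuous_const) h1
  simpa using h2 (g * (v⁻¹ : ℤ_[p]ˣ))

theorem fine_sep (σ : Setup n p) (k : ℕ) : ∃ r > 0, ball (σ.z k) r ⊆ ball σ.w σ.ρR ∧ ∃ ε > 0,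
    ∀ x ∈ σ.Ω, σ.A k x ∈ ball (σ.z k) r → ∀ g h : ℤ_[p],
      dist (σ.act k g x) (σ.act k h x) < ε → PadicInt.toZMod g = PadicInt.toZMod h := by
  let S : Set (ℤ_[p] × (Fin n → ℝ)) := sphere 0 1 ×ˢ σ.Ω
  have hS : IsCompact S := (isClosed_sphere.isCompact).prod σ.cpt
  let f : ℤ_[p] × (Fin n → ℝ) → ℝ := fun y => dist (σ.act k y.1 y.2) y.2 + dist (σ.A k y.2) (σ.z k)
  have hf : ContinuousOn f S := by
    refine ContinuousOn.add (continuous_dist.comp_continuousOn (ContinuousOn.prodMk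
      ((σ.cont k).mono (prod_mono (subset_univ _) le_rfl)) continuousOn_snd))
      (continuous_dist.comp_continuousOn (ContinuousOn.prodMk
        ((σ.Acont k).comp continuousOn_snd fun y hy => hy.2) continuousOn_const))
  have hpos : ∀ y ∈ S, 0 < f y := fun y hy => by
    refine lt_of_le_of_ne (add_nonneg dist_nonneg dist_nonneg) fun h0 => ?_
    have h1 := (add_eq_zero_iff_of_nonneg dist_nonneg dist_nonneg).1 h0.symm
    obtain ⟨g, hg⟩ := σ.free k _ hy.2 (dist_eq_zero.1 h1.2)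
    exact hg (fine_fix σ k hy.2 (mem_sphere_zero_iff_norm.1 hy.1) (dist_eq_zero.1 h1.1) g)
  obtain ⟨δ, hδ, hle⟩ := hS.exists_forall_le' hf hpos
  obtain ⟨η, hη, hu⟩ := σ.unif k (δ / 2) (half_pos hδ)
  have hR : 0 < σ.ρR - σ.ρK := sub_pos.2 σ.hKR
  refine ⟨min (δ / 2) (σ.ρR - σ.ρK), lt_min (half_pos hδ) hR, fun y hy => ?_, η, hη,
    fun x hx hA g h hgh => ?_⟩
  · have h1 := (mem_ball.1 hy).trans_le (min_le_right _ _)
    have h2 := mem_closedBall.1 (σ.hz k)
    rw [mem_ball]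
    linarith [dist_triangle y (σ.z k) σ.w]
  · by_contra hne
    have h1 : ‖-h + g‖ = 1 := by
      refine le_antisymm (PadicInt.norm_le_one _) (not_lt.1 fun hlt => hne ?_)
      have h2 : -h + g ∈ RingHom.ker (PadicInt.toZMod (p := p)) := by
        rw [PadicInt.ker_toZMod, IsLocalRing.mem_maximalIdeal, PadicInt.mem_nonunits]
        exact hlt
      rw [RingHom.mem_ker, map_add, map_neg, neg_add_eq_zero] at h2
      exact h2.symm
    have h2 := hle (-h + g, x) ⟨mem_sphere_zero_iff_norm.2 h1, hx⟩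
    have h3 := hu (-h) (-h) _ (σ.maps k g x hx) _ (σ.maps k h x hx) (by simpa using hη) hgh
    rw [σ.act_neg k h hx, ← σ.act_add k _ _ _ hx] at h3
    have h4 := (mem_ball.1 hA).trans_le (min_le_left _ _)
    simp only [f] at h2
    linarith

theorem exists_cocycle (σ : Setup n p) (k : ℕ) {ω : ℂ} (hω : ω ^ p = 1) :
    ∃ r > 0, ball (σ.z k) r ⊆ ball σ.w σ.ρR ∧ ∃ (c : σ.Orb k → σ.Orb k → ℂ) (ε₀ : ℝ), 0 < ε₀ ∧
      (∀ x y, ‖c x y‖ = 1) ∧ (∀ x y, c x y ^ p = 1) ∧
      (∀ x ∈ Orb.pA ⁻¹' ball (σ.z k) r, ∀ y ∈ Orb.pA ⁻¹' ball (σ.z k) r,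
        ∀ v ∈ Orb.pA ⁻¹' ball (σ.z k) r, dist x y < ε₀ → dist y v < ε₀ → c x y * c y v = c x v) ∧
      ∀ x, ∀ y ∈ Orb.pA ⁻¹' ball (σ.z k) r, ∀ a : ℕ,
        dist x.pt (σ.act k (a : ℤ_[p]) y.pt) < ε₀ → c x y = ω ^ a := by
  classical
  obtain ⟨r, hr, hb, ε, hε, hs⟩ := fine_sep σ k
  obtain ⟨η, hη, hu⟩ := σ.unif k (ε / 4) (by positivity)
  have hp : p ≠ 0 := (Fact.out : p.Prime).ne_zero
  have h1 : ‖ω‖ = 1 := by
    have := congrArg norm hω
    rw [norm_pow, norm_one] at this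
    exact (pow_eq_one_iff_of_nonneg (norm_nonneg _) hp).1 this
  let χ : ℤ_[p] → ℂ := fun g => ω ^ (PadicInt.toZMod g).val
  have hm : ∀ a : ℕ, ω ^ (a % p) = ω ^ a := fun a => by
    conv_rhs => rw [← Nat.mod_add_div a p, pow_add, pow_mul, hω, one_pow, mul_one]
  have hadd : ∀ g h, χ (g + h) = χ g * χ h := fun g h => by
    simp only [χ, map_add, ZMod.val_add, hm, pow_add]
  let c : σ.Orb k → σ.Orb k → ℂ := fun x y =>
    if h : ∃ g, dist x.pt (σ.act k g y.pt) < ε / 2 then χ h.choose else 1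
  have hc : ∀ x, ∀ y ∈ Orb.pA ⁻¹' ball (σ.z k) r, ∀ g, dist x.pt (σ.act k g y.pt) < ε / 2 →
      c x y = χ g := fun x y hy g hg => by
    have h : ∃ g, dist x.pt (σ.act k g y.pt) < ε / 2 := ⟨g, hg⟩
    have h2 := h.choose_spec
    simp only [c, dif_pos h, χ]
    rw [hs _ y.mem hy h.choose g]
    linarith [dist_triangle_left (σ.act k h.choose y.pt) (σ.act k g y.pt) x.pt]
  refine ⟨r, hr, hb, c, min η (ε / 4), lt_min hη (by positivity), fun x y => ?_, fun x y => ?_,
    fun x _ y hy v hv hxy hyv => ?_, fun x y hy a ha => ?_⟩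
  · simp only [c, χ]
    split_ifs
    · rw [norm_pow, h1, one_pow]
    · exact norm_one
  · simp only [c, χ]
    split_ifs
    · rw [← pow_mul, mul_comm, pow_mul, hω, one_pow]
    · exact one_pow _
  · obtain ⟨g, hg⟩ := Orb.exists_g hxy
    obtain ⟨h, hh⟩ := Orb.exists_g hyv
    have k1 := hg.trans_le (min_le_right _ _)
    have k2 := hh.trans_le (min_le_right _ _)
    have k3 := hu g g _ y.mem _ (σ.maps k h _ v.mem) (by simpa using hη)
      (hh.trans_le (min_le_left _ _))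
    rw [← σ.act_add k _ _ _ v.mem] at k3
    rw [hc x y hy g (by linarith), hc y v hv h (by linarith), hc x v hv (g + h)
      (by linarith [dist_triangle x.pt (σ.act k g y.pt) (σ.act k (g + h) v.pt)]), hadd]
  · have k1 := ha.trans_le (min_le_right _ _)
    rw [hc x y hy a (by linarith)]
    simp only [χ, map_natCast, ZMod.val_natCast, hm]

end Setup

end Vale.Agent.P228
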