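import Vale.Agent.P228.Dag

/-! Chain homotopy theory in a `Dag`. A complex is an endomorphism `d` (with `d * d = 0` where
needed). -/

namespace Vale.Agent.P228

open Dag

variable {C : Type 1} [Dag C] {E E' E'' F F' : C}

/-- Contractible. -/
def Ctr (d : Hom E E) : Prop := ∃ h : Hom E E, d * h + h * d = 1

/-- Homotopic maps from `(E, d)` to `(E', d')`. -/
def Htp (d' : Hom E' E') (d : Hom E E) (f g : Hom E' E) : Prop :=
  ∃ h : Hom E' E, f - g = d' * h + h * d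

/-- Homotopy equivalence from `(E, d)` to `(E', d')`. -/
def Hq (d' : Hom E' E') (d : Hom E E) (f : Hom E' E) : Prop :=
  d' * f = f * d ∧ ∃ g : Hom E E', d * g = g * d' ∧ Htp d' d' (f * g) 1 ∧ Htp d d (g * f) 1

variable {d : Hom E E} {d' : Hom E' E'} {d'' : Hom E'' E''} {f g k : Hom E' E}

theorem Htp.refl (f : Hom E' E) : Htp d' d f f := by
  exact ⟨0, by simp⟩

theorem Htp.of_eq (h : f = g) : Htp d' d f g := by
  exact ⟨0, by simp [h]⟩

theorem Htp.symm (h : Htp d' d f g) : Htp d' d g f := by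
  obtain ⟨a, ha⟩ := h
  refine ⟨-a, ?_⟩
  rw [m_neg, neg_m, ← neg_add, ← ha, neg_sub]

theorem Htp.trans (h : Htp d' d f g) (h' : Htp d' d g k) : Htp d' d f k := by
  obtain ⟨a, ha⟩ := h
  obtain ⟨b, hb⟩ := h'
  refine ⟨a + b, ?_⟩
  rw [m_add, add_m]
  linear_combination (norm := abel) ha + hb

theorem Htp.add {f' g' : Hom E' E} (h : Htp d' d f g) (h' : Htp d' d f' g') :
    Htp d' d (f + f') (g + g') := by
  obtain ⟨a, ha⟩ := h
  obtain ⟨b, hb⟩ := h'
  refine ⟨a + b, ?_⟩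
  rw [m_add, add_m]
  linear_combination (norm := abel) ha + hb

theorem Htp.sub {f' g' : Hom E' E} (h : Htp d' d f g) (h' : Htp d' d f' g') :
    Htp d' d (f - f') (g - g') := by
  obtain ⟨a, ha⟩ := h
  obtain ⟨b, hb⟩ := h'
  refine ⟨a - b, ?_⟩
  rw [m_sub, sub_m]
  linear_combination (norm := abel) ha - hb

theorem Htp.smul (c : ℂ) (h : Htp d' d f g) : Htp d' d (c • f) (c • g) := by
  obtain ⟨a, ha⟩ := h
  refine ⟨c • a, ?_⟩
  rw [m_smul, smul_m, ← smul_add, ← ha, smul_sub]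

theorem Htp.neg (h : Htp d' d f g) : Htp d' d (-f) (-g) := by
  simpa using h.smul (-1)

theorem Htp.mul_left {a : Hom E'' E'} (ha : d'' * a = a * d') (h : Htp d' d f g) :
    Htp d'' d (a * f) (a * g) := by
  obtain ⟨b, hb⟩ := h
  refine ⟨a * b, ?_⟩
  rw [← m_sub, hb, m_add, reas ha, massoc, massoc]

theorem Htp.mul_right {a : Hom E E''} (ha : d * a = a * d'') (h : Htp d' d f g) :
    Htp d' d'' (f * a) (g * a) := by
  obtain ⟨b, hb⟩ := h
  refine ⟨b * a, ?_⟩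
  rw [← sub_m, hb, add_m, massoc, massoc, massoc, ha]

theorem Htp.ad (h : Htp d' d f g) : Htp d.ad d'.ad f.ad g.ad := by
  obtain ⟨b, hb⟩ := h
  refine ⟨b.ad, ?_⟩
  rw [← ad_sub, hb, ad_add, ad_mul, ad_mul, add_comm]

theorem Htp.smul_d {c : ℂ} (hc : c ≠ 0) (h : Htp d' d f g) : Htp (c • d') (c • d) f g := by
  obtain ⟨b, hb⟩ := h
  refine ⟨c⁻¹ • b, ?_⟩
  simp [hb, smul_smul, hc]

theorem Htp.neg_d (h : Htp d' d f g) : Htp (-d') (-d) f g := by
  simpa using h.smul_d (c := -1) (by simp)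

theorem Htp.blk_diag {e : Hom F F} {e' : Hom F' F'} {u v : Hom F' F} (h : Htp d' d f g)
    (h' : Htp e' e u v) : Htp (blk d' 0 0 e') (blk d 0 0 e) (blk f 0 0 u) (blk g 0 0 v) := by
  obtain ⟨a, ha⟩ := h
  obtain ⟨b, hb⟩ := h'
  exact ⟨blk a 0 0 b, by simp [ha, hb]⟩

theorem Ctr.ad (h : Ctr d) : Ctr d.ad := by
  obtain ⟨a, ha⟩ := h
  refine ⟨a.ad, ?_⟩
  rw [← ad_mul, ← ad_mul, ← ad_add, add_comm, ha, ad_one]

theorem Ctr.smul {c : ℂ} (hc : c ≠ 0) (h : Ctr d) : Ctr (c • d) := by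
  obtain ⟨a, ha⟩ := h
  refine ⟨c⁻¹ • a, ?_⟩
  simp [ha, smul_smul, hc]

theorem Ctr.neg (h : Ctr d) : Ctr (-d) := by
  simpa using h.smul (c := -1) (by simp)

theorem Ctr.of_one_eq_zero (h : (1 : Hom E E) = 0) : Ctr d := by
  exact ⟨0, by simp [h]⟩

/-- An extension of contractible complexes is contractible. -/
theorem ctr_blk {e : Hom F F} {s : Hom E F} (hs : d * s + s * e = 0) (h : Ctr d) (h' : Ctr e) :
    Ctr (blk d s 0 e) := by
  obtain ⟨a, ha⟩ := h
  obtain ⟨b, hb⟩ := h'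
  have h1 : d * s = -(s * e) := eq_neg_of_add_eq_zero_left hs
  have ha' : ∀ {V : C} (x : Hom E V), d * (a * x) = x - a * (d * x) := fun x => by
    have := congrArg (fun y => y * x) ha
    simp only [add_m, massoc, one_m] at this
    exact eq_sub_of_add_eq this
  have hb' : e * b = 1 - b * e := eq_sub_of_add_eq hb
  refine ⟨blk a (-(a * (s * b + a * s))) 0 b, ?_⟩
  simp only [blk_blk, blk_add, blk_eq_one, m_zero, zero_m, add_zero, zero_add, ha, hb, true_and,
    and_true]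
  simp [ha', h1, reas h1, hb']
  abel

theorem Hq.ctr_left (h : Hq d' d f) (hc : Ctr d) : Ctr d' := by
  obtain ⟨hf, g, hg, ⟨a, ha⟩, -⟩ := h
  obtain ⟨b, hb⟩ := hc
  refine ⟨f * b * g - a, ?_⟩
  have h1 : f * ((d * b + b * d) * g) = f * g := by rw [hb, one_m]
  simp only [add_m, m_add, massoc] at h1
  simp only [m_sub, sub_m, massoc, reas hf, ← hg]
  linear_combination (norm := abel) h1 + ha

theorem Hq.ctr_right (h : Hq d' d f) (hc : Ctr d') : Ctr d := by
  obtain ⟨hf, g, hg, -, ⟨a, ha⟩⟩ := h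
  obtain ⟨b, hb⟩ := hc
  refine ⟨g * b * f - a, ?_⟩
  have h1 : g * ((d' * b + b * d') * f) = g * f := by rw [hb, one_m]
  simp only [add_m, m_add, massoc] at h1
  simp only [m_sub, sub_m, massoc, reas hg, ← hf]
  linear_combination (norm := abel) h1 + ha

theorem Hq.one : Hq d d 1 := by
  exact ⟨by simp, 1, by simp, Htp.of_eq (by simp), Htp.of_eq (by simp)⟩

theorem Hq.of_iso {u : Hom E' E} {v : Hom E E'} (h1 : u * v = 1) (h2 : v * u = 1)
    (h : d' * u = u * d) : Hq d' d u := by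
  refine ⟨h, v, ?_, Htp.of_eq h1, Htp.of_eq h2⟩
  have := congrArg (fun x => v * (x * v)) h
  simp only [massoc, h1, m_one, reas h2, one_m] at this
  exact this.symm

theorem Hq.mul {a : Hom E'' E'} (ha : Hq d'' d' a) (h : Hq d' d f) : Hq d'' d (a * f) := by
  obtain ⟨hf, g, hg, h1, h2⟩ := h
  obtain ⟨ha, b, hb, h3, h4⟩ := ha
  refine ⟨by rw [reas ha, massoc, hf, massoc], g * b, by rw [reas hg, massoc, hb, massoc], ?_, ?_⟩
  · have := (h1.mul_left ha).mul_right hb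
    simp only [massoc, m_one] at this ⊢
    exact this.trans h3
  · have := (h4.mul_left hg).mul_right hf
    simp only [massoc, m_one] at this ⊢
    exact this.trans h2

theorem Hq.inv (h : Hq d' d f) :
    ∃ g : Hom E E', Hq d d' g ∧ Htp d' d' (f * g) 1 ∧ Htp d d (g * f) 1 := by
  obtain ⟨hf, g, hg, h1, h2⟩ := h
  exact ⟨g, ⟨hg, f, hf, h2, h1⟩, h1, h2⟩

theorem Hq.ad (h : Hq d' d f) : Hq d.ad d'.ad f.ad := by
  obtain ⟨hf, g, hg, h1, h2⟩ := h
  refine ⟨by simpa using (ad_eq hf).symm, g.ad, by simpa using (ad_eq hg).symm, ?_, ?_⟩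
  · simpa using h2.ad
  · simpa using h1.ad

theorem Hq.smul_d {c : ℂ} (hc : c ≠ 0) (h : Hq d' d f) : Hq (c • d') (c • d) f := by
  obtain ⟨hf, g, hg, h1, h2⟩ := h
  exact ⟨by simp [hf], g, by simp [hg], h1.smul_d hc, h2.smul_d hc⟩

theorem Hq.neg_d (h : Hq d' d f) : Hq (-d') (-d) f := by
  simpa using h.smul_d (c := -1) (by simp)

theorem Hq.smul {c : ℂ} (hc : c ≠ 0) (h : Hq d' d f) : Hq d' d (c • f) := by
  obtain ⟨hf, g, hg, h1, h2⟩ := h
  refine ⟨by simp [hf], c⁻¹ • g, by simp [hg], ?_, ?_⟩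
  · simpa [smul_smul, hc] using h1
  · simpa [smul_smul, hc] using h2

theorem Hq.neg (h : Hq d' d f) : Hq d' d (-f) := by
  simpa using h.smul (c := -1) (by simp)

theorem Hq.of_htp (h : Hq d' d f) (hg : d' * g = g * d) (hfg : Htp d' d f g) : Hq d' d g := by
  obtain ⟨hf, b, hb, h1, h2⟩ := h
  exact ⟨hg, b, hb, (hfg.symm.mul_right hb).trans h1, (hfg.symm.mul_left hb).trans h2⟩

theorem Hq.of_mul_left {a : Hom E'' E'} (ha : Hq d'' d' a) (hf : d' * f = f * d)
    (h : Hq d'' d (a * f)) : Hq d' d f := by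
  obtain ⟨b, hb, -, h2⟩ := ha.inv
  refine (hb.mul h).of_htp hf ?_
  simpa using h2.mul_right hf

theorem Hq.of_mul_right {a : Hom E E''} (ha : Hq d d'' a) (hf : d' * f = f * d)
    (h : Hq d' d'' (f * a)) : Hq d' d f := by
  obtain ⟨b, hb, h1, -⟩ := ha.inv
  refine (h.mul hb).of_htp hf ?_
  simpa using h1.mul_left hf

theorem Hq.blk_diag {e : Hom F F} {e' : Hom F' F'} {u : Hom F' F} (h : Hq d' d f)
    (h' : Hq e' e u) : Hq (blk d' 0 0 e') (blk d 0 0 e) (blk f 0 0 u) := by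
  obtain ⟨hf, g, hg, h1, h2⟩ := h
  obtain ⟨hu, v, hv, h3, h4⟩ := h'
  refine ⟨by simp [hf, hu], blk g 0 0 v, by simp [hg, hv], ?_, ?_⟩
  · simpa [← one_eq_blk] using h1.blk_diag h3
  · simpa [← one_eq_blk] using h2.blk_diag h4

/-- Homotopy inverses can be chosen coherently. -/
theorem Hq.coherent (hd : d * d = 0) (hd' : d' * d' = 0) (h : Hq d' d f) :
    ∃ (g : Hom E E') (a : Hom E E) (a' : Hom E' E') (w : Hom E' E), Hq d d' g ∧
      g * f - 1 = d * a + a * d ∧ f * g - 1 = d' * a' + a' * d' ∧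
      f * a - a' * f = d' * w - w * d := by
  obtain ⟨g, hg, ⟨a', ha'⟩, ⟨a, ha⟩⟩ := h.inv
  have hf := h.1
  have hg' := hg.1
  have key : d' * (f * a - a' * f) + (f * a - a' * f) * d = 0 := by
    have h1 := congrArg (fun x => f * x) ha
    have h2 := congrArg (fun x => x * f) ha'
    simp only [m_sub, sub_m, m_add, add_m, massoc, m_one, one_m, reas hf, hf] at h1 h2 ⊢
    linear_combination (norm := abel) h2 - h1
  generalize hφ : f * a - a' * f = φ at key
  refine ⟨g, a, a' + φ * g, φ * a, hg, ha, ?_, ?_⟩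
  · have h1 := congrArg (fun x => x * g) key
    simp only [m_add, add_m, massoc, zero_m, hg'] at h1 ⊢
    linear_combination (norm := abel) ha' - h1
  · have h1 := congrArg (fun x : Hom E' E => x * a) key
    have h2 := congrArg (fun x => φ * x) ha
    simp only [m_add, add_m, m_sub, massoc, zero_m, m_one] at h1 h2 ⊢
    linear_combination (norm := abel) hφ - h1 - h2

theorem hq_iff_ctr_cone (hd : d * d = 0) (hd' : d' * d' = 0) (hf : d' * f = f * d) :
    Hq d' d f ↔ Ctr (blk d' f 0 (-d)) := by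
  constructor
  · intro h
    obtain ⟨g, a, a', w, hg, h1, h2, h3⟩ := h.coherent hd hd'
    refine ⟨blk (-a') (-w) g a, ?_⟩
    simp only [blk_blk, blk_add, blk_eq_one, m_zero, zero_m, add_zero, m_neg, neg_m, neg_neg]
    refine ⟨?_, ?_, ?_, ?_⟩
    · linear_combination (norm := abel) h2
    · linear_combination (norm := abel) h3
    · linear_combination (norm := abel) -hg.1
    · linear_combination (norm := abel) h1
  · rintro ⟨H, hH⟩
    obtain ⟨a, b, c, e, rfl⟩ := exists_blk H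
    simp only [blk_blk, blk_add, blk_eq_one, m_zero, zero_m, add_zero, zero_add, m_neg,
      neg_m] at hH
    obtain ⟨h1, -, h3, h4⟩ := hH
    refine ⟨hf, c, ?_, ⟨-a, ?_⟩, ⟨e, ?_⟩⟩
    · linear_combination (norm := abel) -h3
    · rw [m_neg, neg_m]
      linear_combination (norm := abel) h1
    · linear_combination (norm := abel) h4

/-- The five lemma. -/
theorem Hq.blk_tri {e : Hom F F} {e' : Hom F' F'} {s : Hom E F} {s' : Hom E' F'} {u : Hom F' F}
    {t : Hom E' F} (hD : blk d s 0 e * blk d s 0 e = 0) (hD' : blk d' s' 0 e' * blk d' s' 0 e' = 0)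
    (hc : blk d' s' 0 e' * blk f t 0 u = blk f t 0 u * blk d s 0 e) (h : Hq d' d f)
    (h' : Hq e' e u) : Hq (blk d' s' 0 e') (blk d s 0 e) (blk f t 0 u) := by
  rw [hq_iff_ctr_cone hD hD' hc]
  simp only [blk_blk, blk_eq_zero, blk_inj, m_zero, zero_m, add_zero, zero_add, true_and]
    at hD hD' hc
  have c1 := (hq_iff_ctr_cone hD.1 hD'.1 h.1).1 h
  have c2 := (hq_iff_ctr_cone hD.2.2 hD'.2.2 h'.1).1 h'
  have c3 : Ctr (blk (blk d' f 0 (-d)) (blk s' t 0 (-s)) 0 (blk e' u 0 (-e))) := by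
    refine ctr_blk ?_ c1 c2
    simp only [blk_blk, blk_add, blk_eq_zero, m_zero, zero_m, add_zero, zero_add, true_and, m_neg,
      neg_m, neg_neg]
    refine ⟨hD'.2.1, ?_, hD.2.1⟩
    linear_combination (norm := abel) hc.2.1
  refine Hq.ctr_left (f := blk (blk 1 0 0 0) (blk 0 0 1 0) (blk 0 1 0 0) (blk 0 0 0 1))
    (Hq.of_iso (v := blk (blk 1 0 0 0) (blk 0 0 1 0) (blk 0 1 0 0) (blk 0 0 0 1)) ?_ ?_ ?_) c3
  · simp
  · simp
  · simp

theorem hq_inl {e : Hom F F} {s : Hom E F} (hD : blk d s 0 e * blk d s 0 e = 0) (h : Ctr e) :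
    Hq (blk d s 0 e) d (col 1 0) := by
  obtain ⟨b, hb⟩ := h
  simp only [blk_blk, blk_eq_zero, m_zero, zero_m, add_zero, zero_add, true_and] at hD
  have h1 : d * s = -(s * e) := eq_neg_of_add_eq_zero_left hD.2.1
  have hb' : e * b = 1 - b * e := eq_sub_of_add_eq hb
  refine ⟨by simp, row 1 (-(s * b)), ?_, ⟨blk 0 0 0 (-b), ?_⟩, Htp.of_eq (by simp)⟩
  · simp [reas h1, hb', sub_eq_add_neg]
  · have : (col 1 0 : Hom (sum E F) E) * row (1 : Hom E E) (-(s * b)) = blk 1 (-(s * b)) 0 0 := by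
      rw [col_m, m_row, m_row, col_row]; simp
    rw [this, one_eq_blk]
    simp [hb']
    abel

theorem hq_snd {e : Hom F F} {s : Hom E F} (hD : blk d s 0 e * blk d s 0 e = 0) (h : Ctr d) :
    Hq e (blk d s 0 e) (row 0 1) := by
  obtain ⟨b, hb⟩ := h
  simp only [blk_blk, blk_eq_zero, m_zero, zero_m, add_zero, zero_add, true_and] at hD
  have h1 : d * s = -(s * e) := eq_neg_of_add_eq_zero_left hD.2.1
  have hb' : d * b = 1 - b * d := eq_sub_of_add_eq hb
  refine ⟨by simp, col (-(b * s)) 1, ?_, Htp.of_eq (by simp), ⟨blk (-b) 0 0 0, ?_⟩⟩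
  · simp [reas hb', h1]
  · have : col (-(b * s)) (1 : Hom F F) * (row 0 1 : Hom F (sum E F)) = blk 0 (-(b * s)) 0 1 := by
      rw [col_m, m_row, m_row, col_row]; simp
    rw [this, one_eq_blk]
    simp [hb']
    abel

variable {C' : Type 1} [Dag C'] (Φ : DagFun C C')

theorem Ctr.map (h : Ctr d) : Ctr (Φ.map d) := by
  obtain ⟨a, ha⟩ := h
  exact ⟨Φ.map a, by rw [← Φ.map_mul, ← Φ.map_mul, ← map_add, ha, Φ.map_one]⟩

theorem Htp.map (h : Htp d' d f g) : Htp (Φ.map d') (Φ.map d) (Φ.map f) (Φ.map g) := by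
  obtain ⟨a, ha⟩ := h
  exact ⟨Φ.map a, by rw [← Φ.map_mul, ← Φ.map_mul, ← map_add, ← ha, map_sub]⟩

theorem Hq.map (h : Hq d' d f) : Hq (Φ.map d') (Φ.map d) (Φ.map f) := by
  obtain ⟨hf, g, hg, h1, h2⟩ := h
  refine ⟨by rw [← Φ.map_mul, hf, Φ.map_mul], Φ.map g, by rw [← Φ.map_mul, hg, Φ.map_mul], ?_, ?_⟩
  · simpa using h1.map Φ
  · simpa using h2.map Φ

end Vale.Agent.P228
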