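import Vale.Agent.P228.SymB

/-! Comparison of boundaries, surgery, excision.

Plans (all identities checked by hand).
* `Inv.bd_eq`: by `bd_rel` (map `1`) replace `V'` by `V'' = (E', d', f S f†)`. Put
  `W = V.bd.add V''.bd.neg`, `T = sum E E'`, `t = I • blk d (S f†) 0 d'†`,
  `u₁ = col (blk 1 0 0 f†) (blk f 0 0 1)`, `u₂ = col (blk 0 0 1 0) (blk 0 (-1) 0 0)`; the inverse
  sends `(x, ξ, y, η)` to `(x, η; ξ - f† η, f x - y)`. `Ctr (qt Z t)` by `hq_iff_ctr_cone`, since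
  `S f†` is `Hq` modulo `Z` (`ctrZ_bd_iff`, `Hq.ad`, `Hq.neg_d`). Use `Inv.lag`, `Inv.neg`.
* `surg_rel`: `V.bd` has coordinates `((l, x), (λ, ξ))`; the map
  `Ψ (l, x, λ, ξ) = ((l, x + J ξ / 2), λ; x - J ξ / 2)` to `(surg).add X.neg` is a chain map and
  a strict isometry. It is `Hq`: reorder the source as `((l, (x, ξ)), λ)` and the target as
  `((l, (a, b)), λ)` by block permutation isomorphisms (`Hq.of_iso`, `Hq.mul`); both differentials
  become upper triangular and `Ψ` becomes `diag (1, Ψ₀, 1)` with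
  `Ψ₀ = blk 1 (J / 2) 1 (-J / 2) = blk 1 (1/2) 1 (-1/2) * blk 1 0 0 J`, which is `Hq` from
  `blk d 0 0 (-d†)` to `blk d 0 0 d`. Apply `Hq.blk_tri` twice.
* `Inv.excision`: `CDag.cut` for `X'.tame` and the map
  `row (X'.d - u d u†) (X'.S - u S u†)` gives `q = iQ†` with `q d' = q u d u†`,
  `q S' = q u S u†`, `supp 1_B ⊆ Z'`. `W = X'.add X.neg`, `L = Q`, `dL = q d' q†`,
  `f = row q (q u)`. Then `surgV` lives on `Z`, so `ψ surgV.bd = 0`; `surg` is
  Poincare (`Poinc.of_add`, `bd_poinc`) and contractible modulo `Z'`: there `q` is unitary,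
  `d' = u d u†`, `S' = u S u†`; the isomorphism `(x', x) ↦ (x' + u x, x)` of the middle term turns
  it into an extension of the cone of `q` and the cone of `S u† q†` (`ctr_blk`,
  `hq_iff_ctr_cone`, `Hq.of_iso`). So `0 = ψ surg - ψ W` and `ψ W = ψ X' - ψ X`. -/

namespace Vale.Agent.P228

open Dag CDag Complex Sym

variable {C : Type 1} {Pt : Type} [Dag C] [CDag C Pt] {G : Type} [AddCommGroup G] {Z : Set Pt}

/-- The form of `V` pushed forward along a chain map. -/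
def lagPush (V V' : Sym C) (f : Hom V'.E V.E) (hf : V'.d * f = f * V.d) : Sym C where
  E := V'.E
  d := V'.d
  S := f * V.S * f.ad
  dd := V'.dd
  herm := by simp [V.herm]
  rel := by
    have h1 : f.ad * V'.d.ad = V.d.ad * f.ad := by simpa using ad_eq hf
    simp [reas hf, h1, reas V.dS]
  tame := V'.tame

section Alg

variable {D : Type 1} [Dag D] {E E' : D}

theorem lag_rc0 {X Y X' Y' : D} (a : Hom X X') (c : Hom Y X') :
    row (col a c) (0 : Hom (sum X Y) Y') = blk a 0 c 0 := by rw [← col_zero, row_col']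

theorem lag_r0c {X Y X' Y' : D} (b : Hom X Y') (d : Hom Y Y') :
    row (0 : Hom (sum X Y) X') (col b d) = blk 0 b 0 d := by rw [← col_zero, row_col']

theorem lag_cr0 {X Y X' Y' : D} (a : Hom X X') (b : Hom X Y') :
    col (row a b) (0 : Hom Y (sum X' Y')) = blk a b 0 0 := by rw [← row_zero, col_row]

theorem lag_c0r {X Y X' Y' : D} (c : Hom Y X') (d : Hom Y Y') :
    col (0 : Hom X (sum X' Y')) (row c d) = blk 0 0 c d := by rw [← row_zero, col_row]

/-- First Lagrangian inclusion. -/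
def lagU1 (f : Hom E' E) : Hom (sum (sum E E) (sum E' E')) (sum E E') :=
  col (blk 1 0 0 f.ad) (blk f 0 0 1)

/-- Second Lagrangian inclusion. -/
def lagU2 (E E' : D) : Hom (sum (sum E E) (sum E' E')) (sum E E') :=
  col (blk 0 0 1 0) (blk 0 (-1) 0 0)

/-- The inverse of the Lagrangian splitting. -/
def lagU' (f : Hom E' E) : Hom (sum (sum E E') (sum E E')) (sum (sum E E) (sum E' E')) :=
  blk (blk 1 0 0 0) (blk 0 0 0 1) (blk 0 1 f 0) (blk 0 (-f.ad) (-1) 0)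

theorem lagU_1 (f : Hom E' E) : row (lagU1 f) (lagU2 E E') * lagU' f = 1 := by
  simp [lagU1, lagU2, lagU']

theorem lagU_2 (f : Hom E' E) : lagU' f * row (lagU1 f) (lagU2 E E') = 1 := by
  rw [lagU1, lagU2, row_col']
  simp [lagU']

theorem lagU_3 (f : Hom E' E) :
    (blk (blk 0 1 1 0) 0 0 (-blk 0 1 1 0) :
      Hom (sum (sum E E) (sum E' E')) (sum (sum E E) (sum E' E'))) =
      lagU1 f * (lagU2 E E').ad + lagU2 E E' * (lagU1 f).ad := by
  simp [lagU1, lagU2, eq_comm (a := (0 : Hom _ _))]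

theorem lagU_4 (f : Hom E' E) (d S : Hom E E) (d' : Hom E' E') (hf : d' * f = f * d) :
    blk (I • blk d S 0 d.ad) 0 0 (I • blk d' (f * S * f.ad) 0 d'.ad) * lagU1 f =
      lagU1 f * (I • blk d (S * f.ad) 0 d'.ad) := by
  have hf' : f.ad * d'.ad = d.ad * f.ad := by simpa using ad_eq hf
  simp [lagU1, hf, hf']

theorem lagU_5 {d : Hom E E} {d' : Hom E' E'} {g : Hom E E'} (hd : d * d = 0) (hd' : d' * d' = 0)
    (h : Hq d (-d'.ad) g) : Ctr (I • blk d g 0 d'.ad) := by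
  have h2 : d'.ad * d'.ad = 0 := by simpa using ad_eq hd'
  have h1 := (hq_iff_ctr_cone (d := -d'.ad) (d' := d) (by simp [h2]) hd h.1).1 h
  refine Ctr.smul I_ne_zero ?_
  simpa using h1

end Alg

theorem lag_qt_sq {E : C} {d : Hom E E} (h : d * d = 0) : qt Z d * qt Z d = 0 :=
  ((qF C Z).map_mul d d).symm.trans (by rw [h, map_zero])

theorem Inv.bd_eq {σ : Sym C → G} (hσ : Inv Z σ) {V V' : Sym C} (f : Hom V'.E V.E)
    (hq : Hq (qt Z V'.d) (qt Z V.d) (qt Z f)) (hf : V'.d * f = f * V.d)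
    (hS : Htp V'.d (-V'.d.ad) (f * V.S * f.ad) V'.S) (hV : V.bd.CtrZ Z) :
    σ V'.bd = σ V.bd := by
  have hSf : Hq (qt Z V.d) (-(qt Z V'.d).ad) (qt Z V.S * (qt Z f).ad) :=
    (ctrZ_bd_iff.1 hV).mul hq.ad.neg_d
  have hc : (lagPush V V' f hf).bd.CtrZ Z := by
    rw [ctrZ_bd_iff]
    have := hq.mul hSf
    rw [← massoc] at this
    exact this
  have hpz : (lagPush V V' f hf).bd.PZ Z := ⟨bd_poinc _, hc⟩
  have hr : Rel V' (lagPush V V' f hf) := by
    refine ⟨(1 : Hom V'.E V'.E), Hq.one, ?_⟩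
    have h1 : Htp V'.d (-V'.d.ad)
        ((1 : Hom V'.E V'.E) * (f * V.S * f.ad) * (1 : Hom V'.E V'.E).ad) V'.S := by
      simpa using hS
    exact h1
  have hpV : V.bd.PZ Z := ⟨bd_poinc _, hV⟩
  have h0 : σ (V.bd.add (lagPush V V' f hf).bd.neg) = 0 :=
    hσ.lag (V.bd.add (lagPush V V' f hf).bd.neg) (T := sum V.E V'.E) (lagU1 f) (lagU2 V.E V'.E)
      (lagU' f) (lagU_1 f) (lagU_2 f) (lagU_3 f) (I • blk V.d (V.S * f.ad) 0 V'.d.ad)
      (lagU_4 f V.d V.S V'.d hf) (tame_smul _ (tame_blk _ V.tame (tame_ad V'.tame)))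
      (lagU_5 (lag_qt_sq V.dd) (lag_qt_sq V'.dd) hSf)
  rw [hσ.add _ _ hpV hpz.neg, hσ.neg hpz] at h0
  rw [hσ.rel' hpz (bd_rel hr)]
  exact (add_neg_eq_zero.1 h0).symm

/-- Surgery data. -/
structure SurgD (X : Sym C) where
  L : C
  dL : Hom L L
  f : Hom L X.E
  dd : dL * dL = 0
  tame : Tame dL
  ch : dL * f = f * X.d
  iso : f * X.S * f.ad = 0

namespace SurgD

variable {X : Sym C} (s : SurgD X)

theorem ch' : s.f.ad * s.dL.ad = X.d.ad * s.f.ad := by simpa using (ad_eq s.ch)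

theorem iso' : s.f * (X.S * s.f.ad) = 0 := by simpa using s.iso

theorem dd' : s.dL.ad * s.dL.ad = 0 := by simpa using ad_eq s.dd

/-- The result of surgery. -/
def surg : Sym C where
  E := sum (sum s.L X.E) s.L
  d := blk (blk (-s.dL) s.f 0 X.d) (col 0 (-(X.S * s.f.ad))) 0 s.dL.ad
  S := blk (blk 0 0 0 X.S) (col 1 0) (row 1 0) 0
  dd := by simp [s.dd, s.dd', X.dd, s.ch, s.ch', s.iso', reas X.dS]
  herm := by simp [X.herm]
  rel := by simp [X.dS, X.herm, lag_rc0, lag_r0c, lag_cr0, lag_c0r]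
  tame := tame_blk _ (tame_blk _ (tame_neg s.tame) X.tame) (tame_ad s.tame)

/-- The trace of the surgery. -/
noncomputable def surgV : Sym C where
  E := sum s.L X.E
  d := (-I) • blk (-s.dL) s.f 0 X.d
  S := (-I) • blk 0 ((1 / 2 : ℂ) • (s.f * X.S)) ((-1 / 2 : ℂ) • (X.S * s.f.ad)) 0
  dd := by simp [s.dd, X.dd, s.ch]
  herm := by simp [X.herm, neg_div, map_ofNat]
  rel := by
    simp [reas s.ch, s.ch', s.iso', X.dS, reas X.dS, smul_smul, neg_div]
    constructor <;> module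
  tame := tame_smul _ (tame_blk _ (tame_neg s.tame) X.tame)

end SurgD

section Alg2

variable {D : Type 1} [Dag D] {E L : D}

/-- Reordering of the boundary of the trace. -/
def sgP (L E : D) : Hom (sum (sum L E) (sum E L)) (sum (sum L E) (sum L E)) :=
  blk (blk 1 0 0 1) 0 0 (blk 0 1 1 0)

/-- The duality in the middle. -/
def sgM (L : D) (J : Hom E E) : Hom (sum (sum L E) (sum E L)) (sum (sum L E) (sum E L)) :=
  blk (blk 1 0 0 1) 0 0 (blk J 0 0 1)

/-- Change of coordinates on the target. -/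
noncomputable def sgQ (L E : D) : Hom (sum (sum (sum L E) L) E) (sum (sum L E) (sum E L)) :=
  blk (blk (col 1 0) (col 0 1) 0 0) (blk (col 0 ((1 / 2 : ℂ) • 1)) 0 0 1) (row 0 1)
    (row ((-1 / 2 : ℂ) • 1) 0)

/-- The inverse change of coordinates. -/
noncomputable def sgQ' (L E : D) : Hom (sum (sum L E) (sum E L)) (sum (sum (sum L E) L) E) :=
  blk (blk (row 1 0) 0 (row 0 ((1 / 2 : ℂ) • 1)) 0) (col 0 ((1 / 2 : ℂ) • 1))
    (blk (row 0 1) 0 0 1) (col (-1) 0)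

theorem sgQ_1 : sgQ L E * sgQ' L E = 1 := by
  simp [sgQ, sgQ', lag_rc0, lag_r0c, lag_cr0, lag_c0r, smul_smul]
  repeat' constructor
  all_goals module

theorem sgQ_2 : sgQ' L E * sgQ L E = 1 := by
  simp [sgQ, sgQ', lag_rc0, lag_r0c, lag_cr0, lag_c0r, smul_smul]
  repeat' constructor
  all_goals module

theorem sg_hq {dL : Hom L L} {d J : Hom E E} {f : Hom L E} (hL : dL * dL = 0) (hd : d * d = 0)
    (hJ : J.ad = J) (hr : d * J = -(J * d.ad)) (hf : dL * f = f * d) (hi : f * (J * f.ad) = 0)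
    (h : Hq d (-d.ad) J) :
    Hq (blk (blk (blk (-dL) f 0 d) (col 0 (-(J * f.ad))) 0 dL.ad) 0 0 d)
      (I • blk ((-I) • blk (-dL) f 0 d)
        ((-I) • blk 0 ((1 / 2 : ℂ) • (f * J)) ((-1 / 2 : ℂ) • (J * f.ad)) 0) 0
        ((-I) • blk (-dL) f 0 d).ad) (sgQ L E * (sgM L J * sgP L E)) := by
  have hf' : f.ad * dL.ad = d.ad * f.ad := by simpa using ad_eq hf
  have hL' : dL.ad * dL.ad = 0 := by simpa using ad_eq hL
  have hd' : d.ad * d.ad = 0 := by simpa using ad_eq hd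
  have h1 : Hq (blk d (-(J * f.ad)) 0 dL.ad) (blk (-d.ad) (-f.ad) 0 dL.ad) (blk J 0 0 1) := by
    refine Hq.blk_tri ?_ ?_ ?_ h Hq.one
    · simp [hf', hL', hd']
    · simp [hf', hL', hd, reas hr]
    · simp [hr]
  have h2 : Hq (blk (blk (-dL) f 0 d) (blk ((1 / 2 : ℂ) • f) 0 0 ((-1 / 2 : ℂ) • (J * f.ad))) 0
        (blk d (-(J * f.ad)) 0 dL.ad))
      (blk (blk (-dL) f 0 d) (blk ((1 / 2 : ℂ) • (f * J)) 0 0 ((-1 / 2 : ℂ) • (J * f.ad))) 0
        (blk (-d.ad) (-f.ad) 0 dL.ad)) (sgM L J) := by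
    refine Hq.blk_tri ?_ ?_ ?_ (by rw [← one_eq_blk]; exact Hq.one) h1
    · simp [hf', hL', hd', hL, hd, hf, reas hf, hr, reas hr, hi]
    · simp [hf', hL', hd', hL, hd, hf, reas hf, hr, reas hr, hi]
    · simp [hf', hL', hd', hL, hd, hf, reas hf, hr, reas hr, hi]
  refine Hq.mul (Hq.of_iso sgQ_1 sgQ_2 ?_) (h2.mul (Hq.of_iso (v := (sgP L E).ad) ?_ ?_ ?_))
  · simp [sgQ, lag_rc0, lag_r0c, lag_cr0, lag_c0r]
    module
  · simp [sgP]
  · simp [sgP]
  · simp [sgP, smul_smul, ← mul_assoc, neg_div]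

theorem sg_iso {J : Hom E E} (hJ : J.ad = J) :
    sgQ L E * (sgM L J * sgP L E) *
      (blk 0 1 1 0 : Hom (sum (sum L E) (sum L E)) (sum (sum L E) (sum L E))) *
      (sgQ L E * (sgM L J * sgP L E)).ad =
      blk (blk (blk 0 0 0 J) (col 1 0) (row 1 0) 0) 0 0 (-J) := by
  rw [one_eq_blk]
  simp [sgQ, sgM, sgP, hJ, lag_rc0, lag_r0c, lag_cr0, lag_c0r, map_ofNat]
  refine ⟨?_, ?_, ?_, ?_⟩ <;> module

end Alg2

namespace SurgD

variable {X : Sym C} (s : SurgD X)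

theorem surg_rel (h : X.Poinc) : Rel (s.surg.add X.neg) s.surgV.bd :=
  ⟨sgQ s.L X.E * (sgM s.L X.S * sgP s.L X.E), sg_hq s.dd X.dd X.herm X.dS s.ch s.iso' h,
    Htp.of_eq (sg_iso X.herm)⟩

end SurgD

theorem exc_ctr {D : Type 1} [Dag D] {E E' Q : D} {d S : Hom E E} {d' S' : Hom E' E'}
    {u : Hom E' E} {q : Hom Q E'} (hu : u * u.ad = 1) (hu' : u.ad * u = 1) (hq : q * q.ad = 1)
    (hq' : q.ad * q = 1) (hd : d * d = 0) (hr : d * S = -(S * d.ad)) (h : Hq d (-d.ad) S)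
    (hd' : d' = u * d * u.ad) (hS' : S' = u * S * u.ad) :
    Ctr (blk (blk (-(q * d' * q.ad)) (row q (q * u)) 0 (blk d' 0 0 d))
      (col 0 (-(blk S' 0 0 (-S) * (row q (q * u)).ad))) 0 (q * d' * q.ad).ad) := by
  subst hd' hS'
  have hd2 : d.ad * d.ad = 0 := by simpa using ad_eq hd
  have h1 : Ctr (blk (-(q * (u * d * u.ad) * q.ad)) q 0 (u * d * u.ad)) := by
    have := (hq_iff_ctr_cone (d := -(u * d * u.ad)) (d' := -(q * (u * d * u.ad) * q.ad)) (f := q)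
      (by simp [reas hu', reas hd]) (by simp [reas hu', reas hq', reas hd])
      (by simp [hq'])).1 (Hq.of_iso hq hq' (by simp [hq']))
    rwa [neg_neg] at this
  have h2 : Ctr (blk d (S * (u.ad * q.ad)) 0 (q * (u * d * u.ad) * q.ad).ad) := by
    have h3 : Hq (-d.ad) (-(q * (u * d * u.ad) * q.ad).ad) (u.ad * q.ad) :=
      Hq.of_iso (v := q * u) (by simp [reas hq', hu']) (by simp [reas hu, hq])
        (by simp [reas hq', reas hu'])
    have h4 := h.mul h3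
    have := (hq_iff_ctr_cone (by simp [reas hu', reas hq', reas hd2]) hd h4.1).1 h4
    rwa [neg_neg] at this
  refine Hq.ctr_right (Hq.of_iso
    (u := (blk (blk 1 0 0 (row 1 u)) 0 (blk 0 (row 0 1) 0 0) (col 0 1) :
      Hom (sum (sum Q E') (sum E Q)) (sum (sum Q (sum E' E)) Q)))
    (v := (blk (blk 1 0 0 (col 1 0)) (blk 0 0 (col (-u) 1) 0) 0 (row 0 1) :
      Hom (sum (sum Q (sum E' E)) Q) (sum (sum Q E') (sum E Q)))) ?_ ?_ ?_)
    (ctr_blk (s := 0) (by simp) h1 h2)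
  · simp [lag_rc0, lag_r0c, lag_cr0, lag_c0r]
  · simp [lag_rc0, lag_r0c, lag_cr0, lag_c0r]
  · simp [lag_rc0, lag_r0c, lag_cr0, lag_c0r, hu']

/-- Excision. -/
theorem Inv.excision {ψ : Sym C → G} (hψ : Inv Z ψ) {Z' : Set Pt} (hZ : Z' ⊆ Z)
    (h0 : ∀ Y : Sym C, Y.PZ Z' → ψ Y = 0) (X X' : Sym C) (u : Hom X'.E X.E)
    (hu : u * u.ad = 1) (hu' : u.ad * u = 1) (hX : X.Phys Z) (hP : X.Poinc) (hP' : X'.Poinc)
    (hd : supp (X'.d - u * X.d * u.ad) ⊆ Z') (hS : supp (X'.S - u * X.S * u.ad) ⊆ Z') :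
    ψ X' = ψ X := by
  obtain ⟨B, Q, iB, iQ, hs, hz, hsub, hB, -, hT⟩ :=
    CDag.cut X'.tame (row (X'.d - u * X.d * u.ad) (X'.S - u * X.S * u.ad))
  rw [m_row, row_eq_zero, m_sub, m_sub, sub_eq_zero, sub_eq_zero] at hz
  obtain ⟨hz1, hz2⟩ := hz
  have hB' : supp (1 : Hom B B) ⊆ Z' :=
    hB.trans ((supp_row _ _).trans (Set.union_subset hd hS))
  have hch : iQ.ad * X'.d * iQ * iQ.ad = iQ.ad * X'.d := by
    have h1 := congrArg (fun x => iQ.ad * X'.d * x) hs.tot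
    simp only [m_add, m_one, ← massoc, hsub, zero_m, zero_add] at h1
    exact h1
  have hX' : X'.Phys Z := by
    have : supp (u * u.ad) ⊆ Z :=
      (supp_mul _ _).trans (Set.inter_subset_left.trans ((supp_le_right u).trans hX))
    rw [hu] at this
    exact this
  have hQ : supp (1 : Hom Q Q) ⊆ Z := by
    have : supp (iQ.ad * iQ) ⊆ Z :=
      (supp_mul _ _).trans (Set.inter_subset_right.trans ((supp_le_left iQ).trans hX'))
    rw [hs.qq] at this
    exact this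
  let s : SurgD (X'.add X.neg) :=
    { L := Q
      dL := iQ.ad * X'.d * iQ
      f := (row iQ.ad (iQ.ad * u) : Hom Q (sum X'.E X.E))
      dd := by
        rw [massoc iQ.ad X'.d iQ, ← massoc _ iQ.ad, ← massoc iQ.ad X'.d iQ, hch]
        simp [reas X'.dd]
      tame := hT
      ch := by
        show iQ.ad * X'.d * iQ * (row iQ.ad (iQ.ad * u) : Hom Q (sum X'.E X.E)) =
          (row iQ.ad (iQ.ad * u) : Hom Q (sum X'.E X.E)) * blk X'.d 0 0 X.d
        rw [m_row, ← massoc _ iQ.ad u, hch, row_blk, m_zero, m_zero, add_zero, zero_add, row_inj]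
        refine ⟨rfl, ?_⟩
        rw [hz1]
        simp [hu']
      iso := by
        show (row iQ.ad (iQ.ad * u) : Hom Q (sum X'.E X.E)) * blk X'.S 0 0 (-X.S) *
          (row iQ.ad (iQ.ad * u) : Hom Q (sum X'.E X.E)).ad = 0
        simp [reas hz2] }
  have hpX : X.PZ Z := ⟨hP, hX.ctrZ⟩
  have hpX' : X'.PZ Z := ⟨hP', hX'.ctrZ⟩
  have hW : (X'.add X.neg).PZ Z := hpX'.add hpX.neg
  have hVp : s.surgV.Phys Z :=
    (supp_one_sum _ _).trans (Set.union_subset hQ (Phys.add hX' hX.neg))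
  have hrel := s.surg_rel hW.1
  have hsp : s.surg.PZ Z' := by
    refine ⟨Poinc.of_add (hrel.poinc (bd_poinc _)), ?_⟩
    have hq' : (qt Z' iQ.ad).ad * qt Z' iQ.ad = 1 := by
      have h1 : qt Z' (iQ * iQ.ad) = qt Z' 1 := by
        rw [qt_eq_iff, ← hs.tot, sub_add_cancel_right]
        have : supp (-(iB * iB.ad)) ⊆ supp (iB * iB.ad) := by
          simpa using supp_smul (-1 : ℂ) (iB * iB.ad)
        exact this.trans ((supp_mul _ _).trans
          (Set.inter_subset_left.trans ((supp_le_right iB).trans hB')))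
      rw [← ad_ad iQ] at h1
      rw [ad_ad iQ.ad] at h1
      exact h1
    have hq : qt Z' iQ.ad * (qt Z' iQ.ad).ad = 1 := by
      have h1 : qt Z' (iQ.ad * iQ.ad.ad) = qt Z' 1 := by rw [ad_ad, hs.qq]
      exact h1
    have := exc_ctr (d := qt Z' X.d) (S := qt Z' X.S) (d' := qt Z' X'.d) (S' := qt Z' X'.S)
      (u := qt Z' u) (q := qt Z' iQ.ad) (congrArg (qt Z') hu) (congrArg (qt Z') hu') hq hq'
      (lag_qt_sq X.dd) (congrArg (qt Z') X.dS) (Hq.map (qF C Z') hP) (qt_eq_iff.2 hd)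
      (qt_eq_iff.2 hS)
    have e : (qt Z' iQ.ad).ad = qt Z' iQ := congrArg (qt Z') (ad_ad iQ)
    rw [e] at this
    exact this
  have h1 := hψ.rel' hVp.ctrZ.bd_pz hrel
  rw [hψ.bd _ hVp.ctrZ, hψ.add _ _ (hsp.mono hZ) hW.neg, h0 _ hsp, hψ.neg hW, zero_add,
    neg_eq_zero, hψ.add _ _ hpX' hpX.neg, hψ.neg hpX] at h1
  exact add_neg_eq_zero.1 h1

end Vale.Agent.P228
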