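import Mathlib

/-! Cubical chains as iterated mapping cones. Raw matrices.

`cel j P` is the set of cells spanned by directions `< j` with base point in `P`;
`Sum.inr c` is the product of `c` with an edge in direction `j`.

Plans: everything is by induction on `j`, after `show` or `change` to the `fromBlocks` form
(`cel (j+1) P` is by definition `cel j P ⊕ cel j P`; `Matrix.fromBlocks_multiply`,
`fromBlocks_conjTranspose`, `fromBlocks_add`, `fromBlocks_smul`, `one_succ`, `fromBlocks_mulVec`,
`vecMul_fromBlocks`). For `rS_rel` compare the proof of `Sym.susp` in `Sym.lean`; prove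
`lift_rd`, `lift_rd_ad`, `lift_rS` first. `lift` is a unital linear `*`-functor. -/

namespace Vale.Agent.P228

open Matrix Complex

/-- Cells. -/
def cel : ℕ → Type → Type
  | 0, P => P
  | j + 1, P => cel j P ⊕ cel j P

instance celFin {P : Type} [Fintype P] : ∀ j, Fintype (cel j P)
  | 0 => inferInstanceAs (Fintype P)
  | j + 1 => letI := celFin (P := P) j; inferInstanceAs (Fintype (cel j P ⊕ cel j P))

instance celDec {P : Type} [DecidableEq P] : ∀ j, DecidableEq (cel j P)
  | 0 => inferInstanceAs (DecidableEq P)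
  | j + 1 => letI := celDec (P := P) j; inferInstanceAs (DecidableEq (cel j P ⊕ cel j P))

variable {P P' P'' : Type}

/-- The base point of a cell. -/
def cpt : ∀ {j}, cel j P → P
  | 0, x => x
  | _ + 1, Sum.inl c => cpt c
  | _ + 1, Sum.inr c => cpt c

/-- The dimension of a cell. -/
def cdeg : ∀ {j}, cel j P → ℕ
  | 0, _ => 0
  | _ + 1, Sum.inl c => cdeg c
  | _ + 1, Sum.inr c => cdeg c + 1

/-- The directions of a cell. -/
def cdir : ∀ {j}, cel j P → ℕ → Prop
  | 0, _, _ => False
  | _ + 1, Sum.inl c, t => cdir c t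
  | j + 1, Sum.inr c, t => t = j ∨ cdir c t

/-- The vertex with base point `x`. -/
def vtx : ∀ j, P → cel j P
  | 0, x => x
  | j + 1, x => Sum.inl (vtx j x)

/-- The top cell with base point `x`. -/
def top : ∀ j, P → cel j P
  | 0, x => x
  | j + 1, x => Sum.inr (top j x)

/-- The augmentation. -/
def eps : ∀ j, cel j P → ℂ
  | 0, _ => 1
  | j + 1, Sum.inl c => eps j c
  | _ + 1, Sum.inr _ => 0

/-- The sum of the top cells. -/
def topv : ∀ j, cel j P → ℂ
  | 0, _ => 1
  | _ + 1, Sum.inl _ => 0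
  | j + 1, Sum.inr c => topv j c

/-- A matrix on base points acts on cells, keeping the directions. -/
def lift (M : Matrix P P' ℂ) : ∀ j, Matrix (cel j P) (cel j P') ℂ
  | 0 => M
  | j + 1 => fromBlocks (lift M j) 0 0 (lift M j)

theorem cpt_vtx (j : ℕ) (x : P) : cpt (vtx j x) = x := by
  induction j with
  | zero => rfl
  | succ j ih => exact ih

theorem cpt_top (j : ℕ) (x : P) : cpt (top j x) = x := by
  induction j with
  | zero => rfl
  | succ j ih => exact ih

theorem cdeg_vtx (j : ℕ) (x : P) : cdeg (vtx j x) = 0 := by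
  induction j with
  | zero => rfl
  | succ j ih => exact ih

theorem cdeg_top (j : ℕ) (x : P) : cdeg (top j x) = j := by
  induction j with
  | zero => rfl
  | succ j ih => exact congrArg (· + 1) ih

theorem cdir_vtx (j : ℕ) (x : P) (t : ℕ) : ¬ cdir (vtx j x) t := by
  induction j with
  | zero => exact fun h => h
  | succ j ih => exact ih

theorem cdir_lt {j : ℕ} {c : cel j P} {t : ℕ} (h : cdir c t) : t < j := by
  induction j with
  | zero => exact False.elim h
  | succ j ih =>
    rcases c with c | c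
    · exact Nat.lt_succ_of_lt (ih (c := c) h)
    · rcases (h : t = j ∨ cdir c t) with h | h
      · omega
      · exact Nat.lt_succ_of_lt (ih h)

theorem cdeg_le {j : ℕ} (c : cel j P) : cdeg c ≤ j := by
  induction j with
  | zero => exact le_rfl
  | succ j ih =>
    rcases c with c | c
    · exact Nat.le_succ_of_le (ih c)
    · exact Nat.succ_le_succ (ih c)

theorem eq_vtx {j : ℕ} {c : cel j P} (h : cdeg c = 0) : c = vtx j (cpt c) := by
  induction j with
  | zero => rfl
  | succ j ih =>
    rcases c with c | c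
    · exact congrArg Sum.inl (ih (c := c) h)
    · exact absurd (h : cdeg c + 1 = 0) (Nat.succ_ne_zero _)

theorem eq_top {j : ℕ} {c : cel j P} (h : cdeg c = j) : c = top j (cpt c) := by
  induction j with
  | zero => rfl
  | succ j ih =>
    rcases c with c | c
    · have h1 : cdeg c = j + 1 := h
      have h2 := cdeg_le c
      omega
    · have h1 : cdeg c + 1 = j + 1 := h
      exact congrArg Sum.inr (ih (c := c) (by omega))

theorem eps_eq {j : ℕ} (c : cel j P) : eps j c = if cdeg c = 0 then 1 else 0 := by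
  induction j with
  | zero => exact (if_pos rfl).symm
  | succ j ih =>
    rcases c with c | c
    · exact ih c
    · exact (if_neg (Nat.succ_ne_zero _)).symm

theorem topv_eq {j : ℕ} (c : cel j P) : topv j c = if cdeg c = j then 1 else 0 := by
  induction j with
  | zero => exact (if_pos rfl).symm
  | succ j ih =>
    rcases c with c | c
    · have h2 := cdeg_le c
      have h3 : ¬ cdeg c = j + 1 := by omega
      exact (if_neg h3).symm
    · show topv j c = if cdeg c + 1 = j + 1 then 1 else 0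
      rw [ih c]
      simp only [Nat.add_right_cancel_iff]

theorem lift_ne_zero {M : Matrix P P' ℂ} {j : ℕ} {a : cel j P} {b : cel j P'}
    (h : lift M j a b ≠ 0) :
    M (cpt a) (cpt b) ≠ 0 ∧ cdeg a = cdeg b ∧ ∀ t, cdir a t ↔ cdir b t := by
  induction j with
  | zero => exact ⟨h, rfl, fun _ => Iff.rfl⟩
  | succ j ih =>
    rcases a with a | a <;> rcases b with b | b
    · exact ih (a := a) (b := b) h
    · exact absurd rfl h
    · exact absurd rfl h
    · obtain ⟨h1, h2, h3⟩ := ih (a := a) (b := b) h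
      exact ⟨h1, congrArg (· + 1) h2, fun t => or_congr Iff.rfl (h3 t)⟩

theorem lift_entry (M M' : Matrix P P' ℂ) {j : ℕ} (a : cel j P) (b : cel j P')
    (h : M (cpt a) (cpt b) = M' (cpt a) (cpt b)) : lift M j a b = lift M' j a b := by
  induction j with
  | zero => exact h
  | succ j ih =>
    rcases a with a | a <;> rcases b with b | b
    · exact ih a b h
    · rfl
    · rfl
    · exact ih a b h

theorem lift_succ (M : Matrix P P' ℂ) (j : ℕ) :
    lift M (j + 1) = fromBlocks (lift M j) 0 0 (lift M j) := rfl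

theorem lift_zero (j : ℕ) : lift (0 : Matrix P P' ℂ) j = 0 := by
  induction j with
  | zero => rfl
  | succ j ih =>
    rw [lift_succ, ih]
    exact fromBlocks_zero

theorem lift_add (M M' : Matrix P P' ℂ) (j : ℕ) : lift (M + M') j = lift M j + lift M' j := by
  induction j with
  | zero => rfl
  | succ j ih =>
    have := fromBlocks_add (lift M j) 0 0 (lift M j) (lift M' j) 0 0 (lift M' j)
    rw [add_zero] at this
    rw [lift_succ, ih]
    exact this.symm

theorem lift_ad (M : Matrix P P' ℂ) (j : ℕ) : lift Mᴴ j = (lift M j)ᴴ := by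
  induction j with
  | zero => rfl
  | succ j ih =>
    have := fromBlocks_conjTranspose (lift M j) 0 0 (lift M j)
    rw [conjTranspose_zero] at this
    rw [lift_succ, ih]
    exact this.symm

theorem lift_mul [Fintype P'] (M : Matrix P P' ℂ) (M' : Matrix P' P'' ℂ) (j : ℕ) :
    lift (M * M') j = lift M j * lift M' j := by
  induction j with
  | zero => rfl
  | succ j ih =>
    have := fromBlocks_multiply (lift M j) 0 0 (lift M j) (lift M' j) 0 0 (lift M' j)
    simp only [Matrix.mul_zero, Matrix.zero_mul, add_zero, zero_add] at this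
    rw [lift_succ, ih]
    exact this.symm

theorem eps_succ (j : ℕ) :
    (eps (j + 1) : cel (j + 1) P → ℂ) = Sum.elim (eps j) (0 : cel j P → ℂ) := by
  funext c
  rcases c with c | c <;> rfl

theorem topv_succ (j : ℕ) :
    (topv (j + 1) : cel (j + 1) P → ℂ) = Sum.elim (0 : cel j P → ℂ) (topv j) := by
  funext c
  rcases c with c | c <;> rfl

theorem eps_lift [Fintype P] {M : Matrix P P' ℂ} (h : (fun _ => (1 : ℂ)) ᵥ* M = fun _ => 1)
    (j : ℕ) : eps j ᵥ* lift M j = eps j := by
  induction j with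
  | zero => exact h
  | succ j ih =>
    have := vecMul_fromBlocks (lift M j) 0 0 (lift M j) (Sum.elim (eps j) 0)
    simp only [Sum.elim_comp_inl, Sum.elim_comp_inr, vecMul_zero, zero_vecMul, add_zero,
      ih] at this
    rw [eps_succ, eps_succ]
    exact this

theorem topv_lift [Fintype P] {M : Matrix P P' ℂ} (h : (fun _ => (1 : ℂ)) ᵥ* M = fun _ => 1)
    (j : ℕ) : topv j ᵥ* lift M j = topv j := by
  induction j with
  | zero => exact h
  | succ j ih =>
    have := vecMul_fromBlocks (lift M j) 0 0 (lift M j) (Sum.elim 0 (topv j))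
    simp only [Sum.elim_comp_inl, Sum.elim_comp_inr, vecMul_zero, zero_vecMul, add_zero,
      zero_add, ih] at this
    rw [topv_succ, topv_succ]
    exact this

theorem lift_topv [Fintype P'] {M : Matrix P P' ℂ} (h : M *ᵥ (fun _ => (1 : ℂ)) = fun _ => 1)
    (j : ℕ) : lift M j *ᵥ topv j = topv j := by
  induction j with
  | zero => exact h
  | succ j ih =>
    have := fromBlocks_mulVec (lift M j) 0 0 (lift M j) (Sum.elim 0 (topv j))
    simp only [Sum.elim_comp_inl, Sum.elim_comp_inr, mulVec_zero, zero_mulVec, add_zero,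
      zero_add, ih] at this
    rw [topv_succ, topv_succ]
    exact this

variable [DecidableEq P] [DecidableEq P']

theorem one_succ (j : ℕ) :
    (1 : Matrix (cel (j + 1) P) (cel (j + 1) P) ℂ) = fromBlocks 1 0 0 1 :=
  (fromBlocks_one (l := cel j P) (m := cel j P) (α := ℂ)).symm

theorem lift_one (j : ℕ) : lift (1 : Matrix P P ℂ) j = 1 := by
  induction j with
  | zero => rfl
  | succ j ih => rw [lift_succ, ih, one_succ]

/-- The differential. -/
noncomputable def rd (s : ℕ → Matrix P P ℂ) : ∀ j, Matrix (cel j P) (cel j P) ℂ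
  | 0 => 0
  | j + 1 => I • fromBlocks (rd s j) (lift (s j) j - 1) 0 (-rd s j)

theorem rd_succ (s : ℕ → Matrix P P ℂ) (j : ℕ) : rd s (j + 1) =
    fromBlocks (I • rd s j) (I • (lift (s j) j - 1)) 0 (-(I • rd s j)) := by
  have := fromBlocks_smul I (rd s j) (lift (s j) j - 1) 0 (-rd s j)
  rw [smul_zero, smul_neg] at this
  exact this

theorem rd_succ_ad (s : ℕ → Matrix P P ℂ) (j : ℕ) : (rd s (j + 1))ᴴ =
    fromBlocks (-(I • (rd s j)ᴴ)) 0 (-(I • ((lift (s j) j)ᴴ - 1))) (I • (rd s j)ᴴ) := by
  have := fromBlocks_conjTranspose (I • rd s j) (I • (lift (s j) j - 1)) 0 (-(I • rd s j))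
  simp only [conjTranspose_smul, conjTranspose_neg, conjTranspose_zero, conjTranspose_sub,
    conjTranspose_one, star_def, conj_I, neg_smul, neg_neg] at this
  rw [rd_succ]
  exact this

variable [Fintype P] [Fintype P']

/-- The duality map. -/
noncomputable def rS (s : ℕ → Matrix P P ℂ) : ∀ j, Matrix (cel j P) (cel j P) ℂ
  | 0 => 1
  | j + 1 => fromBlocks 0 ((I / 2) • (rS s j * (1 + lift (s j) j)))
      ((-I / 2) • (rS s j * (1 + (lift (s j) j)ᴴ))) 0

theorem rS_succ (s : ℕ → Matrix P P ℂ) (j : ℕ) : rS s (j + 1) =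
    fromBlocks 0 ((I / 2) • (rS s j * (1 + lift (s j) j)))
      ((-I / 2) • (rS s j * (1 + (lift (s j) j)ᴴ))) 0 := rfl

variable {s : ℕ → Matrix P P ℂ} {s' : ℕ → Matrix P' P' ℂ} {j : ℕ}

theorem rd_deg {a b : cel j P} (h : rd s j a b ≠ 0) : cdeg a + 1 = cdeg b := by
  induction j with
  | zero => exact absurd rfl h
  | succ j ih =>
    rw [rd_succ] at h
    rcases a with a | a <;> rcases b with b | b
    · have h1 : I * rd s j a b ≠ 0 := h
      exact ih (right_ne_zero_of_mul h1)
    · have h1 : I * (lift (s j) j a b - (1 : Matrix (cel j P) (cel j P) ℂ) a b) ≠ 0 := h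
      have h2 := right_ne_zero_of_mul h1
      show cdeg a + 1 = cdeg b + 1
      by_cases hab : a = b
      · rw [hab]
      · rw [one_apply_ne hab, sub_zero] at h2
        rw [(lift_ne_zero h2).2.1]
    · exact absurd rfl h
    · have h1 : -(I * rd s j a b) ≠ 0 := h
      exact congrArg (· + 1) (ih (right_ne_zero_of_mul (neg_ne_zero.mp h1)))

omit [DecidableEq P] [DecidableEq P'] in
theorem lift_comm {M : Matrix P P' ℂ} {A : Matrix P P ℂ} {B : Matrix P' P' ℂ}
    (h : M * B = A * M) (j : ℕ) : lift M j * lift B j = lift A j * lift M j := by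
  rw [← lift_mul, ← lift_mul, h]

omit [DecidableEq P] [DecidableEq P'] in
theorem lift_comm_ad {M : Matrix P P' ℂ} {A : Matrix P P ℂ} {B : Matrix P' P' ℂ}
    (h : M * Bᴴ = Aᴴ * M) (j : ℕ) : lift M j * (lift B j)ᴴ = (lift A j)ᴴ * lift M j := by
  rw [← lift_ad, ← lift_ad, ← lift_mul, ← lift_mul, h]

theorem lift_rd {M : Matrix P P' ℂ} (h : ∀ t < j, M * s' t = s t * M) :
    lift M j * rd s' j = rd s j * lift M j := by
  induction j with
  | zero => exact (Matrix.mul_zero _).trans (Matrix.zero_mul _).symm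
  | succ j ih =>
    have ih' := ih fun t ht => h t (Nat.lt_succ_of_lt ht)
    have hc := lift_comm (h j (Nat.lt_succ_self j)) j
    have e1 := fromBlocks_multiply (lift M j) 0 0 (lift M j)
      (I • rd s' j) (I • (lift (s' j) j - 1)) 0 (-(I • rd s' j))
    have e2 := fromBlocks_multiply (I • rd s j) (I • (lift (s j) j - 1)) 0 (-(I • rd s j))
      (lift M j) 0 0 (lift M j)
    simp only [Matrix.mul_zero, Matrix.zero_mul, add_zero, zero_add, Matrix.mul_smul,
      Matrix.smul_mul, Matrix.mul_neg, Matrix.neg_mul, Matrix.mul_sub, Matrix.sub_mul,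
      Matrix.mul_one, Matrix.one_mul, ih', hc, smul_zero, neg_zero, sub_self] at e1 e2
    rw [rd_succ, rd_succ, lift_succ]
    exact e1.trans e2.symm

theorem lift_rd_ad {M : Matrix P P' ℂ} (h : ∀ t < j, M * (s' t)ᴴ = (s t)ᴴ * M) :
    lift M j * (rd s' j)ᴴ = (rd s j)ᴴ * lift M j := by
  have h1 : ∀ t < j, Mᴴ * s t = s' t * Mᴴ := fun t ht => by
    have := congrArg conjTranspose (h t ht)
    simp only [conjTranspose_mul, conjTranspose_conjTranspose] at this
    exact this.symm
  have := congrArg conjTranspose (lift_rd h1)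
  simp only [conjTranspose_mul, lift_ad, conjTranspose_conjTranspose] at this
  exact this.symm

theorem lift_rS {M : Matrix P P' ℂ} (h : ∀ t < j, M * s' t = s t * M)
    (h' : ∀ t < j, M * (s' t)ᴴ = (s t)ᴴ * M) : lift M j * rS s' j = rS s j * lift M j := by
  induction j with
  | zero => exact (Matrix.mul_one _).trans (Matrix.one_mul _).symm
  | succ j ih =>
    have ih' := ih (fun t ht => h t (Nat.lt_succ_of_lt ht))
      fun t ht => h' t (Nat.lt_succ_of_lt ht)
    have hc := lift_comm (h j (Nat.lt_succ_self j)) j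
    have hc' := lift_comm_ad (h' j (Nat.lt_succ_self j)) j
    have k1 : lift M j * (rS s' j * (1 + lift (s' j) j)) =
        rS s j * (1 + lift (s j) j) * lift M j := by
      rw [← Matrix.mul_assoc, ih', Matrix.mul_assoc, Matrix.mul_assoc, Matrix.mul_add,
        Matrix.add_mul, Matrix.mul_one, Matrix.one_mul, hc]
    have k2 : lift M j * (rS s' j * (1 + (lift (s' j) j)ᴴ)) =
        rS s j * (1 + (lift (s j) j)ᴴ) * lift M j := by
      rw [← Matrix.mul_assoc, ih', Matrix.mul_assoc, Matrix.mul_assoc, Matrix.mul_add,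
        Matrix.add_mul, Matrix.mul_one, Matrix.one_mul, hc']
    have e1 := fromBlocks_multiply (lift M j) 0 0 (lift M j)
      0 ((I / 2) • (rS s' j * (1 + lift (s' j) j)))
      ((-I / 2) • (rS s' j * (1 + (lift (s' j) j)ᴴ))) 0
    have e2 := fromBlocks_multiply 0 ((I / 2) • (rS s j * (1 + lift (s j) j)))
      ((-I / 2) • (rS s j * (1 + (lift (s j) j)ᴴ))) 0 (lift M j) 0 0 (lift M j)
    simp only [Matrix.mul_zero, Matrix.zero_mul, add_zero, zero_add, Matrix.mul_smul,
      Matrix.smul_mul, k1, k2, smul_zero] at e1 e2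
    rw [rS_succ, rS_succ, lift_succ]
    exact e1.trans e2.symm

/-- A commuting family of unitary shifts that preserve the augmentation. -/
structure Shf (s : ℕ → Matrix P P ℂ) (j : ℕ) : Prop where
  co : ∀ t < j, s t * (s t)ᴴ = 1
  comm : ∀ t < j, ∀ u < j, s t * s u = s u * s t
  aug : ∀ t < j, (fun _ => (1 : ℂ)) ᵥ* s t = fun _ => 1

theorem Shf.mono {j' : ℕ} (h : Shf s j) (hj : j' ≤ j) : Shf s j' :=
  ⟨fun t ht => h.co t (lt_of_lt_of_le ht hj),
    fun t ht u hu => h.comm t (lt_of_lt_of_le ht hj) u (lt_of_lt_of_le hu hj),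
    fun t ht => h.aug t (lt_of_lt_of_le ht hj)⟩

theorem Shf.iso (h : Shf s j) : ∀ t < j, (s t)ᴴ * s t = 1 :=
  fun t ht => mul_eq_one_comm.mp (h.co t ht)

theorem Shf.comm' (h : Shf s j) : ∀ t < j, ∀ u < j, s t * (s u)ᴴ = (s u)ᴴ * s t := by
  intro t ht u hu
  calc s t * (s u)ᴴ = ((s u)ᴴ * s u) * s t * (s u)ᴴ := by rw [h.iso u hu, Matrix.one_mul]
    _ = (s u)ᴴ * (s u * s t) * (s u)ᴴ := by simp only [Matrix.mul_assoc]
    _ = (s u)ᴴ * s t * (s u * (s u)ᴴ) := by
      rw [← h.comm t ht u hu]; simp only [Matrix.mul_assoc]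
    _ = (s u)ᴴ * s t := by rw [h.co u hu, Matrix.mul_one]

theorem Shf.lift_rd_self (h : Shf s (j + 1)) :
    lift (s j) j * rd s j = rd s j * lift (s j) j :=
  lift_rd fun t ht => h.comm j (Nat.lt_succ_self j) t (Nat.lt_succ_of_lt ht)

theorem Shf.lift_rd_ad_self (h : Shf s (j + 1)) :
    lift (s j) j * (rd s j)ᴴ = (rd s j)ᴴ * lift (s j) j :=
  lift_rd_ad fun t ht => h.comm' j (Nat.lt_succ_self j) t (Nat.lt_succ_of_lt ht)

theorem Shf.lift_rS_self (h : Shf s (j + 1)) :
    lift (s j) j * rS s j = rS s j * lift (s j) j :=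
  lift_rS (fun t ht => h.comm j (Nat.lt_succ_self j) t (Nat.lt_succ_of_lt ht))
    fun t ht => h.comm' j (Nat.lt_succ_self j) t (Nat.lt_succ_of_lt ht)

theorem Shf.lift_co (h : Shf s (j + 1)) : lift (s j) j * (lift (s j) j)ᴴ = 1 := by
  rw [← lift_ad, ← lift_mul, h.co j (Nat.lt_succ_self j), lift_one]

theorem Shf.rd_rd (h : Shf s j) : rd s j * rd s j = 0 := by
  induction j with
  | zero => exact Matrix.zero_mul _
  | succ j ih =>
    have ih' := ih (h.mono (Nat.le_succ j))
    have hc := h.lift_rd_self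
    have e1 := fromBlocks_multiply (I • rd s j) (I • (lift (s j) j - 1)) 0 (-(I • rd s j))
      (I • rd s j) (I • (lift (s j) j - 1)) 0 (-(I • rd s j))
    simp only [Matrix.mul_zero, Matrix.zero_mul, add_zero, Matrix.mul_smul,
      Matrix.smul_mul, Matrix.mul_neg, Matrix.neg_mul, Matrix.mul_sub, Matrix.sub_mul,
      Matrix.mul_one, Matrix.one_mul, ih', hc, smul_zero, neg_zero, add_neg_cancel,
      fromBlocks_zero, smul_sub, sub_self] at e1
    rw [rd_succ, smul_sub]
    exact e1

theorem Shf.rS_herm (h : Shf s j) : (rS s j)ᴴ = rS s j := by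
  induction j with
  | zero => exact conjTranspose_one
  | succ j ih =>
    have ih' := ih (h.mono (Nat.le_succ j))
    have hc := h.lift_rS_self
    have hc' : (lift (s j) j)ᴴ * rS s j = rS s j * (lift (s j) j)ᴴ := by
      have := congrArg conjTranspose hc
      rw [conjTranspose_mul, conjTranspose_mul, ih'] at this
      exact this.symm
    have k1 : ((I / 2) • (rS s j * (1 + lift (s j) j)))ᴴ =
        (-I / 2) • (rS s j * (1 + (lift (s j) j)ᴴ)) := by
      rw [conjTranspose_smul, conjTranspose_mul, ih', conjTranspose_add, conjTranspose_one,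
        Matrix.add_mul, Matrix.mul_add, Matrix.one_mul, Matrix.mul_one, hc']
      congr 1
      simp
    have k2 : ((-I / 2) • (rS s j * (1 + (lift (s j) j)ᴴ)))ᴴ =
        (I / 2) • (rS s j * (1 + lift (s j) j)) := by
      rw [← k1, conjTranspose_conjTranspose]
    have e1 := fromBlocks_conjTranspose 0 ((I / 2) • (rS s j * (1 + lift (s j) j)))
      ((-I / 2) • (rS s j * (1 + (lift (s j) j)ᴴ))) 0
    rw [k1, k2, conjTranspose_zero] at e1
    rw [rS_succ]
    exact e1

theorem lat_rel_aux {n : Type} [Fintype n] [DecidableEq n] {d S L : Matrix n n ℂ}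
    (hr : d * S + S * dᴴ = 0) (h1 : L * dᴴ = dᴴ * L) :
    d * (S * (1 + L)) + S * (1 + L) * dᴴ = 0 := by
  have : S * (1 + L) * dᴴ = S * dᴴ * (1 + L) := by
    rw [Matrix.mul_assoc, Matrix.mul_assoc, Matrix.add_mul, Matrix.mul_add (dᴴ), Matrix.one_mul,
      Matrix.mul_one, h1]
  rw [this, ← Matrix.mul_assoc, ← Matrix.add_mul, hr, Matrix.zero_mul]

theorem lat_rel_aux2 {n : Type} [Fintype n] [DecidableEq n] {S L : Matrix n n ℂ}
    (h1 : L * S = S * L) (h2 : L * Lᴴ = 1) :
    (L - 1) * (S * (1 + Lᴴ)) + S * (1 + L) * (Lᴴ - 1) = 0 := by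
  have e : (L - 1) * S = S * (L - 1) := by
    rw [Matrix.sub_mul, Matrix.mul_sub, Matrix.one_mul, Matrix.mul_one, h1]
  rw [← Matrix.mul_assoc, e, Matrix.mul_assoc, Matrix.mul_assoc, ← Matrix.mul_add]
  have : (L - 1) * (1 + Lᴴ) + (1 + L) * (Lᴴ - 1) = 0 := by
    simp only [Matrix.sub_mul, Matrix.mul_sub, Matrix.add_mul, Matrix.mul_add, Matrix.one_mul,
      Matrix.mul_one, h2]
    abel
  rw [this, Matrix.mul_zero]

theorem Shf.rS_rel (h : Shf s j) : rd s j * rS s j + rS s j * (rd s j)ᴴ = 0 := by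
  induction j with
  | zero =>
    show (0 : Matrix P P ℂ) * (1 : Matrix P P ℂ) + (1 : Matrix P P ℂ) * (0 : Matrix P P ℂ)ᴴ = 0
    simp
  | succ j ih =>
    have ih' := ih (h.mono (Nat.le_succ j))
    have a1 := lat_rel_aux ih' h.lift_rd_ad_self
    have hc : (lift (s j) j)ᴴ * (rd s j)ᴴ = (rd s j)ᴴ * (lift (s j) j)ᴴ := by
      rw [← conjTranspose_mul, ← conjTranspose_mul, h.lift_rd_self]
    have a2 := lat_rel_aux ih' hc
    have a3 := lat_rel_aux2 h.lift_rS_self h.lift_co
    have e1 := fromBlocks_multiply (I • rd s j) (I • (lift (s j) j - 1)) 0 (-(I • rd s j))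
      0 ((I / 2) • (rS s j * (1 + lift (s j) j)))
      ((-I / 2) • (rS s j * (1 + (lift (s j) j)ᴴ))) 0
    have e2 := fromBlocks_multiply 0 ((I / 2) • (rS s j * (1 + lift (s j) j)))
      ((-I / 2) • (rS s j * (1 + (lift (s j) j)ᴴ))) 0
      (-(I • (rd s j)ᴴ)) 0 (-(I • ((lift (s j) j)ᴴ - 1))) (I • (rd s j)ᴴ)
    simp only [Matrix.mul_zero, Matrix.zero_mul, add_zero, zero_add, Matrix.mul_smul,
      Matrix.smul_mul, Matrix.mul_neg, Matrix.neg_mul] at e1 e2
    rw [rd_succ_ad, rd_succ, rS_succ]
    refine (congrArg₂ (· + ·) e1 e2).trans ?_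
    refine (fromBlocks_add _ _ _ _ _ _ _ _).trans (Eq.trans ?_ fromBlocks_zero)
    refine fromBlocks_inj.mpr ⟨?_, ?_, ?_, ?_⟩
    · rw [eq_neg_of_add_eq_zero_left a3]
      module
    · rw [eq_neg_of_add_eq_zero_left a1]
      module
    · rw [eq_neg_of_add_eq_zero_left a2]
      module
    · simp

theorem Shf.eps_rd (h : Shf s j) : eps j ᵥ* rd s j = 0 := by
  induction j with
  | zero => exact vecMul_zero _
  | succ j ih =>
    have ih' := ih (h.mono (Nat.le_succ j))
    have hc := eps_lift (h.aug j (Nat.lt_succ_self j)) j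
    have e1 := vecMul_fromBlocks (I • rd s j) (I • (lift (s j) j - 1)) 0 (-(I • rd s j))
      (Sum.elim (eps j) 0)
    simp only [Sum.elim_comp_inl, Sum.elim_comp_inr, zero_vecMul, add_zero, vecMul_smul,
      vecMul_sub, vecMul_one, ih', hc, sub_self, smul_zero, Sum.elim_zero_zero] at e1
    rw [rd_succ, eps_succ]
    exact e1

theorem Shf.aug' (h : Shf s j) : ∀ t < j, s t *ᵥ (fun _ => (1 : ℂ)) = fun _ => 1 := by
  intro t ht
  have h1 : (s t)ᴴ *ᵥ (fun _ => (1 : ℂ)) = fun _ => 1 := by
    have := star_vecMul (s t) (fun _ => (1 : ℂ))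
    rw [h.aug t ht] at this
    have e : (star (fun _ => (1 : ℂ)) : P → ℂ) = fun _ => 1 := by
      funext x
      simp
    rw [e] at this
    exact this.symm
  calc s t *ᵥ (fun _ => (1 : ℂ)) = s t *ᵥ ((s t)ᴴ *ᵥ (fun _ => (1 : ℂ))) := by rw [h1]
    _ = fun _ => 1 := by rw [mulVec_mulVec, h.co t ht, one_mulVec]

theorem Shf.rd_topv (h : Shf s j) : rd s j *ᵥ topv j = 0 := by
  induction j with
  | zero => exact zero_mulVec _
  | succ j ih =>
    have ih' := ih (h.mono (Nat.le_succ j))
    have hc := lift_topv (h.aug' j (Nat.lt_succ_self j)) j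
    have e1 := fromBlocks_mulVec (I • rd s j) (I • (lift (s j) j - 1)) 0 (-(I • rd s j))
      (Sum.elim 0 (topv j))
    simp only [Sum.elim_comp_inl, Sum.elim_comp_inr, mulVec_zero, zero_add, smul_mulVec,
      neg_mulVec, sub_mulVec, one_mulVec, ih', hc, sub_self, smul_zero, neg_zero,
      Sum.elim_zero_zero] at e1
    rw [rd_succ, topv_succ]
    exact e1

theorem Shf.eps_rS (h : Shf s j) : eps j ᵥ* rS s j = I ^ j • topv j := by
  induction j with
  | zero =>
    rw [pow_zero, one_smul]
    exact vecMul_one _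
  | succ j ih =>
    have ih' := ih (h.mono (Nat.le_succ j))
    have hc := topv_lift (h.aug j (Nat.lt_succ_self j)) j
    have e1 := vecMul_fromBlocks 0 ((I / 2) • (rS s j * (1 + lift (s j) j)))
      ((-I / 2) • (rS s j * (1 + (lift (s j) j)ᴴ))) 0 (Sum.elim (eps j) 0)
    simp only [Sum.elim_comp_inl, Sum.elim_comp_inr, zero_vecMul, vecMul_zero, add_zero,
      vecMul_smul, ← vecMul_vecMul, ih', smul_vecMul, vecMul_add, vecMul_one, hc] at e1
    rw [rS_succ, eps_succ, topv_succ]
    refine e1.trans ?_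
    funext c
    rcases c with c | c
    · show (0 + (-I / 2) • (0 : cel j P → ℂ)) c = I ^ (j + 1) * 0
      simp
    · show (I / 2) * (I ^ j * topv j c + I ^ j * topv j c) = I ^ (j + 1) * topv j c
      ring

end Vale.Agent.P228
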