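import Vale.Agent.P228.Lat

/-! The lattice torus of mesh `1 / (m + 1)`; its real coordinates fill `[-(L+2), L+2)^n`.

Plans.
* `shf`: `sh e t` is the permutation matrix of the bijection of `P` induced by the shift.
* `face_of_rd`, `adj_of_rS`: induction on `j`, `lift_ne_zero`. For `rS` the inductive statement
  says also that the base points agree in the coordinates `≥ j`.
* `val_succ`: `‖xr x‖ < L + 1` gives `m + 1 < val` and `val + 1 < N` in each coordinate
  (`ZMod.val_add_of_lt`).
* `top_step`: the entry of `rd *ᵥ u` at the cell with base point `x + single t 1` and all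
  directions except `t` is `± (u (top x) - u (top (x + single t 1)))` up to a power of `I`;
  prove by induction on `j`: for `t < j` there are a cell `c` and `κ ≠ 0` with `cpt c = x + e_t`
  and `(rd *ᵥ u) c = κ * (u (top x) - u (top (x + e_t)))` for all `u` supported on top cells
  (`t = j`: `c = inl (top j (x + e_t))`; `t < j`: `c = inr c'`).
* `top_const`: two lattice points of a box are joined by unit steps inside the box: induct on
  `∑ t, |val (x t) - val (x' t)|`. -/

namespace Vale.Agent.P228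

open Matrix Complex Metric

/-- The torus. -/
abbrev Tor (n L m : ℕ) : Type := Fin n → ZMod (2 * (L + 2) * (m + 1))

instance torNeZero (L m : ℕ) : NeZero (2 * (L + 2) * (m + 1)) := ⟨by positivity⟩

variable {n L m : ℕ}

/-- The mesh. -/
noncomputable def msh (m : ℕ) : ℝ := 1 / ((m : ℝ) + 1)

/-- Real coordinates. -/
noncomputable def xr (x : Tor n L m) : Fin n → ℝ := fun t => ((x t).val : ℝ) * msh m - (L + 2)

/-- The unit step in direction `t` (zero if `n ≤ t`). -/
def stp (n L m t : ℕ) : Tor n L m := fun u => if (u : ℕ) = t then 1 else 0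

/-- The shift in direction `t` on a set of base points. -/
def sh {P : Type} (e : P → Tor n L m) (t : ℕ) : Matrix P P ℂ :=
  Matrix.of fun x y => if e x = e y + stp n L m t then 1 else 0

/-- The set of base points is closed under the shifts in directions `< j`. -/
def Cls {P : Type} (e : P → Tor n L m) (j : ℕ) : Prop :=
  Function.Injective e ∧ ∀ t < j, ∀ x, x ∈ Set.range e ↔ x + stp n L m t ∈ Set.range e

/-- Neighbours. -/
def Adj (x y : Tor n L m) : Prop := ∀ t, x t = y t ∨ x t = y t + 1 ∨ y t = x t + 1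

/-- `a` is a face of `b`. -/
def Face {P : Type} (e : P → Tor n L m) {j : ℕ} (a b : cel j P) : Prop :=
  ∀ t : Fin n, (cdir a t → cdir b t) ∧
    (e (cpt a) t = e (cpt b) t ∨ (cdir b t ∧ ¬ cdir a t ∧ e (cpt a) t = e (cpt b) t + 1))

theorem msh_pos (m : ℕ) : 0 < msh m := by
  unfold msh
  positivity

theorem tendsto_msh : Filter.Tendsto msh Filter.atTop (nhds 0) :=
  tendsto_one_div_add_atTop_nhds_zero_nat

theorem Adj.refl (x : Tor n L m) : Adj x x := fun _ => Or.inl rfl

theorem Adj.symm {x y : Tor n L m} (h : Adj x y) : Adj y x := fun t =>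
  (h t).elim (fun e => Or.inl e.symm) fun e => Or.inr e.symm

theorem tor_stp_eq (x : Tor n L m) {t : ℕ} {u : Fin n} (h : (u : ℕ) = t) :
    (x + stp n L m t) u = x u + 1 := by simp [stp, h]

theorem tor_stp_ne (x : Tor n L m) {t : ℕ} {u : Fin n} (h : (u : ℕ) ≠ t) :
    (x + stp n L m t) u = x u := by simp [stp, h]

theorem adj_stp (x : Tor n L m) (t : ℕ) : Adj (x + stp n L m t) x := fun u => by
  by_cases h : (u : ℕ) = t
  · exact Or.inr (Or.inl (tor_stp_eq x h))
  · exact Or.inl (tor_stp_ne x h)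

theorem cls_id (j : ℕ) : Cls (id : Tor n L m → Tor n L m) j :=
  ⟨Function.injective_id, fun _ _ _ => by simp⟩

theorem Cls.mono {P : Type} {e : P → Tor n L m} {j j' : ℕ} (h : Cls e j) (hj : j' ≤ j) :
    Cls e j' := ⟨h.1, fun t ht => h.2 t (ht.trans_le hj)⟩

theorem tor_sh_ne {P : Type} {e : P → Tor n L m} {t : ℕ} {x y : P} (h : sh e t x y ≠ 0) :
    e x = e y + stp n L m t := by
  by_contra h'
  exact h (if_neg h')

section

variable {P : Type} [Fintype P] [DecidableEq P] {e : P → Tor n L m} {j : ℕ}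

theorem tor_perm (h : Cls e j) {t : ℕ} (ht : t < j) : ∃ σ : P ≃ P,
    (∀ x, e (σ.symm x) = e x - stp n L m t) ∧ ∀ x y, sh e t x y = if x = σ y then 1 else 0 := by
  choose f hf using fun y => (h.2 t ht (e y)).1 ⟨y, rfl⟩
  have hi : Function.Injective f := fun a b hab =>
    h.1 (add_right_cancel (b := stp n L m t) (by rw [← hf, ← hf, hab]))
  refine ⟨Equiv.ofBijective f (Finite.injective_iff_bijective.1 hi), fun x => ?_, fun x y => ?_⟩
  · rw [eq_sub_iff_add_eq, ← hf]
    exact congrArg e ((Equiv.ofBijective f _).apply_symm_apply x)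
  · change (if e x = e y + stp n L m t then (1 : ℂ) else 0) = if x = f y then 1 else 0
    rw [← hf]
    exact if_congr h.1.eq_iff rfl rfl

theorem tor_mul {s : Matrix P P ℂ} {σ : P ≃ P} (hs : ∀ x y, s x y = if x = σ y then 1 else 0)
    (M : Matrix P P ℂ) (x z : P) : (s * M) x z = M (σ.symm x) z := by
  simp [Matrix.mul_apply, hs, ← Equiv.symm_apply_eq]

theorem Cls.shf (h : Cls e j) : Shf (sh e) j := by
  refine ⟨fun t ht => ?_, fun t ht u hu => ?_, fun t ht => ?_⟩
  · obtain ⟨σ, -, hs⟩ := tor_perm h ht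
    ext x z
    rw [tor_mul hs, conjTranspose_apply, hs, Equiv.apply_symm_apply, one_apply]
    by_cases k : x = z
    · simp [k]
    · simp [k, Ne.symm k]
  · obtain ⟨σ, h1, hs⟩ := tor_perm h ht
    obtain ⟨τ, h2, hs'⟩ := tor_perm h hu
    ext x z
    rw [tor_mul hs, tor_mul hs']
    simp only [sh, of_apply, h1, h2, sub_eq_iff_eq_add]
    rw [add_right_comm]
  · obtain ⟨σ, -, hs⟩ := tor_perm h ht
    ext y
    simp [vecMul, dotProduct, hs]

theorem Face.refl (a : cel j P) : Face e a a := fun _ => ⟨id, Or.inl rfl⟩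

theorem Face.trans {a b c : cel j P} (h : Face e a b) (h' : Face e b c) : Face e a c := by
  intro t
  obtain ⟨h1, h2⟩ := h t
  obtain ⟨h3, h4⟩ := h' t
  refine ⟨fun k => h3 (h1 k), ?_⟩
  rcases h2 with h2 | ⟨k1, k2, k3⟩ <;> rcases h4 with h4 | ⟨k4, k5, k6⟩
  · exact Or.inl (h2.trans h4)
  · exact Or.inr ⟨k4, fun k => k5 (h1 k), h2.trans k6⟩
  · exact Or.inr ⟨h3 k1, k2, by rw [k3, h4]⟩
  · exact absurd k1 k5

theorem Face.adj {a b : cel j P} (h : Face e a b) : Adj (e (cpt a)) (e (cpt b)) := fun t =>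
  (h t).2.imp id fun k => Or.inl k.2.2

theorem face_of_rd {a b : cel j P} (h : rd (sh e) j a b ≠ 0) : Face e a b := by
  induction j with
  | zero => exact absurd rfl h
  | succ j ih =>
    rcases a with a | a <;> rcases b with b | b
    · have h' : I * rd (sh e) j a b ≠ 0 := h
      exact ih (right_ne_zero_of_mul h')
    · have h' : I * (lift (sh e j) j a b - (1 : Matrix (cel j P) (cel j P) ℂ) a b) ≠ 0 := h
      by_cases hab : a = b
      · subst hab
        exact fun t => ⟨Or.inr, Or.inl rfl⟩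
      · rw [one_apply_ne hab, sub_zero] at h'
        obtain ⟨k1, -, k3⟩ := lift_ne_zero (right_ne_zero_of_mul h')
        have k4 := tor_sh_ne k1
        refine fun t => ⟨fun k => Or.inr ((k3 t).1 k), ?_⟩
        change e (cpt a) t = e (cpt b) t ∨
          ((t : ℕ) = j ∨ cdir b t) ∧ ¬ cdir a t ∧ e (cpt a) t = e (cpt b) t + 1
        rw [k4]
        by_cases ht : (t : ℕ) = j
        · exact Or.inr ⟨Or.inl ht, fun k => (cdir_lt k).ne ht, tor_stp_eq _ ht⟩
        · exact Or.inl (tor_stp_ne _ ht)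
    · have h' : I * 0 ≠ 0 := h
      exact absurd (mul_zero _) h'
    · have h' : I * (-rd (sh e) j a b) ≠ 0 := h
      have k := ih (neg_ne_zero.1 (right_ne_zero_of_mul h'))
      refine fun t => ⟨fun k1 => k1.imp id (k t).1, (k t).2.imp id fun k1 => ?_⟩
      exact ⟨Or.inr k1.1, fun k2 => k2.elim (cdir_lt k1.1).ne k1.2.1, k1.2.2⟩

theorem tor_adj_step {x y z : Tor n L m} (h : Adj x z ∧ ∀ t : Fin n, j ≤ t → x t = z t)
    (hz : z = y ∨ z = y + stp n L m j ∨ y = z + stp n L m j) :
    Adj x y ∧ ∀ t : Fin n, j + 1 ≤ t → x t = y t := by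
  have h1 : ∀ t : Fin n, (t : ℕ) ≠ j → z t = y t := fun t ht => by
    rcases hz with rfl | rfl | rfl
    exacts [rfl, tor_stp_ne _ ht, (tor_stp_ne _ ht).symm]
  refine ⟨fun t => ?_, fun t ht => (h.2 t (by omega)).trans (h1 t (by omega))⟩
  by_cases ht : (t : ℕ) = j
  · rw [h.2 t ht.ge]
    rcases hz with rfl | rfl | rfl
    exacts [Or.inl rfl, adj_stp _ _ t, (adj_stp _ _).symm t]
  · rw [← h1 t ht]
    exact h.1 t

theorem tor_mul_ne {α : Type} [Fintype α] [DecidableEq α] {A B : Matrix α α ℂ} {a b : α}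
    (h : (A * (1 + B)) a b ≠ 0) : ∃ c, A a c ≠ 0 ∧ (c = b ∨ B c b ≠ 0) := by
  rw [Matrix.mul_apply] at h
  obtain ⟨c, -, hc⟩ := Finset.exists_ne_zero_of_sum_ne_zero h
  refine ⟨c, left_ne_zero_of_mul hc, ?_⟩
  by_cases k : c = b
  · exact Or.inl k
  · have k1 := right_ne_zero_of_mul hc
    rw [Matrix.add_apply, one_apply_ne k, zero_add] at k1
    exact Or.inr k1

theorem tor_rS {a b : cel j P} (h : rS (sh e) j a b ≠ 0) :
    Adj (e (cpt a)) (e (cpt b)) ∧ ∀ t : Fin n, j ≤ t → e (cpt a) t = e (cpt b) t := by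
  induction j with
  | zero =>
    have h' : (1 : Matrix P P ℂ) a b ≠ 0 := h
    obtain rfl : a = b := by
      by_contra k
      exact h' (one_apply_ne k)
    exact ⟨Adj.refl _, fun _ _ => rfl⟩
  | succ j ih =>
    rcases a with a | a <;> rcases b with b | b
    · exact absurd rfl h
    · have h' : I / 2 * (rS (sh e) j * (1 + lift (sh e j) j)) a b ≠ 0 := h
      obtain ⟨c, h1, h2⟩ := tor_mul_ne (right_ne_zero_of_mul h')
      refine tor_adj_step (ih h1) (h2.imp (fun k => by rw [k]; rfl) fun k => Or.inl ?_)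
      exact tor_sh_ne (lift_ne_zero k).1
    · have h' : -I / 2 * (rS (sh e) j * (1 + (lift (sh e j) j)ᴴ)) a b ≠ 0 := h
      obtain ⟨c, h1, h2⟩ := tor_mul_ne (right_ne_zero_of_mul h')
      refine tor_adj_step (ih h1) (h2.imp (fun k => by rw [k]; rfl) fun k => Or.inr ?_)
      rw [conjTranspose_apply, star_ne_zero] at k
      exact tor_sh_ne (lift_ne_zero k).1
    · exact absurd rfl h

theorem adj_of_rS {a b : cel j P} (h : rS (sh e) j a b ≠ 0) : Adj (e (cpt a)) (e (cpt b)) :=
  (tor_rS h).1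

end

theorem val_succ {x : Tor n L m} (h : ‖xr x‖ < L + 1) (t : Fin n) :
    (x t + 1).val = (x t).val + 1 ∧ (x t - 1).val + 1 = (x t).val := by
  have h1 := abs_lt.1 ((norm_le_pi_norm (xr x) t).trans_lt h)
  have hm : (0 : ℝ) < (m : ℝ) + 1 := by positivity
  simp only [xr, msh, mul_one_div] at h1
  have h2 : (m : ℝ) + 1 < (x t).val := by
    have := (lt_div_iff₀ hm).1 (show (1 : ℝ) < (x t).val / ((m : ℝ) + 1) by linarith [h1.1])
    linarith
  have h3 : ((x t).val : ℝ) < (2 * L + 3) * ((m : ℝ) + 1) :=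
    (div_lt_iff₀ hm).1 (by linarith [h1.2])
  have h4 : m + 1 < (x t).val := by exact_mod_cast h2
  have h5 : (x t).val < (2 * L + 3) * (m + 1) := by exact_mod_cast h3
  have h6 : 2 * (L + 2) * (m + 1) = (2 * L + 3) * (m + 1) + (m + 1) := by ring
  have h7 : (1 : ZMod (2 * (L + 2) * (m + 1))).val = 1 := ZMod.val_one'' (by omega)
  constructor
  · rw [ZMod.val_add_of_lt (by omega), h7]
  · rw [ZMod.val_sub (by omega), h7]
    omega

theorem Adj.dist_le {x y : Tor n L m} (h : Adj x y) (hx : ‖xr x‖ < L + 1) :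
    dist (xr x) (xr y) ≤ msh m := by
  have hm := msh_pos m
  refine (dist_pi_le_iff hm.le).2 fun t => ?_
  obtain ⟨h1, h2⟩ := val_succ hx t
  rw [Real.dist_eq, abs_le]
  simp only [xr]
  rcases h t with k | k | k
  · rw [k]
    constructor <;> linarith
  · rw [← h2, ← eq_sub_of_add_eq k.symm]
    push_cast
    constructor <;> linarith
  · rw [k, h1]
    push_cast
    constructor <;> linarith

theorem exists_near {y : Fin n → ℝ} (hy : ‖y‖ ≤ L + 1) (m : ℕ) :
    ∃ x : Tor n L m, dist (xr x) y ≤ msh m := by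
  have hm : (0 : ℝ) < (m : ℝ) + 1 := by positivity
  refine ⟨fun t => (⌊(y t + (L + 2)) * ((m : ℝ) + 1)⌋₊ : ℕ),
    (dist_pi_le_iff (msh_pos m).le).2 fun t => ?_⟩
  have h1 := abs_le.1 ((norm_le_pi_norm y t).trans hy)
  have h2 : 0 ≤ (y t + (L + 2)) * ((m : ℝ) + 1) := mul_nonneg (by linarith [h1.1]) hm.le
  have h3 := Nat.floor_le h2
  have h4 := Nat.lt_floor_add_one ((y t + (L + 2)) * ((m : ℝ) + 1))
  have h5 : ⌊(y t + (L + 2)) * ((m : ℝ) + 1)⌋₊ < 2 * (L + 2) * (m + 1) := by
    rw [Nat.floor_lt h2]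
    push_cast
    exact mul_lt_mul_of_pos_right (by linarith [h1.2]) hm
  simp only [xr, msh, mul_one_div]
  rw [ZMod.val_natCast_of_lt h5, Real.dist_eq]
  generalize (⌊(y t + (L + 2)) * ((m : ℝ) + 1)⌋₊ : ℝ) = k at h3 h4
  have e : k / ((m : ℝ) + 1) - (L + 2) - y t =
      (k - (y t + (L + 2)) * ((m : ℝ) + 1)) / ((m : ℝ) + 1) := by
    field_simp
    ring
  rw [e, abs_div, abs_of_pos hm]
  gcongr
  rw [abs_le]
  constructor <;> linarith

/-- Cells of the torus. -/
abbrev LC (n L m : ℕ) : Type := cel n (Tor n L m)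

/-- Matrices on cells of the torus. -/
abbrev LM (n L m : ℕ) : Type := Matrix (LC n L m) (LC n L m) ℂ

/-- The differential of the torus. -/
noncomputable abbrev ld (n L m : ℕ) : LM n L m := rd (sh id) n

/-- The duality map of the torus. -/
noncomputable abbrev lS (n L m : ℕ) : LM n L m := rS (sh id) n

/-- The real position of a cell. -/
noncomputable abbrev cx (c : LC n L m) : Fin n → ℝ := xr (cpt c)

theorem tor_lift_top {P : Type} [Fintype P] (M : Matrix P P ℂ) (j : ℕ) (v : cel j P → ℂ) (z : P) :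
    (lift M j *ᵥ v) (top j z) = (M *ᵥ fun y => v (top j y)) z := by
  induction j with
  | zero => rfl
  | succ j ih =>
    have e := congrFun (fromBlocks_mulVec (lift M j) 0 0 (lift M j) v) (Sum.inr (top j z))
    rw [Sum.elim_inr, zero_mulVec, zero_add, ih] at e
    exact e

theorem tor_step (x : Tor n L m) (t j : ℕ) (ht : t < j) :
    ∃ (c : cel j (Tor n L m)) (κ : ℂ), κ ≠ 0 ∧ cpt c = x + stp n L m t ∧
      ∀ u : cel j (Tor n L m) → ℂ, (∀ a, u a ≠ 0 → cdeg a = j) →
        (rd (sh id) j *ᵥ u) c = κ * (u (top j x) - u (top j (x + stp n L m t))) := by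
  induction j with
  | zero => omega
  | succ j ih =>
    have key : ∀ u : cel j (Tor n L m) ⊕ cel j (Tor n L m) → ℂ,
        rd (sh id) (j + 1) *ᵥ u = I • Sum.elim
          (rd (sh id) j *ᵥ (u ∘ Sum.inl) + (lift (sh id j) j - 1) *ᵥ (u ∘ Sum.inr))
          ((0 : Matrix _ _ ℂ) *ᵥ (u ∘ Sum.inl) + (-rd (sh id) j) *ᵥ (u ∘ Sum.inr)) := fun u => by
      rw [← fromBlocks_mulVec]
      exact smul_mulVec I (fromBlocks (rd (sh id) j) (lift (sh id j) j - 1) 0 (-rd (sh id) j)) u
    rcases (Nat.lt_succ_iff.1 ht).eq_or_lt with rfl | h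
    · refine ⟨Sum.inl (top t (x + stp n L m t)), I, I_ne_zero, cpt_top _ _, fun u hu => ?_⟩
      have h0 : (fun a : cel t (Tor n L m) => u (Sum.inl a)) = 0 := funext fun a => by
        by_contra k
        have k1 : cdeg a = t + 1 := hu _ k
        have k2 := cdeg_le a
        omega
      rw [key u]
      change I * ((rd (sh id) t *ᵥ (fun a : cel t (Tor n L m) => u (Sum.inl a)))
        (top t (x + stp n L m t)) + ((lift (sh id t) t - 1) *ᵥ
          (fun a : cel t (Tor n L m) => u (Sum.inr a))) (top t (x + stp n L m t))) = _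
      rw [h0, mulVec_zero, Pi.zero_apply, zero_add, sub_mulVec, one_mulVec, Pi.sub_apply,
        tor_lift_top]
      simp only [mulVec, dotProduct, sh, of_apply, id, add_left_inj, ite_mul, one_mul, zero_mul,
        Finset.sum_ite_eq, Finset.mem_univ, if_true]
      rfl
    · obtain ⟨c, κ, h1, h2, h3⟩ := ih h
      refine ⟨Sum.inr c, -(I * κ), neg_ne_zero.2 (mul_ne_zero I_ne_zero h1), h2, fun u hu => ?_⟩
      have h4 := h3 (u ∘ Sum.inr) fun a k => Nat.succ_injective (hu (Sum.inr a) k)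
      rw [key u, zero_mulVec, zero_add, neg_mulVec]
      change I * -(rd (sh id) j *ᵥ (u ∘ Sum.inr)) c = _
      rw [h4, mul_neg, neg_mul, mul_assoc I κ]
      rfl

theorem top_step (x : Tor n L m) (t : Fin n) : ∃ (c : LC n L m) (κ : ℂ), κ ≠ 0 ∧
    cpt c = x + stp n L m t ∧ ∀ u : LC n L m → ℂ, (∀ a, u a ≠ 0 → cdeg a = n) →
      (ld n L m *ᵥ u) c = κ * (u (top n x) - u (top n (x + stp n L m t))) :=
  tor_step x t n t.isLt

theorem tor_box {y : Fin n → ℝ} {r : ℝ} (hy : closedBall y r ⊆ ball 0 (L + 1))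
    {x x' : Tor n L m}
    (hx : xr x ∈ closedBall y r) (hx' : xr x' ∈ closedBall y r) {t : Fin n}
    (ht : (x t).val < (x' t).val) : xr (x + stp n L m t) ∈ closedBall y r ∧
      ∑ u, Nat.dist ((x + stp n L m t) u).val (x' u).val < ∑ u, Nat.dist (x u).val (x' u).val := by
  have h0 : ‖xr x‖ < L + 1 := mem_ball_zero_iff.1 (hy hx)
  have h1 : ((x + stp n L m t) t).val = (x t).val + 1 := by
    rw [tor_stp_eq x rfl, (val_succ h0 t).1]
  have h2 : ∀ u, u ≠ t → (x + stp n L m t) u = x u := fun u hu =>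
    tor_stp_ne x fun k => hu (Fin.ext k)
  have hr : 0 ≤ r := dist_nonneg.trans hx
  rw [mem_closedBall, dist_pi_le_iff hr] at hx hx' ⊢
  refine ⟨fun u => ?_, Finset.sum_lt_sum (fun u _ => ?_) ⟨t, Finset.mem_univ _, ?_⟩⟩
  · by_cases hu : u = t
    · subst hu
      have k1 := hx u
      have k2 := hx' u
      have k3 : (((x u).val : ℝ) + 1) * msh m ≤ (x' u).val * msh m :=
        mul_le_mul_of_nonneg_right (by exact_mod_cast ht) (msh_pos m).le
      have k4 := msh_pos m
      simp only [xr, Real.dist_eq, abs_le, h1] at k1 k2 ⊢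
      push_cast
      constructor <;> linarith [k1.1, k2.2]
    · have k1 := hx u
      simp only [xr, h2 u hu] at k1 ⊢
      exact k1
  · by_cases hu : u = t
    · subst hu
      rw [h1]
      unfold Nat.dist
      omega
    · rw [h2 u hu]
  · rw [h1]
    unfold Nat.dist
    omega

/-- A top dimensional chain that is a cycle over a box has constant coefficients there. -/
theorem top_const {y : Fin n → ℝ} {r : ℝ} (hy : closedBall y r ⊆ ball 0 (L + 1))
    (u : LC n L m → ℂ)
    (hu : ∀ a, u a ≠ 0 → cdeg a = n) (hd : ∀ c, cx c ∈ closedBall y r → (ld n L m *ᵥ u) c = 0)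
    {x x' : Tor n L m} (hx : xr x ∈ closedBall y r) (hx' : xr x' ∈ closedBall y r) :
    u (top n x) = u (top n x') := by
  have st : ∀ (x : Tor n L m) (t : Fin n), xr (x + stp n L m t) ∈ closedBall y r →
      u (top n x) = u (top n (x + stp n L m t)) := by
    intro x t h
    obtain ⟨c, κ, h1, h2, h3⟩ := top_step x t
    have h4 := hd c (by rw [cx, h2]; exact h)
    rw [h3 u hu] at h4
    exact sub_eq_zero.1 ((mul_eq_zero.1 h4).resolve_left h1)
  induction hN : ∑ t, Nat.dist (x t).val (x' t).val using Nat.strong_induction_on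
    generalizing x x' with
  | _ N ih =>
    by_cases hxx : x = x'
    · rw [hxx]
    · obtain ⟨t, ht⟩ := Function.ne_iff.1 hxx
      rcases lt_or_gt_of_ne (fun k => ht (ZMod.val_injective _ k)) with k | k
      · obtain ⟨k1, k2⟩ := tor_box hy hx hx' k
        rw [st x t k1]
        exact ih _ (hN ▸ k2) k1 hx' rfl
      · obtain ⟨k1, k2⟩ := tor_box hy hx' hx k
        rw [st x' t k1]
        refine (ih _ (k2.trans_eq ?_) k1 hx rfl).symm
        rw [← hN]
        exact Finset.sum_congr rfl fun t _ => Nat.dist_comm _ _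

end Vale.Agent.P228
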