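import Vale.Agent.P228.CtlC
import Vale.Agent.P228.Susp
import Vale.Agent.P228.Tor

/-! The cubical complexes as objects of the controlled category.

Plans. `isC_of_adj`: `RelCtl.comap`, `RelCtl.mono` from `T.ctl`. `tameR_rd`: a path of nonzero
entries of `rd` is a `Face` (`face_of_rd`, `Face.refl`, `Face.trans`, `Face.adj`). All equations
come from the raw ones (`Shf.rd_rd`, `lift_rd`, ...) by `mk_mul`, `mk_ad`, `mk_add`, `mk_zero`,
`mk_one`. `sym_succ`: `rel_of_mk` with `Equiv.refl` (the positions agree: `relCtl_eq`, cases on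
the cell), `mk_blk`, `mk_smul`. `sym_poinc`: induction, `susp_poinc`; for `j = 0`, `d = 0` and
`S = 1`. `rel_of_range`: `Rel.of_iso` with `inc`. -/

namespace Vale.Agent.P228

open Filter Matrix Dag CDag Ctl Sym

variable {I : Type} {Y : Type} [PseudoMetricSpace Y]

/-- A family of tori with positions. -/
structure TorD (n L : ℕ) (l : Filter I) (U : Set Y) where
  m : I → ℕ
  q : ∀ i, Tor n L (m i) → Y
  ctl : RelCtl l U q q (fun _ x y => Adj x y)

variable {n L : ℕ} {l : Filter I} {U : Set Y}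

/-- A family of sets of base points. -/
structure Bas (T : TorD n L l U) where
  P : I → Type
  [fin : ∀ i, Fintype (P i)]
  [dec : ∀ i, DecidableEq (P i)]
  e : ∀ i, P i → Tor n L (T.m i)

attribute [instance] Bas.fin Bas.dec

theorem latOb_mul {X X' X'' : Ctl l U} {f : Raw X X'} {g : Raw X' X''} {k : Raw X X''}
    (hf : IsC f) (hg : IsC g) (e : ∀ i, f i * g i = k i) :
    mk' X X' f * mk' X' X'' g = mk' X X'' k :=
  (mk_mul hf hg).symm.trans (congrArg _ (funext e))

theorem latOb_comm {X X' W X'' : Ctl l U} {f : Raw X X'} {g : Raw X' X''} {f' : Raw X W}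
    {g' : Raw W X''} (hf : IsC f) (hg : IsC g) (hf' : IsC f') (hg' : IsC g')
    (e : ∀ i, f i * g i = f' i * g' i) :
    mk' X X' f * mk' X' X'' g = mk' X W f' * mk' W X'' g' :=
  (latOb_mul hf hg e).trans (mk_mul hf' hg')

theorem latOb_sh {m : ℕ} {P P' : Type} [Fintype P] [DecidableEq P] [Fintype P'] [DecidableEq P']
    {e : P → Tor n L m} {e' : P' → Tor n L m} {j t : ℕ} (h : Cls e j) (h' : Cls e' j) (ht : t < j) :
    (Matrix.of fun x y => if e x = e' y then 1 else 0 : Matrix P P' ℂ) * sh e' t =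
      sh e t * (Matrix.of fun x y => if e x = e' y then 1 else 0 : Matrix P P' ℂ) := by
  obtain ⟨σ, h1, hs⟩ := tor_perm h ht
  obtain ⟨τ, h2, hs'⟩ := tor_perm h' ht
  ext x y
  have h3 := h2 (τ y)
  rw [Equiv.symm_apply_apply, eq_sub_iff_add_eq] at h3
  have e1 : ∀ M : Matrix P P' ℂ, (M * sh e' t) x y = M x (τ y) := fun M => by
    simp [Matrix.mul_apply, hs']
  have e2 : ∀ M : Matrix P P' ℂ, (sh e t * M) x y = M (σ.symm x) y := fun M => by
    simp [Matrix.mul_apply, hs, ← Equiv.symm_apply_eq]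
  rw [e1, e2, of_apply, of_apply, h1, ← h3]
  exact if_congr sub_eq_iff_eq_add.symm rfl rfl

namespace Bas

variable {T : TorD n L l U} (B B' : Bas T)

/-- The object of cells. -/
def ob (j : ℕ) : Ctl l U where
  ι i := cel j (B.P i)
  pos i c := T.q i (B.e i (cpt c))

/-- Closed under the shifts in directions `< j`. -/
def Cl (j : ℕ) : Prop := ∀ i, Cls (B.e i) j

variable {B B'} in
theorem isC_of_adj {j j' : ℕ} (f : Raw (B.ob j) (B'.ob j'))
    (h : ∀ i a b, f i a b ≠ 0 → Adj (B.e i (cpt (j := j) a)) (B'.e i (cpt (j := j') b))) :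
    IsC f :=
  RelCtl.mono (RelCtl.comap T.ctl (fun i (a : cel j (B.P i)) => B.e i (cpt a))
    fun i (b : cel j' (B'.P i)) => B'.e i (cpt b)) (Eventually.of_forall h)

theorem tameR_rd (j : ℕ) : TameR (X := B.ob j) (fun i => rd (sh (B.e i)) j) := by
  refine RelCtl.mono (RelCtl.comap T.ctl (fun i (a : cel j (B.P i)) => B.e i (cpt a))
    fun i (b : cel j (B.P i)) => B.e i (cpt b)) (Eventually.of_forall fun i a b h => ?_)
  refine Face.adj ?_
  induction h with
  | refl => exact Face.refl _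
  | tail _ h1 ih => exact ih.trans (face_of_rd h1)

theorem isC_rd (j : ℕ) : IsC (X := B.ob j) (X' := B.ob j) (fun i => rd (sh (B.e i)) j) :=
  (B.tameR_rd j).isC

theorem isC_rS (j : ℕ) : IsC (X := B.ob j) (X' := B.ob j) (fun i => rS (sh (B.e i)) j) :=
  isC_of_adj _ fun _ _ _ h => adj_of_rS h

/-- The symmetric complex of cells. -/
@[reducible] noncomputable def sym (j : ℕ) (h : B.Cl j) : Sym (Ctl l U) where
  E := B.ob j
  d := mk' _ _ (fun i => rd (sh (B.e i)) j)
  S := mk' _ _ (fun i => rS (sh (B.e i)) j)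
  dd := (latOb_mul (k := 0) (B.isC_rd j) (B.isC_rd j) fun i => (h i).shf.rd_rd).trans mk_zero
  herm := (mk_ad (B.isC_rS j)).symm.trans (congrArg _ (funext fun i => (h i).shf.rS_herm))
  rel := by
    rw [← mk_ad (B.isC_rd j), ← mk_mul (B.isC_rd j) (B.isC_rS j),
      ← mk_mul (B.isC_rS j) (B.isC_rd j).ad,
      ← mk_add ((B.isC_rd j).mul (B.isC_rS j)) ((B.isC_rS j).mul (B.isC_rd j).ad), ← mk_zero]
    exact congrArg _ (funext fun i => (h i).shf.rS_rel)
  tame := tame_mk (B.tameR_rd j)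

theorem isC_shf (j : ℕ) :
    IsC (X := B.ob j) (X' := B.ob j) (fun i => lift (sh (B.e i) j) j) :=
  isC_of_adj _ fun _ _ _ h => tor_sh_ne (lift_ne_zero h).1 ▸ adj_stp _ _

/-- The shift in the next direction. -/
noncomputable def shf (j : ℕ) : Hom (B.ob j) (B.ob j) := mk' _ _ (fun i => lift (sh (B.e i) j) j)

variable {B} in
theorem Cl.pred {j : ℕ} (h : B.Cl (j + 1)) : B.Cl j := fun i => (h i).mono (Nat.le_succ j)

theorem shift {j : ℕ} (h : B.Cl (j + 1)) : (B.sym j h.pred).Shift (B.shf j) where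
  d := latOb_comm (B.isC_rd j) (B.isC_shf j) (B.isC_shf j) (B.isC_rd j)
    fun i => (h i).shf.lift_rd_self.symm
  d' := by
    rw [shf, ← mk_ad (B.isC_shf j)]
    refine latOb_comm (B.isC_rd j) (B.isC_shf j).ad (B.isC_shf j).ad (B.isC_rd j) fun i => ?_
    have h1 := congrArg conjTranspose (h i).shf.lift_rd_ad_self
    rw [conjTranspose_mul, conjTranspose_mul, conjTranspose_conjTranspose] at h1
    exact h1
  S := latOb_comm (B.isC_rS j) (B.isC_shf j) (B.isC_shf j) (B.isC_rS j)
    fun i => (h i).shf.lift_rS_self.symm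
  co := by
    rw [shf, ← mk_ad (B.isC_shf j)]
    exact (latOb_mul (B.isC_shf j) (B.isC_shf j).ad fun i => (h i).shf.lift_co).trans mk_one

theorem shf_iso {j : ℕ} (h : B.Cl (j + 1)) : (B.shf j).ad * B.shf j = 1 := by
  rw [shf, ← mk_ad (B.isC_shf j)]
  exact (latOb_mul (B.isC_shf j).ad (B.isC_shf j)
    fun i => mul_eq_one_comm.1 (h i).shf.lift_co).trans mk_one

theorem sym_succ {j : ℕ} (h : B.Cl (j + 1)) :
    Rel (B.sym (j + 1) h) ((B.sym j h.pred).susp (B.shf j) (B.shift h)) := by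
  have c1 := (B.isC_shf j).sub isC_one
  have c2 := (B.isC_rd j).fromBlocks c1 isC_zero (B.isC_rd j).neg
  have c3 := isC_one.add (B.isC_shf j)
  have c4 := isC_one.add (B.isC_shf j).ad
  have c5 := (B.isC_rS j).mul c3
  have c6 := (B.isC_rS j).mul c4
  have c7 := isC_zero.fromBlocks (c5.smul (Complex.I / 2)) (c6.smul (-Complex.I / 2)) isC_zero
  refine rel_of_mk (V := (B.sym j h.pred).susp (B.shf j) (B.shift h)) (V' := B.sym (j + 1) h)
    (fun i => Equiv.refl _) ?_ _ _ (c2.smul Complex.I) c7 ?_ ?_ rfl rfl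
  · refine RelCtl.mono relCtl_eq (Eventually.of_forall ?_)
    rintro i (a | a) _ rfl <;> rfl
  · refine Eq.trans ?_ (mk_smul Complex.I c2).symm
    rw [mk_blk (B.isC_rd j) c1 isC_zero (B.isC_rd j).neg, mk_sub (B.isC_shf j) isC_one, mk_one,
      mk_zero, mk_neg (B.isC_rd j)]
    rfl
  · refine Eq.trans ?_
      (mk_blk isC_zero (c5.smul (Complex.I / 2)) (c6.smul (-Complex.I / 2)) isC_zero).symm
    rw [mk_zero, mk_smul _ c5, mk_smul _ c6, mk_mul (B.isC_rS j) c3, mk_mul (B.isC_rS j) c4,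
      mk_add isC_one (B.isC_shf j), mk_add isC_one (B.isC_shf j).ad, mk_ad (B.isC_shf j), mk_one]
    rfl

theorem sym_poinc {j : ℕ} (h : B.Cl j) : (B.sym j h).Poinc := by
  induction j with
  | zero =>
    have e1 : (B.sym 0 h).d = 0 := mk_zero
    have e2 : (B.sym 0 h).S = 1 := mk_one
    rw [Poinc, e1, e2, ad_zero, neg_zero]
    exact Hq.one
  | succ j ih => exact (B.sym_succ h).poinc (susp_poinc _ (B.shf_iso h) (ih h.pred))

/-- The matrix that identifies equal points of the torus. -/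
def incR (i : I) : Matrix (B.P i) (B'.P i) ℂ :=
  Matrix.of fun x y => if B.e i x = B'.e i y then 1 else 0

theorem isC_inc (j : ℕ) :
    IsC (X := B.ob j) (X' := B'.ob j) (fun i => lift (B.incR B' i) j) :=
  isC_of_adj _ fun i a b h => by
    have h1 : B.e i (cpt a) = B'.e i (cpt b) := by
      by_contra h2
      exact (lift_ne_zero h).1 (if_neg h2)
    rw [h1]
    exact Adj.refl _

theorem incR_ad (i : I) : (B.incR B' i)ᴴ = B'.incR B i := by
  ext x y
  simp [incR, eq_comm]

/-- The inclusion. -/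
noncomputable def inc (j : ℕ) : Hom (B.ob j) (B'.ob j) := mk' _ _ (fun i => lift (B.incR B' i) j)

theorem inc_ad (j : ℕ) : (B.inc B' j).ad = B'.inc B j :=
  (mk_ad (B.isC_inc B' j)).symm.trans (congrArg _ (funext fun i =>
    (lift_ad _ j).symm.trans (congrArg (fun M => lift M j) (B.incR_ad B' i))))

theorem inc_d {j : ℕ} (h : B.Cl j) (h' : B'.Cl j) :
    (B.sym j h).d * B.inc B' j = B.inc B' j * (B'.sym j h').d :=
  latOb_comm (B.isC_rd j) (B.isC_inc B' j) (B.isC_inc B' j) (B'.isC_rd j)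
    fun i => (lift_rd fun _ ht => latOb_sh (h i) (h' i) ht).symm

theorem inc_S {j : ℕ} (h : B.Cl j) (h' : B'.Cl j) :
    (B.sym j h).S * B.inc B' j = B.inc B' j * (B'.sym j h').S := by
  refine latOb_comm (B.isC_rS j) (B.isC_inc B' j) (B.isC_inc B' j) (B'.isC_rS j)
    fun i => (lift_rS (fun _ ht => latOb_sh (h i) (h' i) ht) fun t ht => ?_).symm
  have h1 : B'.incR B i * sh (B.e i) t = sh (B'.e i) t * B'.incR B i := latOb_sh (h' i) (h i) ht
  have h2 := congrArg conjTranspose h1
  rw [conjTranspose_mul, conjTranspose_mul, incR_ad] at h2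
  exact h2.symm

theorem inc_inc {j : ℕ} (h : B.Cl 0) (h' : B'.Cl 0)
    (hr : ∀ i, Set.range (B.e i) ⊆ Set.range (B'.e i)) : B.inc B' j * B'.inc B j = 1 := by
  refine (latOb_mul (B.isC_inc B' j) (B'.isC_inc B j) fun i => ?_).trans mk_one
  refine (lift_mul _ _ j).symm.trans (Eq.trans (congrArg (fun M => lift M j) ?_) (lift_one j))
  ext x z
  obtain ⟨y, hy⟩ := hr i ⟨x, rfl⟩
  rw [Matrix.mul_apply, Finset.sum_eq_single y]
  · simp [incR, hy, (h i).1.eq_iff, one_apply]
  · intro y' _ hne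
    have : B.e i x ≠ B'.e i y' := fun k => hne ((h' i).1 (k.symm.trans hy.symm))
    simp [incR, this]
  · simp

theorem rel_of_range {j : ℕ} (h : B.Cl j) (h' : B'.Cl j)
    (hr : ∀ i, Set.range (B.e i) = Set.range (B'.e i)) : Rel (B.sym j h) (B'.sym j h') := by
  have k : B.Cl 0 := fun i => (h i).mono (Nat.zero_le j)
  have k' : B'.Cl 0 := fun i => (h' i).mono (Nat.zero_le j)
  have h1 := B.inc_inc B' (j := j) k k' fun i => (hr i).subset
  refine Rel.of_iso (B.inc B' j) (B'.inc B j) h1 (B'.inc_inc B k' k fun i => (hr i).symm.subset)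
    (B.inc_d B' h h') ?_
  rw [← B.inc_S B' h h', inc_ad, massoc, h1, m_one]

end Bas

namespace TorD

variable (T : TorD n L l U)

/-- All points of the torus. -/
@[reducible] def full : Bas T where
  P i := Tor n L (T.m i)
  e _ := id

theorem full_cl (j : ℕ) : T.full.Cl j := fun _ => cls_id j

/-- The complex of the torus. -/
@[reducible] noncomputable def sym : Sym (Ctl l U) := T.full.sym n (T.full_cl n)

/-- A family of matrices on cells as a map. -/
noncomputable def hom (f : ∀ i, LM n L (T.m i)) : Hom T.sym.E T.sym.E :=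
  mk' (T.full.ob n) (T.full.ob n) f

/-- Controlled families of matrices on cells. -/
def IsC (f : ∀ i, LM n L (T.m i)) : Prop := Ctl.IsC (X := T.full.ob n) (X' := T.full.ob n) f

theorem sym_d : T.sym.d = T.hom (fun i => ld n L (T.m i)) := rfl

theorem sym_S : T.sym.S = T.hom (fun i => lS n L (T.m i)) := rfl

theorem sym_poinc : T.sym.Poinc := T.full.sym_poinc _

end TorD

end Vale.Agent.P228
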