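import Vale.Agent.P228.Setup

/-! An action on a compact subset of `ℝ^n`, and the two constructions of a `Setup`.

Plans.
* `supA`, `infA` are continuous on `Ω`: they are uniform-continuity arguments, or
  `IsCompact.continuous_sSup` on the subtype `Ω`. Invariance: reindex the supremum by translation.
* `setupA`: `act k g = Λ.act (p ^ (k + k₁) * g)`, `A k = (Λ.sub (k + k₁)).supA`, with `k₁` such
  that all orbits have size `≤ r / 8` (`Loc.small`). `q = w = z0`, `r3 = r`, `r2 = 3r/4`,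
  `r1 = r/2`, `r0 = r/4`, `ρR = r/8`, `ρK = r/16`, `ρ0 = r/32`. `free`: a fixed point `x` has
  `A k x = x`.
* `setupB`: `F` = fixed points, `W = interior F`. Take `c ∈ W` with `dist c y < r / 4`,
  `s = infDist c Wᶜ > 0`, a nearest point `y' ∈ Wᶜ` (`IsClosed.exists_infDist_eq_dist`);
  `closedBall c s ⊆ F`. `μ x = ‖supA x - infA x‖`,
  `A x = c + (1 + (4 / s) * μ x) • (supA x - c)` for all `k`, same action for all `k`.
  Choose `r3 ≤ r / 2` with `μ < s / 2` on `closedBall y' r3`, `Ω' = Λ.orbit (closedBall y' r3)`,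
  `r2 = r3 / 2`, `r1 < r2` with orbits of `closedBall y' r1` inside `closedBall y' r2` (`y'` is
  fixed; `Loc.unif`), `r0 = r1 / 2`, `q = w = y'`. Key: if `x ∈ Ω'` and `dist (A x) c ≤ s` then `x`
  is fixed and `A x = x` (otherwise `μ x > 0`, `dist x c > s`,
  `‖A x - c‖ ≥ (1 + 4μ/s)(s - μ) > s`). So the compact set `A '' (Ω' \ ball y' r0)` misses `y'`,
  giving `ρR`; `ρK = ρR / 2`; `z0 = y' + (t / s) • (c - y')`, `ρ0 = t / 2` with
  `t = min (min ρK r0) s / 2`; `z` a non fixed point of `ball y' (min ρK r3)`. -/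

namespace Vale.Agent.P228

open Metric Filter Set

/-- A continuous action on a compact subset of `ℝ^n`. -/
structure Loc (n p : ℕ) [Fact p.Prime] where
  Ω : Set (Fin n → ℝ)
  cpt : IsCompact Ω
  act : ℤ_[p] → (Fin n → ℝ) → Fin n → ℝ
  maps : ∀ g, ∀ x ∈ Ω, act g x ∈ Ω
  act_zero : ∀ x ∈ Ω, act 0 x = x
  act_add : ∀ g h, ∀ x ∈ Ω, act (g + h) x = act g (act h x)
  cont : ContinuousOn (fun z : ℤ_[p] × (Fin n → ℝ) => act z.1 z.2) (univ ×ˢ Ω)

variable {n p : ℕ} [Fact p.Prime]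

namespace Loc

variable (Λ : Loc n p)

/-- Coordinatewise supremum over the orbit. -/
noncomputable def supA (x : Fin n → ℝ) : Fin n → ℝ := fun t => ⨆ g, Λ.act g x t

/-- Coordinatewise infimum over the orbit. -/
noncomputable def infA (x : Fin n → ℝ) : Fin n → ℝ := fun t => ⨅ g, Λ.act g x t

theorem unif : ∀ ε > 0, ∃ η > 0, ∀ g h : ℤ_[p], ∀ x ∈ Λ.Ω, ∀ y ∈ Λ.Ω,
    ‖g - h‖ < η → dist x y < η → dist (Λ.act g x) (Λ.act h y) < ε := by
  intro ε hε
  have h := (isCompact_univ.prod Λ.cpt).uniformContinuousOn_of_continuous Λ.cont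
  obtain ⟨η, hη, h⟩ := Metric.uniformContinuousOn_iff.1 h ε hε
  refine ⟨η, hη, fun g g' x hx y hy h1 h2 => h (g, x) ⟨trivial, hx⟩ (g', y) ⟨trivial, hy⟩ ?_⟩
  rw [Prod.dist_eq, dist_eq_norm]
  exact max_lt h1 h2

theorem small : ∀ ε > 0, ∀ᶠ k : ℕ in atTop, ∀ g : ℤ_[p], ∀ x ∈ Λ.Ω,
    dist (Λ.act ((p : ℤ_[p]) ^ k * g) x) x < ε := by
  intro ε hε
  obtain ⟨η, hη, h⟩ := Λ.unif ε hε
  have h1 : Tendsto (fun k : ℕ => ‖(p : ℤ_[p])‖ ^ k) atTop (nhds 0) :=
    tendsto_pow_atTop_nhds_zero_of_lt_one (norm_nonneg _)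
      (PadicInt.norm_natCast_lt_one_iff.2 dvd_rfl)
  filter_upwards [h1.eventually (gt_mem_nhds hη)] with k hk g x hx
  have h2 := h ((p : ℤ_[p]) ^ k * g) 0 x hx x hx (by
    rw [sub_zero, norm_mul, norm_pow]
    exact lt_of_le_of_lt (mul_le_of_le_one_right (by positivity) g.norm_le_one) hk) (by simpa)
  rwa [Λ.act_zero x hx] at h2

theorem exL : ∃ L : ℕ, Λ.Ω ⊆ closedBall 0 L := by
  obtain ⟨R, hR⟩ := Λ.cpt.isBounded.subset_closedBall 0
  obtain ⟨L, hL⟩ := exists_nat_ge R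
  exact ⟨L, hR.trans (closedBall_subset_closedBall hL)⟩

variable {Λ}

theorem bdd {x : Fin n → ℝ} (hx : x ∈ Λ.Ω) (t : Fin n) :
    BddAbove (range fun g => Λ.act g x t) ∧ BddBelow (range fun g => Λ.act g x t) := by
  obtain ⟨L, hL⟩ := Λ.exL
  have h : ∀ g, |Λ.act g x t| ≤ L := fun g =>
    (norm_le_pi_norm (Λ.act g x) t).trans (mem_closedBall_zero_iff.1 (hL (Λ.maps g x hx)))
  exact ⟨⟨L, by rintro _ ⟨g, rfl⟩; exact (abs_le.1 (h g)).2⟩,
    ⟨-L, by rintro _ ⟨g, rfl⟩; exact (abs_le.1 (h g)).1⟩⟩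

theorem le_supA {x : Fin n → ℝ} (hx : x ∈ Λ.Ω) (g : ℤ_[p]) (t : Fin n) :
    Λ.act g x t ≤ Λ.supA x t := le_ciSup (bdd hx t).1 g

theorem infA_le {x : Fin n → ℝ} (hx : x ∈ Λ.Ω) (g : ℤ_[p]) (t : Fin n) :
    Λ.infA x t ≤ Λ.act g x t := ciInf_le (bdd hx t).2 g

theorem supA_dist {x y : Fin n → ℝ} (hx : x ∈ Λ.Ω) {ε : ℝ} (h : ∀ g, dist (Λ.act g x) y ≤ ε) :
    dist (Λ.supA x) y ≤ ε := by
  refine (dist_pi_le_iff (dist_nonneg.trans (h 0))).2 fun t => ?_
  have h1 : ∀ g, |Λ.act g x t - y t| ≤ ε := fun g => (dist_le_pi_dist _ _ t).trans (h g)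
  have h2 : Λ.supA x t ≤ y t + ε := ciSup_le fun g => by linarith [(abs_le.1 (h1 g)).2]
  have h3 := le_supA hx 0 t
  rw [Real.dist_eq, abs_le]
  constructor <;> linarith [(abs_le.1 (h1 0)).1]

theorem supA_cont : ContinuousOn Λ.supA Λ.Ω := by
  refine Metric.continuousOn_iff.2 fun y hy ε hε => ?_
  obtain ⟨η, hη, h⟩ := Λ.unif (ε / 2) (by positivity)
  refine ⟨η, hη, fun x hx hd => lt_of_le_of_lt ((dist_pi_le_iff (by positivity)).2 fun t => ?_)
    (half_lt_self hε)⟩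
  have h1 : ∀ g, |Λ.act g x t - Λ.act g y t| ≤ ε / 2 := fun g =>
    (dist_le_pi_dist _ _ t).trans (h g g x hx y hy (by simpa) hd).le
  have h2 : Λ.supA x t ≤ Λ.supA y t + ε / 2 :=
    ciSup_le fun g => by linarith [(abs_le.1 (h1 g)).2, le_supA hy g t]
  have h3 : Λ.supA y t ≤ Λ.supA x t + ε / 2 :=
    ciSup_le fun g => by linarith [(abs_le.1 (h1 g)).1, le_supA hx g t]
  rw [Real.dist_eq, abs_le]
  constructor <;> linarith

theorem infA_cont : ContinuousOn Λ.infA Λ.Ω := by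
  refine Metric.continuousOn_iff.2 fun y hy ε hε => ?_
  obtain ⟨η, hη, h⟩ := Λ.unif (ε / 2) (by positivity)
  refine ⟨η, hη, fun x hx hd => lt_of_le_of_lt ((dist_pi_le_iff (by positivity)).2 fun t => ?_)
    (half_lt_self hε)⟩
  have h1 : ∀ g, |Λ.act g x t - Λ.act g y t| ≤ ε / 2 := fun g =>
    (dist_le_pi_dist _ _ t).trans (h g g x hx y hy (by simpa) hd).le
  have h2 : Λ.infA y t - ε / 2 ≤ Λ.infA x t :=
    le_ciInf fun g => by linarith [(abs_le.1 (h1 g)).1, infA_le hy g t]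
  have h3 : Λ.infA x t - ε / 2 ≤ Λ.infA y t :=
    le_ciInf fun g => by linarith [(abs_le.1 (h1 g)).2, infA_le hx g t]
  rw [Real.dist_eq, abs_le]
  constructor <;> linarith

theorem supA_inv {x : Fin n → ℝ} (hx : x ∈ Λ.Ω) (g : ℤ_[p]) : Λ.supA (Λ.act g x) = Λ.supA x := by
  funext t
  simp only [supA, ← Λ.act_add _ g x hx]
  exact (Equiv.addRight g).surjective.iSup_comp fun h => Λ.act h x t

theorem infA_inv {x : Fin n → ℝ} (hx : x ∈ Λ.Ω) (g : ℤ_[p]) : Λ.infA (Λ.act g x) = Λ.infA x := by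
  funext t
  simp only [infA, ← Λ.act_add _ g x hx]
  exact (Equiv.addRight g).surjective.iInf_comp fun h => Λ.act h x t

theorem supA_fix {x : Fin n → ℝ} (h : ∀ g, Λ.act g x = x) : Λ.supA x = x := by
  funext t
  simp only [supA, h, ciSup_const]

theorem infA_fix {x : Fin n → ℝ} (h : ∀ g, Λ.act g x = x) : Λ.infA x = x := by
  funext t
  simp only [infA, h, ciInf_const]

variable (Λ)

/-- The size of the orbit. -/
noncomputable def mu (x : Fin n → ℝ) : ℝ := ‖Λ.supA x - Λ.infA x‖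

/-- The action of the subgroup `p ^ k ℤ_[p]`. -/
noncomputable def sub (k : ℕ) : Loc n p where
  Ω := Λ.Ω
  cpt := Λ.cpt
  act g := Λ.act ((p : ℤ_[p]) ^ k * g)
  maps _ := Λ.maps _
  act_zero x hx := by rw [mul_zero, Λ.act_zero x hx]
  act_add g h x hx := by rw [mul_add, Λ.act_add _ _ x hx]
  cont := Λ.cont.comp (f := fun z : ℤ_[p] × (Fin n → ℝ) => ((p : ℤ_[p]) ^ k * z.1, z.2))
    (by fun_prop) fun _ hz => ⟨trivial, hz.2⟩

variable {Λ}

theorem mu_cont : ContinuousOn Λ.mu Λ.Ω := (supA_cont.sub infA_cont).norm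

theorem mu_inv {x : Fin n → ℝ} (hx : x ∈ Λ.Ω) (g : ℤ_[p]) : Λ.mu (Λ.act g x) = Λ.mu x := by
  rw [mu, supA_inv hx, infA_inv hx, mu]

theorem mu_fix {x : Fin n → ℝ} (h : ∀ g, Λ.act g x = x) : Λ.mu x = 0 := by
  rw [mu, supA_fix h, infA_fix h, sub_self, norm_zero]

theorem dist_supA_le {x : Fin n → ℝ} (hx : x ∈ Λ.Ω) (g : ℤ_[p]) :
    dist (Λ.supA x) (Λ.act g x) ≤ Λ.mu x := by
  refine (dist_pi_le_iff (norm_nonneg _)).2 fun t => ?_
  have h1 : |Λ.supA x t - Λ.infA x t| ≤ Λ.mu x := norm_le_pi_norm (Λ.supA x - Λ.infA x) t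
  change |Λ.supA x t - Λ.act g x t| ≤ Λ.mu x
  rw [abs_le] at h1 ⊢
  constructor <;> linarith [le_supA hx g t, infA_le hx g t]

theorem fix_of_mu {x : Fin n → ℝ} (hx : x ∈ Λ.Ω) (h : Λ.mu x = 0) (g : ℤ_[p]) :
    Λ.act g x = x := by
  have h1 : ∀ g, Λ.supA x = Λ.act g x := fun g => dist_le_zero.1 (h ▸ dist_supA_le hx g)
  rw [← h1 g, h1 0, Λ.act_zero x hx]

theorem closed_fix : IsClosed {x | x ∈ Λ.Ω ∧ ∀ g, Λ.act g x = x} := by
  have h := mu_cont (Λ := Λ).preimage_isClosed_of_isClosed Λ.cpt.isClosed (isClosed_singleton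
    (x := 0))
  convert h using 1
  ext x
  exact ⟨fun h => ⟨h.1, mu_fix h.2⟩, fun h => ⟨h.1, fix_of_mu h.1 h.2⟩⟩

variable (Λ)

/-- The map pushing non fixed points away from the ball around `c`. -/
noncomputable def push (c : Fin n → ℝ) (s : ℝ) (x : Fin n → ℝ) : Fin n → ℝ :=
  c + (1 + 4 / s * Λ.mu x) • (Λ.supA x - c)

variable {Λ}

theorem push_fix {c x : Fin n → ℝ} {s : ℝ} (h : ∀ g, Λ.act g x = x) : Λ.push c s x = x := by
  simp [push, mu_fix h, supA_fix h]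

theorem push_cont (c : Fin n → ℝ) (s : ℝ) : ContinuousOn (Λ.push c s) Λ.Ω :=
  continuousOn_const.add ((continuousOn_const.add (continuousOn_const.mul mu_cont)).smul
    (supA_cont.sub continuousOn_const))

theorem push_key {c x : Fin n → ℝ} {s : ℝ} (hs : 0 < s)
    (hc : ∀ x ∈ closedBall c s, ∀ g, Λ.act g x = x) (hx : x ∈ Λ.Ω) (hμ : Λ.mu x < s / 2)
    (h : dist (Λ.push c s x) c ≤ s) : ∀ g, Λ.act g x = x := by
  by_contra hn
  have h0 : 0 < Λ.mu x := lt_of_le_of_ne (norm_nonneg _) fun e => hn (fix_of_mu hx e.symm)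
  have h1 : s < dist x c := lt_of_not_ge fun e => hn (hc x e)
  have h2 := dist_supA_le hx 0
  rw [Λ.act_zero x hx] at h2
  have h3 : s - Λ.mu x < dist (Λ.supA x) c := by
    linarith [dist_triangle_left x c (Λ.supA x)]
  have h4 : dist (Λ.push c s x) c = (1 + 4 / s * Λ.mu x) * dist (Λ.supA x) c := by
    rw [push, dist_eq_norm, add_sub_cancel_left, norm_smul, dist_eq_norm, Real.norm_of_nonneg
      (by positivity)]
  rw [h4] at h
  generalize Λ.mu x = m at *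
  generalize dist (Λ.supA x) c = D at *
  have h5 : (1 + 4 / s * m) * (s - m) ≤ s :=
    (mul_le_mul_of_nonneg_left h3.le (by positivity)).trans h
  have h6 : (1 + 4 / s * m) * (s - m) = s + m * (3 * s - 4 * m) / s := by
    field_simp
    ring
  have h7 : 0 < m * (3 * s - 4 * m) / s := div_pos (mul_pos h0 (by linarith)) hs
  linarith

variable (Λ)

theorem setupA {q : Fin n → ℝ} {r : ℝ} (hr : 0 < r) (hq : closedBall q r ⊆ Λ.Ω)
    (h : ∀ k : ℕ, ∀ ρ > 0, ∃ z ∈ ball q ρ, ∃ g, Λ.act ((p : ℤ_[p]) ^ k * g) z ≠ z) :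
    Nonempty (Setup n p) := by
  obtain ⟨L, hL⟩ := Λ.exL
  obtain ⟨k₁, hk⟩ := eventually_atTop.1 (Λ.small (r / 8) (by positivity))
  have h1 : ∀ k g, ∀ x ∈ Λ.Ω, dist ((Λ.sub (k + k₁)).act g x) x ≤ r / 8 := fun k g x hx =>
    (hk (k + k₁) (by omega) g x hx).le
  choose z hz hg using fun k => h (k + k₁) (r / 16) (by positivity)
  refine ⟨{
    Ω := Λ.Ω, cpt := Λ.cpt, L := L, hL := hL
    act := fun k => (Λ.sub (k + k₁)).act
    maps := fun k => (Λ.sub (k + k₁)).maps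
    act_zero := fun k => (Λ.sub (k + k₁)).act_zero
    act_add := fun k => (Λ.sub (k + k₁)).act_add
    cont := fun k => (Λ.sub (k + k₁)).cont
    A := fun k => (Λ.sub (k + k₁)).supA
    Acont := fun k => supA_cont (Λ := Λ.sub (k + k₁))
    Ainv := fun k g x hx => supA_inv (Λ := Λ.sub (k + k₁)) hx g
    q := q, r0 := r / 4, r1 := r / 2, r2 := 3 * r / 4, r3 := r
    h0 := by positivity, h01 := by linarith, h12 := by linarith, h23 := by linarith, hq := hq
    orb := fun k g x hx => ?_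
    w := q, ρK := r / 16, ρR := r / 8, hKR := by linarith
    fib := fun k x hx hA => ?_
    z := z, hz := fun k => ball_subset_closedBall (hz k)
    free := fun k x hx hA => ?_
    z0 := q, ρ0 := r / 32, hρ0 := by positivity
    hz0 := closedBall_subset_closedBall (by linarith)
    hz0q := closedBall_subset_closedBall (by linarith)
    coarse := fun ε hε => ?_ }⟩
  · have h2 := h1 k g x (hq (closedBall_subset_closedBall (by linarith) hx))
    rw [mem_closedBall] at hx ⊢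
    linarith [dist_triangle ((Λ.sub (k + k₁)).act g x) x q]
  · have h2 := supA_dist (Λ := Λ.sub (k + k₁)) hx fun g => h1 k g x hx
    rw [mem_ball] at hA
    rw [mem_closedBall]
    linarith [dist_triangle_left x q ((Λ.sub (k + k₁)).supA x)]
  · by_contra hn
    have hn : ∀ g, (Λ.sub (k + k₁)).act g x = x := fun g => by_contra fun e => hn ⟨g, e⟩
    rw [supA_fix hn] at hA
    obtain ⟨g, hg⟩ := hg k
    exact hg (hA ▸ hn g)
  · filter_upwards [(tendsto_add_atTop_nat k₁).eventually (Λ.small (ε / 2) (by positivity))]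
      with k hk x hx _
    refine ⟨lt_of_le_of_lt (supA_dist (Λ := Λ.sub (k + k₁)) hx fun g => (hk g x hx).le)
      (half_lt_self hε), fun g => (hk g x hx).trans (half_lt_self hε)⟩

/-- `setupB` for a fixed point `y` on the boundary of a ball of fixed points. -/
theorem setupC {c y : Fin n → ℝ} {r s : ℝ} (hr : 0 < r) (hs : 0 < s) (hq : closedBall y r ⊆ Λ.Ω)
    (hc : ∀ x ∈ closedBall c s, ∀ g, Λ.act g x = x) (hy : dist y c = s)
    (hn : ∀ ρ > 0, ∃ z ∈ ball y ρ, ¬ (z ∈ Λ.Ω ∧ ∀ g, Λ.act g z = z)) : Nonempty (Setup n p) := by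
  have hyΩ : y ∈ Λ.Ω := hq (mem_closedBall_self hr.le)
  have hyf : ∀ g, Λ.act g y = y := hc y hy.le
  obtain ⟨δ, hδ, hμ⟩ := Metric.continuousOn_iff.1 (mu_cont (Λ := Λ)) y hyΩ (s / 2) (by positivity)
  obtain ⟨r3, h3, h3r, h3δ⟩ : ∃ r3 > 0, r3 ≤ r ∧ r3 < δ :=
    ⟨min r (δ / 2), by positivity, min_le_left _ _, (min_le_right _ _).trans_lt (half_lt_self hδ)⟩
  have hB : closedBall y r3 ⊆ Λ.Ω := (closedBall_subset_closedBall h3r).trans hq
  obtain ⟨η, hη, hu⟩ := Λ.unif (r3 / 2) (by positivity)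
  obtain ⟨r1, h1, h12, h1η⟩ : ∃ r1 > 0, r1 < r3 / 2 ∧ r1 < η :=
    ⟨min (r3 / 4) (η / 2), by positivity, (min_le_left _ _).trans_lt (by linarith),
      (min_le_right _ _).trans_lt (half_lt_self hη)⟩
  obtain ⟨O, hO⟩ : ∃ O, O = (fun z : ℤ_[p] × (Fin n → ℝ) => Λ.act z.1 z.2) ''
    (univ ×ˢ closedBall y r3) := ⟨_, rfl⟩
  have hOc : IsCompact O := hO ▸ (isCompact_univ.prod (isCompact_closedBall y r3)).image_of_continuousOn
    (Λ.cont.mono (prod_mono_right hB))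
  have hOm : ∀ x, x ∈ O ↔ ∃ g, ∃ x' ∈ closedBall y r3, Λ.act g x' = x := fun x => by
    rw [hO]
    exact ⟨fun ⟨z, hz, e⟩ => ⟨z.1, z.2, hz.2, e⟩, fun ⟨g, x', hx', e⟩ => ⟨(g, x'), ⟨trivial, hx'⟩, e⟩⟩
  have hOΩ : O ⊆ Λ.Ω := fun x hx => by
    obtain ⟨g, x', hx', rfl⟩ := (hOm x).1 hx
    exact Λ.maps g x' (hB hx')
  have key : ∀ x ∈ O, dist (Λ.push c s x) c ≤ s → ∀ g, Λ.act g x = x := fun x hx h => by
    refine push_key hs hc (hOΩ hx) ?_ h
    obtain ⟨g, x', hx', rfl⟩ := (hOm x).1 hx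
    have h2 := hμ x' (hB hx') (lt_of_le_of_lt hx' h3δ)
    rw [mu_fix hyf, Real.dist_eq, sub_zero] at h2
    rw [mu_inv (hB hx')]
    exact (le_abs_self _).trans_lt h2
  obtain ⟨ρ, hρ, hfib⟩ : ∃ ρ > 0, ∀ x ∈ O, Λ.push c s x ∈ ball y ρ → x ∈ ball y (r1 / 2) := by
    have hK : IsCompact (Λ.push c s '' (O \ ball y (r1 / 2))) :=
      (hOc.diff isOpen_ball).image_of_continuousOn ((push_cont c s).mono (sdiff_subset.trans hOΩ))
    obtain ⟨ρ, hρ, h⟩ := Metric.isOpen_iff.1 hK.isClosed.isOpen_compl y (by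
      rintro ⟨x, ⟨hx, hx'⟩, e⟩
      rw [push_fix (key x hx (by rw [e, hy]))] at e
      exact hx' (e ▸ mem_ball_self (by positivity)))
    exact ⟨ρ, hρ, fun x hx hA => by_contra fun e => h hA ⟨x, ⟨hx, e⟩, rfl⟩⟩
  obtain ⟨z, hz, hzn⟩ := hn (min (ρ / 2) r3) (by positivity)
  obtain ⟨t, ht, htρ, htr, hts⟩ : ∃ t > 0, 2 * t ≤ ρ / 2 ∧ 2 * t ≤ r1 / 2 ∧ t ≤ s :=
    ⟨min (min (ρ / 4) (r1 / 4)) s, by positivity,
      by linarith [min_le_left (min (ρ / 4) (r1 / 4)) s, min_le_left (ρ / 4) (r1 / 4)],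
      by linarith [min_le_left (min (ρ / 4) (r1 / 4)) s, min_le_right (ρ / 4) (r1 / 4)],
      min_le_right _ _⟩
  obtain ⟨z0, hz1, hz2⟩ : ∃ z0, dist z0 y = t ∧ dist z0 c = s - t := by
    have e : ‖c - y‖ = s := by rw [← dist_eq_norm, dist_comm, hy]
    refine ⟨y + (t / s) • (c - y), ?_, ?_⟩
    · rw [dist_eq_norm, add_sub_cancel_left, norm_smul, e, Real.norm_of_nonneg (by positivity),
        div_mul_cancel₀ _ hs.ne']
    · have e2 : y + (t / s) • (c - y) - c = -((1 - t / s) • (c - y)) := by module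
      rw [dist_eq_norm, e2, norm_neg, norm_smul, e,
        Real.norm_of_nonneg (sub_nonneg.2 ((div_le_one hs).2 hts))]
      field_simp
  obtain ⟨L, hL⟩ := Λ.exL
  refine ⟨{
    Ω := O, cpt := hOc, L := L, hL := hOΩ.trans hL
    act := fun _ => Λ.act
    maps := fun _ g x hx => ?_
    act_zero := fun _ x hx => Λ.act_zero x (hOΩ hx)
    act_add := fun _ g h x hx => Λ.act_add g h x (hOΩ hx)
    cont := fun _ => Λ.cont.mono (prod_mono_right hOΩ)
    A := fun _ => Λ.push c s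
    Acont := fun _ => (push_cont c s).mono hOΩ
    Ainv := fun _ g x hx => by rw [push, mu_inv (hOΩ hx), supA_inv (hOΩ hx), push]
    q := y, r0 := r1 / 2, r1 := r1, r2 := r3 / 2, r3 := r3
    h0 := by positivity, h01 := by linarith, h12 := h12, h23 := by linarith
    hq := fun x hx => (hOm x).2 ⟨0, x, hx, Λ.act_zero x (hB hx)⟩
    orb := fun _ g x hx => ?_
    w := y, ρK := ρ / 2, ρR := ρ, hKR := by linarith
    fib := fun _ x hx hA => ball_subset_closedBall (hfib x hx hA)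
    z := fun _ => z
    hz := fun _ => ball_subset_closedBall (ball_subset_ball (min_le_left _ _) hz)
    free := fun _ x hx hA => ?_
    z0 := z0, ρ0 := t, hρ0 := ht
    hz0 := closedBall_subset_closedBall' (by linarith)
    hz0q := closedBall_subset_closedBall' (by linarith)
    coarse := fun ε hε => Eventually.of_forall fun _ x hx h => ?_ }⟩
  · obtain ⟨g', x', hx', rfl⟩ := (hOm x).1 hx
    exact (hOm _).2 ⟨g + g', x', hx', Λ.act_add g g' x' (hB hx')⟩
  · have h2 := hu g g x (hB (closedBall_subset_closedBall (by linarith) hx)) y hyΩ (by simpa)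
      (lt_of_le_of_lt hx h1η)
    rw [hyf] at h2
    exact h2.le
  · by_contra hf
    have hf : ∀ g, Λ.act g x = x := fun g => by_contra fun e => hf ⟨g, e⟩
    rw [push_fix hf] at hA
    exact hzn (hA ▸ ⟨hOΩ hx, hf⟩)
  · have hf : ∀ g, Λ.act g x = x := by
      rcases h with h | h
      · exact hc x (by rw [mem_closedBall]; linarith [dist_triangle x z0 c])
      · exact key x hx (by linarith [dist_triangle (Λ.push c s x) z0 c])
    simp only [push_fix hf, hf, dist_self, hε, implies_true, and_self]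

theorem setupB {y : Fin n → ℝ} {r : ℝ} (hr : 0 < r) (hq : closedBall y r ⊆ Λ.Ω)
    (h1 : y ∈ closure (interior {x | x ∈ Λ.Ω ∧ ∀ g, Λ.act g x = x}))
    (h2 : y ∉ interior {x | x ∈ Λ.Ω ∧ ∀ g, Λ.act g x = x}) : Nonempty (Setup n p) := by
  obtain ⟨F, hF⟩ : ∃ F, F = {x | x ∈ Λ.Ω ∧ ∀ g, Λ.act g x = x} := ⟨_, rfl⟩
  rw [← hF] at h1 h2
  obtain ⟨c, hc, hd⟩ := Metric.mem_closure_iff.1 h1 (r / 4) (by positivity)
  have hcl : IsClosed (interior F)ᶜ := isOpen_interior.isClosed_compl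
  obtain ⟨y', hy', he⟩ := hcl.exists_infDist_eq_dist ⟨y, h2⟩ c
  have hs : 0 < dist c y' := dist_pos.2 fun e => hy' (e ▸ hc)
  have hle : dist c y' ≤ dist c y := he ▸ infDist_le_dist_of_mem h2
  have hb : closedBall c (dist c y') ⊆ F := by
    rw [← closure_ball c hs.ne', ← (hF ▸ closed_fix : IsClosed F).closure_eq]
    refine closure_mono fun x hx => interior_subset (by_contra fun e => ?_)
    have h3 : dist c y' ≤ dist c x := he ▸ infDist_le_dist_of_mem e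
    rw [mem_ball, dist_comm] at hx
    linarith
  refine Λ.setupC (c := c) (y := y') (half_pos hr) hs ((closedBall_subset_closedBall' ?_).trans hq)
    (fun x hx => (hF ▸ hb hx : x ∈ {x | x ∈ Λ.Ω ∧ ∀ g, Λ.act g x = x}).2) (dist_comm _ _)
    fun ρ hρ => ?_
  · rw [dist_comm y c] at hd
    linarith [dist_triangle_left y' y c]
  · by_contra hn
    refine hy' (mem_interior_iff_mem_nhds.2 (mem_of_superset (ball_mem_nhds y' hρ) fun z hz => ?_))
    rw [hF]
    exact by_contra fun e => hn ⟨z, hz, e⟩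

end Loc

end Vale.Agent.P228
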