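import Vale.Agent.P228.RhoC
import Vale.Agent.P228.LatOb
import Vale.Agent.P228.CtlFun

/-! From raw packages to Poincare complexes in controlled categories.

Plans.
* `RawPkg.chain`, `RawPkg.poinc`: `mk_mul`, `mk_add`, `mk_sub`, `mk_ad` turn the equations in the
  category into `mk' f = mk' g`; `mk_eq_of_col` (a position within `ρ` of `y ∈ U` lies in the open
  set `U`, so `Fit.inn` applies). `tw_poinc`, `TorD.sym_poinc`.
* `rel_pull`: `rel_of_mk` with `Equiv.refl`, or `CFun.sym_tw` and `Rel.of_iso 1 1`;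
  `Pull.map_mk`. The objects `P.obj (T.full.ob n)` and `(T.pull P).full.ob n` are equal by `rfl`.
* `tor1`, `fit1`: for `y ∈ ball w ρR` take `ρ` with `ball y ρ ⊆ ball w ρR`; `Setup.of_A_cl`,
  `clamp_eq`, `Setup.unifA`, `σ.Ainv`, `σ.orb`, `Adj.dist_le`, `tendsto_msh`,
  `eventually_curry_iff`. In `fit1` use `η k = min (modulus of A k) (r3 - r2)`. -/

namespace Vale.Agent.P228

open Matrix Complex Metric Filter Dag CDag Sym

variable {n p : ℕ} [Fact p.Prime] {σ : Setup n p}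

section

variable {I : Type} {Y : Type} [PseudoMetricSpace Y] {l : Filter I} {U : Set Y}

/-- The positions are compatible with the action. -/
structure Fit (σ : Setup n p) (T : TorD n σ.L l U) (kk : I → ℕ) : Prop where
  op : IsOpen U
  isC : ∀ M, σ.OCar l kk T.m M → T.IsC M
  inn : ∀ i x, T.q i x ∈ U → xr x ∈ closedBall σ.q σ.r0

section aux

variable {L : ℕ} {T : TorD n L l U} {f g : ∀ i, LM n L (T.m i)}

theorem TorD.pkg_ld (T : TorD n L l U) : T.IsC (fun i => ld n L (T.m i)) := T.full.isC_rd n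

theorem TorD.pkg_lS (T : TorD n L l U) : T.IsC (fun i => lS n L (T.m i)) := T.full.isC_rS n

theorem TorD.IsC.pkg_mul (hf : T.IsC f) (hg : T.IsC g) : T.IsC (fun i => f i * g i) :=
  Ctl.IsC.mul hf hg

theorem TorD.IsC.pkg_add (hf : T.IsC f) (hg : T.IsC g) : T.IsC (fun i => f i + g i) :=
  Ctl.IsC.add hf hg

theorem TorD.IsC.pkg_sub (hf : T.IsC f) (hg : T.IsC g) : T.IsC (fun i => f i - g i) :=
  Ctl.IsC.sub hf hg

theorem TorD.IsC.pkg_ad (hf : T.IsC f) : T.IsC (fun i => (f i)ᴴ) := Ctl.IsC.ad hf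

theorem TorD.pkg_hom_mul (hf : T.IsC f) (hg : T.IsC g) :
    T.hom (fun i => f i * g i) = T.hom f * T.hom g := Ctl.mk_mul hf hg

theorem TorD.pkg_hom_add (hf : T.IsC f) (hg : T.IsC g) :
    T.hom (fun i => f i + g i) = T.hom f + T.hom g := Ctl.mk_add hf hg

theorem TorD.pkg_hom_sub (hf : T.IsC f) (hg : T.IsC g) :
    T.hom (fun i => f i - g i) = T.hom f - T.hom g := Ctl.mk_sub hf hg

theorem TorD.pkg_hom_ad (hf : T.IsC f) : T.hom (fun i => (f i)ᴴ) = (T.hom f).ad := Ctl.mk_ad hf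

end aux

variable {T : TorD n σ.L l U} {kk : I → ℕ} {e : ∀ i, LM n σ.L (T.m i)}

theorem Fit.pkg_eq (F : Fit σ T kk) {M M' : ∀ i, LM n σ.L (T.m i)} (hM : T.IsC M)
    (hM' : T.IsC M') (h : σ.ColEq l T.m M M') : T.hom M = T.hom M' := by
  refine Ctl.mk_eq_of_col hM hM' fun y hy => ?_
  obtain ⟨ρ, hρ, hb⟩ := Metric.isOpen_iff.1 F.op y hy
  exact ⟨ρ, hρ, h.mono fun i hi a b hd => hi b (F.inn i _ (hb hd)) a⟩

theorem Fit.chain (F : Fit σ T kk) (h : σ.RawPkg l kk T.m e) :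
    T.sym.d * T.hom e = T.hom e * T.sym.d := by
  have he := F.isC e h.car
  have h1 := F.pkg_eq (T.pkg_ld.pkg_mul he) (he.pkg_mul T.pkg_ld) h.ch
  rw [TorD.pkg_hom_mul T.pkg_ld he, TorD.pkg_hom_mul he T.pkg_ld] at h1
  exact h1

theorem Fit.poinc (F : Fit σ T kk) (h : σ.RawPkg l kk T.m e) :
    (T.sym.tw (T.hom e) (F.chain h)).Poinc := by
  have he := F.isC e h.car
  have hd := T.pkg_ld
  have hS := T.pkg_lS
  refine Sym.tw_poinc (F.chain h) T.sym_poinc ?_ ?_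
  · obtain ⟨H, hH, h1⟩ := h.idem
    have hc := F.isC H hH
    have h2 := F.pkg_eq ((he.pkg_mul he).pkg_sub he) ((hd.pkg_mul hc).pkg_add (hc.pkg_mul hd)) h1
    rw [TorD.pkg_hom_sub (he.pkg_mul he) he, TorD.pkg_hom_mul he he,
      TorD.pkg_hom_add (hd.pkg_mul hc) (hc.pkg_mul hd), TorD.pkg_hom_mul hd hc,
      TorD.pkg_hom_mul hc hd] at h2
    exact ⟨T.hom H, h2⟩
  · obtain ⟨H, hH, h1⟩ := h.dual
    have hc := F.isC H hH
    have h2 := F.pkg_eq ((he.pkg_mul hS).pkg_sub (hS.pkg_mul he.pkg_ad))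
      ((hd.pkg_mul hc).pkg_sub (hc.pkg_mul hd.pkg_ad)) h1
    rw [TorD.pkg_hom_sub (he.pkg_mul hS) (hS.pkg_mul he.pkg_ad), TorD.pkg_hom_mul he hS,
      TorD.pkg_hom_mul hS he.pkg_ad, TorD.pkg_hom_ad he,
      TorD.pkg_hom_sub (hd.pkg_mul hc) (hc.pkg_mul hd.pkg_ad), TorD.pkg_hom_mul hd hc,
      TorD.pkg_hom_mul hc hd.pkg_ad, TorD.pkg_hom_ad hd] at h2
    refine ⟨T.hom H, h2.trans ?_⟩
    rw [m_neg, sub_eq_add_neg]
    rfl

end

section

variable {I I' : Type} {Y Y' : Type} [MetricSpace Y] [PseudoMetricSpace Y'] {l : Filter I}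
  {l' : Filter I'} {U : Set Y} {U' : Set Y'} {L : ℕ}

/-- Pull back a family of tori. -/
@[reducible] def TorD.pull (T : TorD n L l' U') (P : Pull l U l' U') : TorD n L l U where
  m i := T.m (P.j i)
  q i x := P.π (T.q (P.j i) x)
  ctl := P.relCtl T.ctl

variable (T : TorD n L l' U') (P : Pull l U l' U') {e : ∀ i, LM n L (T.m i)}

theorem TorD.isC_pull (he : T.IsC e) : (T.pull P).IsC (fun i => e (P.j i)) := P.isC he

theorem TorD.pkg_map (he : T.IsC e) :
    P.fn.map (T.hom e) = (T.pull P).hom (fun i => e (P.j i)) := P.map_mk he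

theorem TorD.chain_pull (he : T.IsC e) (h : T.sym.d * T.hom e = T.hom e * T.sym.d) :
    (T.pull P).sym.d * (T.pull P).hom (fun i => e (P.j i)) =
      (T.pull P).hom (fun i => e (P.j i)) * (T.pull P).sym.d := by
  have h1 := congrArg P.fn.map h
  rw [P.fn.map_mul, P.fn.map_mul, T.sym_d, T.pkg_map P he, T.pkg_map P T.pkg_ld] at h1
  exact h1

theorem TorD.rel_pull (he : T.IsC e) (h : T.sym.d * T.hom e = T.hom e * T.sym.d) :
    Rel (P.fn.sym (T.sym.tw (T.hom e) h))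
      ((T.pull P).sym.tw ((T.pull P).hom fun i => e (P.j i)) (T.chain_pull P he h)) := by
  have hd : P.fn.map T.sym.d = (T.pull P).sym.d := T.pkg_map P T.pkg_ld
  have hS : P.fn.map T.sym.S = (T.pull P).sym.S := T.pkg_map P T.pkg_lS
  have h1 : P.fn.map (T.sym.S - T.hom e * T.sym.S - T.sym.S * (T.hom e).ad) =
      (T.pull P).sym.S - (T.pull P).hom (fun i => e (P.j i)) * (T.pull P).sym.S -
        (T.pull P).sym.S * ((T.pull P).hom fun i => e (P.j i)).ad := by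
    rw [map_sub, map_sub, P.fn.map_mul, P.fn.map_mul, P.fn.map_ad, hS, T.pkg_map P he]
    rfl
  refine Rel.of_iso (1 : Hom (T.pull P).sym.E (T.pull P).sym.E)
    (1 : Hom (T.pull P).sym.E (T.pull P).sym.E) (one_m _) (one_m _) ?_ ?_
  · exact ((m_one _).trans hd).trans (one_m _).symm
  · refine Eq.trans ?_ h1.symm
    have h2 : ∀ x : Hom (T.pull P).sym.E (T.pull P).sym.E,
        (1 : Hom (T.pull P).sym.E (T.pull P).sym.E) * x *
          (1 : Hom (T.pull P).sym.E (T.pull P).sym.E).ad = x := fun x => by simp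
    exact h2 _

end

namespace Setup

theorem pkg_adj {k i : ℕ} {a b : Tor n σ.L i} (h : Adj a b)
    (ha : σ.A k (σ.cl (xr a)) ∈ ball σ.w σ.ρR) (hi : msh i < σ.r3 - σ.r0) :
    dist (σ.cl (xr a)) (σ.cl (xr b)) ≤ msh i := by
  obtain ⟨h1, h2⟩ := σ.of_A_cl ha
  have h3 : xr a ∈ σ.Ω := h1 ▸ σ.cl_mem _
  have h4 := h.dist_le ((mem_closedBall_zero_iff.1 (σ.hL h3)).trans_lt (lt_add_one _))
  have h5 : xr b ∈ closedBall σ.q σ.r3 := by
    have h6 := dist_triangle_left (xr b) σ.q (xr a)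
    have h7 : dist (xr a) σ.q ≤ σ.r0 := h2
    exact (show dist (xr b) σ.q ≤ σ.r3 by linarith)
  rw [h1, show σ.cl (xr b) = xr b from clamp_eq h5]
  exact h4

variable (σ) (G : Set ℕ)

/-- The tori over all slices in `G`, with positions given by the invariant maps. -/
@[reducible] noncomputable def tor1 : TorD n σ.L (lG G) (ball σ.w σ.ρR) where
  m := Prod.snd
  q ki x := σ.A ki.1 (σ.cl (xr x))
  ctl := by
    intro y hy
    obtain ⟨ρ, hρ, hb⟩ := Metric.isOpen_iff.1 isOpen_ball y hy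
    refine ⟨ρ, hρ, fun ε hε => eventually_curry_iff.2 (Eventually.of_forall fun k => ?_)⟩
    obtain ⟨η, hη, hA⟩ := σ.unifA k ε hε
    have h0 : 0 < σ.r3 - σ.r0 := by linarith [σ.h01, σ.h12, σ.h23]
    filter_upwards [tendsto_msh.eventually_lt_const hη, tendsto_msh.eventually_lt_const h0] with
      i h1 h2 a b hab hd
    refine hA _ (σ.cl_mem _) _ (σ.cl_mem _) (lt_of_le_of_lt ?_ h1)
    rcases hd with hd | hd
    · exact pkg_adj hab (hb hd) h2
    · rw [dist_comm]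
      exact pkg_adj hab.symm (hb hd) h2

theorem fit1 : Fit σ (σ.tor1 G) Prod.fst := by
  refine ⟨isOpen_ball, fun M hM y hy => ?_, fun i x h => (σ.of_A_cl h).2⟩
  obtain ⟨ρ, hρ, hb⟩ := Metric.isOpen_iff.1 isOpen_ball y hy
  refine ⟨ρ, hρ, fun ε hε => ?_⟩
  choose η hη hA using fun k => σ.unifA k ε hε
  have h0 : 0 < σ.r3 - σ.r2 := sub_pos.2 σ.h23
  filter_upwards [hM (fun k => min (η k) (σ.r3 - σ.r2)) fun k => lt_min (hη k) h0] with
    ki h1 x c hxc hd
  obtain ⟨h2, g, h3⟩ := h1 x c hxc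
  have h4 : σ.cl (cx c) = cx c := clamp_eq h2
  have h5 : cx c ∈ σ.Ω := σ.hq h2
  have h6 : σ.cl (cx x) = cx x := by
    rcases hd with hd | hd
    · exact (σ.of_A_cl (hb hd)).1
    · have h7 := σ.orb ki.1 g _ (closedBall_subset_closedBall σ.h01.le (σ.of_A_cl (hb hd)).2)
      have h8 := dist_triangle (cx x) (σ.act ki.1 g (cx c)) σ.q
      have h9 : dist (σ.act ki.1 g (cx c)) σ.q ≤ σ.r2 := h7
      have h10 := h3.trans_le (min_le_right _ _)
      exact clamp_eq (show dist (cx x) σ.q ≤ σ.r3 by linarith)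
  have h7 : cx x ∈ σ.Ω := h6 ▸ σ.cl_mem _
  have h8 := hA ki.1 _ h7 _ (σ.maps ki.1 g _ h5) (h3.trans_le (min_le_left _ _))
  rw [σ.Ainv ki.1 g _ h5, ← h6, ← h4] at h8
  exact h8

end Setup

end Vale.Agent.P228
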