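import Vale.Agent.P228.Loc

/-! From a faithful action on a connected manifold to a `Setup`.

Plans.
* `exists_loc`: by the tube lemma (`generalized_tube_lemma` for the compact sets `univ` and `{x₀}`)
  a neighbourhood of `x₀` has all its orbits in `e.source`; take `r` with
  `K = e.symm '' closedBall (e x₀) r` inside it, `Ω = e '' (orbits of K)`,
  `act g x = e (g +ᵥ e.symm x)` written with the action map `a`.
* `exists_setup`: `F k = {x | ∀ g, (p ^ k * g) +ᵥ x = x}` is closed and `≠ univ` by faithfulness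
  (`p ^ k ≠ 0`). Charts: `(chartAt _ x).trans` the homeomorphism `EuclideanSpace ℝ (Fin n) ≃ₜ
  (Fin n → ℝ)` (`(EuclideanSpace.equiv _ _).toHomeomorph.toOpenPartialHomeomorph`).
  Case A, all `interior (F k) = ∅`: take any `x₀`, `k₀` with `p ^ k₀ * g +ᵥ x₀` in the chart for all
  `g` (continuity at `0`), `exists_loc` for the action `g ↦ p ^ k₀ * g`, `Loc.setupA`.
  Case B, `W = interior (F k₀) ≠ ∅`: `W` is open, not empty, not `univ`, so not closed
  (`isClopen_iff`); take `y ∈ closure W \ W`; it is fixed; `exists_loc` at `y`, `Loc.setupB`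
  (transport interiors through the chart, near `y`). -/

namespace Vale.Agent.P228

open Metric Filter Set

variable {n p : ℕ} [Fact p.Prime] {M : Type*} [TopologicalSpace M]

theorem exists_loc (a : ℤ_[p] → M → M) (ha : Continuous fun z : ℤ_[p] × M => a z.1 z.2)
    (h0 : ∀ x, a 0 x = x) (hadd : ∀ g h x, a (g + h) x = a g (a h x))
    (e : OpenPartialHomeomorph M (Fin n → ℝ)) (x₀ : M) (hx : ∀ g, a g x₀ ∈ e.source) :
    ∃ (Λ : Loc n p) (r : ℝ), 0 < r ∧ closedBall (e x₀) r ⊆ Λ.Ω ∧ Λ.Ω ⊆ e.target ∧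
      ∀ g, ∀ x ∈ Λ.Ω, a g (e.symm x) ∈ e.source ∧ Λ.act g x = e (a g (e.symm x)) := by
  have hopen : IsOpen {z : ℤ_[p] × M | a z.1 z.2 ∈ e.source} := e.open_source.preimage ha
  obtain ⟨u, v, -, hv, hu, hxv, huv⟩ := generalized_tube_lemma (isCompact_univ (X := ℤ_[p]))
    (isCompact_singleton (x := x₀)) hopen (by
      rintro ⟨g, x⟩ ⟨-, hx'⟩
      rw [mem_singleton_iff] at hx'
      change a g x ∈ e.source
      have : x = x₀ := hx'
      rw [this]
      exact hx g)
  have hsv : ∀ g, ∀ x ∈ v, a g x ∈ e.source := fun g x hxv' =>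
    huv (mk_mem_prod (hu (mem_univ g)) hxv')
  have hx0 : x₀ ∈ e.source := by simpa [h0] using hx 0
  have hV : IsOpen (e.target ∩ e.symm ⁻¹' v) := e.isOpen_inter_preimage_symm hv
  have hxV : e x₀ ∈ e.target ∩ e.symm ⁻¹' v :=
    ⟨e.map_source hx0, by
      rw [mem_preimage, e.left_inv hx0]
      exact hxv (mem_singleton _)⟩
  obtain ⟨r, hr, hrV⟩ := Metric.nhds_basis_closedBall.mem_iff.1 (hV.mem_nhds hxV)
  have hK : IsCompact (e.symm '' closedBall (e x₀) r) :=
    (isCompact_closedBall _ _).image_of_continuousOn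
      (e.continuousOn_symm.mono fun z hz => (hrV hz).1)
  set O : Set M := (fun z : ℤ_[p] × M => a z.1 z.2) '' (univ ×ˢ (e.symm '' closedBall (e x₀) r))
    with hO
  have hOc : IsCompact O := (isCompact_univ.prod hK).image ha
  have hOs : O ⊆ e.source := by
    rintro _ ⟨⟨g, x⟩, ⟨-, z, hz, rfl⟩, rfl⟩
    exact hsv g _ (hrV hz).2
  have hOa : ∀ g, ∀ x ∈ O, a g x ∈ O := by
    rintro g _ ⟨⟨h, x⟩, ⟨-, hx'⟩, rfl⟩
    exact ⟨(g + h, x), ⟨mem_univ _, hx'⟩, hadd g h x⟩
  have hsymm : ∀ x ∈ e '' O, e.symm x ∈ O := by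
    rintro _ ⟨x, hx', rfl⟩
    rwa [e.left_inv (hOs hx')]
  have htar : e '' O ⊆ e.target := by
    rintro _ ⟨x, hx', rfl⟩
    exact e.map_source (hOs hx')
  refine ⟨{ Ω := e '' O
            cpt := hOc.image_of_continuousOn (e.continuousOn.mono hOs)
            act := fun g x => e (a g (e.symm x))
            maps := fun g x hx' => ⟨_, hOa g _ (hsymm x hx'), rfl⟩
            act_zero := fun x hx' => by rw [h0, e.right_inv (htar hx')]
            act_add := fun g h x hx' => by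
              rw [e.left_inv (hOs (hOa h _ (hsymm x hx'))), hadd]
            cont := ?_ }, r, hr, ?_, htar, fun g x hx' => ⟨hOs (hOa g _ (hsymm x hx')), rfl⟩⟩
  · have h1 : ContinuousOn (fun z : ℤ_[p] × (Fin n → ℝ) => (z.1, e.symm z.2))
        (univ ×ˢ (e '' O)) :=
      continuousOn_fst.prodMk
        (e.continuousOn_symm.comp continuousOn_snd fun z hz => htar hz.2)
    exact e.continuousOn.comp (ha.comp_continuousOn h1)
      fun z hz => hOs (hOa _ _ (hsymm _ hz.2))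
  · intro z hz
    refine ⟨e.symm z, ⟨(0, e.symm z), ⟨mem_univ _, z, hz, rfl⟩, h0 _⟩, ?_⟩
    exact e.right_inv (hrV hz).1

theorem rd_chart [ChartedSpace (EuclideanSpace ℝ (Fin n)) M] (x : M) :
    ∃ e : OpenPartialHomeomorph M (Fin n → ℝ), x ∈ e.source :=
  ⟨(chartAt (EuclideanSpace ℝ (Fin n)) x).trans
    (EuclideanSpace.equiv (Fin n) ℝ).toHomeomorph.toOpenPartialHomeomorph, by simp⟩

theorem rd_small {δ : ℝ} (hδ : 0 < δ) : ∃ k : ℕ, ∀ g : ℤ_[p], ‖(p : ℤ_[p]) ^ k * g‖ < δ := by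
  have h1 : ‖(p : ℤ_[p])‖ < 1 := by
    rw [PadicInt.norm_p]
    exact inv_lt_one_of_one_lt₀ (by exact_mod_cast (Fact.out : p.Prime).one_lt)
  obtain ⟨k, hk⟩ := exists_pow_lt_of_lt_one hδ h1
  refine ⟨k, fun g => ?_⟩
  rw [norm_mul, norm_pow]
  exact (mul_le_of_le_one_right (by positivity) (PadicInt.norm_le_one g)).trans_lt hk

theorem rd_loc [AddAction ℤ_[p] M] [ContinuousVAdd ℤ_[p] M] (k : ℕ)
    (e : OpenPartialHomeomorph M (Fin n → ℝ)) (x₀ : M)
    (hx : ∀ g : ℤ_[p], ((p : ℤ_[p]) ^ k * g) +ᵥ x₀ ∈ e.source) :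
    ∃ (Λ : Loc n p) (r : ℝ), 0 < r ∧ closedBall (e x₀) r ⊆ Λ.Ω ∧ Λ.Ω ⊆ e.target ∧
      ∀ g, ∀ x ∈ Λ.Ω, ((p : ℤ_[p]) ^ k * g) +ᵥ e.symm x ∈ e.source ∧
        Λ.act g x = e (((p : ℤ_[p]) ^ k * g) +ᵥ e.symm x) :=
  exists_loc (fun g x => ((p : ℤ_[p]) ^ k * g) +ᵥ x)
    ((continuous_const.mul continuous_fst).vadd continuous_snd) (fun x => by simp)
    (fun g h x => by rw [mul_add, add_vadd]) e x₀ hx

theorem exists_setup [T2Space M] [ConnectedSpace M]
    [ChartedSpace (EuclideanSpace ℝ (Fin n)) M]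
    [AddAction ℤ_[p] M] [ContinuousVAdd ℤ_[p] M] [FaithfulVAdd ℤ_[p] M] :
    Nonempty (Setup n p) := by
  set F : ℕ → Set M := fun k => {x | ∀ g : ℤ_[p], ((p : ℤ_[p]) ^ k * g) +ᵥ x = x} with hF
  by_cases hA : ∀ k, interior (F k) = ∅
  · obtain ⟨x₀⟩ : Nonempty M := inferInstance
    obtain ⟨e, hx0⟩ := rd_chart (n := n) x₀
    have hc : Continuous fun g : ℤ_[p] => g +ᵥ x₀ := continuous_id.vadd continuous_const
    have hn : (fun g : ℤ_[p] => g +ᵥ x₀) ⁻¹' e.source ∈ nhds (0 : ℤ_[p]) :=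
      (e.open_source.preimage hc).mem_nhds (by simpa using hx0)
    obtain ⟨δ, hδ, hδn⟩ := Metric.mem_nhds_iff.1 hn
    obtain ⟨k₀, hk₀⟩ := rd_small (p := p) hδ
    obtain ⟨Λ, r, hr, hq, -, hact⟩ := rd_loc (p := p) k₀ e x₀ fun g =>
      hδn (by simpa using hk₀ g)
    refine Λ.setupA hr hq fun k ρ hρ => ?_
    by_contra hcon
    push Not at hcon
    have hU : IsOpen (e.source ∩ e ⁻¹' ball (e x₀) (min ρ r)) :=
      e.isOpen_inter_preimage isOpen_ball
    have hsub : e.source ∩ e ⁻¹' ball (e x₀) (min ρ r) ⊆ F (k₀ + k) := by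
      rintro x ⟨hxs, hxb⟩ g
      have hx1 : e x ∈ ball (e x₀) ρ := ball_subset_ball (min_le_left _ _) hxb
      have hx2 : e x ∈ Λ.Ω :=
        hq (ball_subset_closedBall (ball_subset_ball (min_le_right _ _) hxb))
      obtain ⟨h1, h2⟩ := hact ((p : ℤ_[p]) ^ k * g) _ hx2
      rw [hcon _ hx1 g] at h2
      rw [e.left_inv hxs, ← mul_assoc, ← pow_add] at h1 h2
      exact (e.injOn hxs h1 h2).symm
    have hmem : x₀ ∈ interior (F (k₀ + k)) :=
      interior_maximal hsub hU ⟨hx0, mem_ball_self (lt_min hρ hr)⟩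
    rw [hA] at hmem
    exact hmem
  · push Not at hA
    obtain ⟨k₀, hne⟩ := hA
    have hFc : IsClosed (F k₀) := by
      simp only [hF, Set.ofPred_forall]
      exact isClosed_iInter fun g => isClosed_eq (continuous_const.vadd continuous_id) continuous_id
    have hFu : interior (F k₀) ≠ univ := by
      intro h
      have h1 : (p : ℤ_[p]) ^ k₀ * 1 = 0 := by
        refine FaithfulVAdd.eq_of_vadd_eq_vadd (P := M) fun x => ?_
        have hx : x ∈ F k₀ := interior_subset (h ▸ mem_univ x)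
        rw [hx 1, zero_vadd]
      rw [mul_one] at h1
      exact pow_ne_zero k₀ (Nat.cast_ne_zero.2 (Fact.out : p.Prime).ne_zero) h1
    have hnc : ¬ closure (interior (F k₀)) ⊆ interior (F k₀) := by
      intro h
      rcases isClopen_iff.1 ⟨closure_subset_iff_isClosed.1 h, isOpen_interior⟩ with h1 | h1
      · exact hne.ne_empty h1
      · exact hFu h1
    obtain ⟨y, hy1, hy2⟩ := not_subset.1 hnc
    have hyF : y ∈ F k₀ := closure_minimal interior_subset hFc hy1
    obtain ⟨e, hy0⟩ := rd_chart (n := n) y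
    obtain ⟨Λ, r, hr, hq, htar, hact⟩ := rd_loc (p := p) k₀ e y fun g => by
      rw [hyF g]; exact hy0
    refine Λ.setupB hr hq ?_ ?_
    · rw [Metric.mem_closure_iff]
      intro ε hε
      have hU : IsOpen (e.source ∩ e ⁻¹' ball (e y) (min ε r)) :=
        e.isOpen_inter_preimage isOpen_ball
      obtain ⟨x, ⟨hxs, hxb⟩, hxW⟩ := mem_closure_iff.1 hy1 _ hU
        ⟨hy0, mem_ball_self (lt_min hε hr)⟩
      refine ⟨e x, ?_, ?_⟩
      · have hV : IsOpen (ball (e y) r ∩ (e.target ∩ e.symm ⁻¹' interior (F k₀))) :=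
          isOpen_ball.inter (e.isOpen_inter_preimage_symm isOpen_interior)
        refine interior_maximal ?_ hV ⟨ball_subset_ball (min_le_right _ _) hxb,
          e.map_source hxs, by rwa [mem_preimage, e.left_inv hxs]⟩
        rintro z ⟨hz1, hz2, hz3⟩
        have hz4 : z ∈ Λ.Ω := hq (ball_subset_closedBall hz1)
        refine ⟨hz4, fun g => ?_⟩
        have hz5 : e.symm z ∈ F k₀ := interior_subset hz3
        rw [(hact g z hz4).2, hz5 g, e.right_inv hz2]
      · rw [dist_comm]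
        exact ball_subset_ball (min_le_left _ _) hxb
    · intro h
      have hU : IsOpen (e.source ∩ e ⁻¹' interior {x | x ∈ Λ.Ω ∧ ∀ g, Λ.act g x = x}) :=
        e.isOpen_inter_preimage isOpen_interior
      refine hy2 (interior_maximal ?_ hU ⟨hy0, h⟩)
      rintro x ⟨hxs, hxb⟩ g
      obtain ⟨hx1, hx2⟩ := interior_subset hxb
      obtain ⟨h1, h2⟩ := hact g _ hx1
      rw [hx2 g] at h2
      rw [e.left_inv hxs] at h1 h2
      exact (e.injOn hxs h1 h2).symm

end Vale.Agent.P228
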