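import Mathlib

/-! The local geometric data extracted from a faithful action of `ℤ_[p]`.

Plans: uniform continuity on compact sets (`IsCompact.uniformContinuousOn_of_continuous` on
`univ ×ˢ Ω`, `ℤ_[p]` is compact). `clamp`: coordinatewise inequalities (`dist_pi_le_iff`). -/

namespace Vale.Agent.P228

open Metric Filter Set

/-- Actions `act k` of `ℤ_[p]` on a compact subset of `ℝ^n` with invariant maps `A k`. -/
structure Setup (n p : ℕ) [Fact p.Prime] where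
  Ω : Set (Fin n → ℝ)
  cpt : IsCompact Ω
  L : ℕ
  hL : Ω ⊆ closedBall 0 L
  act : ℕ → ℤ_[p] → (Fin n → ℝ) → Fin n → ℝ
  maps : ∀ k g, ∀ x ∈ Ω, act k g x ∈ Ω
  act_zero : ∀ k, ∀ x ∈ Ω, act k 0 x = x
  act_add : ∀ k g h, ∀ x ∈ Ω, act k (g + h) x = act k g (act k h x)
  cont : ∀ k, ContinuousOn (fun z : ℤ_[p] × (Fin n → ℝ) => act k z.1 z.2) (univ ×ˢ Ω)
  A : ℕ → (Fin n → ℝ) → Fin n → ℝ
  Acont : ∀ k, ContinuousOn (A k) Ω
  Ainv : ∀ k g, ∀ x ∈ Ω, A k (act k g x) = A k x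
  q : Fin n → ℝ
  r0 : ℝ
  r1 : ℝ
  r2 : ℝ
  r3 : ℝ
  h0 : 0 < r0
  h01 : r0 < r1
  h12 : r1 < r2
  h23 : r2 < r3
  hq : closedBall q r3 ⊆ Ω
  orb : ∀ k g, ∀ x ∈ closedBall q r1, act k g x ∈ closedBall q r2
  w : Fin n → ℝ
  ρK : ℝ
  ρR : ℝ
  hKR : ρK < ρR
  fib : ∀ k, ∀ x ∈ Ω, A k x ∈ ball w ρR → x ∈ closedBall q r0
  z : ℕ → Fin n → ℝ
  hz : ∀ k, z k ∈ closedBall w ρK
  free : ∀ k, ∀ x ∈ Ω, A k x = z k → ∃ g, act k g x ≠ x
  z0 : Fin n → ℝ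
  ρ0 : ℝ
  hρ0 : 0 < ρ0
  hz0 : closedBall z0 ρ0 ⊆ closedBall w ρK
  hz0q : closedBall z0 ρ0 ⊆ closedBall q r0
  coarse : ∀ ε > 0, ∀ᶠ k in atTop, ∀ x ∈ Ω, (dist x z0 ≤ ρ0 ∨ dist (A k x) z0 ≤ ρ0) →
    dist (A k x) x < ε ∧ ∀ g, dist (act k g x) x < ε

/-- Nearest point projection onto a box. -/
def clamp {n : ℕ} (q : Fin n → ℝ) (r : ℝ) (x : Fin n → ℝ) : Fin n → ℝ :=
  fun t => max (q t - r) (min (x t) (q t + r))

variable {n p : ℕ} [Fact p.Prime]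

theorem clamp_mem (q : Fin n → ℝ) {r : ℝ} (hr : 0 ≤ r) (x : Fin n → ℝ) :
    clamp q r x ∈ closedBall q r := by
  rw [mem_closedBall, dist_pi_le_iff hr]
  intro t
  rw [Real.dist_eq, abs_le]
  have h1 := le_max_left (q t - r) (min (x t) (q t + r))
  have h2 : max (q t - r) (min (x t) (q t + r)) ≤ q t + r :=
    max_le (by linarith) (min_le_right _ _)
  unfold clamp
  constructor <;> linarith

theorem clamp_eq {q x : Fin n → ℝ} {r : ℝ} (h : x ∈ closedBall q r) : clamp q r x = x := by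
  funext t
  have h1 : dist (x t) (q t) ≤ r := (dist_le_pi_dist x q t).trans h
  rw [Real.dist_eq, abs_le] at h1
  unfold clamp
  rw [min_eq_left (by linarith), max_eq_right (by linarith)]

theorem eq_of_clamp {q x : Fin n → ℝ} {r : ℝ} (h : clamp q r x ∈ ball q r) : clamp q r x = x := by
  funext t
  have h1 : dist (clamp q r x t) (q t) < r := (dist_le_pi_dist (clamp q r x) q t).trans_lt h
  rw [Real.dist_eq, abs_lt] at h1
  unfold clamp at h1 ⊢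
  have h2 : max (q t - r) (min (x t) (q t + r)) = min (x t) (q t + r) := by
    rcases max_cases (q t - r) (min (x t) (q t + r)) with h3 | h3
    · rw [h3.1] at h1; linarith [h1.1]
    · exact h3.1
  rw [h2] at h1 ⊢
  rcases min_cases (x t) (q t + r) with h3 | h3
  · exact h3.1
  · rw [h3.1] at h1; linarith [h1.2]

namespace Setup

variable (σ : Setup n p)

theorem unif (k : ℕ) : ∀ ε > 0, ∃ η > 0, ∀ g h : ℤ_[p], ∀ x ∈ σ.Ω, ∀ y ∈ σ.Ω,
    ‖g - h‖ < η → dist x y < η → dist (σ.act k g x) (σ.act k h y) < ε := by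
  intro ε hε
  have hu := (isCompact_univ.prod σ.cpt).uniformContinuousOn_of_continuous (σ.cont k)
  rw [Metric.uniformContinuousOn_iff] at hu
  obtain ⟨η, hη, h⟩ := hu ε hε
  refine ⟨η, hη, fun g g' x hx y hy hg hxy => ?_⟩
  refine h (g, x) ⟨mem_univ _, hx⟩ (g', y) ⟨mem_univ _, hy⟩ ?_
  rw [Prod.dist_eq]
  exact max_lt (by rwa [dist_eq_norm]) hxy

theorem unifA (k : ℕ) : ∀ ε > 0, ∃ η > 0, ∀ x ∈ σ.Ω, ∀ y ∈ σ.Ω,
    dist x y < η → dist (σ.A k x) (σ.A k y) < ε := by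
  intro ε hε
  have hu := σ.cpt.uniformContinuousOn_of_continuous (σ.Acont k)
  rw [Metric.uniformContinuousOn_iff] at hu
  exact hu ε hε

theorem act_neg (k : ℕ) (g : ℤ_[p]) {x : Fin n → ℝ} (hx : x ∈ σ.Ω) :
    σ.act k (-g) (σ.act k g x) = x := by
  rw [← σ.act_add k _ _ x hx, neg_add_cancel, σ.act_zero k x hx]

/-- If `y` is close to `g x` then `x` is close to `(-g) y`. -/
theorem unif_inv (k : ℕ) : ∀ ε > 0, ∃ η > 0, ∀ g : ℤ_[p], ∀ x ∈ σ.Ω, ∀ y ∈ σ.Ω,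
    dist y (σ.act k g x) < η → dist x (σ.act k (-g) y) < ε := by
  intro ε hε
  obtain ⟨η, hη, h⟩ := σ.unif k ε hε
  refine ⟨η, hη, fun g x hx y hy hxy => ?_⟩
  have h1 := h (-g) (-g) _ (σ.maps k g x hx) y hy (by simpa using hη) (by rwa [dist_comm])
  rwa [σ.act_neg k g hx] at h1

/-- The clamped point. -/
def cl (x : Fin n → ℝ) : Fin n → ℝ := clamp σ.q σ.r3 x

theorem cl_mem (x : Fin n → ℝ) : σ.cl x ∈ σ.Ω :=
  σ.hq (clamp_mem σ.q (by linarith [σ.h0, σ.h01, σ.h12, σ.h23]) x)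

theorem of_A_cl {k : ℕ} {x : Fin n → ℝ} (h : σ.A k (σ.cl x) ∈ ball σ.w σ.ρR) :
    σ.cl x = x ∧ x ∈ closedBall σ.q σ.r0 := by
  have h1 := σ.fib k _ (σ.cl_mem x) h
  have h2 : σ.cl x = x :=
    eq_of_clamp (closedBall_subset_ball (by linarith [σ.h01, σ.h12, σ.h23]) h1)
  exact ⟨h2, h2 ▸ h1⟩

end Setup

end Vale.Agent.P228
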