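import Vale.Agent.P228.Acl
import Vale.Agent.P228.Setup

/-! Chain approximations of the action; they preserve the fundamental cycle.

Throughout `T : Shf (sh id) n` is `(cls_id n).shf`; nonzero entries of `ld`, `lS` join neighbours
(`face_of_rd`, `Face.adj`, `adj_of_rS`, `Adj.dist_le`, `tendsto_msh`); `σ.hL` bounds norms.
A nonzero entry of a product gives a middle index.

Plans.
* `exists_rho`: for each `k` apply `acl` with `J = ℕ × ℤ_[p]`, `l = atTop.comap Prod.fst`,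
  `m = Prod.fst`, `δ = ld`, `deg = cdeg`, `γ (i, g) = σ.act k g`, `w = 0`, sign `-1`, `η = eps n`,
  radii `σ.r23 < σ.r3` (`eventually_comap`, `Setup.unif`, `Shf.eps_rd`, `eps_eq`).
* `col_near`: `Setup.unif_inv` and `σ.orb`; `cx x ∈ Ω` since `r1 < r3`.
* `row`: for a column in `closedBall q r23` use `ch`; otherwise both entries vanish by `car`
  (as in `col_near`, with one neighbour step).
* `coarse_htp`: `acl` with `J = (ℕ × ℕ) × ℤ_[p]`, `l = (atTop.curry atTop).comap Prod.fst`,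
  `γ = id`, `w = ρ - 1`, sign `1`, `η = 0`, centre `z0`, radii `ρ0 / 2 < ρ0`
  (`eventually_curry_iff`, `σ.coarse`).
* `degree`: `u = ρ *ᵥ topv n` is supported on top cells (`hom`, `topv_eq`); `ld *ᵥ u` vanishes on
  rows over `closedBall q r1` (`row`, `Shf.rd_topv`); `top_const`. At a top cell `x₀` within
  `msh i` of `z0` the value is `1`: the row `x₀` of `ρ - 1 - ld h - h ld` vanishes (columns over
  `closedBall z0 (ρ0/2)` by `coarse_htp`; the other entries vanish by the carrier conditions and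
  `σ.coarse`, `Setup.unif_inv`), the row `x₀` of `ld` is zero (`rd_deg`, `cdeg_le`), and
  `ld *ᵥ topv = 0`. For cells `x` that are not top cells both sides vanish. -/

namespace Vale.Agent.P228

open Matrix Complex Metric Filter

variable {n p : ℕ} [Fact p.Prime]

namespace Setup

variable (σ : Setup n p)

/-- An intermediate radius. -/
noncomputable def r23 : ℝ := (σ.r2 + σ.r3) / 2

/-- Chain approximations of the maps `act k g` on the lattice of mesh `msh i`. -/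
structure Rho where
  ρ : ∀ (_ : ℕ) (i : ℕ) (_ : ℤ_[p]), LM n σ.L i
  car : ∀ k, ∀ ε > 0, ∀ᶠ i in atTop, ∀ g x c, ρ k i g x c ≠ 0 →
    cx c ∈ closedBall σ.q σ.r3 ∧ dist (cx x) (σ.act k g (cx c)) < ε
  hom : ∀ k i g x c, ρ k i g x c ≠ 0 → cdeg x = cdeg c
  ch : ∀ k, ∀ᶠ i in atTop, ∀ g c, cx c ∈ closedBall σ.q σ.r23 →
    (∀ x, (ld n σ.L i * ρ k i g) x c = (ρ k i g * ld n σ.L i) x c) ∧
      (eps n ᵥ* ρ k i g) c = eps n c

theorem rA_ld {L i : ℕ} {a b : LC n L i} (h : ld n L i a b ≠ 0) :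
    cdeg a < cdeg b ∧ Adj (P228.cpt a) (P228.cpt b) :=
  ⟨by have := rd_deg h; omega, (face_of_rd h).adj⟩

theorem rA_norm {x : Fin n → ℝ} (hx : x ∈ σ.Ω) : ‖x‖ < σ.L + 1 := by
  have := mem_closedBall_zero_iff.1 (σ.hL hx)
  linarith

theorem rA_adj {i : ℕ} {a b : LC n σ.L i} (h : Adj (P228.cpt a) (P228.cpt b)) (ha : cx a ∈ σ.Ω) :
    dist (cx a) (cx b) ≤ msh i := h.dist_le (σ.rA_norm ha)

theorem rA_mem {x : Fin n → ℝ} {r : ℝ} (hx : x ∈ closedBall σ.q r) (hr : r ≤ σ.r3) : x ∈ σ.Ω :=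
  σ.hq (closedBall_subset_closedBall hr hx)

theorem rA_13 : σ.r1 ≤ σ.r3 := by linarith [σ.h12, σ.h23]

theorem rA_123 : σ.r1 ≤ σ.r23 := by
  unfold r23
  linarith [σ.h12, σ.h23]

theorem rA_023 : σ.r0 ≤ σ.r23 := by linarith [σ.h01, σ.rA_123]

theorem rA_z0 {x : Fin n → ℝ} (hx : x ∈ closedBall σ.z0 σ.ρ0) : x ∈ σ.Ω :=
  σ.rA_mem (σ.hz0q hx) (by linarith [σ.h01, σ.rA_13])

omit [Fact p.Prime] in
theorem rA_ev {G : Type} {P : (ℕ × ℕ) × G → Prop} :
    (∀ᶠ j in ((atTop : Filter ℕ).curry (atTop : Filter ℕ)).comap Prod.fst, P j) ↔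
      ∀ᶠ k in atTop, ∀ᶠ i in atTop, ∀ g, P ((k, i), g) := by
  rw [eventually_comap, eventually_curry_iff]
  refine eventually_congr (Eventually.of_forall fun k =>
    eventually_congr (Eventually.of_forall fun i => ⟨fun h g => h _ rfl, ?_⟩))
  rintro h ⟨a, g⟩ rfl
  exact h g

omit [Fact p.Prime] in
theorem rA_row {α κ : Type} [Fintype κ] {A B : Matrix α κ ℂ} {x : α} (h : ∀ c, A x c = B x c)
    (v : κ → ℂ) : (A *ᵥ v) x = (B *ᵥ v) x :=
  Finset.sum_congr rfl fun c _ => congrArg (· * v c) (h c)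

theorem exists_rho : Nonempty σ.Rho := by
  have key : ∀ k, ∃ h : ∀ j : ℕ × ℤ_[p], LM n σ.L j.1,
      Car (atTop.comap Prod.fst) (fun j => σ.act k j.2) (closedBall σ.q σ.r3) h ∧
      (∀ᶠ j in atTop.comap Prod.fst, ∀ c, cx c ∈ closedBall σ.q σ.r23 →
        (∀ x, (ld n σ.L j.1 * h j + (-1 : ℂ) • (h j * ld n σ.L j.1)) x c = 0) ∧
          (eps n ᵥ* h j) c = eps n c) ∧
      ∀ j x c, h j x c ≠ 0 → cdeg x = cdeg c := by
    intro k
    obtain ⟨h, h1, h2, h3⟩ := acl (atTop.comap Prod.fst) (Prod.fst : ℕ × ℤ_[p] → ℕ) tendsto_comap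
      (fun j => ld n σ.L j.1) (fun _ => cdeg) (fun _ c => cdeg_le c) (fun _ _ _ h => rA_ld h)
      (fun _ => (cls_id n).shf.rd_rd) σ.q (r := σ.r23) (r' := σ.r3)
      (by unfold r23; linarith [σ.h23]) (σ.hq.trans σ.hL) (fun j => σ.act k j.2)
      (Eventually.of_forall fun j x hx =>
        mem_closedBall_zero_iff.1 (σ.hL (σ.maps k _ x (σ.hq hx))))
      (fun ε hε => by
        obtain ⟨η, hη, h⟩ := σ.unif k ε hε
        exact ⟨η, hη, Eventually.of_forall fun j x hx y hy hxy =>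
          h _ _ x (σ.hq hx) y (σ.hq hy) (by simpa using hη) hxy⟩)
      (fun _ => 0) (fun ε _ => Eventually.of_forall fun j x c _ h => absurd rfl h) (-1)
      (fun _ => eps n) (Eventually.of_forall fun j c _ x => by simp)
      (Eventually.of_forall fun j c _ => by
        rw [(cls_id n).shf.eps_rd]
        simp)
    refine ⟨h, h1, h2, fun j => h3 j rfl (fun _ _ h => rd_deg h) fun c hc => ?_⟩
    by_contra h0
    exact hc (by rw [eps_eq, if_neg h0])
  choose h h1 h2 h3 using key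
  refine ⟨⟨fun k i g => h k (i, g), fun k ε hε => ?_, fun k i g => h3 k (i, g), fun k => ?_⟩⟩
  · filter_upwards [eventually_comap.1 (h1 k ε hε)] with i hi g using hi (i, g) rfl
  · filter_upwards [eventually_comap.1 (h2 k)] with i hi g c hc
    obtain ⟨a1, a2⟩ := hi (i, g) rfl c hc
    refine ⟨fun x => ?_, a2⟩
    have a3 := a1 x
    rw [Matrix.add_apply, Matrix.smul_apply, smul_eq_mul] at a3
    linear_combination a3

variable {σ} (R : σ.Rho)

theorem Rho.col_near (k : ℕ) : ∀ ε > 0, ∀ᶠ i in atTop, ∀ g x c, R.ρ k i g x c ≠ 0 →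
    cx x ∈ σ.Ω → dist (cx c) (σ.act k (-g) (cx x)) < ε := by
  intro ε hε
  obtain ⟨η, hη, h⟩ := σ.unif_inv k ε hε
  filter_upwards [R.car k η hη] with i hi g x c hx hΩ
  obtain ⟨a1, a2⟩ := hi g x c hx
  exact h g _ (σ.hq a1) _ hΩ a2

theorem Rho.row (k : ℕ) : ∀ᶠ i in atTop, ∀ g x, cx x ∈ closedBall σ.q σ.r1 →
    ∀ c, (ld n σ.L i * R.ρ k i g) x c = (R.ρ k i g * ld n σ.L i) x c := by
  have hε : 0 < (σ.r3 - σ.r2) / 4 := by linarith [σ.h23]
  obtain ⟨η, hη, h⟩ := σ.unif_inv k _ hε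
  filter_upwards [R.ch k, R.col_near k _ hε, R.car k _ (half_pos hη),
    tendsto_msh.eventually_lt_const hε, tendsto_msh.eventually_lt_const (half_pos hη)]
    with i a1 a2 a3 a4 a5 g x hx c
  by_cases hc : cx c ∈ closedBall σ.q σ.r23
  · exact (a1 g c hc).1 x
  have hxΩ := σ.rA_mem hx σ.rA_13
  have ho := mem_closedBall.1 (σ.orb k (-g) _ hx)
  have e1 : (ld n σ.L i * R.ρ k i g) x c = 0 := by
    by_contra h0
    obtain ⟨x', b1, b2⟩ := acl_ne h0
    obtain ⟨b3, b4⟩ := a3 g x' c b2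
    have b5 := σ.rA_adj (rA_ld b1).2 hxΩ
    have b6 := h g _ (σ.hq b3) _ hxΩ
      (by linarith [dist_triangle (cx x) (cx x') (σ.act k g (cx c))])
    refine hc (mem_closedBall.2 ?_)
    unfold r23
    linarith [dist_triangle (cx c) (σ.act k (-g) (cx x)) σ.q]
  have e2 : (R.ρ k i g * ld n σ.L i) x c = 0 := by
    by_contra h0
    obtain ⟨c', b1, b2⟩ := acl_ne h0
    have b3 := a2 g x c' b1 hxΩ
    have b5 := σ.rA_adj (rA_ld b2).2 (σ.hq (a3 g x c' b1).1)
    refine hc (mem_closedBall.2 ?_)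
    rw [dist_comm] at b5
    unfold r23
    linarith [dist_triangle4 (cx c) (cx c') (σ.act k (-g) (cx x)) σ.q]
  rw [e1, e2]

theorem Rho.coarse_htp : ∃ h : ∀ (_ : ℕ) (i : ℕ) (_ : ℤ_[p]), LM n σ.L i,
    (∀ ε > 0, ∀ᶠ k in atTop, ∀ᶠ i in atTop, ∀ g x c, h k i g x c ≠ 0 →
      cx c ∈ closedBall σ.z0 σ.ρ0 ∧ dist (cx x) (cx c) < ε) ∧
    ∀ᶠ k in atTop, ∀ᶠ i in atTop, ∀ g c, cx c ∈ closedBall σ.z0 (σ.ρ0 / 2) → ∀ x,
      (R.ρ k i g - 1) x c = (ld n σ.L i * h k i g + h k i g * ld n σ.L i) x c := by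
  obtain ⟨h, h1, h2, -⟩ := acl (((atTop : Filter ℕ).curry (atTop : Filter ℕ)).comap Prod.fst)
    (fun j : (ℕ × ℕ) × ℤ_[p] => j.1.2)
    (fun s hs => rA_ev.2 (Eventually.of_forall fun k => by
      filter_upwards [hs] with i hi g using hi))
    (fun j => ld n σ.L j.1.2) (fun _ => cdeg) (fun _ c => cdeg_le c) (fun _ _ _ h => rA_ld h)
    (fun _ => (cls_id n).shf.rd_rd) σ.z0 (r := σ.ρ0 / 2) (r' := σ.ρ0) (half_lt_self σ.hρ0)
    (fun x hx => σ.hL (σ.rA_z0 hx)) (fun _ => id)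
    (Eventually.of_forall fun j x hx => mem_closedBall_zero_iff.1 (σ.hL (σ.rA_z0 hx)))
    (fun ε hε => ⟨ε, hε, Eventually.of_forall fun j x _ y _ hxy => hxy⟩)
    (fun j => R.ρ j.1.1 j.1.2 j.2 - 1)
    (fun ε hε => rA_ev.2 (by
      filter_upwards [σ.coarse _ (half_pos hε)] with k hk
      filter_upwards [R.car k _ (half_pos hε)] with i hi g x c hc hx
      by_cases hxc : x = c
      · subst hxc
        simpa using hε
      · rw [Matrix.sub_apply, one_apply_ne hxc, sub_zero] at hx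
        have b1 := (hi g x c hx).2
        have b2 := (hk _ (σ.rA_z0 hc) (Or.inl hc)).2 g
        exact lt_of_le_of_lt (dist_triangle (cx x) (σ.act k g (cx c)) (cx c)) (by linarith)))
    1 (fun _ => 0)
    (rA_ev.2 (Eventually.of_forall fun k => by
      filter_upwards [R.ch k] with i hi g c hc x
      have b1 := (hi g c (closedBall_subset_closedBall σ.rA_023 (σ.hz0q hc))).1 x
      simp only [Matrix.mul_sub, Matrix.sub_mul, Matrix.mul_one, Matrix.sub_apply,
        one_mul, b1]))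
    (rA_ev.2 (Eventually.of_forall fun k => by
      filter_upwards [R.ch k] with i hi g c hc
      have b1 := (hi g c (closedBall_subset_closedBall σ.rA_023 (σ.hz0q hc))).2
      simp only [vecMul_sub, vecMul_one, Pi.sub_apply, b1, sub_self, zero_vecMul, Pi.zero_apply,
        mul_zero]))
  refine ⟨fun k i g => h ((k, i), g), fun ε hε => rA_ev.1 (h1 ε hε), ?_⟩
  filter_upwards [rA_ev.1 h2] with k hk
  filter_upwards [hk] with i hi g c hc x
  have b1 := (hi g c hc).1 x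
  rw [one_smul] at b1
  exact b1.symm

theorem Rho.degree : ∀ᶠ k in atTop, ∀ᶠ i in atTop, ∀ g x, cx x ∈ closedBall σ.q σ.r1 →
    (R.ρ k i g *ᵥ topv n) x = topv n x := by
  obtain ⟨h, h1, h2⟩ := R.coarse_htp
  have hε : 0 < σ.ρ0 / 6 := by linarith [σ.hρ0]
  filter_upwards [h1 _ hε, h2, σ.coarse _ hε] with k a1 a2 a3
  filter_upwards [a1, a2, R.col_near k _ hε, R.row k, tendsto_msh.eventually_lt_const hε]
    with i b1 b2 b3 b4 b5 g x hx
  have hz : σ.z0 ∈ σ.Ω := σ.rA_z0 (mem_closedBall_self σ.hρ0.le)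
  obtain ⟨x0, hx0⟩ := exists_near (L := σ.L) (σ.rA_norm hz).le i
  have hu : ∀ a, (R.ρ k i g *ᵥ topv n) a ≠ 0 → cdeg a = n := by
    intro a ha
    obtain ⟨c, -, hc⟩ := Finset.exists_ne_zero_of_sum_ne_zero ha
    obtain ⟨c1, c2⟩ := mul_ne_zero_iff.1 hc
    rw [R.hom k i g a c c1]
    by_contra h0
    exact c2 (by rw [topv_eq, if_neg h0])
  have hd : ∀ c, cx c ∈ closedBall σ.q σ.r1 → (ld n σ.L i *ᵥ (R.ρ k i g *ᵥ topv n)) c = 0 := by
    intro c hc
    rw [mulVec_mulVec, rA_row (b4 g c hc), ← mulVec_mulVec, (cls_id n).shf.rd_topv, mulVec_zero]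
    rfl
  have ha : cx (top n x0) = xr x0 := by rw [cx, cpt_top]
  have hb : xr x0 ∈ closedBall σ.z0 σ.ρ0 := mem_closedBall.2 (by linarith [σ.hρ0])
  have hl : ∀ c, (ld n σ.L i * h k i g) (top n x0) c = 0 := by
    intro c
    by_contra h0
    obtain ⟨c', c1, -⟩ := acl_ne h0
    have c2 := rd_deg c1
    have c3 := cdeg_le c'
    rw [cdeg_top] at c2
    omega
  have hr : ∀ c, (R.ρ k i g - 1) (top n x0) c = (h k i g * ld n σ.L i) (top n x0) c := by
    intro c
    by_cases hc : cx c ∈ closedBall σ.z0 (σ.ρ0 / 2)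
    · rw [b2 g c hc, Matrix.add_apply, hl, zero_add]
    have e1 : R.ρ k i g (top n x0) c = 0 := by
      by_contra h0
      have c1 := b3 g _ c h0 (ha ▸ σ.rA_z0 hb)
      have c2 := (a3 _ (σ.rA_z0 hb) (Or.inl hb)).2 (-g)
      rw [ha] at c1
      refine hc (mem_closedBall.2 ?_)
      linarith [dist_triangle4 (cx c) (σ.act k (-g) (xr x0)) (xr x0) σ.z0]
    have e2 : (1 : LM n σ.L i) (top n x0) c = 0 := by
      refine one_apply_ne fun h0 => hc ?_
      rw [← h0, ha]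
      exact mem_closedBall.2 (by linarith [σ.hρ0])
    have e3 : (h k i g * ld n σ.L i) (top n x0) c = 0 := by
      by_contra h0
      obtain ⟨c', c1, c2⟩ := acl_ne h0
      obtain ⟨c3, c4⟩ := b1 g _ c' c1
      have c5 := σ.rA_adj (rA_ld c2).2 (σ.rA_z0 c3)
      rw [ha, dist_comm] at c4
      rw [dist_comm] at c5
      refine hc (mem_closedBall.2 ?_)
      linarith [dist_triangle4 (cx c) (cx c') (xr x0) σ.z0]
    rw [Matrix.sub_apply, e1, e2, e3, sub_zero]
  have h0 : (R.ρ k i g *ᵥ topv n) (top n x0) = 1 := by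
    have e := rA_row hr (topv n)
    rw [← mulVec_mulVec, (cls_id n).shf.rd_topv, mulVec_zero, sub_mulVec, one_mulVec,
      Pi.sub_apply, topv_eq (top n x0), if_pos (cdeg_top n x0), Pi.zero_apply] at e
    exact sub_eq_zero.1 e
  by_cases hxn : cdeg x = n
  · rw [topv_eq x, if_pos hxn, eq_top hxn, ← h0]
    exact top_const (y := σ.q) (r := σ.r1)
      (fun y hy => mem_ball_zero_iff.2 (σ.rA_norm (σ.rA_mem hy σ.rA_13))) _ hu hd hx
      (closedBall_subset_closedBall σ.h01.le (σ.hz0q hb))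
  · rw [topv_eq x, if_neg hxn]
    by_contra h1
    exact hxn (hu x h1)

end Setup

end Vale.Agent.P228
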