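import Vale.Agent.P228.RhoA

/-! The approximations are multiplicative and preserve duality up to carried homotopies.

Plans: `acl` with centre `σ.q`, radii `σ.r0 < σ.r1`, sign `1`, `η = 0`.
* `mul_htp`: `δ = ld`, `deg = cdeg`, `γ j = σ.act k (c j)`, `w = ρ a * ρ b - ρ c`. A column over
  `closedBall q r1` of `ρ b` has its rows over `closedBall q r23` (`car`, `σ.orb`), where `ch`
  applies to `ρ a`. Carrier: `act a (act b x) = act (a + b) x` is close to `act c x`
  (`Setup.unif`); the middle point is in `Ω` since it is in `closedBall q r3`.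
* `ad_htp`: `δ = -ld†`, `deg c = n - cdeg c`, `γ j = σ.act k (a j)`, `w = ρ a * lS - lS * (ρ b)†`.
  Cycle condition on a column `c`: `ld * ρ a = ρ a * ld` on the neighbouring columns (`ch`),
  `Shf.rS_rel`, and `Rho.row` for `ρ b` (take conjugates). Augmentation: `eps ᵥ* lS = I^n • topv`
  (`Shf.eps_rS`), `ch`, and the degree hypothesis for `ρ b` (conjugate; `topv` is real).
  Carrier: if `ρ b c x' ≠ 0` then `cx x'` is near `act (-b) (cx c)` (`Rho.col_near`), and `lS`
  moves by at most the mesh. -/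

namespace Vale.Agent.P228

open Matrix Complex Metric Filter

variable {n p : ℕ} [Fact p.Prime]

namespace Setup

variable {σ : Setup n p} (R : σ.Rho) (k : ℕ) {J : Type} (l : Filter J) (m : J → ℕ)

omit [Fact p.Prime] in
theorem rB_col {α κ β : Type} [Fintype κ] (A : Matrix α κ ℂ) {B C : Matrix κ β ℂ} {y : β}
    (h : ∀ z, B z y = C z y) (x : α) : (A * B) x y = (A * C) x y :=
  Finset.sum_congr rfl fun z _ => congrArg (A x z * ·) (h z)

omit [Fact p.Prime] in
theorem rB_vec {κ β : Type} [Fintype κ] {u v : κ → ℂ} {B : Matrix κ β ℂ} {y : β}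
    (h : ∀ z, B z y ≠ 0 → u z = v z) : (u ᵥ* B) y = (v ᵥ* B) y := by
  refine Finset.sum_congr rfl fun z _ => ?_
  change u z * B z y = v z * B z y
  by_cases h0 : B z y = 0
  · rw [h0, mul_zero, mul_zero]
  · rw [h z h0]

omit [Fact p.Prime] in
theorem rB_sub {α β : Type} {A B : Matrix α β ℂ} {x : α} {y : β} (h : (A - B) x y ≠ 0) :
    A x y ≠ 0 ∨ B x y ≠ 0 := by
  by_contra h0
  push Not at h0
  exact h (by rw [Matrix.sub_apply, h0.1, h0.2, sub_zero])

omit [Fact p.Prime] in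
theorem rB_adj {L i : ℕ} {a b : LC n L i} (h : lS n L i a b ≠ 0) :
    Adj (P228.cpt a) (P228.cpt b) := adj_of_rS h

theorem rB_small {f : J → ℤ_[p]} (h : Tendsto f l (nhds 0)) {η : ℝ} (hη : 0 < η) :
    ∀ᶠ j in l, ‖f j‖ < η := by
  simpa using Metric.tendsto_nhds.1 h η hη

theorem rB_γL (c : J → ℤ_[p]) :
    ∀ᶠ j in l, ∀ x ∈ closedBall σ.q σ.r1, ‖σ.act k (c j) x‖ ≤ σ.L :=
  Eventually.of_forall fun _ x hx =>
    mem_closedBall_zero_iff.1 (σ.hL (σ.maps k _ x (σ.rA_mem hx σ.rA_13)))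

theorem rB_γ (c : J → ℤ_[p]) : ∀ ε > 0, ∃ η > 0, ∀ᶠ j in l, ∀ x ∈ closedBall σ.q σ.r1,
    ∀ x' ∈ closedBall σ.q σ.r1, dist x x' < η →
      dist (σ.act k (c j) x) (σ.act k (c j) x') < ε := by
  intro ε hε
  obtain ⟨η, hη, h⟩ := σ.unif k ε hε
  exact ⟨η, hη, Eventually.of_forall fun j x hx y hy hxy =>
    h _ _ x (σ.rA_mem hx σ.rA_13) y (σ.rA_mem hy σ.rA_13) (by simpa using hη) hxy⟩

theorem Rho.rB_mid : ∀ᶠ i in atTop, ∀ g z y, cx y ∈ closedBall σ.q σ.r1 → R.ρ k i g z y ≠ 0 →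
    cx z ∈ closedBall σ.q σ.r23 := by
  have hε : 0 < (σ.r3 - σ.r2) / 2 := by linarith [σ.h23]
  filter_upwards [R.car k _ hε] with i hi g z y hy hz
  have b1 := (hi g z y hz).2
  have b2 := mem_closedBall.1 (σ.orb k g _ hy)
  refine mem_closedBall.2 ?_
  unfold r23
  linarith [dist_triangle (cx z) (σ.act k g (cx y)) σ.q]

theorem rB_lS : ∀ᶠ i in atTop, ∀ z y : LC n σ.L i, cx y ∈ closedBall σ.q σ.r1 →
    lS n σ.L i z y ≠ 0 → cx z ∈ closedBall σ.q σ.r23 := by
  have hε : 0 < σ.r23 - σ.r1 := by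
    unfold r23
    linarith [σ.h12, σ.h23]
  filter_upwards [tendsto_msh.eventually_lt_const hε] with i hi z y hy hz
  have b1 := σ.rA_adj (rB_adj hz).symm (σ.rA_mem hy σ.rA_13)
  rw [dist_comm] at b1
  exact mem_closedBall.2 (by linarith [dist_triangle (cx z) (cx y) σ.q, mem_closedBall.1 hy])

theorem Rho.mul_htp (hm : Tendsto m l atTop) (a b c : J → ℤ_[p])
    (h : Tendsto (fun j => a j + b j - c j) l (nhds 0)) :
    ∃ H : ∀ j, LM n σ.L (m j), Car l (fun j => σ.act k (c j)) (closedBall σ.q σ.r1) H ∧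
      ∀ᶠ j in l, ∀ y, cx y ∈ closedBall σ.q σ.r0 → ∀ x,
        (R.ρ k (m j) (a j) * R.ρ k (m j) (b j) - R.ρ k (m j) (c j)) x y =
          (ld n σ.L (m j) * H j + H j * ld n σ.L (m j)) x y := by
  obtain ⟨H, h1, h2, -⟩ := acl l m hm (fun j => ld n σ.L (m j)) (fun _ => cdeg)
    (fun _ c => cdeg_le c) (fun _ _ _ h => rA_ld h) (fun _ => (cls_id n).shf.rd_rd) σ.q σ.h01
    (fun x hx => σ.hL (σ.rA_mem hx σ.rA_13)) (fun j => σ.act k (c j)) (rB_γL k l c) (rB_γ k l c)
    (fun j => R.ρ k (m j) (a j) * R.ρ k (m j) (b j) - R.ρ k (m j) (c j))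
    (fun ε hε => by
      have hε3 : 0 < ε / 3 := by linarith
      obtain ⟨η, hη, hu⟩ := σ.unif k _ hε3
      filter_upwards [hm.eventually (R.car k _ hε3), hm.eventually (R.car k _ hη),
        rB_small l h hη] with j a1 a2 a3 x y hy hx
      have hyΩ := σ.rA_mem hy σ.rA_13
      rcases rB_sub hx with h0 | h0
      · obtain ⟨z, b1, b2⟩ := acl_ne h0
        obtain ⟨b3, b4⟩ := a1 _ x z b1
        have b5 := hu (a j) (a j) _ (σ.hq b3) _ (σ.maps k (b j) _ hyΩ) (by simpa using hη)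
          (a2 _ z y b2).2
        have b6 := hu (a j + b j) (c j) _ hyΩ _ hyΩ a3 (by simpa using hη)
        rw [← σ.act_add k _ _ _ hyΩ] at b5
        linarith [dist_triangle4 (cx x) (σ.act k (a j) (cx z)) (σ.act k (a j + b j) (cx y))
          (σ.act k (c j) (cx y))]
      · linarith [(a1 _ x y h0).2])
    1 (fun _ => 0)
    (by
      filter_upwards [hm.eventually (R.ch k), hm.eventually (R.rB_mid k)] with j a1 a2 y hy x
      have hy' := closedBall_subset_closedBall σ.rA_123 hy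
      have e1 : (ld n σ.L (m j) * R.ρ k (m j) (a j) * R.ρ k (m j) (b j)) x y =
          (R.ρ k (m j) (a j) * ld n σ.L (m j) * R.ρ k (m j) (b j)) x y :=
        acl_mul fun z hz => (a1 _ z (a2 _ z y hy hz)).1 x
      have e2 := rB_col (R.ρ k (m j) (a j)) (a1 (b j) y hy').1 x
      rw [Matrix.mul_sub, Matrix.sub_mul, Matrix.sub_apply, Matrix.sub_apply, one_mul,
        ← Matrix.mul_assoc, e1, Matrix.mul_assoc, e2, Matrix.mul_assoc, (a1 (c j) y hy').1 x])
    (by
      filter_upwards [hm.eventually (R.ch k), hm.eventually (R.rB_mid k)] with j a1 a2 y hy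
      have hy' := closedBall_subset_closedBall σ.rA_123 hy
      have e1 : ((eps n ᵥ* R.ρ k (m j) (a j)) ᵥ* R.ρ k (m j) (b j)) y =
          (eps n ᵥ* R.ρ k (m j) (b j)) y := rB_vec fun z hz => (a1 _ z (a2 _ z y hy hz)).2
      rw [vecMul_sub, Pi.sub_apply, ← vecMul_vecMul, e1, (a1 _ y hy').2, (a1 _ y hy').2, sub_self,
        zero_vecMul, Pi.zero_apply, mul_zero])
  refine ⟨H, h1, ?_⟩
  filter_upwards [h2] with j hj y hy x
  have b1 := (hj y hy).1 x
  rw [one_smul] at b1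
  exact b1.symm

theorem Rho.ad_htp (hm : Tendsto m l atTop) (a b : J → ℤ_[p])
    (h : Tendsto (fun j => a j + b j) l (nhds 0))
    (hk : ∀ᶠ i in atTop, ∀ g x, cx x ∈ closedBall σ.q σ.r1 →
      (R.ρ k i g *ᵥ topv n) x = topv n x) :
    ∃ H : ∀ j, LM n σ.L (m j), Car l (fun j => σ.act k (a j)) (closedBall σ.q σ.r1) H ∧
      ∀ᶠ j in l, ∀ y, cx y ∈ closedBall σ.q σ.r0 → ∀ x,
        (R.ρ k (m j) (a j) * lS n σ.L (m j) - lS n σ.L (m j) * (R.ρ k (m j) (b j))ᴴ) x y =
          (ld n σ.L (m j) * H j - H j * (ld n σ.L (m j))ᴴ) x y := by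
  obtain ⟨H, h1, h2, -⟩ := acl l m hm (fun j => -(ld n σ.L (m j))ᴴ) (fun _ c => n - cdeg c)
    (fun _ c => Nat.sub_le _ _)
    (fun j c' c h => by
      rw [Matrix.neg_apply, neg_ne_zero, conjTranspose_apply, star_ne_zero] at h
      obtain ⟨b1, b2⟩ := rA_ld h
      have b3 := cdeg_le c'
      exact ⟨by omega, b2.symm⟩)
    (fun j => by
      rw [Matrix.neg_mul, Matrix.mul_neg, neg_neg, ← conjTranspose_mul, (cls_id n).shf.rd_rd,
        conjTranspose_zero])
    σ.q σ.h01 (fun x hx => σ.hL (σ.rA_mem hx σ.rA_13)) (fun j => σ.act k (a j)) (rB_γL k l a)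
    (rB_γ k l a)
    (fun j => R.ρ k (m j) (a j) * lS n σ.L (m j) - lS n σ.L (m j) * (R.ρ k (m j) (b j))ᴴ)
    (fun ε hε => by
      have hε3 : 0 < ε / 3 := by linarith
      obtain ⟨η, hη, hu⟩ := σ.unif k _ hε3
      filter_upwards [hm.eventually (R.car k _ hε3), hm.eventually (R.col_near k _ hε3),
        rB_small l h hη, hm.eventually (tendsto_msh.eventually_lt_const hη),
        hm.eventually (tendsto_msh.eventually_lt_const hε3)] with j a1 a2 a3 a4 a5 x y hy hx
      have hyΩ := σ.rA_mem hy σ.rA_13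
      rcases rB_sub hx with h0 | h0
      · obtain ⟨z, b1, b2⟩ := acl_ne h0
        obtain ⟨b3, b4⟩ := a1 _ x z b1
        have b5 := σ.rA_adj (rB_adj b2) (σ.hq b3)
        have b6 := hu (a j) (a j) _ (σ.hq b3) _ hyΩ (by simpa using hη) (b5.trans_lt a4)
        linarith [dist_triangle (cx x) (σ.act k (a j) (cx z)) (σ.act k (a j) (cx y))]
      · obtain ⟨z, b1, b2⟩ := acl_ne h0
        rw [conjTranspose_apply, star_ne_zero] at b2
        have b3 := a2 _ y z b2 hyΩ
        have b5 := σ.rA_adj (rB_adj b1).symm (σ.hq (a1 _ y z b2).1)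
        have b6 := hu (a j) (-b j) _ hyΩ _ hyΩ (by rwa [sub_neg_eq_add]) (by simpa using hη)
        rw [dist_comm] at b5 b6
        linarith [dist_triangle4 (cx x) (cx z) (σ.act k (-b j) (cx y)) (σ.act k (a j) (cx y))])
    1 (fun _ => 0)
    (by
      filter_upwards [hm.eventually (R.ch k), hm.eventually (R.row k), hm.eventually (rB_lS (σ := σ))]
        with j a1 a2 a3 y hy x
      have hr : ld n σ.L (m j) * lS n σ.L (m j) = -(lS n σ.L (m j) * (ld n σ.L (m j))ᴴ) :=
        eq_neg_of_add_eq_zero_left (cls_id n).shf.rS_rel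
      have e1 : (ld n σ.L (m j) * R.ρ k (m j) (a j) * lS n σ.L (m j)) x y =
          (R.ρ k (m j) (a j) * ld n σ.L (m j) * lS n σ.L (m j)) x y :=
        acl_mul fun z hz => (a1 _ z (a3 z y hy hz)).1 x
      have e2 : (lS n σ.L (m j) * (R.ρ k (m j) (b j) * ld n σ.L (m j))ᴴ) x y =
          (lS n σ.L (m j) * (ld n σ.L (m j) * R.ρ k (m j) (b j))ᴴ) x y :=
        rB_col _ (fun z => by rw [conjTranspose_apply, conjTranspose_apply, a2 _ y hy z]) x
      rw [conjTranspose_mul, conjTranspose_mul] at e2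
      rw [Matrix.mul_sub, Matrix.sub_apply, ← Matrix.mul_assoc, e1, Matrix.mul_assoc, hr,
        ← Matrix.mul_assoc (ld n σ.L (m j)), hr, Matrix.neg_mul, Matrix.mul_assoc, Matrix.neg_apply,
        e2]
      simp only [Matrix.mul_neg, Matrix.sub_mul, Matrix.neg_apply, Matrix.sub_apply,
        Matrix.mul_assoc]
      ring)
    (by
      filter_upwards [hm.eventually (R.ch k), hm.eventually hk, hm.eventually (rB_lS (σ := σ))]
        with j a1 a2 a3 y hy
      have e1 : ((eps n ᵥ* R.ρ k (m j) (a j)) ᵥ* lS n σ.L (m j)) y = (eps n ᵥ* lS n σ.L (m j)) y :=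
        rB_vec fun z hz => (a1 _ z (a3 z y hy hz)).2
      have hs : ∀ z : LC n σ.L (m j), star (topv n z) = topv n z := fun z => by
        rw [topv_eq]
        split_ifs <;> simp
      have e2 : (topv n ᵥ* (R.ρ k (m j) (b j))ᴴ) y = topv n y := by
        rw [← hs y, ← a2 (b j) y hy]
        simp only [vecMul, mulVec, dotProduct, star_sum, conjTranspose_apply, star_mul', hs]
        exact Finset.sum_congr rfl fun z _ => mul_comm _ _
      rw [vecMul_sub, Pi.sub_apply, ← vecMul_vecMul, ← vecMul_vecMul, e1, (cls_id n).shf.eps_rS,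
        smul_vecMul, Pi.smul_apply, Pi.smul_apply, e2, sub_self, zero_vecMul, Pi.zero_apply,
        mul_zero])
  refine ⟨H, h1, ?_⟩
  filter_upwards [h2] with j hj y hy x
  have b1 := (hj y hy).1 x
  rw [one_smul, Matrix.mul_neg, ← sub_eq_add_neg] at b1
  exact b1.symm

end Setup

end Vale.Agent.P228
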