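import Vale.Agent.P228.RhoB

/-! Averaging over characters.

Plans. `‖ω‖ = 1` and `ω ^ (a + b).val = ω ^ a.val * ω ^ b.val` for `a b : ZMod (p ^ (i+1))`, as
`ω ^ p = 1` (`ZMod.val_add`, `pow_mod`-like lemma).
* `avg_pkg`: `idem`: `Rho.mul_htp` on `J = Σ i, ZMod (p^(i+1)) × ZMod (p^(i+1))` with the filter
  `atTop.comap Sigma.fst`, elements `a.val`, `b.val`, `(a + b).val` (their defect is divisible by
  `p ^ (i+1)`: `PadicInt.norm_le_pow_iff_dvd`-like lemmas); the homotopy is the average of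
  `ω ^ (a+b).val • H`. `dual`: `Rho.ad_htp` on `J = Σ i, ZMod (p^(i+1))` with `a.val`, `(-a).val`;
  reindex the sum for `e†` by `a ↦ -a`.
* `RawPkg.curry`: choose the homotopies for `k ∈ G` (zero for other `k`); `eventually_curry_iff`,
  `eventually_principal`.
* `avg_coarse`: average `Rho.coarse_htp`; the average of `ω ^ a.val` is `1` or `0` (geometric sum,
  `Finset.sum_range` form via `ZMod.val`/`Fin`). -/

namespace Vale.Agent.P228

open Matrix Complex Metric Filter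

variable {n p : ℕ} [hp : Fact p.Prime]

instance neZeroPow (i : ℕ) : NeZero (p ^ (i + 1)) := ⟨pow_ne_zero _ hp.out.ne_zero⟩

/-- Eventually in each slice of `G`. -/
abbrev lG (G : Set ℕ) : Filter (ℕ × ℕ) := (𝓟 G).curry atTop

/-- The coarse filter. -/
abbrev lC : Filter (ℕ × ℕ) := (atTop : Filter ℕ).curry atTop

namespace Setup

variable (σ : Setup n p)

/-- Families carried by the orbits; the slice `kk i` of the action is used at the index `i`. -/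
def OCar {I : Type} (l : Filter I) (kk m : I → ℕ) (M : ∀ i, LM n σ.L (m i)) : Prop :=
  ∀ η : ℕ → ℝ, (∀ k, 0 < η k) → ∀ᶠ i in l, ∀ x c, M i x c ≠ 0 →
    cx c ∈ closedBall σ.q σ.r3 ∧ ∃ g, dist (cx x) (σ.act (kk i) g (cx c)) < η (kk i)

/-- Eventual equality on the columns over the inner ball. -/
def ColEq {I : Type} (l : Filter I) (m : I → ℕ) (M M' : ∀ i, LM n σ.L (m i)) : Prop :=
  ∀ᶠ i in l, ∀ y, cx y ∈ closedBall σ.q σ.r0 → ∀ x, M i x y = M' i x y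

/-- A homotopy idempotent that is compatible with duality. -/
structure RawPkg {I : Type} (l : Filter I) (kk m : I → ℕ) (e : ∀ i, LM n σ.L (m i)) : Prop where
  car : σ.OCar l kk m e
  ch : σ.ColEq l m (fun i => ld n σ.L (m i) * e i) (fun i => e i * ld n σ.L (m i))
  idem : ∃ h, σ.OCar l kk m h ∧ σ.ColEq l m (fun i => e i * e i - e i)
    (fun i => ld n σ.L (m i) * h i + h i * ld n σ.L (m i))
  dual : ∃ h, σ.OCar l kk m h ∧
    σ.ColEq l m (fun i => e i * lS n σ.L (m i) - lS n σ.L (m i) * (e i)ᴴ)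
      (fun i => ld n σ.L (m i) * h i - h i * (ld n σ.L (m i))ᴴ)

variable {σ}

section rC

variable {ι α β γ : Type} [Fintype ι] {z : ℂ} {f : ι → ℂ}

omit hp in
theorem rC_ne {M : ι → Matrix α β ℂ} {x : α} {c : β} (h : (z • ∑ a, f a • M a) x c ≠ 0) :
    ∃ a, M a x c ≠ 0 := by
  by_contra h0
  push Not at h0
  exact h (by simp [Matrix.sum_apply, h0])

omit hp in
theorem rC_eq {M M' : ι → Matrix α β ℂ} {x : α} {c : β} (h : ∀ a, M a x c = M' a x c) :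
    (z • ∑ a, f a • M a) x c = (z • ∑ a, f a • M' a) x c := by
  simp [Matrix.sum_apply, h]

omit hp in
theorem rC_l [Fintype α] (A : Matrix γ α ℂ) (M : ι → Matrix α β ℂ) :
    A * (z • ∑ a, f a • M a) = z • ∑ a, f a • (A * M a) := by
  simp only [Matrix.mul_smul, Matrix.mul_sum]

omit hp in
theorem rC_r [Fintype β] (A : Matrix β γ ℂ) (M : ι → Matrix α β ℂ) :
    (z • ∑ a, f a • M a) * A = z • ∑ a, f a • (M a * A) := by
  simp only [Matrix.smul_mul, Matrix.sum_mul]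

omit hp in
theorem rC_add (M M' : ι → Matrix α β ℂ) :
    z • ∑ a, f a • M a + z • ∑ a, f a • M' a = z • ∑ a, f a • (M a + M' a) := by
  simp only [smul_add, Finset.sum_add_distrib]

omit hp in
theorem rC_sub (M M' : ι → Matrix α β ℂ) :
    z • ∑ a, f a • M a - z • ∑ a, f a • M' a = z • ∑ a, f a • (M a - M' a) := by
  simp only [smul_sub, Finset.sum_sub_distrib]

omit hp in
theorem rC_idem [AddGroup ι] [Fintype α] [DecidableEq α] (hz : z * Fintype.card ι = 1)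
    (hf : ∀ a b, f (a + b) = f a * f b) (M : ι → Matrix α α ℂ) :
    (z • ∑ a, f a • M a) * (z • ∑ a, f a • M a) - z • ∑ a, f a • M a =
      (z * z) • ∑ ab : ι × ι, f (ab.1 + ab.2) • (M ab.1 * M ab.2 - M (ab.1 + ab.2)) := by
  rw [← rC_sub]
  refine congrArg₂ (· - ·) ?_ ?_
  · rw [smul_mul_smul_comm, Finset.sum_mul_sum, Fintype.sum_prod_type]
    simp only [hf, smul_mul_smul_comm]
  · have e : ∀ a : ι, ∑ b, f (a + b) • M (a + b) = ∑ b, f b • M b := fun a =>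
      Equiv.sum_comp (Equiv.addLeft a) fun b => f b • M b
    rw [Fintype.sum_prod_type]
    simp only [e]
    rw [Finset.sum_const, Finset.card_univ, ← Nat.cast_smul_eq_nsmul ℂ, smul_smul, mul_assoc, hz,
      mul_one]

omit hp in
theorem rC_ad [AddGroup ι] (hz : star z = z) (hf : ∀ a, star (f (-a)) = f a)
    (M : ι → Matrix α β ℂ) : (z • ∑ a, f a • M a)ᴴ = z • ∑ a, f a • (M (-a))ᴴ := by
  rw [conjTranspose_smul, hz, conjTranspose_sum,
    ← Equiv.sum_comp (Equiv.neg ι) fun a => (f a • M a)ᴴ]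
  simp only [Equiv.neg_apply, conjTranspose_smul, hf]

end rC

omit hp in
theorem rC_pow {ω : ℂ} (hω : ω ^ p = 1) (i : ℕ) : ω ^ p ^ (i + 1) = 1 := by
  rw [pow_succ', pow_mul, hω, one_pow]

theorem rC_chi {ω : ℂ} (hω : ω ^ p = 1) {i : ℕ} (a b : ZMod (p ^ (i + 1))) :
    ω ^ (a + b).val = ω ^ a.val * ω ^ b.val := by
  rw [ZMod.val_add, ← pow_eq_pow_mod _ (rC_pow hω i), pow_add]

theorem rC_star {ω : ℂ} (hω : ω ^ p = 1) {i : ℕ} (a : ZMod (p ^ (i + 1))) :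
    star (ω ^ (-a).val) = ω ^ a.val := by
  have h1 : ω ^ (-a).val * ω ^ a.val = 1 := by
    rw [← rC_chi hω, neg_add_cancel, ZMod.val_zero, pow_zero]
  have h2 : ‖ω ^ (-a).val‖ = 1 := by
    rw [norm_pow, norm_eq_one_of_pow_eq_one hω hp.out.ne_zero, one_pow]
  have h3 : star (ω ^ (-a).val) * ω ^ (-a).val = 1 := by
    rw [star_def, conj_mul', h2]
    simp
  calc star (ω ^ (-a).val) = star (ω ^ (-a).val) * (ω ^ (-a).val * ω ^ a.val) := by
        rw [h1, mul_one]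
    _ = ω ^ a.val := by rw [← mul_assoc, h3, one_mul]

theorem rC_card (i : ℕ) : ((p : ℂ) ^ (i + 1))⁻¹ * Fintype.card (ZMod (p ^ (i + 1))) = 1 := by
  rw [ZMod.card, Nat.cast_pow]
  exact inv_mul_cancel₀ (pow_ne_zero _ (Nat.cast_ne_zero.2 hp.out.ne_zero))

theorem rC_sum {ω : ℂ} (hω : ω ^ p = 1) (i : ℕ) :
    ((p : ℂ) ^ (i + 1))⁻¹ * ∑ a : ZMod (p ^ (i + 1)), ω ^ a.val = if ω = 1 then 1 else 0 := by
  split_ifs with h
  · simp [h, hp.out.ne_zero]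
  · have h1 : ω ^ ((1 : ℕ) : ZMod (p ^ (i + 1))).val = ω := by
      rw [ZMod.val_natCast, ← pow_eq_pow_mod _ (rC_pow hω i), pow_one]
    have h2 := Equiv.sum_comp (Equiv.addLeft ((1 : ℕ) : ZMod (p ^ (i + 1))))
      fun a => ω ^ a.val
    simp only [Equiv.coe_addLeft, rC_chi hω, h1, ← Finset.mul_sum] at h2
    have h3 : (ω - 1) * ∑ a : ZMod (p ^ (i + 1)), ω ^ a.val = 0 := by
      rw [sub_mul, h2, one_mul, sub_self]
    rw [(mul_eq_zero.1 h3).resolve_left (sub_ne_zero.2 h), mul_zero]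

theorem rC_dvd {i : ℕ} (a b : ZMod (p ^ (i + 1))) :
    (p : ℤ_[p]) ^ (i + 1) ∣ (a.val : ℤ_[p]) + b.val - (a + b).val := by
  refine ⟨((a.val + b.val) / p ^ (i + 1) : ℕ), ?_⟩
  have h := congrArg (Nat.cast : ℕ → ℤ_[p]) (Nat.mod_add_div (a.val + b.val) (p ^ (i + 1)))
  rw [← ZMod.val_add, Nat.cast_add, Nat.cast_add, Nat.cast_mul, Nat.cast_pow] at h
  rw [← h]
  ring

theorem rC_tend {J : Type} {l : Filter J} {m : J → ℕ} (hm : Tendsto m l atTop) {f : J → ℤ_[p]}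
    (hf : ∀ j, (p : ℤ_[p]) ^ (m j + 1) ∣ f j) : Tendsto f l (nhds 0) := by
  have h1 : ‖(p : ℤ_[p])‖ < 1 := (PadicInt.norm_lt_one_iff_dvd _).2 dvd_rfl
  refine squeeze_zero_norm (a := fun j => ‖(p : ℤ_[p])‖ ^ m j) (fun j => ?_)
    ((tendsto_pow_atTop_nhds_zero_of_lt_one (norm_nonneg _) h1).comp hm)
  obtain ⟨t, ht⟩ := hf j
  rw [ht, pow_succ, mul_assoc, norm_mul, norm_pow]
  exact mul_le_of_le_one_right (by positivity) (PadicInt.norm_le_one _)

omit hp in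
theorem rC_ev {T : ℕ → Type} {P : (Σ i, T i) → Prop}
    (h : ∀ᶠ j in (atTop : Filter ℕ).comap Sigma.fst, P j) : ∀ᶠ i in atTop, ∀ a, P ⟨i, a⟩ := by
  filter_upwards [eventually_comap.1 h] with i hi a using hi ⟨i, a⟩ rfl

theorem rC_oc {G : Set ℕ} {e : ∀ (_ : ℕ) (i : ℕ), LM n σ.L i}
    (h : ∀ k ∈ G, σ.OCar atTop (fun _ => k) id (e k)) :
    σ.OCar (lG G) Prod.fst Prod.snd (fun ki => e ki.1 ki.2) := fun η hη =>
  eventually_curry_iff.2 (eventually_principal.2 fun k hk => h k hk η hη)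

theorem rC_ce {G : Set ℕ} {e e' : ∀ (_ : ℕ) (i : ℕ), LM n σ.L i}
    (h : ∀ k ∈ G, σ.ColEq atTop id (e k) (e' k)) :
    σ.ColEq (lG G) Prod.snd (fun ki => e ki.1 ki.2) (fun ki => e' ki.1 ki.2) :=
  eventually_curry_iff.2 (eventually_principal.2 h)

theorem rC_car {T : ℕ → Type} [∀ i, Fintype (T i)] {k : ℕ} {c : (Σ i, T i) → ℤ_[p]}
    {H : ∀ j : Σ i, T i, LM n σ.L j.1}
    (h : Car ((atTop : Filter ℕ).comap Sigma.fst) (fun j => σ.act k (c j)) (closedBall σ.q σ.r1) H)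
    (z : ℕ → ℂ) (f : ∀ i, T i → ℂ) :
    σ.OCar atTop (fun _ => k) id fun i => z i • ∑ a : T i, f i a • H ⟨i, a⟩ := by
  intro η hη
  filter_upwards [rC_ev (h _ (hη k))] with i hi x y hx
  obtain ⟨a, ha⟩ := rC_ne hx
  obtain ⟨b1, b2⟩ := hi a x y ha
  exact ⟨closedBall_subset_closedBall σ.rA_13 b1, _, b2⟩

theorem RawPkg.curry {G : Set ℕ} {e : ∀ (_ : ℕ) (i : ℕ), LM n σ.L i}
    (h : ∀ k ∈ G, σ.RawPkg atTop (fun _ => k) id (e k)) :
    σ.RawPkg (lG G) Prod.fst Prod.snd (fun ki => e ki.1 ki.2) := by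
  have h1 : ∀ k, ∃ H : ∀ i, LM n σ.L i, k ∈ G → σ.OCar atTop (fun _ => k) id H ∧
      σ.ColEq atTop id (fun i => e k i * e k i - e k i)
        (fun i => ld n σ.L i * H i + H i * ld n σ.L i) := fun k => by
    by_cases hk : k ∈ G
    · obtain ⟨H, hH⟩ := (h k hk).idem
      exact ⟨H, fun _ => hH⟩
    · exact ⟨fun _ => 0, fun hk' => absurd hk' hk⟩
  have h2 : ∀ k, ∃ H : ∀ i, LM n σ.L i, k ∈ G → σ.OCar atTop (fun _ => k) id H ∧
      σ.ColEq atTop id (fun i => e k i * lS n σ.L i - lS n σ.L i * (e k i)ᴴ)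
        (fun i => ld n σ.L i * H i - H i * (ld n σ.L i)ᴴ) := fun k => by
    by_cases hk : k ∈ G
    · obtain ⟨H, hH⟩ := (h k hk).dual
      exact ⟨H, fun _ => hH⟩
    · exact ⟨fun _ => 0, fun hk' => absurd hk' hk⟩
  choose H1 h1 using h1
  choose H2 h2 using h2
  exact ⟨rC_oc fun k hk => (h k hk).car,
    rC_ce (e := fun k i => ld n σ.L i * e k i) (e' := fun k i => e k i * ld n σ.L i)
      fun k hk => (h k hk).ch,
    ⟨fun ki => H1 ki.1 ki.2, rC_oc fun k hk => (h1 k hk).1,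
      rC_ce (e := fun k i => e k i * e k i - e k i)
        (e' := fun k i => ld n σ.L i * H1 k i + H1 k i * ld n σ.L i) fun k hk => (h1 k hk).2⟩,
    ⟨fun ki => H2 ki.1 ki.2, rC_oc fun k hk => (h2 k hk).1,
      rC_ce (e := fun k i => e k i * lS n σ.L i - lS n σ.L i * (e k i)ᴴ)
        (e' := fun k i => ld n σ.L i * H2 k i - H2 k i * (ld n σ.L i)ᴴ) fun k hk => (h2 k hk).2⟩⟩

variable (R : σ.Rho)

/-- The average against the character `a ↦ ω ^ a`. -/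
noncomputable def Rho.avg (ω : ℂ) (k i : ℕ) : LM n σ.L i :=
  ((p : ℂ) ^ (i + 1))⁻¹ • ∑ a : ZMod (p ^ (i + 1)), ω ^ a.val • R.ρ k i (a.val : ℤ_[p])

/-- The slices in which the fundamental cycle is preserved. -/
def Rho.Good : Set ℕ := {k | ∀ᶠ i in atTop, ∀ g x, cx x ∈ closedBall σ.q σ.r1 →
  (R.ρ k i g *ᵥ topv n) x = topv n x}

theorem Rho.good_mem : R.Good ∈ (atTop : Filter ℕ) := R.degree

theorem Rho.avg_pkg {ω : ℂ} (hω : ω ^ p = 1) {k : ℕ} (hk : k ∈ R.Good) :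
    σ.RawPkg atTop (fun _ => k) id (R.avg ω k) := by
  refine ⟨fun η hη => ?_, ?_, ?_, ?_⟩
  · filter_upwards [R.car k _ (hη k)] with i hi x c hx
    obtain ⟨a, ha⟩ := rC_ne hx
    obtain ⟨b1, b2⟩ := hi _ x c ha
    exact ⟨b1, _, b2⟩
  · filter_upwards [R.ch k] with i hi y hy x
    change (ld n σ.L i * R.avg ω k i) x y = (R.avg ω k i * ld n σ.L i) x y
    rw [Rho.avg, rC_l, rC_r]
    exact rC_eq fun a => (hi _ y (closedBall_subset_closedBall σ.rA_023 hy)).1 x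
  · obtain ⟨H, h1, h2⟩ := R.mul_htp k (J := Σ i : ℕ, ZMod (p ^ (i + 1)) × ZMod (p ^ (i + 1)))
      (atTop.comap Sigma.fst) Sigma.fst tendsto_comap (fun j => (j.2.1.val : ℤ_[p]))
      (fun j => (j.2.2.val : ℤ_[p])) (fun j => ((j.2.1 + j.2.2).val : ℤ_[p]))
      (rC_tend tendsto_comap fun j => rC_dvd j.2.1 j.2.2)
    refine ⟨_, rC_car h1 (fun i => ((p : ℂ) ^ (i + 1))⁻¹ * ((p : ℂ) ^ (i + 1))⁻¹)
      (fun i ab => ω ^ (ab.1 + ab.2).val), ?_⟩
    filter_upwards [rC_ev h2] with i hi y hy x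
    have key : ∀ M : ZMod (p ^ (i + 1)) × ZMod (p ^ (i + 1)) → LM n σ.L i, (∀ a, M a = H ⟨i, a⟩) →
        ∀ z, z = ((p : ℂ) ^ (i + 1))⁻¹ * ((p : ℂ) ^ (i + 1))⁻¹ →
        (R.avg ω k i * R.avg ω k i - R.avg ω k i) x y =
          (ld n σ.L i * (z • ∑ ab, ω ^ (ab.1 + ab.2).val • M ab) +
            (z • ∑ ab, ω ^ (ab.1 + ab.2).val • M ab) * ld n σ.L i) x y := by
      intro M hM z hz
      rw [Rho.avg, rC_idem (rC_card i) (rC_chi hω), rC_l, rC_r, rC_add, hz]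
      exact rC_eq fun ab => by rw [hM]; exact hi ab y hy x
    exact key _ (fun _ => rfl) _ rfl
  · obtain ⟨H, h1, h2⟩ := R.ad_htp k (J := Σ i : ℕ, ZMod (p ^ (i + 1)))
      (atTop.comap Sigma.fst) Sigma.fst tendsto_comap (fun j => (j.2.val : ℤ_[p]))
      (fun j => ((-j.2).val : ℤ_[p]))
      (rC_tend tendsto_comap fun j => by simpa using rC_dvd j.2 (-j.2)) hk
    refine ⟨_, rC_car h1 (fun i => ((p : ℂ) ^ (i + 1))⁻¹) (fun i a => ω ^ a.val), ?_⟩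
    filter_upwards [rC_ev h2] with i hi y hy x
    have key : ∀ M : ZMod (p ^ (i + 1)) → LM n σ.L i, (∀ a, M a = H ⟨i, a⟩) →
        (R.avg ω k i * lS n σ.L i - lS n σ.L i * (R.avg ω k i)ᴴ) x y =
          (ld n σ.L i * (((p : ℂ) ^ (i + 1))⁻¹ • ∑ a, ω ^ a.val • M a) -
            (((p : ℂ) ^ (i + 1))⁻¹ • ∑ a, ω ^ a.val • M a) * (ld n σ.L i)ᴴ) x y := by
      intro M hM
      rw [Rho.avg, rC_ad (by simp) (rC_star hω), rC_l, rC_r, rC_l, rC_r, rC_sub, rC_sub]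
      exact rC_eq fun a => by rw [hM]; exact hi a y hy x
    exact key _ fun _ => rfl

theorem Rho.avg_coarse {ω : ℂ} (hω : ω ^ p = 1) : ∃ h : ∀ (_ : ℕ) (i : ℕ), LM n σ.L i,
    (∀ ε > 0, ∀ᶠ k in atTop, ∀ᶠ i in atTop, ∀ x c, h k i x c ≠ 0 →
      cx c ∈ closedBall σ.z0 σ.ρ0 ∧ dist (cx x) (cx c) < ε) ∧
    ∀ᶠ k in atTop, ∀ᶠ i in atTop, ∀ c, cx c ∈ closedBall σ.z0 (σ.ρ0 / 2) → ∀ x,
      (R.avg ω k i - (if ω = 1 then 1 else 0)) x c =
        (ld n σ.L i * h k i + h k i * ld n σ.L i) x c := by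
  obtain ⟨h, h1, h2⟩ := R.coarse_htp
  refine ⟨fun k i => ((p : ℂ) ^ (i + 1))⁻¹ •
    ∑ a : ZMod (p ^ (i + 1)), ω ^ a.val • h k i (a.val : ℤ_[p]), fun ε hε => ?_, ?_⟩
  · filter_upwards [h1 ε hε] with k hk
    filter_upwards [hk] with i hi x c hx
    obtain ⟨a, ha⟩ := rC_ne hx
    exact hi _ x c ha
  · filter_upwards [h2] with k hk
    filter_upwards [hk] with i hi c hc x
    have e : (if ω = 1 then 1 else 0 : LM n σ.L i) = ((p : ℂ) ^ (i + 1))⁻¹ •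
        ∑ a : ZMod (p ^ (i + 1)), ω ^ a.val • (1 : LM n σ.L i) := by
      rw [← Finset.sum_smul, smul_smul, rC_sum hω]
      split_ifs <;> simp
    rw [e, Rho.avg, rC_sub, rC_l, rC_r, rC_add]
    exact rC_eq fun a => hi _ c hc x

end Setup

end Vale.Agent.P228
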