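import Vale.Agent.P228.Lag
import Vale.Agent.P228.Phys

/-! A locally inner twist of finite order does not change invariants.

Plan. Let `Z m = ⋃ j < m, T.O j`. Induct on `m ≤ T.m`: every `σ` with `Inv (Z m) σ` has
`σ (T.fn.sym X) = σ X` for `X.PZ (Z m)`.
`m = 0`: `Z = ∅`, `X.d` is contractible (`ctr_qt_empty`), both values vanish (`neutral_of_ctr`,
`Inv.neutral`). Step: `ψ X = σ (T.fn.sym X) - σ X` is an invariant for `Z (m+1)` (`Inv.comap`,
`Inv.sub`; `T.fn.Le Z Z` by `supp_le`) vanishing on `PZ (Z m)` by induction (`Inv.mono`).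
For physical Poincare `F`: `Inv.excision` with `u = v F.E` from `T.triv m` gives
`ψ (T.fn.sym F) = ψ F` (the differences are supported in `(O m)ᶜ ∩ Z (m+1) ⊆ Z m`). So along the
iterates `F_i = (T.fn.sym)^[i] F`, `σ F_i = σ F + i • ψ F`; `F_p` is `Rel` to `F` (its differential
and form are those of `F` by `T.iter`; a convenient way: define `F_i` on the object `F.E` directly,
with `d = τ^[i] F.d`, `S = τ^[i] F.S`). So `p • ψ F = 0`, `ψ F = 0`. For general `X` use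
`exists_rep` and `Inv.rep`. -/

namespace Vale.Agent.P228

open Dag CDag Complex Sym

variable {C : Type 1} {Pt : Type} [Dag C] [CDag C Pt] {G : Type} [AddCommGroup G]
  [IsAddTorsionFree G]

theorem Twist.iter_sym {p : ℕ} (T : Twist C p) (F : Sym C) : T.fn.sym^[p] F = F := by
  have h : ∀ i : ℕ, ∃ h1 h2 h3 h4, T.fn.sym^[i] F =
      ⟨F.E, (fun g => T.τ g)^[i] F.d, (fun g => T.τ g)^[i] F.S, h1, h2, h3, h4⟩ := by
    intro i
    induction i with
    | zero => exact ⟨F.dd, F.herm, F.rel, F.tame, rfl⟩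
    | succ i ih =>
      obtain ⟨h1, h2, h3, h4, h⟩ := ih
      simp only [Function.iterate_succ_apply', h]
      exact ⟨(T.fn.sym ⟨_, _, _, h1, h2, h3, h4⟩).dd, (T.fn.sym ⟨_, _, _, h1, h2, h3, h4⟩).herm,
        (T.fn.sym ⟨_, _, _, h1, h2, h3, h4⟩).rel, (T.fn.sym ⟨_, _, _, h1, h2, h3, h4⟩).tame, rfl⟩
  obtain ⟨h1, h2, h3, h4, h⟩ := h p
  rw [h]
  congr 1 <;> exact T.iter _

theorem Twist.fn_le {p : ℕ} (T : Twist C p) (Z : Set Pt) : T.fn.Le Z Z :=
  fun _ _ f hf => (T.supp_le f).trans hf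

theorem Twist.inv_step {p : ℕ} (hp : 0 < p) (T : Twist C p) {j : ℕ} (hj : j < T.m)
    {Z Z' : Set Pt} (hZ : Z' ⊆ Z) (hZ' : (T.O j)ᶜ ∩ Z ⊆ Z') {σ : Sym C → G} (hσ : Inv Z σ)
    (h0 : ∀ Y : Sym C, Y.PZ Z' → σ (T.fn.sym Y) = σ Y) {X : Sym C} (hX : X.PZ Z) :
    σ (T.fn.sym X) = σ X := by
  have hψ := (Inv.comap T.fn hσ (T.fn_le Z)).sub hσ
  obtain ⟨v, hv, hv'⟩ := T.triv j hj
  have step : ∀ F : Sym C, F.Phys Z → F.Poinc →
      σ (T.fn.sym (T.fn.sym F)) - σ (T.fn.sym F) = σ (T.fn.sym F) - σ F := fun F h1 h2 =>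
    hψ.excision hZ (fun Y hY => sub_eq_zero.2 (h0 Y hY)) F (T.fn.sym F) (v F.E) (hv _).1 (hv _).2
      h1 h2 (T.fn.sym_poinc h2)
      ((Set.subset_inter (hv' _ _ F.d) ((supp_le_right _).trans h1)).trans hZ')
      ((Set.subset_inter (hv' _ _ F.S) ((supp_le_right _).trans h1)).trans hZ')
  obtain ⟨F, hF⟩ := exists_rep hX
  have key : ∀ i : ℕ, (T.fn.sym^[i] F).Phys Z ∧ (T.fn.sym^[i] F).Poinc ∧
      σ (T.fn.sym (T.fn.sym^[i] F)) - σ (T.fn.sym^[i] F) = σ (T.fn.sym F) - σ F ∧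
      σ (T.fn.sym^[i] F) = σ F + i • (σ (T.fn.sym F) - σ F) := by
    intro i
    induction i with
    | zero => exact ⟨hF.1, hF.2.1, rfl, by simp⟩
    | succ i ih =>
      obtain ⟨h1, h2, h3, h4⟩ := ih
      rw [Function.iterate_succ_apply']
      refine ⟨T.fn.sym_phys (T.fn_le Z) h1, T.fn.sym_poinc h2, (step _ h1 h2).trans h3, ?_⟩
      rw [succ_nsmul, ← add_assoc, ← h4, ← h3, add_sub_cancel]
  have h1 := (key p).2.2.2
  rw [T.iter_sym, left_eq_add, nsmul_eq_zero_iff_right hp.ne', hψ.rep hX hF,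
    nsmul_eq_zero_iff_right two_ne_zero] at h1
  exact sub_eq_zero.1 h1

theorem Twist.inv_eq {p : ℕ} (hp : 0 < p) (T : Twist C p) {σ : Sym C → G}
    (hσ : Inv Set.univ σ) {X : Sym C} (hX : X.Poinc) : σ (T.fn.sym X) = σ X := by
  have key : ∀ m ≤ T.m, ∀ Y : Sym C, Y.PZ {y | ∃ j < m, y ∈ T.O j} → σ (T.fn.sym Y) = σ Y := by
    intro m
    induction m with
    | zero =>
      intro _ Y hY
      have h1 : Ctr Y.d := ctr_qt_empty (ctr_qt_mono (fun y hy => by simp at hy) hY.2)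
      rw [hσ.neutral hY.1.pz_univ (neutral_of_ctr h1),
        hσ.neutral (T.fn.sym_poinc hY.1).pz_univ (neutral_of_ctr (h1.map T.fn.toDagFun))]
    | succ m ih =>
      intro hm Y hY
      refine T.inv_step hp (j := m) hm ?_ ?_ (hσ.mono (Set.subset_univ _)) (ih (by omega)) hY
      · rintro y ⟨j, h1, h2⟩
        exact ⟨j, by omega, h2⟩
      · rintro y ⟨h0, j, h1, h2⟩
        refine ⟨j, lt_of_le_of_ne (by omega) ?_, h2⟩
        rintro rfl
        exact h0 h2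
  exact key T.m le_rfl X (hX.pz_univ.mono fun y _ => T.cov y)

end Vale.Agent.P228
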