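import Vale.Agent.P228.Pkg
import Vale.Agent.P228.Fine
import Vale.Agent.P228.Sigma
import Vale.Agent.P228.Twist

/-! In each good slice the invariant does not depend on the character.

Plans.
* `torF`, `fitF`: as `tor1`, `fit1` with `Orb.dist_small` in place of `unifA`; the set
  `pA ⁻¹' ball` is open by `pA_unif.continuous`.
* `twist_rel`: `T` from `exists_twist`; `T.τ` fixes `d` and `S` (last clause of the cocycle with
  `a = 0`, neighbours) and sends the class of `avg 1 k` to the class of `avg ω k` (entrywise in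
  columns near `U'`: `Rho.car` uniformly in `g`, last clause with `a.val`); use `mk_eq_of_col`.
  Then `CFun.sym_tw`, `Rel.of_iso 1 1`.
* `slice_eq`: with `r` from `exists_cocycle`, `z = σ.z k`, `N' = closedBall z (r / 2)`:
  `sg_pull` for `pk` (box `[z, z]` inside `[a, b]`) rewrites both sides as
  `sg N' z z n (pk.fn.sym (X1 ω))`; `Rho.rel_fine` passes to the fine category; `Inv.comap (sg_inv_top ..)` is an
  invariant on the fine category; `Twist.inv_eq`, `twist_rel`, `Inv.rel'`. -/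

namespace Vale.Agent.P228

open Matrix Complex Metric Filter Dag CDag Sym Set

variable {n p : ℕ} [Fact p.Prime]

namespace Setup

variable (σ : Setup n p)

theorem slc_adj {m : ℕ} {x y : Tor n σ.L m} (h : Adj x y) (hx : xr x ∈ closedBall σ.q σ.r0)
    (hm : msh m < σ.r3 - σ.r0) : σ.cl (xr y) = xr y ∧ dist (xr x) (xr y) ≤ msh m := by
  have h1 : xr x ∈ closedBall (0 : Fin n → ℝ) σ.L :=
    σ.hL (σ.hq (closedBall_subset_closedBall (by linarith [σ.h01, σ.h12, σ.h23]) hx))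
  rw [mem_closedBall_zero_iff] at h1
  have h2 := h.dist_le (by linarith)
  refine ⟨clamp_eq ?_, h2⟩
  rw [mem_closedBall] at hx ⊢
  linarith [dist_triangle_left (xr y) σ.q (xr x)]

theorem slc_cl {k : ℕ} {g : ℤ_[p]} {x y : Fin n → ℝ} (hy : y ∈ closedBall σ.q σ.r0)
    (h : dist x (σ.act k g y) < σ.r3 - σ.r2) : σ.cl x = x := by
  have h1 := σ.orb k g y (closedBall_subset_closedBall σ.h01.le hy)
  refine clamp_eq ?_
  rw [mem_closedBall] at h1 ⊢
  linarith [dist_triangle x (σ.act k g y) σ.q]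

theorem slc_open (k : ℕ) (r : ℝ) : IsOpen (Orb.pA ⁻¹' ball (σ.z k) r : Set (σ.Orb k)) :=
  isOpen_ball.preimage Orb.pA_unif.continuous

theorem slc_msh {η : ℝ} (h : 0 < η) : ∀ᶠ i in atTop, msh i < η :=
  tendsto_msh.eventually (gt_mem_nhds h)

theorem slc_ctl (k : ℕ) (r : ℝ) (h : ball (σ.z k) r ⊆ ball σ.w σ.ρR) :
    RelCtl (atTop : Filter ℕ) (Orb.pA ⁻¹' ball (σ.z k) r : Set (σ.Orb k))
      (fun i (x : Tor n σ.L i) => (⟨σ.cl (xr x), σ.cl_mem _⟩ : σ.Orb k))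
      (fun i (x : Tor n σ.L i) => (⟨σ.cl (xr x), σ.cl_mem _⟩ : σ.Orb k))
      (fun _ x y => Adj x y) := by
  intro y hy
  obtain ⟨ρ, hρ, hb⟩ := Metric.isOpen_iff.1 (σ.slc_open k r) y hy
  refine ⟨ρ, hρ, fun ε hε => ?_⟩
  obtain ⟨η, hη, hd⟩ := Orb.dist_small σ k ε hε
  have key : ∀ᶠ i in atTop, ∀ a b : Tor n σ.L i, Adj a b →
      dist (⟨σ.cl (xr a), σ.cl_mem _⟩ : σ.Orb k) y < ρ →
      dist (⟨σ.cl (xr a), σ.cl_mem _⟩ : σ.Orb k) ⟨σ.cl (xr b), σ.cl_mem _⟩ < ε := by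
    filter_upwards [slc_msh hη, slc_msh (sub_pos.2 (σ.h01.trans (σ.h12.trans σ.h23)))]
      with i h1 h2 a b hab ha
    obtain ⟨h3, h4⟩ := σ.of_A_cl (h (hb ha))
    obtain ⟨h5, h6⟩ := σ.slc_adj hab h4 h2
    refine hd _ _ 0 ?_
    rw [σ.act_zero k _ (σ.cl_mem _)]
    show dist (σ.cl (xr a)) (σ.cl (xr b)) < η
    rw [h3, h5]
    exact h6.trans_lt h1
  filter_upwards [key] with i hi a b hab hd
  rcases hd with hd | hd
  · exact hi a b hab hd
  · rw [dist_comm]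
    exact hi b a hab.symm hd

/-- The tori with positions in the orbit space. -/
@[reducible] noncomputable def torF (k : ℕ) (r : ℝ) (h : ball (σ.z k) r ⊆ ball σ.w σ.ρR) :
    TorD n σ.L (atTop : Filter ℕ) (Orb.pA ⁻¹' ball (σ.z k) r : Set (σ.Orb k)) where
  m := id
  q _ x := ⟨σ.cl (xr x), σ.cl_mem _⟩
  ctl := σ.slc_ctl k r h

theorem fitF (k : ℕ) (r : ℝ) (h : ball (σ.z k) r ⊆ ball σ.w σ.ρR) :
    Fit σ (σ.torF k r h) (fun _ => k) := by
  refine ⟨σ.slc_open k r, fun M hM y hy => ?_, fun i x hx => (σ.of_A_cl (h hx)).2⟩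
  obtain ⟨ρ, hρ, hb⟩ := Metric.isOpen_iff.1 (σ.slc_open k r) y hy
  refine ⟨ρ, hρ, fun ε hε => ?_⟩
  obtain ⟨η, hη, hd⟩ := Orb.dist_small σ k ε hε
  filter_upwards [hM (fun _ => min η (σ.r3 - σ.r2)) fun _ => lt_min hη (sub_pos.2 σ.h23)]
    with i hi a b hab hy
  obtain ⟨h1, g, h2⟩ := hi a b hab
  have h3 : σ.cl (cx b) = cx b := clamp_eq h1
  have h4 : σ.cl (cx a) = cx a := by
    rcases hy with hy | hy
    · exact (σ.of_A_cl (h (hb hy))).1
    · exact σ.slc_cl (σ.of_A_cl (h (hb hy))).2 (h2.trans_le (min_le_right _ _))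
  refine hd _ _ g ?_
  show dist (σ.cl (cx a)) (σ.act k g (σ.cl (cx b))) < η
  rw [h3, h4]
  exact h2.trans_le (min_le_left _ _)

/-- Lower corner of the big box. -/
def lo : Fin n → ℝ := fun t => σ.w t - σ.ρK

/-- Upper corner of the big box. -/
def hi : Fin n → ℝ := fun t => σ.w t + σ.ρK

/-- The compact neighbourhood of the big box. -/
def nb : Set (Fin n → ℝ) := closedBall σ.w ((σ.ρK + σ.ρR) / 2)

theorem nb_cpt : IsCompact σ.nb := isCompact_closedBall _ _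

theorem nb_sub : σ.nb ⊆ ball σ.w σ.ρR := closedBall_subset_ball (by linarith [σ.hKR])

theorem box_sub : Icc σ.lo σ.hi ⊆ interior σ.nb := by
  intro y hy
  have h0 : 0 ≤ σ.ρK := dist_nonneg.trans (σ.hz 0)
  have h1 : dist y σ.w ≤ σ.ρK := by
    refine (dist_pi_le_iff h0).2 fun t => ?_
    have h2 : σ.w t - σ.ρK ≤ y t := hy.1 t
    have h3 : y t ≤ σ.w t + σ.ρK := hy.2 t
    rw [Real.dist_eq, abs_le]
    constructor <;> linarith
  refine ball_subset_interior_closedBall ?_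
  rw [mem_ball]
  linarith [σ.hKR]

theorem mem_box {y : Fin n → ℝ} (h : y ∈ closedBall σ.w σ.ρK) : σ.lo ≤ y ∧ y ≤ σ.hi := by
  have h1 : ∀ t, |y t - σ.w t| ≤ σ.ρK := fun t => (dist_le_pi_dist y σ.w t).trans h
  refine ⟨fun t => ?_, fun t => ?_⟩
  · show σ.w t - σ.ρK ≤ y t
    linarith [(abs_le.1 (h1 t)).1]
  · show y t ≤ σ.w t + σ.ρK
    linarith [(abs_le.1 (h1 t)).2]

variable {σ} (R : σ.Rho)

theorem Rho.pkg1 {ω : ℂ} (hω : ω ^ p = 1) :
    σ.RawPkg (lG R.Good) Prod.fst Prod.snd (fun ki => R.avg ω ki.1 ki.2) :=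
  RawPkg.curry fun _ hk => R.avg_pkg hω hk

/-- The twisted complex over all good slices. -/
noncomputable def Rho.X1 {ω : ℂ} (hω : ω ^ p = 1) :
    Sym (Ctl (lG R.Good) (ball σ.w σ.ρR)) :=
  (σ.tor1 R.Good).sym.tw ((σ.tor1 R.Good).hom fun ki => R.avg ω ki.1 ki.2)
    ((σ.fit1 R.Good).chain (R.pkg1 hω))

theorem Rho.X1_poinc {ω : ℂ} (hω : ω ^ p = 1) : (R.X1 hω).Poinc :=
  (σ.fit1 R.Good).poinc (R.pkg1 hω)

/-- The twisted complex in the fine category. -/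
noncomputable def Rho.XF {ω : ℂ} (hω : ω ^ p = 1) {k : ℕ} (hk : k ∈ R.Good) {r : ℝ}
    (h : ball (σ.z k) r ⊆ ball σ.w σ.ρR) :
    Sym (Ctl (atTop : Filter ℕ) (Orb.pA ⁻¹' ball (σ.z k) r : Set (σ.Orb k))) :=
  (σ.torF k r h).sym.tw ((σ.torF k r h).hom (R.avg ω k)) ((σ.fitF k r h).chain (R.avg_pkg hω hk))

theorem Rho.slc_avg (ω : ℂ) (k i : ℕ) (a b : LC n σ.L i) (c : ℂ)
    (h : ∀ t : ℕ, c * R.ρ k i (t : ℤ_[p]) a b = ω ^ t * R.ρ k i (t : ℤ_[p]) a b) :
    c * R.avg 1 k i a b = R.avg ω k i a b := by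
  simp only [Rho.avg, Matrix.smul_apply, Matrix.sum_apply, smul_eq_mul, one_pow, one_mul]
  rw [mul_left_comm, Finset.mul_sum]
  exact congrArg _ (Finset.sum_congr rfl fun t _ => h t.val)

theorem Rho.twist_rel {ω : ℂ} (hω : ω ^ p = 1) {k : ℕ} (hk : k ∈ R.Good) :
    ∃ r > 0, ∃ h : ball (σ.z k) r ⊆ ball σ.w σ.ρR,
      ∃ T : Twist (Ctl (atTop : Filter ℕ) (Orb.pA ⁻¹' ball (σ.z k) r : Set (σ.Orb k))) p,
        Sym.Rel (T.fn.sym (R.XF (one_pow p) hk h)) (R.XF hω hk h) := by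
  obtain ⟨r, hr, h, c, ε₀, hε, h1, hp, hc, hl⟩ := exists_cocycle σ k hω
  obtain ⟨T, hT⟩ := exists_twist (l' := (atTop : Filter ℕ)) (σ.slc_open k r)
    (isCompact_univ.totallyBounded.subset (subset_univ _)) c h1 hp hε hc
  refine ⟨r, hr, h, T, ?_⟩
  have hne : ∀ {f : ∀ i, LM n σ.L i}, (σ.torF k r h).IsC f → Ctl.IsC
      (X := (σ.torF k r h).full.ob n) (X' := (σ.torF k r h).full.ob n)
      (fun i => Matrix.of fun a b => c (((σ.torF k r h).full.ob n).pos i a)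
        (((σ.torF k r h).full.ob n).pos i b) * f i a b) := fun hf =>
    Ctl.IsC.of_le hf (Eventually.of_forall fun i a b h => right_ne_zero_of_mul h)
  have hadj : ∀ f : ∀ i, LM n σ.L i, (σ.torF k r h).IsC f →
      (∀ i a b, f i a b ≠ 0 → Adj (P228.cpt a) (P228.cpt b)) →
      T.τ ((σ.torF k r h).hom f) = (σ.torF k r h).hom f := by
    intro f hf hA
    refine (hT ((σ.torF k r h).full.ob n) ((σ.torF k r h).full.ob n) f hf).trans (Ctl.mk_eq_of_col (hne hf) hf fun y hy => ?_)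
    obtain ⟨ρ, hρ, hb⟩ := Metric.isOpen_iff.1 (σ.slc_open k r) y hy
    refine ⟨ρ, hρ, ?_⟩
    filter_upwards [slc_msh hε, slc_msh (sub_pos.2 (σ.h01.trans (σ.h12.trans σ.h23)))]
      with i h2 h3 a b hby
    by_cases h0 : f i a b = 0
    · exact (congrArg _ h0).trans ((mul_zero _).trans h0.symm)
    obtain ⟨h4, h5⟩ := σ.of_A_cl (h (hb hby))
    obtain ⟨h6, h7⟩ := σ.slc_adj (hA i a b h0).symm h5 h3
    have h8 := hl (((σ.torF k r h).full.ob n).pos i a) _ (hb hby) 0 (by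
      rw [Nat.cast_zero, σ.act_zero k _ (Orb.mem _)]
      show dist (σ.cl (cx a)) (σ.cl (cx b)) < ε₀
      rw [h6, dist_comm]
      exact (congrArg (dist · _) h4).trans_lt (h7.trans_lt h2))
    exact (congrArg (· * f i a b) (h8.trans (pow_zero ω))).trans (one_mul _)
  have hd : T.τ (σ.torF k r h).sym.d = (σ.torF k r h).sym.d :=
    hadj _ ((σ.torF k r h).full.isC_rd n) fun i a b h => (face_of_rd h).adj
  have hS : T.τ (σ.torF k r h).sym.S = (σ.torF k r h).sym.S :=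
    hadj _ ((σ.torF k r h).full.isC_rS n) fun i a b h => adj_of_rS h
  have c1 := (σ.fitF k r h).isC _ (R.avg_pkg (one_pow p) hk).car
  have c2 := (σ.fitF k r h).isC _ (R.avg_pkg hω hk).car
  have he : T.τ ((σ.torF k r h).hom (R.avg 1 k)) = (σ.torF k r h).hom (R.avg ω k) := by
    refine (hT ((σ.torF k r h).full.ob n) ((σ.torF k r h).full.ob n) _ c1).trans (Ctl.mk_eq_of_col (hne c1) c2 fun y hy => ?_)
    obtain ⟨ρ, hρ, hb⟩ := Metric.isOpen_iff.1 (σ.slc_open k r) y hy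
    refine ⟨ρ, hρ, ?_⟩
    filter_upwards [R.car k _ (lt_min hε (sub_pos.2 σ.h23))] with i h2 a b hby
    obtain ⟨h4, h5⟩ := σ.of_A_cl (h (hb hby))
    have key : ∀ t : ℕ, c (((σ.torF k r h).full.ob n).pos i a)
        (((σ.torF k r h).full.ob n).pos i b) * R.ρ k i (t : ℤ_[p]) a b =
        ω ^ t * R.ρ k i (t : ℤ_[p]) a b := by
      intro t
      by_cases h0 : R.ρ k i (t : ℤ_[p]) a b = 0
      · rw [h0, mul_zero, mul_zero]
      have h6 := (h2 _ a b h0).2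
      have h7 := σ.slc_cl h5 (h6.trans_le (min_le_right _ _))
      rw [hl (((σ.torF k r h).full.ob n).pos i a) _ (hb hby) t (by
        show dist (σ.cl (cx a)) (σ.act k t (σ.cl (cx b))) < ε₀
        rw [h7]
        exact (congrArg (fun z => dist _ (σ.act k t z)) h4).trans_lt
          (h6.trans_le (min_le_left _ _)))]
    exact R.slc_avg ω k i a b _ key
  refine Sym.Rel.of_iso (X' := T.fn.sym (R.XF (one_pow p) hk h)) (X := R.XF hω hk h)
    (1 : Hom (σ.torF k r h).sym.E (σ.torF k r h).sym.E)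
    (1 : Hom (σ.torF k r h).sym.E (σ.torF k r h).sym.E) (m_one _) (m_one _) ?_ ?_
  · show T.τ (σ.torF k r h).sym.d * (1 : Hom (σ.torF k r h).sym.E (σ.torF k r h).sym.E) =
      (1 : Hom (σ.torF k r h).sym.E (σ.torF k r h).sym.E) * (σ.torF k r h).sym.d
    rw [hd, m_one, one_m]
  · show (1 : Hom (σ.torF k r h).sym.E (σ.torF k r h).sym.E) *
      ((σ.torF k r h).sym.S - (σ.torF k r h).hom (R.avg ω k) * (σ.torF k r h).sym.S -
        (σ.torF k r h).sym.S * ((σ.torF k r h).hom (R.avg ω k)).ad) *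
      (1 : Hom (σ.torF k r h).sym.E (σ.torF k r h).sym.E).ad =
      T.τ ((σ.torF k r h).sym.S - (σ.torF k r h).hom (R.avg 1 k) * (σ.torF k r h).sym.S -
        (σ.torF k r h).sym.S * ((σ.torF k r h).hom (R.avg 1 k)).ad)
    rw [map_sub, map_sub, T.mul, T.mul, T.ad, hS, he, ad_one, m_one, one_m]

theorem tendsto_slice {G : Set ℕ} {k : ℕ} (hk : k ∈ G) :
    Tendsto (fun i : ℕ => (k, i)) atTop (lG G) := fun _ hs =>
  eventually_principal.1 (eventually_curry_iff.1 hs) k hk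

/-- The slice `k` near `z k`. -/
noncomputable def pk (σ : Setup n p) {G : Set ℕ} {k : ℕ} (hk : k ∈ G) {r : ℝ}
    (h : ball (σ.z k) r ⊆ ball σ.w σ.ρR) :
    Pull (atTop : Filter ℕ) (ball (σ.z k) r) (lG G) (ball σ.w σ.ρR) :=
  ⟨fun i => (k, i), id, tendsto_slice hk, uniformContinuous_id, fib_id isOpen_ball h⟩

/-- From the fine category to the slice. -/
noncomputable def pF (σ : Setup n p) (k : ℕ) (r : ℝ) :
    Pull (atTop : Filter ℕ) (ball (σ.z k) r) (atTop : Filter ℕ)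
      (Orb.pA ⁻¹' ball (σ.z k) r : Set (σ.Orb k)) :=
  ⟨id, Orb.pA, tendsto_id, Orb.pA_unif, fib_compact Orb.pA_unif.continuous isOpen_ball⟩

theorem Rho.rel_fine {ω : ℂ} (hω : ω ^ p = 1) {k : ℕ} (hk : k ∈ R.Good) {r : ℝ}
    (h : ball (σ.z k) r ⊆ ball σ.w σ.ρR) :
    Sym.Rel ((σ.pk hk h).fn.sym (R.X1 hω)) ((σ.pF k r).fn.sym (R.XF hω hk h)) :=
  ((σ.tor1 R.Good).rel_pull (σ.pk hk h) ((σ.fit1 R.Good).isC _ (R.pkg1 hω).car)
    ((σ.fit1 R.Good).chain (R.pkg1 hω))).trans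
  ((σ.torF k r h).rel_pull (σ.pF k r) ((σ.fitF k r h).isC _ (R.avg_pkg hω hk).car)
    ((σ.fitF k r h).chain (R.avg_pkg hω hk))).symm

theorem Rho.slice_eq {ω : ℂ} (hω : ω ^ p = 1) {k : ℕ} (hk : k ∈ R.Good) :
    (sg σ.nb σ.lo σ.hi n (R.X1 (one_pow p))).compTendsto _ (tendsto_slice hk) =
      (sg σ.nb σ.lo σ.hi n (R.X1 hω)).compTendsto _ (tendsto_slice hk) := by
  obtain ⟨r, hr, h, T, hT⟩ := R.twist_rel hω hk
  have hN : IsCompact (closedBall (σ.z k) (r / 2)) := isCompact_closedBall _ _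
  have hU : closedBall (σ.z k) (r / 2) ⊆ ball (σ.z k) r := closedBall_subset_ball (half_lt_self hr)
  have hK : Icc (σ.z k) (σ.z k) ⊆ interior (closedBall (σ.z k) (r / 2)) := by
    rw [Icc_self, singleton_subset_iff]
    exact ball_subset_interior_closedBall (mem_ball_self (half_pos hr))
  have hI := sg_inv_top (l := (atTop : Filter ℕ)) hN hU le_rfl hK
  have hp : ∀ {ω : ℂ} (hω : ω ^ p = 1), (R.XF hω hk h).Poinc := fun hω =>
    (σ.fitF k r h).poinc (R.avg_pkg hω hk)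
  have key : ∀ {ω : ℂ} (hω : ω ^ p = 1),
      (sg σ.nb σ.lo σ.hi n (R.X1 hω)).compTendsto _ (tendsto_slice hk) =
        sg (closedBall (σ.z k) (r / 2)) (σ.z k) (σ.z k) n ((σ.pF k r).fn.sym (R.XF hω hk h)) :=
    fun hω => (sg_pull isOpen_ball (σ.pk hk h) rfl h hN hU le_rfl hK σ.nb_cpt σ.nb_sub σ.box_sub
      (σ.mem_box (σ.hz k)).1 (σ.mem_box (σ.hz k)).2 (R.X1_poinc hω)).symm.trans
      (hI.rel' ((σ.pF k r).fn.sym_poinc (hp hω)).pz_univ (R.rel_fine hω hk h))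
  have hJ := Inv.comap (σ.pF k r).fn hI ((σ.pF k r).le (Z' := univ) (subset_univ _))
  rw [key, key]
  exact (T.inv_eq (Fact.out : p.Prime).pos hJ (hp (one_pow p))).symm.trans
    (hJ.rel' (hp hω).pz_univ hT)

theorem Rho.sg_eq {ω : ℂ} (hω : ω ^ p = 1) :
    sg σ.nb σ.lo σ.hi n (R.X1 (one_pow p)) = sg σ.nb σ.lo σ.hi n (R.X1 hω) := by
  have key : ∀ a b : Germ (lG R.Good) ℤ, (∀ k (hk : k ∈ R.Good),
      a.compTendsto _ (tendsto_slice hk) = b.compTendsto _ (tendsto_slice hk)) → a = b := by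
    intro a b h
    induction a using Germ.inductionOn with | _ f => ?_
    induction b using Germ.inductionOn with | _ g => ?_
    exact Germ.coe_eq.2 (eventually_curry_iff.2 (eventually_principal.2 fun k hk =>
      Germ.coe_eq.1 (h k hk)))
  exact key _ _ fun k hk => R.slice_eq hω hk

end Setup

end Vale.Agent.P228
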