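import Vale.Agent.P228.Hty

/-! Symmetric complexes, invariants, cuts. Definitions. -/

namespace Vale.Agent.P228

open Dag CDag Complex

/-- A symmetric complex. -/
structure Sym (C : Type 1) {Pt : Type} [Dag C] [CDag C Pt] where
  E : C
  d : Hom E E
  S : Hom E E
  dd : d * d = 0
  herm : S.ad = S
  rel : d * S + S * d.ad = 0
  tame : Tame d

variable {C : Type 1} {Pt : Type} [Dag C] [CDag C Pt]

namespace Sym

theorem dS (X : Sym C) : X.d * X.S = -(X.S * X.d.ad) := eq_neg_of_add_eq_zero_left X.rel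

theorem dd' (X : Sym C) : X.d.ad * X.d.ad = 0 := by simpa using ad_eq X.dd

/-- Direct sum. -/
def add (X Y : Sym C) : Sym C where
  E := sum X.E Y.E
  d := blk X.d 0 0 Y.d
  S := blk X.S 0 0 Y.S
  dd := by simp [X.dd, Y.dd]
  herm := by simp [X.herm, Y.herm]
  rel := by simp [X.rel, Y.rel]
  tame := tame_blk _ X.tame Y.tame

/-- The opposite form. -/
def neg (X : Sym C) : Sym C where
  E := X.E
  d := X.d
  S := -X.S
  dd := X.dd
  herm := by simp [X.herm]
  rel := by simp [X.dS]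
  tame := X.tame

/-- The algebraic boundary. -/
noncomputable def bd (V : Sym C) : Sym C where
  E := sum V.E V.E
  d := I • blk V.d V.S 0 V.d.ad
  S := blk 0 1 1 0
  dd := by simp [V.dd, V.dd', V.dS]
  herm := by simp
  rel := by simp [V.herm]
  tame := tame_smul _ (tame_blk _ V.tame (tame_ad V.tame))

/-- Homotopy isometry from `X` to `X'`. -/
def Rel (X' X : Sym C) : Prop :=
  ∃ f : Hom X'.E X.E, Hq X'.d X.d f ∧ Htp X'.d (-X'.d.ad) (f * X.S * f.ad) X'.S

/-- Poincare duality. -/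
def Poinc (X : Sym C) : Prop := Hq X.d (-X.d.ad) X.S

/-- The underlying object lives on `Z`. -/
def Phys (Z : Set Pt) (X : Sym C) : Prop := supp (1 : Hom X.E X.E) ⊆ Z

/-- The complex is contractible away from `Z`. -/
def CtrZ (Z : Set Pt) (X : Sym C) : Prop := Ctr (qt Z X.d)

/-- Poincare complexes that are contractible away from `Z`. -/
def PZ (Z : Set Pt) (X : Sym C) : Prop := X.Poinc ∧ X.CtrZ Z

/-- Change the form by a chain map `e`: the symmetrisation of `(1 - 2 e) S`. -/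
def tw (X : Sym C) (e : Hom X.E X.E) (he : X.d * e = e * X.d) : Sym C where
  E := X.E
  d := X.d
  S := X.S - e * X.S - X.S * e.ad
  dd := X.dd
  herm := by simp [X.herm]; abel
  rel := by
    have h1 : e.ad * X.d.ad = X.d.ad * e.ad := by simpa using ad_eq he
    simp [reas he, X.dS, reas X.dS, h1]
  tame := X.tame

/-- Hypotheses on a shift. -/
structure Shift (X : Sym C) (s : Hom X.E X.E) : Prop where
  d : X.d * s = s * X.d
  d' : X.d * s.ad = s.ad * X.d
  S : X.S * s = s * X.S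
  co : s * s.ad = 1

/-- Product with a line, given by a shift. -/
noncomputable def susp (X : Sym C) (s : Hom X.E X.E) (h : X.Shift s) : Sym C where
  E := sum X.E X.E
  d := I • blk X.d (s - 1) 0 (-X.d)
  S := blk 0 ((I / 2) • (X.S * (1 + s))) ((-I / 2) • (X.S * (1 + s.ad))) 0
  dd := by
    simp [X.dd, h.d]
    module
  herm := by
    have h1 : s.ad * X.S = X.S * s.ad := by simpa [X.herm] using ad_eq h.S
    simp [X.herm, h1, ← h.S, neg_div, map_ofNat]
  rel := by
    have h1 : s * X.d.ad = X.d.ad * s := by simpa using ad_eq h.d'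
    have h2 : s.ad * X.d.ad = X.d.ad * s.ad := by simpa using ad_eq h.d
    have h3 : s * (X.S * s.ad) = X.S := by rw [← massoc, ← h.S, massoc, h.co, m_one]
    simp [X.dS, reas X.dS, h1, h2, h3, ← h.S, h.co, smul_smul, neg_div]
    refine ⟨?_, ?_, ?_⟩ <;> module
  tame := tame_smul _ (tame_blk _ X.tame (tame_neg X.tame))

end Sym

open Sym

variable {G : Type} [AddCommGroup G]

/-- An invariant of Poincare complexes contractible away from `Z`. -/
structure Inv (Z : Set Pt) (σ : Sym C → G) : Prop where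
  rel : ∀ X' X : Sym C, X'.PZ Z → X.PZ Z → Rel X' X → σ X' = σ X
  add : ∀ X Y : Sym C, X.PZ Z → Y.PZ Z → σ (X.add Y) = σ X + σ Y
  bd : ∀ V : Sym C, V.CtrZ Z → σ V.bd = 0

/-- An invariant of Poincare complexes living on `Z`. -/
structure PInv (Z : Set Pt) (θ : Sym C → G) : Prop where
  rel : ∀ X' X : Sym C, X'.Phys Z → X.Phys Z → X.Poinc → Rel X' X → θ X' = θ X
  add : ∀ X Y : Sym C, X.Phys Z → Y.Phys Z → X.Poinc → Y.Poinc → θ (X.add Y) = θ X + θ Y
  bd : ∀ V : Sym C, V.Phys Z → θ V.bd = 0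

/-- `F` lives on `Z` and represents twice `X`. -/
def Rep (Z : Set Pt) (X F : Sym C) : Prop :=
  F.Phys Z ∧ F.Poinc ∧ ∃ N : Sym C, Rel N N.neg ∧ Rel F ((X.add X).add N)

open Classical in
/-- Extension of an invariant (doubled). -/
noncomputable def Ext (Z : Set Pt) (θ : Sym C → G) (X : Sym C) : G :=
  if h : ∃ F, Rep Z X F then θ h.choose else 0

/-- A cut: a subcomplex living on `A` whose quotient lives on `A'`. -/
structure CutD (A A' : Set Pt) (X : Sym C) where
  B : C
  Q : C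
  iB : Hom X.E B
  iQ : Hom X.E Q
  split : Split iB iQ
  sub : iQ.ad * X.d * iB = 0
  suppB : supp (1 : Hom B B) ⊆ A
  suppQ : supp (1 : Hom Q Q) ⊆ A'
  tame : Tame (iQ.ad * X.d * iQ)

theorem CutD.chain {A A' : Set Pt} {X : Sym C} (c : CutD A A' X) :
    c.iQ.ad * X.d * c.iQ * c.iQ.ad = c.iQ.ad * X.d := by
  have h1 := congrArg (fun x => c.iQ.ad * X.d * x) c.split.tot
  simp only [m_add, m_one, ← massoc, c.sub, zero_m, zero_add] at h1
  exact h1

/-- The quotient complex of a cut. -/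
def CutD.quot {A A' : Set Pt} {X : Sym C} (c : CutD A A' X) : Sym C where
  E := c.Q
  d := c.iQ.ad * X.d * c.iQ
  S := c.iQ.ad * X.S * c.iQ
  dd := by
    rw [massoc c.iQ.ad X.d c.iQ, ← massoc _ c.iQ.ad, ← massoc c.iQ.ad X.d c.iQ, c.chain]
    simp [reas X.dd]
  herm := by simp [X.herm]
  rel := by
    have h1 : c.iQ * (c.iQ.ad * X.d * c.iQ).ad = X.d.ad * c.iQ := by
      simpa using ad_eq c.chain
    rw [massoc c.iQ.ad X.S c.iQ, ← massoc _ c.iQ.ad, c.chain, massoc c.iQ.ad (X.S * c.iQ),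
      massoc X.S, h1]
    simp [reas X.dS]
  tame := c.tame

/-- Every object can be divided between `A` and `A'`. -/
def Cover (C : Type 1) {Pt : Type} [Dag C] [CDag C Pt] (A A' : Set Pt) : Prop :=
  ∀ E : C, ∃ p : Hom E E, supp p ⊆ A ∧ supp (1 - p) ⊆ A'

open Classical in
/-- The invariant of the boundary of a cut. -/
noncomputable def thC (A A' : Set Pt) (σ : Sym C → G) (X : Sym C) : G :=
  if h : Nonempty (CutD A A' X) then σ h.some.quot.bd else 0

/-- The induced invariant in one dimension more. -/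
noncomputable def Theta (A A' Z : Set Pt) (σ : Sym C → G) : Sym C → G := Ext Z (thC A A' σ)

/-- Functors preserving tameness. -/
structure CFun (C : Type 1) {Pt : Type} [Dag C] [CDag C Pt] (C' : Type 1) {Pt' : Type} [Dag C']
    [CDag C' Pt'] extends DagFun C C' where
  tame : ∀ {X : C} {d : Hom X X}, Tame d → Tame (map d)

variable {C' : Type 1} {Pt' : Type} [Dag C'] [CDag C' Pt']

/-- The image of a symmetric complex. -/
def CFun.sym (Φ : CFun C C') (X : Sym C) : Sym C' where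
  E := Φ.obj X.E
  d := Φ.map X.d
  S := Φ.map X.S
  dd := by rw [← Φ.map_mul, X.dd, map_zero]
  herm := by rw [← Φ.map_ad, X.herm]
  rel := by rw [← Φ.map_ad, ← Φ.map_mul, ← Φ.map_mul, ← map_add, X.rel, map_zero]
  tame := Φ.tame X.tame

/-- Maps supported in `Z` go to maps supported in `Z'`. -/
def CFun.Le (Φ : CFun C C') (Z : Set Pt) (Z' : Set Pt') : Prop :=
  ∀ (X Y : C) (f : Hom X Y), supp f ⊆ Z → supp (Φ.map f) ⊆ Z'

/-- A twist of order `p` that is locally inner. -/
structure Twist (C : Type 1) {Pt : Type} [Dag C] [CDag C Pt] (p : ℕ) where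
  τ : ∀ {X Y : C}, Hom X Y →ₗ[ℂ] Hom X Y
  mul : ∀ {X Y Z : C} (f : Hom X Y) (g : Hom Y Z), τ (f * g) = τ f * τ g
  one : ∀ X : C, τ (1 : Hom X X) = 1
  ad : ∀ {X Y : C} (f : Hom X Y), τ f.ad = (τ f).ad
  tame : ∀ {X : C} {d : Hom X X}, Tame d → Tame (τ d)
  supp_le : ∀ {X Y : C} (f : Hom X Y), supp (τ f) ⊆ supp f
  iter : ∀ {X Y : C} (f : Hom X Y), (fun g : Hom X Y => τ g)^[p] f = f
  m : ℕ
  O : ℕ → Set Pt
  cov : ∀ y, ∃ j < m, y ∈ O j
  triv : ∀ j < m, ∃ v : ∀ E : C, Hom E E, (∀ E, v E * (v E).ad = 1 ∧ (v E).ad * v E = 1) ∧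
    ∀ (E F : C) (f : Hom E F), supp (τ f - v E * f * (v F).ad) ⊆ (O j)ᶜ

/-- The twist as a functor. -/
def Twist.fn {p : ℕ} (T : Twist C p) : CFun C C where
  obj X := X
  map := T.τ
  map_mul := T.mul
  map_one := T.one
  map_ad := T.ad
  tame := T.tame

end Vale.Agent.P228
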