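import Vale.Agent.P228.SymA

/-! Boundaries: hyperbolic complexes, invariance of the boundary, strict Lagrangians, functors.

Plans.
* `add_neg_bd`: `Ψ = blk 1 ((1/2) • S) 1 (-(1/2) • S)` from `(hyp X).bd` (differential
  `blk d 0 0 (-d†)`, form the swap) to `X.add X.neg`; `Ψ swap Ψ† = blk S 0 0 (-S)` exactly and
  `Ψ = blk 1 (1/2) 1 (-1/2) * blk 1 0 0 S`, an isomorphism times `Hq.blk_diag`.
* `bd_rel`: let `f` be the map of `Rel V' V`, `f S f† - S' = d' k - k d'†`. Replace `k` by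
  `(k - k†)/2` (take adjoints and average), so `k† = -k`. Step 1: with `V'' = (E', d', f S f†)`,
  `u = blk 1 k 0 1` gives `Rel V'.bd V''.bd` by `Rel.of_iso`.
  Step 2 (`Rel V''.bd V.bd`): take `g, a, a', w` from `Hq.coherent` and
  `F = blk f (f * S * a†) 0 g†`. It is a chain map for `D = blk d S 0 d†`,
  `D' = blk d' (f S f†) 0 d'†`, `Hq` by `Hq.blk_tri` and `Hq.smul_d`. With
  `K = blk (f S w† + w S f†) a' a'† 0` one has `F swap F† - swap = D' K + K D'†`, so the homotopy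
  is `(-I) • K`. (All identities checked by hand.)
* `Inv.lag`: `u' * W.d * u = blk t s 0 t'` (`exists_blk`); `W.rel` conjugated by `u'` gives
  `t' = -t†`, `s† = -s`; `W.dd` gives `t t = 0`, `t s = s t†`. Put
  `V = (T, -I • t, -I • s)`; then `V.bd.d = blk t s 0 (-t†)` and `Rel W V.bd` by `Rel.of_iso u u'`.
* functor lemmas: `Rel.of_iso` with `Φ.u`, `Φ.map_blk`, `u_ad_u`, `u_u_ad`. -/

namespace Vale.Agent.P228

open Dag CDag Complex Sym

variable {C : Type 1} {Pt : Type} [Dag C] [CDag C Pt]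

/-- The complex with zero form whose boundary is `X + (-X)`. -/
noncomputable def Sym.hyp (X : Sym C) : Sym C where
  E := X.E
  d := (-I) • X.d
  S := 0
  dd := by simp [X.dd]
  herm := by simp
  rel := by simp
  tame := tame_smul _ X.tame

theorem Sym.add_neg_bd {X : Sym C} (h : X.Poinc) : Rel (X.add X.neg) X.hyp.bd := by
  have h1 : Hq (blk X.d 0 0 X.d) (blk X.d 0 0 X.d)
      (blk 1 ((1 / 2 : ℂ) • 1) 1 (-((1 / 2 : ℂ) • 1)) : Hom (sum X.E X.E) (sum X.E X.E)) := by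
    refine Hq.of_iso (v := blk ((1 / 2 : ℂ) • 1) ((1 / 2 : ℂ) • 1) 1 (-1)) ?_ ?_ (by simp)
    · simp
      module
    · simp
      module
  have h2 := h1.mul (Hq.blk_diag (Hq.one (d := X.d)) h)
  unfold Sym.Rel
  dsimp +instances only [Sym.add, Sym.neg, Sym.bd, Sym.hyp]
  refine ⟨blk 1 ((1 / 2 : ℂ) • X.S) 1 (-((1 / 2 : ℂ) • X.S)), ?_, Htp.of_eq ?_⟩
  · simpa [smul_smul] using h2
  · simp [X.herm, map_ofNat]
    refine ⟨?_, ?_⟩ <;> module

/-- Push a form forward along a chain map. -/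
def symB_push (V V' : Sym C) (f : Hom V'.E V.E) (hf : V'.d * f = f * V.d) : Sym C where
  E := V'.E
  d := V'.d
  S := f * V.S * f.ad
  dd := V'.dd
  herm := by simp [V.herm]
  rel := by
    have h1 : f.ad * V'.d.ad = V.d.ad * f.ad := by simpa using ad_eq hf
    simp [reas hf, reas V.dS, h1]
  tame := V'.tame

theorem symB_step1 {V V' : Sym C} {f : Hom V'.E V.E} (hf : V'.d * f = f * V.d)
    (h : Htp V'.d (-V'.d.ad) (f * V.S * f.ad) V'.S) : Rel V'.bd (symB_push V V' f hf).bd := by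
  obtain ⟨k, hk⟩ := h
  have hk' := ad_eq hk
  simp only [ad_sub, ad_mul, ad_ad, ad_add, ad_neg, V.herm, V'.herm, massoc, m_neg]
    at hk hk'
  unfold Sym.Rel
  dsimp +instances only [Sym.bd, symB_push]
  refine ⟨blk 1 ((1 / 2 : ℂ) • (k - k.ad)) 0 1,
    Hq.smul_d I_ne_zero (Hq.of_iso (v := blk 1 (-((1 / 2 : ℂ) • (k - k.ad))) 0 1) (by simp)
      (by simp) ?_), Htp.of_eq ?_⟩
  · simp only [blk_blk, blk_inj, m_one, one_m, m_zero, zero_m, add_zero, zero_add, true_and,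
      and_true, m_smul, smul_m, m_sub, sub_m, massoc, sub_self, smul_zero]
    linear_combination (norm := module) (-1 / 2 : ℂ) • hk + (-1 / 2 : ℂ) • hk'
  · simp [map_ofNat]
    module

theorem symB_step2 {V V' : Sym C} {f : Hom V'.E V.E} (h : Hq V'.d V.d f) :
    Rel (symB_push V V' f h.1).bd V.bd := by
  obtain ⟨g, a, a', w, hg, h1, h2, h3⟩ := h.coherent V.dd V'.dd
  have hf := h.1
  have hf' : f.ad * V'.d.ad = V.d.ad * f.ad := by simpa using ad_eq hf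
  have hg' : V'.d.ad * g.ad = g.ad * V.d.ad := by simpa using (ad_eq hg.1).symm
  have h1' := ad_eq h1
  have h2' := ad_eq h2
  have h3' := ad_eq h3
  simp only [ad_sub, ad_mul, ad_add, ad_one] at h1' h2' h3'
  unfold Sym.Rel
  dsimp +instances only [Sym.bd, symB_push]
  refine ⟨blk f (f * V.S * a.ad) 0 g.ad, Hq.smul_d I_ne_zero (Hq.blk_tri ?_ ?_ ?_ h hg.ad),
    (-I) • blk (f * V.S * w.ad + w * V.S * f.ad) a' a'.ad 0, ?_⟩
  · simp [V.dd, V.dd', V.dS]
  · simp [V'.dd, V'.dd', reas hf, reas V.dS, hf']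
  · have e1 := congrArg (fun x : Hom V.E V.E => f * (V.S * x)) h1'
    simp only [m_sub, m_add, m_one] at e1
    simp only [blk_blk, blk_inj, m_zero, zero_m, add_zero, zero_add, true_and, massoc, hf, hg',
      and_true, reas hf, reas V.dS, neg_m, m_neg]
    linear_combination (norm := abel) e1
  · have e1 := congrArg (fun x : Hom V'.E V.E => x * (V.S * f.ad)) h3
    have e2 := congrArg (fun x : Hom V.E V'.E => f * (V.S * x)) h3'
    simp only [sub_m, m_sub, massoc, reas V.dS, neg_m, m_neg] at e1 e2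
    have hI : ∀ {A B : C} (x : Hom A B), -(I • I • x) = x := fun x => by simp [smul_smul]
    simp only [smul_m, m_smul, ad_smul, conj_I, neg_smul, neg_neg, m_neg, neg_m, smul_neg, hI]
    simp only [blk_blk, ad_blk, blk_sub, blk_add, blk_inj, m_zero, zero_m, m_one, add_zero,
      zero_add, ad_zero, ad_mul, ad_ad, V.herm, massoc, m_add, add_m, reas hf, reas V.dS, hf',
      m_neg, neg_m, sub_zero, and_true, true_and, h2]
    refine ⟨?_, ?_⟩
    · linear_combination (norm := abel) e1 + e2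
    · linear_combination (norm := abel) h2'

theorem Sym.bd_rel {V V' : Sym C} (h : Rel V' V) : Rel V'.bd V.bd := by
  obtain ⟨f, hf, hS⟩ := h
  exact (symB_step1 hf.1 hS).trans (symB_step2 hf)

variable {G : Type} [AddCommGroup G] {Z : Set Pt}

theorem Inv.neg {σ : Sym C → G} (hσ : Inv Z σ) {X : Sym C} (h : X.PZ Z) : σ X.neg = -σ X := by
  have h1 := hσ.add X X.neg h h.neg
  have h2 : X.hyp.CtrZ Z := Ctr.smul (d := qt Z X.d) (neg_ne_zero.2 I_ne_zero) h.2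
  rw [hσ.rel _ _ (h.add h.neg) h2.bd_pz (add_neg_bd h.1), hσ.bd _ h2] at h1
  exact eq_neg_of_add_eq_zero_right h1.symm

theorem PInv.neg {θ : Sym C → G} (hθ : PInv Z θ) {X : Sym C} (hX : X.Phys Z) (h : X.Poinc) :
    θ X.neg = -θ X := by
  have h1 := hθ.add X X.neg hX hX.neg h h.neg
  have h2 : X.hyp.Phys Z := hX
  rw [hθ.rel _ _ (hX.add hX.neg) h2.bd (bd_poinc _) (add_neg_bd h), hθ.bd _ h2] at h1
  exact eq_neg_of_add_eq_zero_right h1.symm

theorem Inv.rel' {σ : Sym C → G} (hσ : Inv Z σ) {X X' : Sym C} (h : X.PZ Z) (hr : Rel X' X) :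
    σ X' = σ X := hσ.rel X' X (hr.pz h) h hr

theorem Inv.mono {σ : Sym C → G} {Z' : Set Pt} (hZ : Z' ⊆ Z) (hσ : Inv Z σ) : Inv Z' σ := by
  exact ⟨fun X' X h' h hr => hσ.rel X' X (h'.mono hZ) (h.mono hZ) hr,
    fun X Y h h' => hσ.add X Y (h.mono hZ) (h'.mono hZ), fun V h => hσ.bd V (h.mono hZ)⟩

theorem Inv.sub {σ σ' : Sym C → G} (hσ : Inv Z σ) (hσ' : Inv Z σ') :
    Inv Z (fun X => σ X - σ' X) := by
  refine ⟨fun X' X h' h hr => ?_, fun X Y h h' => ?_, fun V h => ?_⟩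
  · rw [hσ.rel X' X h' h hr, hσ'.rel X' X h' h hr]
  · rw [hσ.add X Y h h', hσ'.add X Y h h']
    abel
  · rw [hσ.bd V h, hσ'.bd V h, sub_zero]

theorem symB_tf [IsAddTorsionFree G] {x : G} (h : x = -x) : x = 0 := by
  have h2 : (2 : ℕ) • x = (2 : ℕ) • (0 : G) := by
    rw [two_nsmul, smul_zero]
    exact add_eq_zero_iff_eq_neg.2 h
  exact nsmul_right_injective (by norm_num) h2

theorem Inv.neutral [IsAddTorsionFree G] {σ : Sym C → G} (hσ : Inv Z σ) {X : Sym C} (h : X.PZ Z)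
    (hn : Rel X X.neg) : σ X = 0 := by
  exact symB_tf ((hσ.rel _ _ h h.neg hn).trans (hσ.neg h))

theorem PInv.neutral [IsAddTorsionFree G] {θ : Sym C → G} (hθ : PInv Z θ) {X : Sym C}
    (hX : X.Phys Z) (h : X.Poinc) (hn : Rel X X.neg) : θ X = 0 := by
  exact symB_tf ((hθ.rel _ _ hX hX.neg h.neg hn).trans (hθ.neg hX h))

/-- A strict Lagrangian that is contractible away from `Z` kills every invariant. -/
theorem Inv.lag {σ : Sym C → G} (hσ : Inv Z σ) (W : Sym C) {T : C} (u₁ u₂ : Hom W.E T)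
    (u' : Hom (sum T T) W.E) (h1 : row u₁ u₂ * u' = 1) (h2 : u' * row u₁ u₂ = 1)
    (hS : W.S = u₁ * u₂.ad + u₂ * u₁.ad) (t : Hom T T) (hd : W.d * u₁ = u₁ * t) (ht : Tame t)
    (hc : Ctr (qt Z t)) : σ W = 0 := by
  obtain ⟨a, s, c, e, hD⟩ := exists_blk (u' * W.d * row u₁ u₂)
  have hu : u' * u₁ = col 1 0 := by
    have := congrArg (fun x : Hom (sum T T) (sum T T) => x * col (1 : Hom T T) (0 : Hom T T)) h2
    simpa only [massoc, row_col, m_one, m_zero, add_zero, one_m] using this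
  have hS' : row u₁ u₂ * (blk 0 1 1 0 : Hom (sum T T) (sum T T)) * (row u₁ u₂).ad = W.S := by
    rw [hS]
    simp [add_comm]
  have h3 : blk a s c e * col (1 : Hom T T) (0 : Hom T T) = col t 0 := by
    rw [← hD]
    simp only [massoc, row_col, m_one, m_zero, add_zero, hd, reas hu, col_m, one_m, zero_m]
  simp only [blk_col, m_one, m_zero, add_zero, col_inj] at h3
  obtain ⟨rfl, rfl⟩ := h3
  have h4 : blk a s 0 e * (blk 0 1 1 0 : Hom (sum T T) (sum T T)) +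
      (blk 0 1 1 0 : Hom (sum T T) (sum T T)) * (blk a s 0 e).ad = 0 := by
    have h2' : (row u₁ u₂).ad * u'.ad = 1 := by rw [← ad_mul, h2, ad_one]
    have := congrArg (fun x : Hom W.E W.E => u' * (x * u'.ad)) W.rel
    rw [← hS'] at this
    rw [← hD]
    generalize row u₁ u₂ = u at *
    generalize (blk 0 1 1 0 : Hom (sum T T) (sum T T)) = j at *
    simpa [h2', reas h2] using this
  have h5 : blk a s 0 e * blk a s 0 e = 0 := by
    rw [← hD]
    generalize row u₁ u₂ = u at *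
    simp [reas h1, reas W.dd]
  have h6 : W.d * row u₁ u₂ = row u₁ u₂ * blk a s 0 e := by
    rw [← hD, massoc, reas h1, one_m]
  simp only [blk_blk, ad_blk, blk_add, blk_eq_zero, m_zero, zero_m, m_one, one_m, add_zero,
    zero_add, ad_zero] at h4 h5
  have h7 : s.ad = -s := eq_neg_of_add_eq_zero_right h4.1
  obtain rfl : e = -a.ad := eq_neg_of_add_eq_zero_left h4.2.2.1
  have h8 : a * s = s * a.ad := by
    have := h5.2.1
    rwa [m_neg, add_neg_eq_zero] at this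
  let V : Sym C :=
    { E := T
      d := (-I) • a
      S := (-I) • s
      dd := by simp [h5.1]
      herm := by simp [h7]
      rel := by simp [h8]
      tame := tame_smul _ ht }
  have hV : V.CtrZ Z := Ctr.smul (d := qt Z a) (neg_ne_zero.2 I_ne_zero) hc
  have hr : Sym.Rel W V.bd := by
    unfold Sym.Rel
    dsimp +instances only [Sym.bd, V]
    refine ⟨row u₁ u₂, Hq.of_iso h1 h2 ?_, Htp.of_eq hS'⟩
    rw [h6]
    simp [smul_smul]
  rw [hσ.rel' hV.bd_pz hr, hσ.bd V hV]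

variable {C' : Type 1} {Pt' : Type} [Dag C'] [CDag C' Pt'] (Φ : CFun C C') {Z' : Set Pt'}

theorem CFun.sym_add (X Y : Sym C) : Rel (Φ.sym (X.add Y)) ((Φ.sym X).add (Φ.sym Y)) := by
  unfold Sym.Rel
  dsimp +instances only [Sym.add, CFun.sym]
  refine ⟨Φ.u X.E Y.E, Hq.of_iso Φ.u_u_ad Φ.u_ad_u ?_, Htp.of_eq ?_⟩
  · rw [Φ.map_blk, massoc, Φ.u_ad_u, m_one, map_zero, map_zero]
  · rw [Φ.map_blk, map_zero, map_zero]

theorem CFun.sym_neg (X : Sym C) : Rel (Φ.sym X.neg) (Φ.sym X).neg := by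
  unfold Sym.Rel
  dsimp +instances only [Sym.neg, CFun.sym]
  exact ⟨1, Hq.one, Htp.of_eq (by simp)⟩

theorem CFun.sym_bd (X : Sym C) : Rel (Φ.sym X.bd) (Φ.sym X).bd := by
  unfold Sym.Rel
  dsimp +instances only [Sym.bd, CFun.sym]
  refine ⟨Φ.u X.E X.E, Hq.of_iso Φ.u_u_ad Φ.u_ad_u ?_, Htp.of_eq ?_⟩
  · rw [map_smul, Φ.map_blk, smul_m, massoc, Φ.u_ad_u, m_one, map_zero, m_smul, Φ.map_ad]
  · rw [Φ.map_blk, map_zero, Φ.map_one]

theorem CFun.sym_rel {X X' : Sym C} (h : Rel X' X) : Rel (Φ.sym X') (Φ.sym X) := by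
  obtain ⟨f, hf, hS⟩ := h
  unfold Sym.Rel
  dsimp +instances only [CFun.sym]
  refine ⟨Φ.map f, hf.map Φ.toDagFun, ?_⟩
  simpa using hS.map Φ.toDagFun

theorem CFun.sym_poinc {X : Sym C} (h : X.Poinc) : (Φ.sym X).Poinc := by
  unfold Sym.Poinc
  dsimp +instances only [CFun.sym]
  simpa using Hq.map Φ.toDagFun h

theorem CFun.sym_ctrZ (hΦ : Φ.Le Z Z') {X : Sym C} (h : X.CtrZ Z) : (Φ.sym X).CtrZ Z' := by
  obtain ⟨a, ha⟩ := h
  obtain ⟨a, rfl⟩ := qt_surj a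
  have h1 : qt Z (X.d * a + a * X.d) = qt Z 1 := ha
  have h2 := hΦ _ _ _ (qt_eq_iff.1 h1)
  rw [map_sub, map_add, Φ.map_mul, Φ.map_mul, Φ.map_one] at h2
  exact ⟨qt Z' (Φ.map a), qt_eq_iff.2 h2⟩

theorem CFun.sym_pz (hΦ : Φ.Le Z Z') {X : Sym C} (h : X.PZ Z) : (Φ.sym X).PZ Z' :=
  ⟨Φ.sym_poinc h.1, Φ.sym_ctrZ hΦ h.2⟩

theorem CFun.sym_phys (hΦ : Φ.Le Z Z') {X : Sym C} (h : X.Phys Z) : (Φ.sym X).Phys Z' := by
  have h2 := hΦ _ _ _ h
  rwa [Φ.map_one] at h2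

theorem CFun.sym_tw (X : Sym C) (e : Hom X.E X.E) (he : X.d * e = e * X.d)
    (e' : Hom (Φ.sym X).E (Φ.sym X).E) (hee : e' = Φ.map e)
    (he' : (Φ.sym X).d * e' = e' * (Φ.sym X).d) :
    Rel (Φ.sym (X.tw e he)) ((Φ.sym X).tw e' he') := by
  subst hee
  unfold Sym.Rel
  dsimp +instances only [Sym.tw, CFun.sym]
  exact ⟨1, Hq.one, Htp.of_eq (by simp)⟩

theorem Inv.comap {σ : Sym C' → G} (hσ : Inv Z' σ) (hΦ : Φ.Le Z Z') :
    Inv Z (fun X => σ (Φ.sym X)) := by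
  refine ⟨fun X' X h' h hr => ?_, fun X Y h h' => ?_, fun V h => ?_⟩
  · exact hσ.rel _ _ (Φ.sym_pz hΦ h') (Φ.sym_pz hΦ h) (Φ.sym_rel hr)
  · rw [hσ.rel' ((Φ.sym_pz hΦ h).add (Φ.sym_pz hΦ h')) (Φ.sym_add X Y),
      hσ.add _ _ (Φ.sym_pz hΦ h) (Φ.sym_pz hΦ h')]
  · rw [hσ.rel' (Φ.sym_ctrZ hΦ h).bd_pz (Φ.sym_bd V), hσ.bd _ (Φ.sym_ctrZ hΦ h)]

end Vale.Agent.P228
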